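import Vale.Agent.P067.Chain

/-!
Removing bad vertices from chains, and consequences.
-/

set_option linter.unusedSectionVars false

namespace Vale.Agent.P067

open Finset

variable {V : Type*} {V' : Type*} [DecidableEq V] [DecidableEq V']

section core
variable (bad : V → Prop) [DecidablePred bad]

/-- the component of a chain along the bad part `τ` -/
noncomputable def comp (τ : Finset V) : Ch V →ₗ[ZMod 2] Ch V :=
  Finsupp.linearCombination (ZMod 2)
    (fun σ : Finset V => if σ.filter bad = τ then sng (σ.filter (fun v => ¬ bad v)) else 0)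

theorem comp_sng (τ σ : Finset V) :
    comp bad τ (sng σ) = if σ.filter bad = τ then sng (σ.filter (fun v => ¬ bad v)) else 0 :=
  linearCombination_sng _ _

theorem filter_union_filter_not' (σ : Finset V) :
    σ.filter (fun v => ¬ bad v) ∪ σ.filter bad = σ := by
  ext x; simp only [mem_union, mem_filter]; tauto

theorem comp_mem_chains {Y : Set (Finset V)} {m : ℕ} {w : Ch V} (hw : w ∈ chains Y m)
    (τ : Finset V) : comp bad τ w ∈ chains (GLink Y bad τ) (m - τ.card) := by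
  refine map_mem_of_sng fun σ hσ => ?_
  obtain ⟨h1, h2⟩ := mem_chains.1 hw σ hσ
  rw [comp_sng]
  split_ifs with h
  · refine sng_mem_chains (Y := GLink Y bad τ) ⟨fun v hv => (mem_filter.1 hv).2, ?_⟩ ?_
    · rw [← h, filter_union_filter_not']; exact h1
    · rw [← h, ← h2, ← card_filter_add_card_filter_not (s := σ) bad]; omega
  · exact Submodule.zero_mem _

theorem card_support_comp_le (τ : Finset V) (w : Ch V) :
    (comp bad τ w).support.card ≤ w.support.card := by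
  have := card_support_map_le (comp bad τ) w 1 (fun σ _ => by
    rw [comp_sng]; split_ifs <;> simp)
  simpa using this

theorem comp_bd {w : Ch V} {τ : Finset V}
    (h : ∀ σ ∈ w.support, (σ.filter bad).card ≤ τ.card) :
    comp bad τ (bd w) = bd (comp bad τ w) := by
  have : (comp bad τ ∘ₗ bd) w = (bd ∘ₗ comp bad τ) w := by
    refine map_congr_of_sng fun σ hσ => ?_
    have hc := h σ hσ
    simp only [LinearMap.comp_apply, bd_sng, map_sum, comp_sng]
    by_cases hτ : σ.filter bad = τ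
    · rw [if_pos hτ, bd_sng, sum_filter]
      refine Finset.sum_congr rfl fun v hv => ?_
      by_cases hb : bad v
      · rw [if_neg, if_neg (not_not.2 hb)]
        intro h'
        have : v ∈ (σ.erase v).filter bad := by rw [h', ← hτ]; exact mem_filter.2 ⟨hv, hb⟩
        simp at this
      · rw [if_pos, if_pos hb, filter_erase]
        rw [filter_erase, hτ, erase_eq_of_notMem]
        rw [← hτ]; simp [hb]
    · rw [if_neg hτ, map_zero]
      refine Finset.sum_eq_zero fun v _ => if_neg fun h' => hτ ?_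
      symm
      refine eq_of_subset_of_card_le ?_ hc
      rw [← h']
      exact filter_subset_filter _ (erase_subset v σ)
  simpa using this

theorem comp_eq_zero {w : Ch V} {τ : Finset V}
    (h : ∀ σ ∈ w.support, σ.filter bad ≠ τ) : comp bad τ w = 0 := by
  rw [map_eq_sum]
  exact Finset.sum_eq_zero fun σ hσ => by rw [comp_sng, if_neg (h σ hσ)]

/-- the part of `w` of bad degree different from `k` -/
theorem add_sum_join_comp (w : Ch V) (k : ℕ) :
    w + ∑ τ ∈ (w.support.image (fun σ => σ.filter bad)).filter (fun τ => τ.card = k),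
      joinCh τ (comp bad τ w)
      = ∑ σ ∈ w.support.filter (fun σ => (σ.filter bad).card ≠ k), sng σ := by
  have h1 : ∑ τ ∈ (w.support.image (fun σ => σ.filter bad)).filter (fun τ => τ.card = k),
      joinCh τ (comp bad τ w) = ∑ σ ∈ w.support.filter (fun σ => (σ.filter bad).card = k), sng σ := by
    have : ∀ τ, joinCh τ (comp bad τ w)
        = ∑ σ ∈ w.support, if σ.filter bad = τ then sng σ else 0 := by
      intro τ
      rw [map_eq_sum (comp bad τ), map_sum]
      refine Finset.sum_congr rfl fun σ _ => ?_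
      rw [comp_sng]
      split_ifs with h
      · rw [joinCh_sng, ← h, filter_union_filter_not']
      · simp
    simp only [this]
    rw [Finset.sum_comm, sum_filter]
    refine Finset.sum_congr rfl fun σ hσ => ?_
    rw [Finset.sum_ite_eq]
    simp only [mem_filter, mem_image]
    by_cases hk : (σ.filter bad).card = k
    · rw [if_pos hk, if_pos ⟨⟨σ, hσ, rfl⟩, hk⟩]
    · rw [if_neg hk, if_neg (fun h => hk h.2)]
  rw [h1]
  conv_lhs => lhs; rw [eq_sum_sng w]
  rw [← sum_filter_add_sum_filter_not w.support (fun σ => (σ.filter bad).card = k), add_comm,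
    add_add_cancel_ch']

theorem reduce_core {Y : Set (Finset V)} {m k : ℕ} {w : Ch V} (hw : w ∈ chains Y m)
    (hdeg : ∀ σ ∈ w.support, (σ.filter bad).card ≤ k) (u : Finset V → Ch V)
    (hu : ∀ τ ∈ (w.support.image (fun σ => σ.filter bad)).filter (fun τ => τ.card = k),
      u τ ∈ chains (GLink Y bad τ) (m - k + 1) ∧ bd (u τ) = comp bad τ w) :
    ∃ U ∈ chains Y (m + 1), (∀ σ ∈ (w + bd U).support, (σ.filter bad).card < k) ∧
      ∀ M' : ℕ, (∀ τ ∈ (w.support.image (fun σ => σ.filter bad)).filter (fun τ => τ.card = k),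
        (u τ).support.card ≤ M') → U.support.card ≤ w.support.card * M' ∧
        (w + bd U).support.card ≤ w.support.card + w.support.card * (k * M') := by
  set 𝒯 := (w.support.image (fun σ => σ.filter bad)).filter (fun τ => τ.card = k) with h𝒯
  have hτ : ∀ τ ∈ 𝒯, τ.card = k ∧ (∀ v ∈ τ, bad v) ∧ k ≤ m := by
    intro τ hτ
    obtain ⟨h1, h2⟩ := mem_filter.1 hτ
    obtain ⟨σ, hσ, rfl⟩ := mem_image.1 h1
    refine ⟨h2, fun v hv => (mem_filter.1 hv).2, ?_⟩
    rw [← h2, ← (mem_chains.1 hw σ hσ).2]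
    exact card_filter_le _ _
  have hdisj : ∀ τ ∈ 𝒯, ∀ σ ∈ (u τ).support, Disjoint σ τ := by
    intro τ h σ hσ
    rw [disjoint_left]
    intro v hv hv'
    exact (mem_chains.1 (hu τ h).1 σ hσ).1.1 v hv ((hτ τ h).2.1 v hv')
  have h𝒯c : 𝒯.card ≤ w.support.card := (card_filter_le _ _).trans card_image_le
  have hsum : w + bd (∑ τ ∈ 𝒯, joinCh τ (u τ))
      = ∑ σ ∈ w.support.filter (fun σ => (σ.filter bad).card ≠ k), sng σ
        + ∑ τ ∈ 𝒯, ∑ v ∈ τ, joinCh (τ.erase v) (u τ) := by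
    rw [← add_sum_join_comp bad w k, map_sum, add_assoc, ← sum_add_distrib]
    congr 1
    refine Finset.sum_congr rfl fun τ h => ?_
    rw [bd_joinCh (hdisj τ h), (hu τ h).2]
  refine ⟨∑ τ ∈ 𝒯, joinCh τ (u τ), Submodule.sum_mem _ fun τ h => ?_, ?_, fun M' hM' => ⟨?_, ?_⟩⟩
  · refine joinCh_mem_chains fun σ hσ => ?_
    obtain ⟨h1, h2⟩ := mem_chains.1 (hu τ h).1 σ hσ
    refine ⟨h1.2, ?_⟩
    rw [card_union_of_disjoint (hdisj τ h σ hσ), h2, (hτ τ h).1]
    have := (hτ τ h).2.2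
    omega
  · rw [hsum]
    refine (mem_supp (Y := {σ | (σ.filter bad).card < k})).1 (Submodule.add_mem _ ?_ ?_)
    · refine Submodule.sum_mem _ fun σ hσ => sng_mem_supp ?_
      obtain ⟨h1, h2⟩ := mem_filter.1 hσ
      exact lt_of_le_of_ne (hdeg σ h1) h2
    · refine Submodule.sum_mem _ fun τ h => Submodule.sum_mem _ fun v hv => ?_
      refine map_mem_of_sng fun σ hσ => ?_
      rw [joinCh_sng]
      refine sng_mem_supp ?_
      have hg := (mem_chains.1 (hu τ h).1 σ hσ).1.1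
      have : (σ ∪ τ.erase v).filter bad ⊆ τ.erase v := by
        intro x hx
        obtain ⟨h1, h2⟩ := mem_filter.1 hx
        rcases mem_union.1 h1 with h3 | h3
        · exact absurd h2 (hg x h3)
        · exact h3
      refine lt_of_le_of_lt (card_le_card this) ?_
      rw [← (hτ τ h).1]
      exact card_erase_lt_of_mem hv
  · refine (card_support_sum_le _ _ M' fun τ h => ?_).trans (Nat.mul_le_mul_right _ h𝒯c)
    exact (card_support_joinCh_le _ _).trans (hM' τ h)
  · rw [hsum]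
    refine (card_support_add_le _ _).trans (add_le_add ?_ ?_)
    · refine (card_support_sum_le _ _ 1 fun σ _ => by simp).trans ?_
      rw [mul_one]; exact card_filter_le _ _
    · refine (card_support_sum_le _ _ (k * M') fun τ h => ?_).trans (Nat.mul_le_mul_right _ h𝒯c)
      rw [← (hτ τ h).1]
      exact card_support_sum_le _ _ M' fun v _ => (card_support_joinCh_le _ _).trans (hM' τ h)

theorem top_part_facts {Y : Set (Finset V)} (hY : IsLowerSet Y) {m k : ℕ} {w : Ch V}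
    (hw : w ∈ chains Y m) (hdeg : ∀ σ ∈ w.support, (σ.filter bad).card ≤ k)
    (hbd : ∀ σ ∈ (bd w).support, (σ.filter bad).card < k) :
    ∀ τ ∈ (w.support.image (fun σ => σ.filter bad)).filter (fun τ => τ.card = k),
      τ.card = k ∧ (∀ v ∈ τ, bad v) ∧ τ ∈ Y ∧ k ≤ m ∧
        comp bad τ w ∈ chains (GLink Y bad τ) (m - k) ∧ bd (comp bad τ w) = 0 := by
  intro τ hτ
  obtain ⟨h1, h2⟩ := mem_filter.1 hτ
  obtain ⟨σ, hσ, hστ⟩ := mem_image.1 h1
  refine ⟨h2, fun v hv => ?_, ?_, ?_, ?_, ?_⟩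
  · rw [← hστ] at hv; exact (mem_filter.1 hv).2
  · rw [← hστ]; exact hY (filter_subset _ _) (mem_chains.1 hw σ hσ).1
  · rw [← h2, ← hστ, ← (mem_chains.1 hw σ hσ).2]; exact card_filter_le _ _
  · rw [← h2]; exact comp_mem_chains bad hw τ
  · rw [← comp_bd bad (fun σ' h => (hdeg σ' h).trans h2.ge)]
    refine comp_eq_zero bad fun σ' h h' => ?_
    have := hbd σ' h
    rw [h', h2] at this
    exact lt_irrefl _ this

/-- one step reduction of the bad degree -/
theorem reduce_step {Y : Set (Finset V)} (hY : IsLowerSet Y) {m k : ℕ} {w : Ch V}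
    (hw : w ∈ chains Y m) (hdeg : ∀ σ ∈ w.support, (σ.filter bad).card ≤ k)
    (hbd : ∀ σ ∈ (bd w).support, (σ.filter bad).card < k)
    (h : ∀ τ : Finset V, τ.card = k → (∀ v ∈ τ, bad v) → τ ∈ Y → k ≤ m →
      Acyc (GLink Y bad τ) (m - k)) :
    ∃ U ∈ chains Y (m + 1), ∀ σ ∈ (w + bd U).support, (σ.filter bad).card < k := by
  have hf := top_part_facts bad hY hw hdeg hbd
  have : ∀ τ : Finset V, ∃ u : Ch V,
      τ ∈ (w.support.image (fun σ => σ.filter bad)).filter (fun τ => τ.card = k) →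
      u ∈ chains (GLink Y bad τ) (m - k + 1) ∧ bd u = comp bad τ w := by
    intro τ
    by_cases hτ : τ ∈ (w.support.image (fun σ => σ.filter bad)).filter (fun τ => τ.card = k)
    · obtain ⟨h1, h2, h3, h4, h5, h6⟩ := hf τ hτ
      obtain ⟨u, hu1, hu2⟩ := mem_bdries.1 (h τ h1 h2 h3 h4 _ h5 h6)
      exact ⟨u, fun _ => ⟨hu1, hu2⟩⟩
    · exact ⟨0, fun h => absurd h hτ⟩
  choose u hu using this
  obtain ⟨U, hU1, hU2, _⟩ := reduce_core bad hw hdeg u hu
  exact ⟨U, hU1, hU2⟩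

/-- quantitative one step reduction of the bad degree -/
theorem reduce_step_quant {Y : Set (Finset V)} (hY : IsLowerSet Y) {m k M M' : ℕ} {w : Ch V}
    (hw : w ∈ chains Y m) (hdeg : ∀ σ ∈ w.support, (σ.filter bad).card ≤ k)
    (hbd : ∀ σ ∈ (bd w).support, (σ.filter bad).card < k) (hM : w.support.card ≤ M)
    (h : ∀ τ : Finset V, τ.card = k → (∀ v ∈ τ, bad v) → τ ∈ Y → k ≤ m →
      Fill (GLink Y bad τ) (m - k) M M') :
    ∃ U ∈ chains Y (m + 1), (∀ σ ∈ (w + bd U).support, (σ.filter bad).card < k) ∧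
      U.support.card ≤ M * M' ∧ (w + bd U).support.card ≤ M + M * (k * M') := by
  have hf := top_part_facts bad hY hw hdeg hbd
  have : ∀ τ : Finset V, ∃ u : Ch V,
      τ ∈ (w.support.image (fun σ => σ.filter bad)).filter (fun τ => τ.card = k) →
      (u ∈ chains (GLink Y bad τ) (m - k + 1) ∧ bd u = comp bad τ w) ∧ u.support.card ≤ M' := by
    intro τ
    by_cases hτ : τ ∈ (w.support.image (fun σ => σ.filter bad)).filter (fun τ => τ.card = k)
    · obtain ⟨h1, h2, h3, h4, h5, h6⟩ := hf τ hτ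
      obtain ⟨u, hu1, hu2, hu3⟩ := h τ h1 h2 h3 h4 _ h5 h6
        ((card_support_comp_le bad τ w).trans hM)
      exact ⟨u, fun _ => ⟨⟨hu1, hu2⟩, hu3⟩⟩
    · exact ⟨0, fun h => absurd h hτ⟩
  choose u hu using this
  obtain ⟨U, hU1, hU2, hU3⟩ := reduce_core bad hw hdeg u (fun τ h => (hu τ h).1)
  obtain ⟨h1, h2⟩ := hU3 M' (fun τ h => (hu τ h).2)
  exact ⟨U, hU1, hU2, h1.trans (Nat.mul_le_mul_right _ hM),
    h2.trans (add_le_add hM (Nat.mul_le_mul_right _ hM))⟩

/-- reduction of the bad degree below `k₀` -/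
theorem reduce_all {Y : Set (Finset V)} (hY : IsLowerSet Y) {m k₀ : ℕ} {w : Ch V}
    (hw : w ∈ chains Y m) (hbd : ∀ σ ∈ (bd w).support, (σ.filter bad).card < k₀) (hk₀ : 1 ≤ k₀)
    (h : ∀ τ : Finset V, k₀ ≤ τ.card → (∀ v ∈ τ, bad v) → τ ∈ Y → τ.card ≤ m →
      Acyc (GLink Y bad τ) (m - τ.card)) :
    ∃ U ∈ chains Y (m + 1), ∀ σ ∈ (w + bd U).support, (σ.filter bad).card < k₀ := by
  have key : ∀ j : ℕ, ∀ w ∈ chains Y m, (∀ σ ∈ (bd w).support, (σ.filter bad).card < k₀) →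
      (∀ σ ∈ w.support, (σ.filter bad).card < k₀ + j) →
      ∃ U ∈ chains Y (m + 1), ∀ σ ∈ (w + bd U).support, (σ.filter bad).card < k₀ := by
    intro j
    induction j with
    | zero => intro w _ _ h3; exact ⟨0, Submodule.zero_mem _, by simpa using h3⟩
    | succ j ih =>
      intro w h1 h2 h3
      obtain ⟨U, hU1, hU2⟩ := reduce_step bad hY (k := k₀ + j) h1
        (fun σ hσ => Nat.le_of_lt_succ (h3 σ hσ)) (fun σ hσ => (h2 σ hσ).trans_le (by omega))
        (fun τ h4 h5 h6 h7 => by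
          have := h τ (by omega) h5 h6 (by omega)
          rwa [h4] at this)
      obtain ⟨U', hU1', hU2'⟩ := ih (w + bd U) (Submodule.add_mem _ h1 (bd_mem_chains hY hU1))
        (by rwa [map_add, bd_bd, add_zero]) hU2
      exact ⟨U + U', Submodule.add_mem _ hU1 hU1', by rwa [map_add, ← add_assoc]⟩
  refine key m w hw hbd fun σ hσ => ?_
  have := card_filter_le σ bad
  rw [(mem_chains.1 hw σ hσ).2] at this
  omega

theorem mem_chains_full_of_lt_one {Y : Set (Finset V)} {m : ℕ} {w : Ch V} (hw : w ∈ chains Y m)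
    (h : ∀ σ ∈ w.support, (σ.filter bad).card < 1) : w ∈ chains (Full Y (fun v => ¬ bad v)) m := by
  rw [mem_chains] at hw ⊢
  intro σ hσ
  refine ⟨⟨(hw σ hσ).1, fun v hv hb => ?_⟩, (hw σ hσ).2⟩
  have h1 := h σ hσ
  have : 0 < (σ.filter bad).card := card_pos.2 ⟨v, mem_filter.2 ⟨hv, hb⟩⟩
  omega

end core

theorem full_subset (Y : Set (Finset V)) (a : V → Prop) : Full Y a ⊆ Y := fun _ h => h.1

/-- a chain with good boundary is homologous to a good chain, if the good links are acyclic -/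
theorem relAcyc_of_glink {Y : Set (Finset V)} (hY : IsLowerSet Y) (bad : V → Prop) {m : ℕ}
    (h : ∀ τ : Finset V, τ.Nonempty → (∀ v ∈ τ, bad v) → τ ∈ Y → τ.card ≤ m →
      Acyc (GLink Y bad τ) (m - τ.card)) :
    RelAcyc Y {σ | ∀ v ∈ σ, ¬ bad v} m := by
  classical
  intro y hy hb
  obtain ⟨U, hU1, hU2⟩ := reduce_all bad hY (k₀ := 1) hy (fun σ hσ => by
      have := mem_supp.1 hb σ hσ
      rw [Nat.lt_one_iff, card_eq_zero, filter_eq_empty_iff]
      exact this) le_rfl (fun τ h1 => h τ (card_pos.1 h1))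
  refine ⟨y + bd U, mem_chains_full_of_lt_one bad
    (Submodule.add_mem _ hy (bd_mem_chains hY hU1)) hU2, ?_⟩
  rw [add_add_cancel_ch']
  exact bd_mem_bdries hU1

theorem acyc_of_relAcyc {Y A : Set (Finset V)} {m : ℕ} (h1 : RelAcyc Y A m)
    (h2 : Acyc (Y ∩ A) m) : Acyc Y m := by
  intro z hz hb
  obtain ⟨y', hy1, hy2⟩ := h1 z hz (by rw [hb]; exact Submodule.zero_mem _)
  have h3 : bd y' = 0 := by
    have := bd_eq_zero_of_mem_bdries hy2
    rwa [map_add, hb, zero_add] at this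
  exact bdries_of_add hy2 (bdries_mono Set.inter_subset_left m (h2 y' hy1 h3))

/-- elimination of bad vertices -/
theorem acyc_of_glink {Y : Set (Finset V)} (hY : IsLowerSet Y) (bad : V → Prop) {m : ℕ}
    (h : ∀ τ : Finset V, τ.Nonempty → (∀ v ∈ τ, bad v) → τ ∈ Y → τ.card ≤ m →
      Acyc (GLink Y bad τ) (m - τ.card))
    (h2 : Acyc (Full Y (fun v => ¬ bad v)) m) : Acyc Y m :=
  acyc_of_relAcyc (relAcyc_of_glink hY bad h) h2

theorem glink_apex {Y : Set (Finset V)} (bad : V → Prop) (ρ : V → V)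
    (hρ : ∀ σ ∈ Y, ∀ v ∈ σ, bad v → ¬ bad (ρ v) ∧ insert (ρ v) σ ∈ Y) {τ : Finset V} {v : V}
    (hv : v ∈ τ) (hb : bad v) : ∀ σ ∈ GLink Y bad τ, insert (ρ v) σ ∈ GLink Y bad τ := by
  intro σ hσ
  obtain ⟨h1, h2⟩ := hρ _ hσ.2 v (mem_union_right _ hv) hb
  refine ⟨fun x hx => ?_, by rwa [insert_union]⟩
  rcases mem_insert.1 hx with rfl | hx
  · exact h1
  · exact hσ.1 x hx

/-- elimination of dominated vertices -/
theorem acyc_of_dom {Y : Set (Finset V)} (hY : IsLowerSet Y) (bad : V → Prop) (ρ : V → V)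
    (hρ : ∀ σ ∈ Y, ∀ v ∈ σ, bad v → ¬ bad (ρ v) ∧ insert (ρ v) σ ∈ Y) {m : ℕ}
    (h2 : Acyc (Full Y (fun v => ¬ bad v)) m) : Acyc Y m := by
  refine acyc_of_glink hY bad (fun τ ⟨v, hv⟩ h1 _ _ => ?_) h2
  exact acyc_of_apex (ρ v) (glink_apex bad ρ hρ hv (h1 v hv)) _

/-- quantitative elimination of an independent set of bad vertices -/
theorem fill_of_glink {Y : Set (Finset V)} (hY : IsLowerSet Y) (bad : V → Prop)
    (hind : ∀ σ ∈ Y, ∀ v ∈ σ, ∀ w ∈ σ, bad v → bad w → v = w) {m M M' M'' : ℕ}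
    (h : ∀ v : V, bad v → {v} ∈ Y → 1 ≤ m → Fill (GLink Y bad {v}) (m - 1) M M')
    (h2 : Fill (Full Y (fun v => ¬ bad v)) m (M + M * M') M'') :
    Fill Y m M (M * M' + M'') := by
  classical
  intro z hz hb hM
  obtain ⟨U, hU1, hU2, hU3, hU4⟩ := reduce_step_quant bad hY (k := 1) (M' := M') hz
    (fun σ hσ => card_le_one.2 fun v hv w hw =>
      hind σ (mem_chains.1 hz σ hσ).1 v (mem_filter.1 hv).1 w (mem_filter.1 hw).1
        (mem_filter.1 hv).2 (mem_filter.1 hw).2)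
    (by simp [hb]) hM (fun τ h1 h3 h4 h5 => by
      obtain ⟨v, rfl⟩ := card_eq_one.1 h1
      exact h v (h3 v (mem_singleton_self v)) h4 h5)
  obtain ⟨w, hw1, hw2, hw3⟩ := h2 (z + bd U) (mem_chains_full_of_lt_one bad
    (Submodule.add_mem _ hz (bd_mem_chains hY hU1)) hU2) (by rw [map_add, hb, bd_bd, add_zero])
    (by simpa using hU4)
  refine ⟨U + w, Submodule.add_mem _ hU1 (chains_mono (full_subset _ _) _ hw1), ?_,
    (card_support_add_le _ _).trans (add_le_add hU3 hw3)⟩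
  rw [map_add, hw2, add_comm z, add_add_cancel_ch']

/-- quantitative elimination of an independent set of dominated vertices -/
theorem fill_of_dom {Y : Set (Finset V)} (hY : IsLowerSet Y) (bad : V → Prop)
    (hind : ∀ σ ∈ Y, ∀ v ∈ σ, ∀ w ∈ σ, bad v → bad w → v = w) (ρ : V → V)
    (hρ : ∀ σ ∈ Y, ∀ v ∈ σ, bad v → ¬ bad (ρ v) ∧ insert (ρ v) σ ∈ Y) {m M M'' : ℕ}
    (h2 : Fill (Full Y (fun v => ¬ bad v)) m (M + M * M) M'') :
    Fill Y m M (M * M + M'') :=
  fill_of_glink hY bad hind (fun v hv _ _ =>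
    fill_of_apex (ρ v) (glink_apex bad ρ hρ (mem_singleton_self v) hv) _ _) h2

theorem hasCone_zero {Y : Set (Finset V)} {ρ : ℕ} (h : Fill Y 0 1 ρ) : HasCone Y 0 ρ := by
  by_cases h0 : (∅ : Finset V) ∈ Y
  · obtain ⟨w, hw1, hw2, hw3⟩ := h (sng ∅) (sng_mem_chains h0 rfl) (by simp [bd_sng]) (by simp)
    refine ⟨fun _ => w, fun σ _ hσ => ?_⟩
    obtain rfl := card_eq_zero.1 (Nat.le_zero.1 hσ)
    exact ⟨hw1, hw3, by simp [hw2]⟩
  · refine ⟨fun _ => 0, fun σ h1 hσ => ?_⟩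
    obtain rfl := card_eq_zero.1 (Nat.le_zero.1 hσ)
    exact absurd h1 h0

theorem hasCone_succ {Y : Set (Finset V)} (hY : IsLowerSet Y) {m ρ ρ' : ℕ} (h : HasCone Y m ρ)
    (h2 : Fill Y (m + 1) (1 + (m + 1) * ρ) ρ') : HasCone Y (m + 1) (max ρ ρ') := by
  obtain ⟨c, hc⟩ := h
  have : ∀ σ : Finset V, ∃ w : Ch V, σ ∈ Y → σ.card = m + 1 →
      w ∈ chains Y (m + 1 + 1) ∧ bd w = sng σ + ∑ v ∈ σ, c (σ.erase v) ∧ w.support.card ≤ ρ' := by
    intro σ
    by_cases hσ : σ ∈ Y ∧ σ.card = m + 1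
    · have he : ∀ v ∈ σ, σ.erase v ∈ Y ∧ (σ.erase v).card = m := fun v hv =>
        ⟨hY (erase_subset v σ) hσ.1, by rw [card_erase_of_mem hv, hσ.2]; rfl⟩
      obtain ⟨w, hw⟩ := h2 (sng σ + ∑ v ∈ σ, c (σ.erase v))
        (Submodule.add_mem _ (sng_mem_chains hσ.1 hσ.2) (Submodule.sum_mem _ fun v hv => by
          have := (hc _ (he v hv).1 (he v hv).2.le).1
          rwa [(he v hv).2] at this))
        (by
          let C : Ch V →ₗ[ZMod 2] Ch V := Finsupp.linearCombination (ZMod 2) c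
          have hC : ∀ σ, C (sng σ) = c σ := fun σ => linearCombination_sng _ _
          rw [map_add, map_sum, Finset.sum_congr rfl
            (fun v hv => (hc _ (he v hv).1 (he v hv).2.le).2.2), sum_add_distrib, ← bd_sng,
            add_add_cancel_ch']
          have : ∑ v ∈ σ, ∑ x ∈ σ.erase v, c ((σ.erase v).erase x) = C (bd (bd (sng σ))) := by
            simp only [bd_sng, map_sum, hC]
          rw [this, bd_bd, map_zero])
        ((card_support_add_le _ _).trans (add_le_add (by simp) (by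
          rw [← hσ.2]
          exact card_support_sum_le _ _ _ fun v hv => (hc _ (he v hv).1 (he v hv).2.le).2.1)))
      exact ⟨w, fun _ _ => hw⟩
    · exact ⟨0, fun h1 h2 => absurd ⟨h1, h2⟩ hσ⟩
  choose c' hc' using this
  refine ⟨fun σ => if σ.card = m + 1 then c' σ else c σ, fun σ h1 h3 => ?_⟩
  have hsum : ∑ v ∈ σ, (if (σ.erase v).card = m + 1 then c' (σ.erase v) else c (σ.erase v))
      = ∑ v ∈ σ, c (σ.erase v) := by
    refine Finset.sum_congr rfl fun v hv => if_neg ?_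
    have := card_erase_lt_of_mem hv
    omega
  simp only [hsum]
  by_cases h4 : σ.card = m + 1
  · obtain ⟨a1, a2, a3⟩ := hc' σ h1 h4
    rw [if_pos h4, h4]
    exact ⟨a1, a3.trans (le_max_right _ _), a2⟩
  · obtain ⟨a1, a2, a3⟩ := hc σ h1 (by omega)
    rw [if_neg h4]
    exact ⟨a1, a2.trans (le_max_left _ _), a3⟩

theorem Acyc.fill [Finite V] {Y : Set (Finset V)} {m : ℕ} (h : Acyc Y m) (M : ℕ) :
    Fill Y m M (Nat.card (Finset V)) := by
  intro z hz hb _
  obtain ⟨w, hw1, hw2⟩ := mem_bdries.1 (h z hz hb)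
  refine ⟨w, hw1, hw2, ?_⟩
  have := Fintype.ofFinite V
  rw [Nat.card_eq_fintype_card]
  exact card_le_univ _

theorem hasCone_of_acyc [Finite V] {Y : Set (Finset V)} (hY : IsLowerSet Y) {m : ℕ}
    (h : ∀ m' ≤ m, Acyc Y m') : HasCone Y m (Nat.card (Finset V)) := by
  induction m with
  | zero => exact hasCone_zero ((h 0 le_rfl).fill 1)
  | succ m ih =>
    have := hasCone_succ hY (ih fun m' hm => h m' (by omega)) ((h (m + 1) le_rfl).fill _)
    rwa [max_self] at this

/-- transport of a cone along a pair of vertex maps -/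
theorem hasCone_transport {Y : Set (Finset V)} {Y' : Set (Finset V')} (φ : V → V') (ψ : V' → V)
    (hφ : ∀ σ ∈ Y, σ.image φ ∈ Y' ∧ ∀ v ∈ σ, ψ (φ v) = v)
    (hψ : ∀ σ' ∈ Y', σ'.image ψ ∈ Y ∧ Set.InjOn ψ σ') {m ρ : ℕ} (h : HasCone Y' m ρ) :
    HasCone Y m ρ := by
  obtain ⟨c, hc⟩ := h
  refine ⟨fun σ => mapCh ψ (c (σ.image φ)), fun σ h1 h2 => ?_⟩
  have hinj : Set.InjOn φ σ := fun a ha b hb hab => by
    rw [← (hφ σ h1).2 a ha, ← (hφ σ h1).2 b hb, hab]
  have hcard : (σ.image φ).card = σ.card := card_image_of_injOn hinj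
  obtain ⟨a1, a2, a3⟩ := hc _ (hφ σ h1).1 (hcard.le.trans h2)
  have hs := mem_chains.1 a1
  refine ⟨mapCh_mem_chains fun τ hτ => ⟨(hψ τ (hs τ hτ).1).1, ?_⟩,
    (card_support_mapCh_le _ _).trans a2, ?_⟩
  · rw [card_image_of_injOn (hψ τ (hs τ hτ).1).2, (hs τ hτ).2, hcard]
  · rw [bd_mapCh (fun τ hτ => (hψ τ (hs τ hτ).1).2), a3, map_add, mapCh_sng, image_image, map_sum,
      Finset.sum_image (fun a ha b hb hab => hinj ha hb hab)]
    congr 1
    · congr 1
      exact (image_congr (g := id) (fun v hv => (hφ σ h1).2 v hv)).trans image_id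
    · refine Finset.sum_congr rfl fun v hv => ?_
      congr 2
      ext x
      simp only [mem_erase, mem_image]
      constructor
      · rintro ⟨hx, a, ha, rfl⟩
        exact ⟨a, ⟨fun h' => hx (by rw [h']), ha⟩, rfl⟩
      · rintro ⟨a, ⟨ha1, ha2⟩, rfl⟩
        exact ⟨fun h' => ha1 (hinj ha2 hv h'), a, ha2, rfl⟩

/-- transport of acyclicity along a pair of vertex maps -/
theorem acyc_transport {Y : Set (Finset V)} {Y' : Set (Finset V')} (φ : V → V') (ψ : V' → V)
    (hφ : ∀ σ ∈ Y, σ.image φ ∈ Y' ∧ ∀ v ∈ σ, ψ (φ v) = v)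
    (hψ : ∀ σ' ∈ Y', σ'.image ψ ∈ Y ∧ Set.InjOn ψ σ') {m : ℕ} (h : Acyc Y' m) :
    Acyc Y m := by
  intro z hz hb
  have hs := mem_chains.1 hz
  have hinj : ∀ σ ∈ z.support, Set.InjOn φ σ := fun σ hσ a ha b hb hab => by
    rw [← (hφ σ (hs σ hσ).1).2 a ha, ← (hφ σ (hs σ hσ).1).2 b hb, hab]
  obtain ⟨w, hw1, hw2⟩ := mem_bdries.1 (h (mapCh φ z) (mapCh_mem_chains fun σ hσ =>
    ⟨(hφ σ (hs σ hσ).1).1, by rw [card_image_of_injOn (hinj σ hσ), (hs σ hσ).2]⟩)
    (by rw [bd_mapCh hinj, hb, map_zero]))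
  have hs' := mem_chains.1 hw1
  refine mem_bdries.2 ⟨mapCh ψ w, mapCh_mem_chains fun τ hτ => ⟨(hψ τ (hs' τ hτ).1).1, ?_⟩, ?_⟩
  · rw [card_image_of_injOn (hψ τ (hs' τ hτ).1).2, (hs' τ hτ).2]
  · rw [bd_mapCh (fun τ hτ => (hψ τ (hs' τ hτ).1).2), hw2, mapCh_mapCh]
    exact mapCh_eq_self fun σ hσ =>
      (image_congr (g := id) (fun v hv => (hφ σ (hs σ hσ).1).2 v hv)).trans image_id

/-- a join inherits the cone of one factor -/
theorem hasCone_join {Y Y₁ : Set (Finset V)} (bad : V → Prop) [DecidablePred bad]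
    (h0 : ∀ σ ∈ Y₁, ∀ v ∈ σ, ¬ bad v)
    (h1 : ∀ σ ∈ Y, σ.filter (fun v => ¬ bad v) ∈ Y₁)
    (h2 : ∀ σ ∈ Y, ∀ σ₁ ∈ Y₁, σ₁ ∪ σ.filter bad ∈ Y) {m ρ : ℕ} (h : HasCone Y₁ m ρ) :
    HasCone Y m ρ := by
  obtain ⟨c, hc⟩ := h
  refine ⟨fun σ => joinCh (σ.filter bad) (c (σ.filter (fun v => ¬ bad v))), fun σ hσ hm => ?_⟩
  obtain ⟨a1, a2, a3⟩ := hc _ (h1 σ hσ) ((card_filter_le _ _).trans hm)
  have hs := mem_chains.1 a1
  have hd : ∀ τ ∈ (c (σ.filter (fun v => ¬ bad v))).support, Disjoint τ (σ.filter bad) := by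
    intro τ hτ
    rw [disjoint_left]
    intro v hv hv'
    exact h0 τ (hs τ hτ).1 v hv (mem_filter.1 hv').2
  refine ⟨joinCh_mem_chains fun τ hτ => ⟨h2 σ hσ τ (hs τ hτ).1, ?_⟩,
    (card_support_joinCh_le _ _).trans a2, ?_⟩
  · rw [card_union_of_disjoint (hd τ hτ), (hs τ hτ).2,
      ← card_filter_add_card_filter_not (s := σ) bad]
    omega
  · rw [bd_joinCh hd, a3, map_add, joinCh_sng, filter_union_filter_not', map_sum, add_assoc,
      ← sum_filter_add_sum_filter_not σ bad, add_comm (∑ x ∈ σ.filter bad, _)]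
    congr 2
    · refine Finset.sum_congr rfl fun v hv => ?_
      have hv' := (mem_filter.1 hv).2
      beta_reduce
      rw [filter_erase, filter_erase, erase_eq_of_notMem (s := σ.filter bad) (by simp [hv'])]
    · refine Finset.sum_congr rfl fun v hv => ?_
      have hv' := (mem_filter.1 hv).2
      beta_reduce
      rw [filter_erase, filter_erase,
        erase_eq_of_notMem (s := σ.filter (fun v => ¬ bad v)) (by simp [hv'])]

end Vale.Agent.P067
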