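import Vale.Agent.P067.Coset
import Vale.Agent.P067.ChainRed

/-!
Sums of translations over a finite family of group elements.
-/

set_option linter.unusedSectionVars false

namespace Vale.Agent.P067

open Finset

section
variable {I G ι : Type} [Group G]

/-- the sum of the translations by `f i`, `i ∈ s` -/
noncomputable def sumAct (s : Finset ι) (f : ι → G) :
    Ch (Vtx I G) →ₗ[ZMod 2] Ch (Vtx I G) := ∑ i ∈ s, act (f i)

theorem sumAct_apply (s : Finset ι) (f : ι → G) (w : Ch (Vtx I G)) :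
    sumAct s f w = ∑ i ∈ s, act (f i) w := by
  simp only [sumAct, LinearMap.sum_apply]

theorem bd_sumAct (s : Finset ι) (f : ι → G) (w : Ch (Vtx I G)) :
    bd (sumAct s f w) = sumAct s f (bd w) := by
  simp only [sumAct_apply, map_sum, bd_act]

theorem sumAct_mem_chains (K : I → Subgroup G) {Q : Subgroup G} {T₀ : Set I} {s : Finset ι}
    {f : ι → G} (hf : ∀ i ∈ s, f i ∈ Q) {m : ℕ} {w : Ch (Vtx I G)}
    (hw : w ∈ chains (CC K Q T₀) m) : sumAct s f w ∈ chains (CC K Q T₀) m := by
  rw [sumAct_apply]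
  exact Submodule.sum_mem _ fun i hi => act_mem_chains K (hf i hi) hw

theorem sumAct_mem_bdries (K : I → Subgroup G) {Q : Subgroup G} {T₀ : Set I} {s : Finset ι}
    {f : ι → G} (hf : ∀ i ∈ s, f i ∈ Q) {m : ℕ} {w : Ch (Vtx I G)}
    (hw : w ∈ bdries (CC K Q T₀) m) : sumAct s f w ∈ bdries (CC K Q T₀) m := by
  rw [sumAct_apply]
  exact Submodule.sum_mem _ fun i hi => act_mem_bdries K (hf i hi) hw

theorem sum_const_odd {V : Type*} {s : Finset ι} (hs : Odd s.card) (w : Ch V) :
    ∑ _i ∈ s, w = w := by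
  obtain ⟨k, hk⟩ := hs
  rw [sum_const, hk, succ_nsmul, mul_nsmul, two_nsmul, add_self_ch, nsmul_zero, zero_add]

theorem sumAct_add_mem {s : Finset ι} (hs : Odd s.card) {f : ι → G}
    {P : Submodule (ZMod 2) (Ch (Vtx I G))} {z : Ch (Vtx I G)}
    (h : ∀ i ∈ s, act (f i) z + z ∈ P) : sumAct s f z + z ∈ P := by
  have := Submodule.sum_mem P h
  rwa [sum_add_distrib, sum_const_odd hs, ← sumAct_apply] at this

theorem sumAct_eq_self {s : Finset ι} (hs : Odd s.card) {f : ι → G} {z : Ch (Vtx I G)}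
    (h : ∀ i ∈ s, act (f i) z = z) : sumAct s f z = z := by
  rw [sumAct_apply, sum_congr rfl h, sum_const_odd hs]

end

end Vale.Agent.P067
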