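import Vale.Agent.P067.Coset
import Vale.Agent.P067.ChainRed
import Vale.Agent.P067.AbsConeAux

set_option linter.unusedSectionVars false

namespace Vale.Agent.P067

open Finset

namespace Cone

variable {I G : Type} [Group G]

/-- the elements of `Q` acting trivially on the image of the homology of `CC K L` -/
def trivSub (K : I → Subgroup G) (Q L : Subgroup G) (m : ℕ) : Subgroup G where
  carrier := {g | g ∈ Q ∧ ∀ z ∈ chains (CC K L Set.univ) m, bd z = 0 →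
    act g z + z ∈ bdries (CC K Q Set.univ) m}
  one_mem' := ⟨Q.one_mem, fun z _ _ => by rw [act_one, add_self_ch]; exact Submodule.zero_mem _⟩
  mul_mem' := by
    rintro g h ⟨hg, hg'⟩ ⟨hh, hh'⟩
    refine ⟨Q.mul_mem hg hh, fun z hz hb => ?_⟩
    have h1 := act_mem_bdries K hg (hh' z hz hb)
    rw [map_add, act_act] at h1
    exact bdries_trans h1 (hg' z hz hb)
  inv_mem' := by
    rintro g ⟨hg, hg'⟩
    refine ⟨Q.inv_mem hg, fun z hz hb => ?_⟩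
    have h1 := act_mem_bdries K (Q.inv_mem hg) (hg' z hz hb)
    rw [map_add, act_act, inv_mul_cancel, act_one, add_comm] at h1
    exact h1

theorem conj_mem_of_L (K : I → Subgroup G) {Q L : Subgroup G} (hLQ : L ≤ Q) {m : ℕ} {l γ : G}
    (hl : l ∈ L) (hγ : γ ∈ trivSub K Q L m) : l * γ * l⁻¹ ∈ trivSub K Q L m := by
  obtain ⟨h1, h2⟩ := hγ
  refine ⟨Q.mul_mem (Q.mul_mem (hLQ hl) h1) (Q.inv_mem (hLQ hl)), fun z hz hb => ?_⟩
  have h3 := h2 (act l⁻¹ z) (act_mem_chains K (L.inv_mem hl) hz) (by rw [bd_act, hb, map_zero])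
  have h4 := act_mem_bdries K (hLQ hl) h3
  rw [map_add, act_act, act_act, act_act, mul_inv_cancel, act_one] at h4
  exact h4

theorem conj_mem (K : I → Subgroup G) {Q L : Subgroup G} (hLQ : L ≤ Q) {m : ℕ} {S : Set G}
    (hS : S ⊆ trivSub K Q L m) {q : G} (hq : q ∈ Subgroup.closure ((L : Set G) ∪ S)) :
    ∀ γ ∈ trivSub K Q L m, q * γ * q⁻¹ ∈ trivSub K Q L m := by
  suffices h : (∀ γ ∈ trivSub K Q L m, q * γ * q⁻¹ ∈ trivSub K Q L m) ∧
      (∀ γ ∈ trivSub K Q L m, q⁻¹ * γ * q⁻¹⁻¹ ∈ trivSub K Q L m) from h.1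
  induction hq using Subgroup.closure_induction with
  | mem x hx =>
    rcases hx with hx | hx
    · exact ⟨fun γ hγ => conj_mem_of_L K hLQ hx hγ,
        fun γ hγ => conj_mem_of_L K hLQ (L.inv_mem hx) hγ⟩
    · have hx' : x ∈ trivSub K Q L m := hS hx
      exact ⟨fun γ hγ => mul_mem (mul_mem hx' hγ) (inv_mem hx'),
        fun γ hγ => mul_mem (mul_mem (inv_mem hx') hγ) (inv_mem (inv_mem hx'))⟩
  | one => exact ⟨fun γ hγ => by simpa using hγ, fun γ hγ => by simpa using hγ⟩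
  | mul x y _ _ hx hy =>
    refine ⟨fun γ hγ => ?_, fun γ hγ => ?_⟩
    · have := hx.1 _ (hy.1 γ hγ)
      rwa [show x * (y * γ * y⁻¹) * x⁻¹ = x * y * γ * (x * y)⁻¹ by group] at this
    · have := hy.2 _ (hx.2 γ hγ)
      rwa [show y⁻¹ * (x⁻¹ * γ * x⁻¹⁻¹) * y⁻¹⁻¹ = (x * y)⁻¹ * γ * (x * y)⁻¹⁻¹ by group] at this
  | inv x _ hx =>
    refine ⟨hx.2, fun γ hγ => ?_⟩
    simpa using hx.1 γ hγ

/-- the sum of all translations by a finite subgroup -/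
noncomputable def nrm (Γ : Subgroup G) [Fintype Γ] : Ch (Vtx I G) →ₗ[ZMod 2] Ch (Vtx I G) :=
  sumAct (univ : Finset Γ) (fun g => (g : G))

theorem nrm_act (Γ : Subgroup G) [Fintype Γ] {γ : G} (hγ : γ ∈ Γ) (w : Ch (Vtx I G)) :
    nrm Γ (act γ w) = nrm Γ w := by
  simp only [nrm, sumAct_apply, act_act]
  exact Fintype.sum_equiv (Equiv.mulRight (⟨γ, hγ⟩ : Γ)) _ _ fun _ => rfl

theorem nrm_cone [DecidableEq I] (K : I → Subgroup G) {Q : Subgroup G} (Γ : Subgroup G)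
    [Fintype Γ] (hn : ∀ q ∈ Q, ∀ γ ∈ Γ, q * γ * q⁻¹ ∈ Γ) (c : I)
    (hc : ∀ T : Finset I, c ∉ T → ∀ k ∈ Q ⊓ KT K T, ∃ γ ∈ Γ, γ⁻¹ * k ∈ KT K (insert c T))
    {g g' : G} (hg : g ∈ Q) (hg' : g' ∈ Q) {T T' : Finset I}
    (h : face K g T = face K g' T') :
    nrm Γ (coneCh (vtx K g c) (sng (face K g T))) =
      nrm Γ (coneCh (vtx K g' c) (sng (face K g T))) := by
  obtain ⟨rfl, hk⟩ := (face_eq_iff K).1 h
  conv_rhs => rw [h]
  rw [coneCh_sng, coneCh_sng]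
  by_cases hcT : c ∈ T
  · rw [if_pos (vtx_mem_face.2 hcT), if_pos (vtx_mem_face.2 hcT)]
  · rw [if_neg (fun h' => hcT (vtx_mem_face.1 h')), if_neg (fun h' => hcT (vtx_mem_face.1 h')),
      ← face_insert, ← face_insert]
    obtain ⟨γ, hγ, hγ'⟩ := hc T hcT (g⁻¹ * g') ⟨Q.mul_mem (Q.inv_mem hg) hg', hk⟩
    rw [← nrm_act Γ (hn g hg γ hγ), act_sng, tr_face]
    congr 2
    refine (face_eq_iff K).2 ⟨rfl, ?_⟩
    rwa [show (g * γ * g⁻¹ * g)⁻¹ * g' = γ⁻¹ * (g⁻¹ * g') by group]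

theorem nrm_mem_bdries [DecidableEq I] (K : I → Subgroup G) {Q : Subgroup G} (Γ : Subgroup G)
    [Fintype Γ] (hΓ : Γ ≤ Q) (hn : ∀ q ∈ Q, ∀ γ ∈ Γ, q * γ * q⁻¹ ∈ Γ) (c : I)
    (hc : ∀ T : Finset I, c ∉ T → ∀ k ∈ Q ⊓ KT K T, ∃ γ ∈ Γ, γ⁻¹ * k ∈ KT K (insert c T))
    {m : ℕ} {z : Ch (Vtx I G)} (hz : z ∈ chains (CC K Q Set.univ) m) (hb : bd z = 0) :
    nrm Γ z ∈ bdries (CC K Q Set.univ) m := by
  have hsel : ∀ σ : Finset (Vtx I G), ∃ g : G, σ ∈ CC K Q Set.univ →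
      g ∈ Q ∧ ∃ T, σ = face K g T := by
    intro σ
    by_cases hσ : σ ∈ CC K Q Set.univ
    · obtain ⟨g, hg, T, _, h⟩ := hσ
      exact ⟨g, fun _ => ⟨hg, T, h⟩⟩
    · exact ⟨1, fun h => absurd h hσ⟩
  choose gs hgs using hsel
  let E : Ch (Vtx I G) →ₗ[ZMod 2] Ch (Vtx I G) :=
    Finsupp.linearCombination (ZMod 2) (fun σ => coneCh (vtx K (gs σ) c) (sng σ))
  have hE : ∀ σ, E (sng σ) = coneCh (vtx K (gs σ) c) (sng σ) := fun σ => linearCombination_sng _ _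
  have hσ := mem_chains.1 hz
  have hEz : E z ∈ chains (CC K Q Set.univ) (m + 1) := by
    refine map_mem_of_sng fun σ h => ?_
    rw [hE]
    refine coneCh_mem_chains _ fun τ hτ => ?_
    rw [support_sng, mem_singleton] at hτ
    subst hτ
    refine ⟨?_, (hσ τ h).2⟩
    obtain ⟨hg, T, hT⟩ := hgs τ (hσ τ h).1
    generalize gs τ = g at hg hT
    rw [hT, ← face_insert]
    exact face_mem_CC K hg (Set.subset_univ _)
  have key : (nrm Γ ∘ₗ (bd ∘ₗ E + E ∘ₗ bd)) z = nrm Γ z := by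
    refine map_congr_of_sng fun σ h => ?_
    obtain ⟨hg, T, hT⟩ := hgs σ (hσ σ h).1
    conv_rhs => rw [← bd_coneCh (vtx K (gs σ) c) (sng σ)]
    simp only [LinearMap.comp_apply, LinearMap.add_apply, map_add, hE]
    congr 1
    rw [bd_sng, map_sum, map_sum, map_sum, map_sum]
    refine sum_congr rfl fun v hv => ?_
    rw [hE]
    have h1 : σ.erase v ∈ CC K Q Set.univ :=
      isLowerSet_CC K Q _ (erase_subset v σ) (hσ σ h).1
    obtain ⟨hg', T', hT'⟩ := hgs _ h1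
    have h2 : σ.erase v = face K (gs σ) (T.erase v.ty) := by
      rw [face_erase, ← hT]
      congr 1
      exact (mem_face.1 (hT ▸ hv)).2
    generalize gs (σ.erase v) = g' at hg' hT'
    rw [hT']
    exact nrm_cone K Γ hn c hc hg' hg (hT'.symm.trans h2)
  simp only [LinearMap.comp_apply, LinearMap.add_apply, hb, map_zero, add_zero] at key
  rw [← key, nrm, ← bd_sumAct]
  exact bd_mem_bdries (sumAct_mem_chains K (fun g _ => hΓ g.2) hEz)

end Cone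

/-- averaging over a normal subgroup of odd order with a cone as quotient -/
theorem bound_of_normal {I G : Type} [Group G] [Finite G] [DecidableEq I] (K : I → Subgroup G)
    (Q L : Subgroup G) (hLQ : L ≤ Q) (hodd : ∀ H : Subgroup G, Odd (Nat.card H))
    (S : Set G) (hS : S ⊆ Q) (hgen : Q ≤ Subgroup.closure ((L : Set G) ∪ S)) (c : I)
    (hcone : ∀ Γ : Subgroup G, Γ ≤ Q → (∀ q ∈ Q, ∀ γ ∈ Γ, q * γ * q⁻¹ ∈ Γ) → S ⊆ Γ →
      ∀ T : Finset I, c ∉ T → ∀ k ∈ Q ⊓ KT K T, ∃ γ ∈ Γ, γ⁻¹ * k ∈ KT K (insert c T))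
    {m : ℕ}
    (htriv : ∀ γ ∈ S, ∀ z ∈ chains (CC K L Set.univ) m, bd z = 0 →
      act γ z + z ∈ bdries (CC K Q Set.univ) m) :
    ∀ z ∈ chains (CC K L Set.univ) m, bd z = 0 → z ∈ bdries (CC K Q Set.univ) m := by
  intro z hz hb
  let Γ := Cone.trivSub K Q L m
  have hΓ : Γ ≤ Q := fun g hg => hg.1
  have hSΓ : S ⊆ Γ := fun g hg => ⟨hS hg, htriv g hg⟩
  have hn : ∀ q ∈ Q, ∀ γ ∈ Γ, q * γ * q⁻¹ ∈ Γ := fun q hq => Cone.conj_mem K hLQ hSΓ (hgen hq)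
  have : Fintype Γ := Fintype.ofFinite _
  have h1 : Cone.nrm Γ z ∈ bdries (CC K Q Set.univ) m :=
    Cone.nrm_mem_bdries K Γ hΓ hn c (hcone Γ hΓ hn hSΓ)
      (chains_mono (CC_mono K hLQ subset_rfl) m hz) hb
  have h2 : Cone.nrm Γ z + z ∈ bdries (CC K Q Set.univ) m := by
    refine sumAct_add_mem ?_ fun g _ => g.2.2 z hz hb
    have := hodd Γ
    rwa [Nat.card_eq_fintype_card] at this
  rw [add_comm] at h2
  exact bdries_of_add h2 h1

end Vale.Agent.P067
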