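import Vale.Agent.P067.Coset
import Vale.Agent.P067.ChainRed

set_option linter.unusedSectionVars false

namespace Vale.Agent.P067

open Finset

/-- the join of at least `m + 1` nonempty sets is acyclic in cardinality `m` -/
theorem acyc_join {V J : Type} [DecidableEq V] (ty : V → J) (P : V → Prop) (B₁ : Finset J)
    (hne : ∀ b ∈ B₁, ∃ v, ty v = b ∧ P v) {m : ℕ} (hm : m + 1 ≤ B₁.card) :
    Acyc {σ : Finset V | (∀ v ∈ σ, ty v ∈ B₁ ∧ P v) ∧ Set.InjOn ty σ} m := by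
  classical
  induction m using Nat.strong_induction_on generalizing B₁ with
  | _ m ih =>
  obtain ⟨b₀, hb₀⟩ : B₁.Nonempty := card_pos.1 (by omega)
  obtain ⟨v₀, hv₀, hP⟩ := hne b₀ hb₀
  have hY : IsLowerSet {σ : Finset V | (∀ v ∈ σ, ty v ∈ B₁ ∧ P v) ∧ Set.InjOn ty σ} := by
    intro σ τ hle hσ
    exact ⟨fun v hv => hσ.1 v (hle hv), hσ.2.mono (Finset.coe_subset.2 hle)⟩
  refine acyc_of_glink hY (fun v => ty v = b₀ ∧ v ≠ v₀) ?_ ?_
  · rintro τ ⟨v, hv⟩ h1 h2 h3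
    have h4 : τ = {v} := eq_singleton_iff_unique_mem.2 ⟨hv, fun w hw =>
      h2.2 hw hv ((h1 w hw).1.trans (h1 v hv).1.symm)⟩
    subst h4
    rw [card_singleton] at h3 ⊢
    have h5 := ih (m - 1) (by omega) (B₁.erase b₀) (fun b hb => hne b (mem_of_mem_erase hb))
      (by rw [card_erase_of_mem hb₀]; omega)
    convert h5 using 1
    ext σ
    constructor
    · rintro ⟨h6, h7, h8⟩
      refine ⟨fun w hw => ⟨mem_erase.2 ⟨fun h9 => ?_, (h7 w (mem_union_left _ hw)).1⟩,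
        (h7 w (mem_union_left _ hw)).2⟩, h8.mono (Finset.coe_subset.2 subset_union_left)⟩
      have h10 : w = v := h8 (Finset.mem_coe.2 (mem_union_left _ hw))
        (Finset.mem_coe.2 (mem_union_right _ hv)) (h9.trans (h1 v hv).1.symm)
      exact h6 w hw (h10 ▸ h1 v hv)
    · rintro ⟨h6, h7⟩
      refine ⟨fun w hw h8 => (mem_erase.1 (h6 w hw).1).1 h8.1, fun w hw => ?_, ?_⟩
      · rcases mem_union.1 hw with hw | hw
        · exact ⟨mem_of_mem_erase (h6 w hw).1, (h6 w hw).2⟩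
        · exact h2.1 w hw
      · rw [union_comm, ← insert_eq, coe_insert]
        intro x hx y hy hxy
        rcases hx with rfl | hx <;> rcases hy with rfl | hy
        · rfl
        · exact absurd (hxy.symm.trans (h1 x hv).1) (mem_erase.1 (h6 y hy).1).1
        · exact absurd (hxy.trans (h1 y hv).1) (mem_erase.1 (h6 x hx).1).1
        · exact h7 hx hy hxy
  · refine acyc_of_apex v₀ ?_ m
    rintro σ ⟨⟨h1, h2⟩, h3⟩
    refine ⟨⟨fun w hw => ?_, ?_⟩, fun w hw => ?_⟩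
    · rcases mem_insert.1 hw with rfl | hw
      · exact ⟨hv₀ ▸ hb₀, hP⟩
      · exact h1 w hw
    · rw [coe_insert]
      intro x hx y hy hxy
      rcases hx with rfl | hx <;> rcases hy with rfl | hy
      · rfl
      · by_contra h; exact h3 y hy ⟨hxy.symm.trans hv₀, fun h' => h h'.symm⟩
      · by_contra h; exact h3 x hx ⟨hxy.trans hv₀, h⟩
      · exact h2 hx hy hxy
    · rcases mem_insert.1 hw with rfl | hw
      · exact fun h => h.2 rfl
      · exact h3 w hw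

theorem mem_CC_iff {I G : Type} [Group G] {K : I → Subgroup G} {Q : Subgroup G} {T₀ : Set I}
    {σ : Finset (Vtx I G)} :
    σ ∈ CC K Q T₀ ↔ ∃ g ∈ Q, ∀ v ∈ σ, v.ty ∈ T₀ ∧ v = vtx K g v.ty := by
  classical
  constructor
  · rintro ⟨g, hg, T, hT, rfl⟩
    exact ⟨g, hg, fun v hv => ⟨hT (mem_face.1 hv).1, (mem_face.1 hv).2⟩⟩
  · rintro ⟨g, hg, h⟩
    refine ⟨g, hg, σ.image Vtx.ty, fun c hc => ?_, ?_⟩
    · obtain ⟨v, hv, rfl⟩ := mem_image.1 (Finset.mem_coe.1 hc)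
      exact (h v hv).1
    · rw [face, image_image]
      exact ((image_congr (g := id) fun v hv => (h v hv).2.symm).trans image_id).symm

section
variable {I I' G : Type} [Group G] (K : I → Subgroup G) (P : I' → Subgroup G)

/-- inclusion of the vertices of the first kind -/
def vinl (I' : Type) (v : Vtx I G) : Vtx (I ⊕ I') G := ⟨Sum.inl v.ty, v.cs⟩

/-- retraction to the vertices of the first kind -/
def vret (c₀ : I) (w : Vtx (I ⊕ I') G) : Vtx I G := ⟨w.ty.elim id (fun _ => c₀), w.cs⟩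

theorem vinl_vtx (g : G) (c : I) : vinl I' (vtx K g c) = vtx (Sum.elim K P) g (Sum.inl c) := rfl

theorem vret_vtx (c₀ : I) (g : G) (c : I) :
    vret c₀ (vtx (Sum.elim K P) g (Sum.inl c)) = vtx K g c := rfl

theorem vret_vinl (c₀ : I) (v : Vtx I G) : vret c₀ (vinl I' v) = v := rfl

theorem vinl_vret (c₀ : I) {w : Vtx (I ⊕ I') G} (h : ¬ w.ty.isRight) :
    vinl I' (vret c₀ w) = w := by
  obtain ⟨c | c, A⟩ := w
  · rfl
  · simp at h

/-- the mixed complex -/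
def ZZ (Q : Subgroup G) (B₁ : Finset I') : Set (Finset (Vtx (I ⊕ I') G)) :=
  CC (Sum.elim K P) Q {j | ∀ b, j = Sum.inr b → b ∈ B₁}

theorem acyc_ZZ_link (Q : Subgroup G) (B₁ : Finset I') (c₀ : I)
    (hjoin : ∀ (T : Finset I) (h : I' → G), (∀ b ∈ B₁, h b ∈ Q ⊓ KT K T) →
      ∃ g ∈ Q ⊓ KT K T, ∀ b ∈ B₁, g⁻¹ * h b ∈ P b)
    {τ : Finset (Vtx (I ⊕ I') G)} (h1 : ∀ v ∈ τ, ¬ v.ty.isRight) (h2 : τ ∈ ZZ K P Q B₁) {m : ℕ}
    (hm : m + 1 ≤ B₁.card) : Acyc (GLink (ZZ K P Q B₁) (fun v => ¬ v.ty.isRight) τ) m := by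
  classical
  obtain ⟨g₀, hg₀, h3⟩ := mem_CC_iff.1 h2
  let T : Finset I := τ.image (fun w => (vret c₀ w).ty)
  have hT : ∀ h, h ∈ KT K T ↔ ∀ w ∈ τ, h ∈ Sum.elim K P w.ty := by
    intro h
    rw [mem_KT]
    constructor
    · intro h4 w hw
      have h5 := h4 _ (mem_image_of_mem _ hw)
      have h6 := h1 w hw
      obtain ⟨c | c, A⟩ := w
      · exact h5
      · simp at h6
    · intro h4 c hc
      obtain ⟨w, hw, rfl⟩ := mem_image.1 hc
      have h5 := h4 w hw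
      have h6 := h1 w hw
      obtain ⟨c | c, A⟩ := w
      · exact h5
      · simp at h6
  have h4 := acyc_join (Vtx.ty : Vtx (I ⊕ I') G → I ⊕ I')
    (fun v => ∃ h ∈ Q ⊓ KT K T, v = vtx (Sum.elim K P) (g₀ * h) v.ty) (B₁.image Sum.inr)
    (fun b _ => ⟨vtx (Sum.elim K P) (g₀ * 1) b, rfl, 1, one_mem _, rfl⟩) (m := m)
    (by rwa [card_image_of_injective _ Sum.inr_injective])
  convert h4 using 1
  ext σ
  constructor
  · rintro ⟨h5, h6⟩
    obtain ⟨g, hg, h7⟩ := mem_CC_iff.1 h6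
    refine ⟨fun v hv => ⟨?_, g₀⁻¹ * g, Subgroup.mem_inf.2 ⟨mul_mem (inv_mem hg₀) hg,
      (hT _).2 fun w hw => ?_⟩, ?_⟩, fun v hv w hw h => ?_⟩
    · obtain ⟨b, hb⟩ := Sum.isRight_iff.1 (not_not.1 (h5 v hv))
      exact mem_image.2 ⟨b, (h7 v (mem_union_left _ hv)).1 b hb, hb.symm⟩
    · exact ((vtx_eq_iff _).1 ((h3 w hw).2.symm.trans (h7 w (mem_union_right _ hw)).2)).2
    · rw [mul_inv_cancel_left]; exact (h7 v (mem_union_left _ hv)).2
    · exact eq_of_ty_eq h6 (mem_union_left _ hv) (mem_union_left _ hw) h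
  · rintro ⟨h5, h6⟩
    have h7 : ∀ b : I', ∃ h ∈ Q ⊓ KT K T, ∀ v ∈ σ, v.ty = Sum.inr b →
        v = vtx (Sum.elim K P) (g₀ * h) v.ty := by
      intro b
      by_cases hb : ∃ v ∈ σ, v.ty = Sum.inr b
      · obtain ⟨v, hv1, hv2⟩ := hb
        obtain ⟨h, hh1, hh2⟩ := (h5 v hv1).2
        exact ⟨h, hh1, fun w hw1 hw2 => by rw [h6 hw1 hv1 (hw2.trans hv2.symm)]; exact hh2⟩
      · exact ⟨1, one_mem _, fun v hv1 hv2 => absurd ⟨v, hv1, hv2⟩ hb⟩
    choose h hh1 hh2 using h7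
    obtain ⟨g, hg1, hg2⟩ := hjoin T h (fun b _ => hh1 b)
    obtain ⟨hg3, hg4⟩ := Subgroup.mem_inf.1 hg1
    refine ⟨fun v hv => ?_, mem_CC_iff.2 ⟨g₀ * g, mul_mem hg₀ hg3, fun v hv => ?_⟩⟩
    · obtain ⟨b, _, hb⟩ := mem_image.1 (h5 v hv).1
      beta_reduce
      rw [← hb]; simp
    · rcases mem_union.1 hv with hv | hv
      · obtain ⟨b, hb1, hb2⟩ := mem_image.1 (h5 v hv).1
        refine ⟨fun b' hb' => Sum.inr_injective (hb2.trans hb') ▸ hb1, ?_⟩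
        refine (hh2 b v hv hb2.symm).trans ((vtx_eq_iff _).2 ⟨rfl, ?_⟩).symm
        rw [← hb2]
        simpa [mul_assoc] using hg2 b hb1
      · refine ⟨(h3 v hv).1, (h3 v hv).2.trans ((vtx_eq_iff _).2 ⟨rfl, ?_⟩)⟩
        rw [inv_mul_cancel_left]
        exact (hT g).1 hg4 v hv

theorem ZZ_link_right (Q : Subgroup G) (B₁ : Finset I') (c₀ : I)
    {τ : Finset (Vtx (I ⊕ I') G)} (h1 : ∀ v ∈ τ, v.ty.isRight) (h2 : τ ∈ ZZ K P Q B₁) :
    ∃ g₀ ∈ Q, ∃ B ⊆ B₁, B.card = τ.card ∧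
      (∀ σ ∈ GLink (ZZ K P Q B₁) (fun v => v.ty.isRight) τ,
        σ.image (fun w => g₀⁻¹ • vret c₀ w) ∈ CC K (Q ⊓ KT P B) Set.univ) ∧
      (∀ σ ∈ CC K (Q ⊓ KT P B) Set.univ,
        σ.image (fun v => vinl I' (g₀ • v)) ∈ GLink (ZZ K P Q B₁) (fun v => v.ty.isRight) τ) := by
  classical
  obtain ⟨g₀, hg₀, T, hT, rfl⟩ := h2
  have h3 : ∀ j ∈ T, j.isRight := fun j hj => h1 _ (vtx_mem_face.2 hj)
  refine ⟨g₀, hg₀, T.toRight, fun b hb => hT (mem_toRight.1 hb) b rfl, ?_, ?_, ?_⟩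
  · rw [card_face, ← card_toLeft_add_card_toRight (u := T)]
    have : T.toLeft = ∅ := eq_empty_of_forall_notMem fun c hc => by
      simpa using h3 _ (mem_toLeft.1 hc)
    simp [this]
  · rintro σ ⟨h4, h5⟩
    obtain ⟨g, hg, h6⟩ := mem_CC_iff.1 h5
    refine mem_CC_iff.2 ⟨g₀⁻¹ * g, Subgroup.mem_inf.2 ⟨mul_mem (inv_mem hg₀) hg,
      mem_KT.2 fun b hb => ?_⟩, fun v hv => ⟨trivial, ?_⟩⟩
    · exact ((vtx_eq_iff _).1 (h6 _ (mem_union_right _
        (vtx_mem_face.2 (mem_toRight.1 hb)))).2).2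
    · obtain ⟨w, hw, rfl⟩ := mem_image.1 hv
      have h7 := (h6 w (mem_union_left _ hw)).2
      have h8 := h4 w hw
      obtain ⟨c | c, A⟩ := w
      · rw [h7, ← smul_vtx]; rfl
      · simp at h8
  · intro σ hσ
    obtain ⟨g, hg, h4⟩ := mem_CC_iff.1 hσ
    obtain ⟨hg1, hg2⟩ := Subgroup.mem_inf.1 hg
    refine ⟨fun v hv => ?_, mem_CC_iff.2 ⟨g₀ * g, mul_mem hg₀ hg1, fun v hv => ?_⟩⟩
    · obtain ⟨w, _, rfl⟩ := mem_image.1 hv
      simp [vinl]
    · rcases mem_union.1 hv with hv | hv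
      · obtain ⟨w, hw, rfl⟩ := mem_image.1 hv
        refine ⟨fun b hb => by simp [vinl] at hb, ?_⟩
        rw [(h4 w hw).2, smul_vtx]; rfl
      · obtain ⟨h5, h6⟩ := mem_face.1 hv
        refine ⟨hT h5, h6.trans ((vtx_eq_iff _).2 ⟨rfl, ?_⟩)⟩
        obtain ⟨b, hb⟩ := Sum.isRight_iff.1 (h3 _ h5)
        rw [inv_mul_cancel_left, hb]
        exact mem_KT.1 hg2 b (mem_toRight.2 (hb ▸ h5))

end

/-- homology is generated by the stabilisers of a second family of subgroups -/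
theorem acyc_of_generation {I I' G : Type} [Group G] (K : I → Subgroup G) (P : I' → Subgroup G)
    (Q : Subgroup G) (B₁ : Finset I') (m : ℕ) (hcard : m + 1 ≤ B₁.card)
    (hjoin : ∀ (T : Finset I) (h : I' → G), (∀ b ∈ B₁, h b ∈ Q ⊓ KT K T) →
      ∃ g ∈ Q ⊓ KT K T, ∀ b ∈ B₁, g⁻¹ * h b ∈ P b)
    (hlow : ∀ B ⊆ B₁, 2 ≤ B.card → B.card ≤ m + 1 →
      Acyc (CC K (Q ⊓ KT P B) Set.univ) (m + 1 - B.card))
    (hone : ∀ b ∈ B₁, ∀ z ∈ chains (CC K (Q ⊓ KT P {b}) Set.univ) m, bd z = 0 →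
      z ∈ bdries (CC K Q Set.univ) m) :
    Acyc (CC K Q Set.univ) m := by
  classical
  intro z hz hb
  rcases isEmpty_or_nonempty I with hI | ⟨⟨c₀⟩⟩
  · obtain ⟨b, hb'⟩ : B₁.Nonempty := card_pos.1 (by omega)
    refine hone b hb' z (chains_mono (fun σ _ => mem_CC_iff.2 ⟨1, one_mem _, fun v _ => ?_⟩) m hz) hb
    exact isEmptyElim v.ty
  have hZ : IsLowerSet (ZZ K P Q B₁) := isLowerSet_CC _ _ _
  have hinl : Function.Injective (vinl I' : Vtx I G → _) :=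
    Function.LeftInverse.injective (vret_vinl c₀)
  have hret : ∀ σ : Finset (Vtx (I ⊕ I') G), (∀ v ∈ σ, ¬ v.ty.isRight) →
      Set.InjOn (vret c₀) (↑σ : Set (Vtx (I ⊕ I') G)) := fun σ h a ha b hb hab => by
    rw [← vinl_vret c₀ (h a ha), ← vinl_vret c₀ (h b hb), hab]
  -- the mixed complex is acyclic
  have h1 : Acyc (ZZ K P Q B₁) m := by
    refine acyc_of_glink hZ (fun v => ¬ v.ty.isRight)
      (fun τ _ h1 h2 _ => acyc_ZZ_link K P Q B₁ c₀ hjoin h1 h2 (by omega)) ?_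
    have := acyc_ZZ_link K P Q B₁ c₀ hjoin (τ := ∅) (by simp)
      (mem_CC_iff.2 ⟨1, one_mem _, by simp⟩) hcard
    convert this using 1
    ext σ; simp [Full, GLink, and_comm]
  have hz' := mem_chains.1 hz
  obtain ⟨w, hw1, hw2⟩ := mem_bdries.1 (h1 (mapCh (vinl I') z) (mapCh_mem_chains fun σ hσ => by
    obtain ⟨g, hg, h2⟩ := mem_CC_iff.1 (hz' σ hσ).1
    refine ⟨mem_CC_iff.2 ⟨g, hg, fun v hv => ?_⟩, by
      rw [card_image_of_injective _ hinl, (hz' σ hσ).2]⟩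
    obtain ⟨w, hw, rfl⟩ := mem_image.1 hv
    exact ⟨fun b hb => by simp [vinl] at hb, by rw [(h2 w hw).2]; rfl⟩)
    (by rw [bd_mapCh fun _ _ => hinl.injOn, hb, map_zero]))
  have hgood : ∀ σ ∈ (mapCh (vinl I') z).support, (σ.filter (fun v => v.ty.isRight)).card < 1 := by
    refine (mem_supp (Y := {σ : Finset (Vtx (I ⊕ I') G) |
      (σ.filter (fun v : Vtx (I ⊕ I') G => v.ty.isRight)).card < 1})).1
      (map_mem_of_sng fun σ _ => ?_)
    rw [mapCh_sng]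
    refine sng_mem_supp ?_
    rw [Set.mem_ofPred_eq, Nat.lt_one_iff, card_eq_zero, filter_eq_empty_iff]
    intro v hv
    obtain ⟨w, _, rfl⟩ := mem_image.1 hv
    simp [vinl]
  obtain ⟨U, hU1, hU2⟩ := reduce_all (fun v : Vtx (I ⊕ I') G => v.ty.isRight) hZ (k₀ := 2) hw1
    (fun σ hσ => (hgood σ (hw2 ▸ hσ)).trans (by omega)) (by omega) (by
      intro τ h2 h3 h4 h5
      obtain ⟨g₀, _, B, hB1, hB2, hB3, hB4⟩ := ZZ_link_right K P Q B₁ c₀ h3 h4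
      rw [← hB2]
      refine acyc_transport (fun w => g₀⁻¹ • vret c₀ w) (fun v => vinl I' (g₀ • v))
        (fun σ hσ => ⟨hB3 σ hσ, fun v hv => ?_⟩) (fun σ hσ => ⟨hB4 σ hσ, ?_⟩)
        (hlow B hB1 (by omega) (by omega))
      · rw [smul_inv_smul, vinl_vret c₀ (hσ.1 v hv)]
      · exact (hinl.comp (MulAction.injective g₀)).injOn)
  set w' := w + bd U with hw'
  have hw3 : w' ∈ chains (ZZ K P Q B₁) (m + 1) := Submodule.add_mem _ hw1 (bd_mem_chains hZ hU1)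
  have hw4 : bd w' = mapCh (vinl I') z := by rw [hw', map_add, bd_bd, add_zero, hw2]
  have hf := top_part_facts (fun v : Vtx (I ⊕ I') G => v.ty.isRight) hZ (k := 1) hw3
    (fun σ hσ => Nat.le_of_lt_succ (hU2 σ hσ)) (fun σ hσ => hgood σ (hw4 ▸ hσ))
  have h2 := congrArg bd (add_sum_join_comp (fun v : Vtx (I ⊕ I') G => v.ty.isRight) w' 1)
  set 𝒯 := (w'.support.image (fun σ => σ.filter (fun v : Vtx (I ⊕ I') G => v.ty.isRight))).filter
    (fun τ => τ.card = 1) with h𝒯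
  set w₀ := ∑ σ ∈ w'.support.filter
    (fun σ => (σ.filter (fun v : Vtx (I ⊕ I') G => v.ty.isRight)).card ≠ 1), sng σ with hw₀
  have h3 : ∀ τ ∈ 𝒯, bd (joinCh τ (comp (fun v : Vtx (I ⊕ I') G => v.ty.isRight) τ w'))
      = comp (fun v : Vtx (I ⊕ I') G => v.ty.isRight) τ w' := by
    intro τ hτ
    obtain ⟨a1, a2, _, _, a5, a6⟩ := hf τ hτ
    rw [bd_joinCh (fun σ hσ => disjoint_left.2 fun v hv hv' =>
      (mem_chains.1 a5 σ hσ).1.1 v hv (a2 v hv')), a6, map_zero, zero_add]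
    obtain ⟨v, rfl⟩ := card_eq_one.1 a1
    rw [sum_singleton, erase_singleton]
    have : joinCh (∅ : Finset (Vtx (I ⊕ I') G)) = LinearMap.id := by
      refine Finsupp.lhom_ext' fun σ => LinearMap.ext_ring ?_
      exact (joinCh_sng ∅ σ).trans (by rw [union_empty]; rfl)
    rw [this]; rfl
  rw [map_add, map_sum, Finset.sum_congr rfl h3, hw4] at h2
  have h4 : w₀ ∈ chains (Full (ZZ K P Q B₁) (fun v => ¬ v.ty.isRight)) (m + 1) := by
    refine Submodule.sum_mem _ fun σ hσ => ?_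
    obtain ⟨a1, a2⟩ := mem_filter.1 hσ
    refine sng_mem_chains (Y := Full (ZZ K P Q B₁) (fun v => ¬ v.ty.isRight))
      ⟨(mem_chains.1 hw3 σ a1).1, fun v hv h => ?_⟩ (mem_chains.1 hw3 σ a1).2
    have a3 := hU2 σ a1
    have : 0 < (σ.filter (fun v : Vtx (I ⊕ I') G => v.ty.isRight)).card :=
      card_pos.2 ⟨v, mem_filter.2 ⟨hv, h⟩⟩
    omega
  have h4' := mem_chains.1 h4
  have h5 := congrArg (mapCh (vret c₀)) h2
  rw [map_add, mapCh_mapCh, mapCh_eq_self (φ := vret c₀ ∘ vinl I') (fun σ _ => image_id),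
    ← bd_mapCh (fun σ hσ => hret σ (h4' σ hσ).1.2), map_sum] at h5
  refine bdries_of_add (b := ∑ τ ∈ 𝒯, mapCh (vret c₀)
    (comp (fun v : Vtx (I ⊕ I') G => v.ty.isRight) τ w')) ?_ (Submodule.sum_mem _ fun τ hτ => ?_)
  · rw [h5]
    refine bd_mem_bdries (mapCh_mem_chains fun σ hσ => ?_)
    obtain ⟨g, hg, h6⟩ := mem_CC_iff.1 (h4' σ hσ).1.1
    refine ⟨mem_CC_iff.2 ⟨g, hg, fun v hv => ⟨trivial, ?_⟩⟩, by
      rw [card_image_of_injOn (hret σ (h4' σ hσ).1.2), (h4' σ hσ).2]⟩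
    obtain ⟨x, hx, rfl⟩ := mem_image.1 hv
    have h7 := (h6 x hx).2
    have h8 := (h4' σ hσ).1.2 x hx
    obtain ⟨c | c, A⟩ := x
    · rw [h7]; rfl
    · simp at h8
  · obtain ⟨a1, a2, a3, _, a5, a6⟩ := hf τ hτ
    obtain ⟨g₀, hg₀, B, hB1, hB2, hB3, _⟩ := ZZ_link_right K P Q B₁ c₀ a2 a3
    obtain ⟨b, rfl⟩ := card_eq_one.1 (hB2.trans a1)
    have a5' := mem_chains.1 a5
    have hinj : ∀ σ ∈ (comp (fun v : Vtx (I ⊕ I') G => v.ty.isRight) τ w').support,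
        Set.InjOn (fun w => g₀⁻¹ • vret c₀ w) (↑σ : Set (Vtx (I ⊕ I') G)) :=
      fun σ hσ x hx y hy hxy => hret σ (a5' σ hσ).1.1 hx hy (MulAction.injective _ hxy)
    have h6 := act_mem_bdries K hg₀ (hone b (hB1 (mem_singleton_self b))
      (mapCh (fun w => g₀⁻¹ • vret c₀ w) _) (mapCh_mem_chains fun σ hσ =>
        ⟨hB3 σ (a5' σ hσ).1, by rw [card_image_of_injOn (hinj σ hσ), (a5' σ hσ).2]; rfl⟩)
      (by rw [bd_mapCh hinj, a6, map_zero]))
    rw [act, mapCh_mapCh] at h6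
    convert h6 using 3
    funext x; simp

end Vale.Agent.P067
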