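import Vale.Agent.P067.ChainRed

set_option linter.unusedSectionVars false

namespace Vale.Agent.P067

open Finset

variable {V : Type*} [DecidableEq V]

namespace AbsMorseAux

theorem union_aux {ι : Type*} {Y : Set (Finset V)} (hY : IsLowerSet Y) (a : ι → V → Prop)
    (s : Finset ι) (m : ℕ)
    (h : ∀ Fs ⊆ s, ∀ j ∈ s, ∀ m' ≤ m,
      RelAcyc (Full Y (fun v => ∀ i ∈ Fs, a i v)) {σ | ∀ v ∈ σ, a j v} m')
    (s0 : Finset ι) (hs0 : s0.Nonempty) : s0 ⊆ s → ∀ Fs ⊆ s, ∀ m' ≤ m,
      RelAcyc (Full Y (fun v => ∀ i ∈ Fs, a i v)) {σ | ∃ i ∈ s0, ∀ v ∈ σ, a i v} m' := by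
  classical
  induction hs0 using Finset.Nonempty.cons_induction with
  | singleton j =>
    intro hj Fs hFs m' hm'
    have := h Fs hFs j (hj (mem_singleton_self j)) m' hm'
    simpa using this
  | cons j s1 hj hs1 ih =>
    intro hsub Fs hFs m' hm' y hy hb
    have hjs : j ∈ s := hsub (mem_cons_self j s1)
    have ih' := ih (fun i hi => hsub (mem_cons_of_mem hi))
    cases m' with
    | zero =>
      refine ⟨y, ?_, by rw [add_self_ch]; exact Submodule.zero_mem _⟩
      rw [mem_chains] at hy ⊢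
      intro σ hσ
      refine ⟨⟨(hy σ hσ).1, j, mem_cons_self j s1, ?_⟩, (hy σ hσ).2⟩
      rw [card_eq_zero.1 (hy σ hσ).2]
      simp
    | succ n =>
      have hYF := isLowerSet_full hY (fun v => ∀ i ∈ Fs, a i v)
      have hA' : IsLowerSet {σ : Finset V | ∃ i ∈ s1, ∀ v ∈ σ, a i v} := by
        rintro σ τ hle ⟨i, hi, hσ⟩
        exact ⟨i, hi, fun v hv => hσ v (hle hv)⟩
      have hby := mem_chains.1 (bd_mem_chains hYF hy)
      set c1 : Ch V := (bd y).filter (fun σ => ∀ v ∈ σ, a j v) with hc1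
      set c2 : Ch V := (bd y).filter (fun σ => ¬ ∀ v ∈ σ, a j v) with hc2
      have hsum : c1 + c2 = bd y := Finsupp.filter_add_filter_not _ _
      have h1 : c1 ∈ chains (Full Y (fun v => ∀ i ∈ insert j Fs, a i v)) n := by
        rw [mem_chains]
        intro σ hσ
        rw [hc1, Finsupp.support_filter, mem_filter] at hσ
        refine ⟨⟨(hby σ hσ.1).1.1, fun v hv i hi => ?_⟩, (hby σ hσ.1).2⟩
        rcases mem_insert.1 hi with rfl | hi
        · exact hσ.2 v hv
        · exact (hby σ hσ.1).1.2 v hv i hi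
      have h2 : c2 ∈ supp {σ : Finset V | ∃ i ∈ s1, ∀ v ∈ σ, a i v} := by
        rw [mem_supp]
        intro σ hσ
        rw [hc2, Finsupp.support_filter, mem_filter] at hσ
        obtain ⟨i, hi, hi'⟩ := mem_supp.1 hb σ hσ.1
        rcases mem_cons.1 hi with rfl | hi
        · exact absurd hi' hσ.2
        · exact ⟨i, hi, hi'⟩
      have h3 : bd c1 = bd c2 := by
        rw [← add_eq_zero_ch, ← map_add, hsum, bd_bd]
      obtain ⟨c1', hc1', hbd⟩ := ih' (insert j Fs) (insert_subset hjs hFs) n (by omega) c1 h1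
        (by rw [h3]; exact bd_mem_supp hA' h2)
      obtain ⟨u, hu, hu'⟩ := mem_bdries.1 hbd
      have hsubF : Full Y (fun v => ∀ i ∈ insert j Fs, a i v) ⊆ Full Y (fun v => ∀ i ∈ Fs, a i v) :=
        fun σ hσ => ⟨hσ.1, fun v hv i hi => hσ.2 v hv i (mem_insert_of_mem hi)⟩
      obtain ⟨y2, hy2, hbd2⟩ := ih' Fs hFs (n + 1) hm' (y + u)
        (Submodule.add_mem _ hy (chains_mono hsubF _ hu)) (by
          have : bd (y + u) = c2 + c1' := by
            rw [map_add, hu', ← hsum, add_comm c1 c2, add_assoc, add_add_cancel_ch']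
          rw [this]
          exact Submodule.add_mem _ h2
            (supp_mono Set.inter_subset_right (chains_le_supp _ _ hc1')))
      refine ⟨u + y2, Submodule.add_mem _ (chains_mono ?_ _ hu) (chains_mono ?_ _ hy2), ?_⟩
      · intro σ hσ
        exact ⟨hsubF hσ, j, mem_cons_self j s1, fun v hv => hσ.2 v hv j (mem_insert_self _ _)⟩
      · rintro σ ⟨hσ, i, hi, hi'⟩
        exact ⟨hσ, i, mem_cons_of_mem hi, hi'⟩
      · rwa [← add_assoc]

end AbsMorseAux

/-- Mayer-Vietoris for a union of full subcomplexes -/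
theorem relAcyc_union {ι : Type*} {Y : Set (Finset V)} (hY : IsLowerSet Y) (a : ι → V → Prop)
    (s : Finset ι) (hs : s.Nonempty) (m : ℕ)
    (h : ∀ Fs ⊆ s, ∀ j ∈ s, ∀ m' ≤ m,
      RelAcyc (Full Y (fun v => ∀ i ∈ Fs, a i v)) {σ | ∀ v ∈ σ, a j v} m') :
    RelAcyc Y {σ | ∃ i ∈ s, ∀ v ∈ σ, a i v} m := by
  have h1 := AbsMorseAux.union_aux hY a s m h s hs subset_rfl ∅ (empty_subset _) m le_rfl
  have h2 : Full Y (fun v => ∀ i ∈ (∅ : Finset ι), a i v) = Y := by
    ext σ; simp [Full]
  rwa [h2] at h1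

/-- discrete Morse theory -/
theorem relAcyc_of_morse {Y : Set (Finset V)} (hY : IsLowerSet Y) (D : V → ℕ) (M0 m : ℕ)
    (hinj : ∀ σ ∈ Y, ∀ v ∈ σ, ∀ w ∈ σ, D v = D w → v = w)
    (h : ∀ v, {v} ∈ Y → M0 < D v → 1 ≤ m →
      Acyc {σ | insert v σ ∈ Y ∧ ∀ w ∈ σ, D w < D v} (m - 1)) :
    RelAcyc Y {σ | ∀ v ∈ σ, D v ≤ M0} m := by
  have key : ∀ j : ℕ, ∀ y ∈ chains (Full Y (fun v => D v ≤ M0 + j)) m,
      bd y ∈ supp {σ : Finset V | ∀ v ∈ σ, D v ≤ M0} →
      ∃ y' ∈ chains (Y ∩ {σ | ∀ v ∈ σ, D v ≤ M0}) m, y + y' ∈ bdries Y m := by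
    intro j
    induction j with
    | zero =>
      intro y hy _
      exact ⟨y, hy, by rw [add_self_ch]; exact Submodule.zero_mem _⟩
    | succ j ih =>
      intro y hy hb
      have hrel := relAcyc_of_glink (isLowerSet_full hY (fun v => D v ≤ M0 + (j + 1)))
        (fun v => D v = M0 + (j + 1)) (m := m) (by
          rintro τ ⟨v, hv⟩ h1 h2 h3
          have hτ : τ = {v} := by
            refine eq_singleton_iff_unique_mem.2 ⟨hv, fun w hw => ?_⟩
            exact hinj τ h2.1 w hw v hv ((h1 w hw).trans (h1 v hv).symm)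
          subst hτ
          have hDv := h1 v hv
          rw [card_singleton] at h3 ⊢
          have h4 := h v h2.1 (by omega) h3
          have h5 : GLink (Full Y (fun v => D v ≤ M0 + (j + 1))) (fun v => D v = M0 + (j + 1)) {v}
              = {σ | insert v σ ∈ Y ∧ ∀ w ∈ σ, D w < D v} := by
            ext σ
            have e : σ ∪ {v} = insert v σ := by rw [union_comm]; rfl
            simp only [GLink, Full, Set.mem_ofPred_eq, e, mem_insert, forall_eq_or_imp]
            constructor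
            · rintro ⟨a1, a2, -, a3⟩
              refine ⟨a2, fun w hw => ?_⟩
              have := a1 w hw
              have := a3 w hw
              omega
            · rintro ⟨a1, a2⟩
              refine ⟨fun w hw => ?_, a1, by omega, fun w hw => ?_⟩
              · have := a2 w hw
                omega
              · have := a2 w hw
                omega
          rwa [h5])
      obtain ⟨y1, hy1, hb1⟩ := hrel y hy (supp_mono (by
        intro σ hσ v hv
        have := hσ v hv
        omega) hb)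
      have hbd : bd y1 = bd y := by
        have := bd_eq_zero_of_mem_bdries hb1
        rw [map_add, add_eq_zero_ch] at this
        exact this.symm
      obtain ⟨y', hy', hb'⟩ := ih y1 (chains_mono (by
        rintro σ ⟨⟨a1, a2⟩, a3⟩
        refine ⟨a1, fun v hv => ?_⟩
        have b1 := a2 v hv
        have b2 : ¬ D v = M0 + (j + 1) := a3 v hv
        omega) _ hy1) (by rwa [hbd])
      exact ⟨y', hy', bdries_trans (bdries_mono (full_subset _ _) _ hb1) hb'⟩
  intro y hy hb
  refine key (y.support.sup (fun σ => σ.sup D)) y ?_ hb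
  rw [mem_chains] at hy ⊢
  intro σ hσ
  refine ⟨⟨(hy σ hσ).1, fun v hv => ?_⟩, (hy σ hσ).2⟩
  have h1 : D v ≤ σ.sup D := le_sup hv
  have h2 : σ.sup D ≤ y.support.sup (fun σ => σ.sup D) := le_sup (f := fun σ => σ.sup D) hσ
  omega

end Vale.Agent.P067
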