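import Vale.Agent.P067.Coset
import Vale.Agent.P067.ChainRed
import Vale.Agent.P067.AbsConeAux

set_option linter.unusedSectionVars false

namespace Vale.Agent.P067

open Finset

namespace Unip

variable {I G F N : Type} [Group G] [Field F] [Fintype F] [AddCommGroup N] [Module F N]
  [Fintype N] {e : N → G}

theorem e_zero (he : ∀ A A', e (A + A') = e A * e A') : e 0 = 1 := by
  have := he 0 0
  rw [add_zero] at this
  exact left_eq_mul.1 this

theorem act_e (he : ∀ A A', e (A + A') = e A * e A') (A B : N) (w : Ch (Vtx I G)) :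
    act (e A) (act (e B) w) = act (e (A + B)) w := by rw [act_act, he]

theorem tr_e (he : ∀ A A', e (A + A') = e A * e A') (A B : N) (σ : Finset (Vtx I G)) :
    tr (e A) (tr (e B) σ) = tr (e (A + B)) σ := by rw [tr_tr, he]

theorem odd_card_N (hodd : Odd (Fintype.card F)) : Odd (Nat.card N) := by
  have : Module.Finite F N := Module.Finite.of_finite
  rw [Module.natCard_eq_pow_finrank (K := F), Nat.card_eq_fintype_card]
  exact hodd.pow

open Classical in
theorem odd_card_filter (hodd : Odd (Fintype.card F)) (H : AddSubgroup N) :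
    Odd ((univ : Finset N).filter (fun A => A ∈ H)).card := by
  have h1 : ((univ : Finset N).filter (fun A => A ∈ H)).card = Nat.card H := by
    rw [Nat.card_eq_fintype_card, Fintype.card_subtype]
  rw [h1]
  exact Odd.of_dvd_nat (odd_card_N (N := N) hodd) (AddSubgroup.card_addSubgroup_dvd_card H)

open Classical in
/-- the sum of the translations by a subspace -/
noncomputable def avS (e : N → G) (N1 : Submodule F N) :
    Ch (Vtx I G) →ₗ[ZMod 2] Ch (Vtx I G) :=
  sumAct ((univ : Finset N).filter (fun A => A ∈ N1)) e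

theorem avS_act_comm (he : ∀ A A', e (A + A') = e A * e A') (N1 : Submodule F N) (B : N)
    (w : Ch (Vtx I G)) : avS e N1 (act (e B) w) = act (e B) (avS e N1 w) := by
  simp only [avS, sumAct_apply, map_sum, act_e he, add_comm]

theorem avS_act (he : ∀ A A', e (A + A') = e A * e A') (N1 : Submodule F N) {B : N}
    (hB : B ∈ N1) (w : Ch (Vtx I G)) : avS e N1 (act (e B) w) = avS e N1 w := by
  simp only [avS, sumAct_apply, act_e he]
  refine sum_nbij' (fun A => A + B) (fun A => A - B) ?_ ?_ ?_ ?_ ?_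
  · intro A hA
    simp only [mem_filter, mem_univ, true_and] at hA ⊢
    exact N1.add_mem hA hB
  · intro A hA
    simp only [mem_filter, mem_univ, true_and] at hA ⊢
    exact N1.sub_mem hA hB
  · intro A _; simp
  · intro A _; simp
  · intro A _; rfl

theorem avS_eq_self (hodd : Odd (Fintype.card F)) (N1 : Submodule F N) {z : Ch (Vtx I G)}
    (h : ∀ A ∈ N1, act (e A) z = z) : avS e N1 z = z := by
  classical
  refine sumAct_eq_self ?_ fun A hA => h A (mem_filter.1 hA).2
  convert odd_card_filter hodd N1.toAddSubgroup using 3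
  simp

theorem bd_avS (N1 : Submodule F N) (w : Ch (Vtx I G)) :
    bd (avS e N1 w) = avS e N1 (bd w) := bd_sumAct _ _ _

/-- uniqueness of the representative in the Levi complex -/
theorem uniq {K : I → Subgroup G} {L : Subgroup G}
    (hstrict : ∀ c A, ∀ l ∈ L, ∀ l' ∈ L, l⁻¹ * e A * l' ∈ K c → l⁻¹ * l' ∈ K c)
    {σ τ : Finset (Vtx I G)} (hσ : σ ∈ CC K L Set.univ) (hτ : τ ∈ CC K L Set.univ) {A : N}
    (h : tr (e A) τ = σ) : τ = σ := by
  obtain ⟨l', hl', T', _, rfl⟩ := hσ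
  obtain ⟨l, hl, T, _, rfl⟩ := hτ
  rw [tr_face] at h
  obtain ⟨rfl, h2⟩ := (face_eq_iff K).1 h.symm
  refine ((face_eq_iff K).2 ⟨rfl, mem_KT.2 fun c hc => ?_⟩).symm
  refine hstrict c A l' hl' l hl ?_
  rw [mul_assoc]
  exact mem_KT.1 h2 c hc

/-- the stabiliser of a face inside a subspace -/
def stab (he : ∀ A A', e (A + A') = e A * e A') (N1 : Submodule F N) (σ : Finset (Vtx I G)) :
    AddSubgroup N where
  carrier := {A | A ∈ N1 ∧ tr (e A) σ = σ}
  zero_mem' := ⟨N1.zero_mem, by rw [e_zero he, tr_one]⟩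
  add_mem' := by
    rintro A B ⟨hA, hA'⟩ ⟨hB, hB'⟩
    exact ⟨N1.add_mem hA hB, by rw [← tr_e he, hB', hA']⟩
  neg_mem' := by
    rintro A ⟨hA, hA'⟩
    refine ⟨N1.neg_mem hA, ?_⟩
    conv_lhs => rw [← hA']
    rw [tr_e he, neg_add_cancel, e_zero he, tr_one]

theorem eval_avS (hodd : Odd (Fintype.card F)) (he : ∀ A A', e (A + A') = e A * e A')
    {K : I → Subgroup G} {L : Subgroup G}
    (hstrict : ∀ c A, ∀ l ∈ L, ∀ l' ∈ L, l⁻¹ * e A * l' ∈ K c → l⁻¹ * l' ∈ K c)
    (N1 : Submodule F N) {w : Ch (Vtx I G)} (hw : w ∈ supp (CC K L Set.univ))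
    {σ : Finset (Vtx I G)} (hσ : σ ∈ CC K L Set.univ) : avS e N1 w σ = w σ := by
  classical
  have : (Finsupp.lapply σ ∘ₗ avS e N1 : Ch (Vtx I G) →ₗ[ZMod 2] ZMod 2) w
      = (Finsupp.lapply σ : Ch (Vtx I G) →ₗ[ZMod 2] ZMod 2) w := by
    refine map_congr_of_sng fun τ hτ => ?_
    have hτ' := mem_supp.1 hw τ hτ
    simp only [LinearMap.comp_apply, avS, sumAct_apply, map_sum, act_sng, Finsupp.lapply_apply]
    simp only [sng, Finsupp.single_apply]
    by_cases h : τ = σ
    · subst h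
      rw [if_pos rfl, sum_boole, filter_filter]
      have h1 := odd_card_filter hodd (stab he N1 τ)
      have h2 : (((univ : Finset N).filter (fun A => A ∈ stab he N1 τ)).card : ZMod 2) = 1 :=
        (ZMod.natCast_eq_one_iff_odd).2 h1
      rw [← h2]
      congr 2
      ext A
      simp only [mem_filter, mem_univ, true_and]
      rfl
    · rw [if_neg h]
      exact sum_eq_zero fun A _ => if_neg fun h' => h (uniq hstrict hσ hτ' h')
  simpa using this

theorem eval_avS_zero (he : ∀ A A', e (A + A') = e A * e A')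
    {K : I → Subgroup G} {L : Subgroup G}
    (hstrict : ∀ c A, ∀ l ∈ L, ∀ l' ∈ L, l⁻¹ * e A * l' ∈ K c → l⁻¹ * l' ∈ K c)
    (lam : N →ₗ[F] F) {B : N} (hB : lam B ≠ 0) {w : Ch (Vtx I G)}
    (hw : w ∈ supp (CC K L Set.univ)) {σ : Finset (Vtx I G)} (hσ : σ ∈ CC K L Set.univ)
    (hσ' : ¬ ∃ A, tr (e A) σ = σ ∧ lam A ≠ 0) :
    avS e (LinearMap.ker lam) (act (e B) w) σ = 0 := by
  classical
  have : (Finsupp.lapply σ ∘ₗ avS e (LinearMap.ker lam) ∘ₗ act (e B) :
      Ch (Vtx I G) →ₗ[ZMod 2] ZMod 2) w = (0 : Ch (Vtx I G) →ₗ[ZMod 2] ZMod 2) w := by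
    refine map_congr_of_sng fun τ hτ => ?_
    have hτ' := mem_supp.1 hw τ hτ
    simp only [LinearMap.comp_apply, avS, sumAct_apply, map_sum, act_sng, Finsupp.lapply_apply,
      tr_e he, LinearMap.zero_apply]
    simp only [sng, Finsupp.single_apply]
    refine sum_eq_zero fun A hA => if_neg fun h' => hσ' ⟨A + B, ?_, ?_⟩
    · have := uniq hstrict hσ hτ' h'
      rwa [this] at h'
    · have hA' : lam A = 0 := (mem_filter.1 hA).2
      rwa [map_add, hA', zero_add]
  simpa using this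

theorem tr_smul {K : I → Subgroup G} {L : Subgroup G}
    (hsmul : ∀ c A (a : F), ∀ l ∈ L, l⁻¹ * e A * l ∈ K c → l⁻¹ * e (a • A) * l ∈ K c)
    {σ : Finset (Vtx I G)} (hσ : σ ∈ CC K L Set.univ) {A : N} (h : tr (e A) σ = σ) (a : F) :
    tr (e (a • A)) σ = σ := by
  obtain ⟨l, hl, T, _, rfl⟩ := hσ
  rw [tr_face] at h ⊢
  obtain ⟨_, h2⟩ := (face_eq_iff K).1 h.symm
  refine ((face_eq_iff K).2 ⟨rfl, mem_KT.2 fun c hc => ?_⟩).symm
  rw [← mul_assoc]
  refine hsmul c A a l hl ?_
  rw [mul_assoc]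
  exact mem_KT.1 h2 c hc

theorem inv_of_fixed (he : ∀ A A', e (A + A') = e A * e A')
    {K : I → Subgroup G} {L : Subgroup G}
    (hsmul : ∀ c A (a : F), ∀ l ∈ L, l⁻¹ * e A * l ∈ K c → l⁻¹ * e (a • A) * l ∈ K c)
    (lam : N →ₗ[F] F) {m : ℕ} {y : Ch (Vtx I G)}
    (hy : y ∈ chains (CC K L Set.univ ∩ {σ | ∃ A, tr (e A) σ = σ ∧ lam A ≠ 0}) m) (A : N) :
    avS e (LinearMap.ker lam) (act (e A) y) = avS e (LinearMap.ker lam) y := by
  have : (avS e (LinearMap.ker lam) ∘ₗ act (e A)) y = avS e (LinearMap.ker lam) y := by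
    refine map_congr_of_sng fun σ hσ => ?_
    obtain ⟨⟨h1, A0, h2, h3⟩, _⟩ := mem_chains.1 hy σ hσ
    have h4 := tr_smul hsmul h1 h2 (lam A / lam A0)
    have h5 : A - (lam A / lam A0) • A0 ∈ LinearMap.ker lam := by
      rw [LinearMap.mem_ker, map_sub, map_smul, smul_eq_mul, div_mul_cancel₀ _ h3, sub_self]
    rw [LinearMap.comp_apply, ← avS_act he _ h5 (sng σ)]
    conv_rhs => rw [← h4, ← act_sng, act_e he, sub_add_cancel]
  simpa using this

/-- decomposition of the faces of a chain -/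
theorem exists_dec {K : I → Subgroup G} {Q L : Subgroup G}
    (hdec : ∀ q ∈ Q, ∃ A, ∃ l ∈ L, q = e A * l) :
    ∃ (α : Finset (Vtx I G) → N) (β : Finset (Vtx I G) → Finset (Vtx I G)),
      ∀ σ ∈ CC K Q Set.univ, β σ ∈ CC K L Set.univ ∧ σ = tr (e (α σ)) (β σ) := by
  have : ∀ σ : Finset (Vtx I G), ∃ (A : N) (τ : Finset (Vtx I G)), σ ∈ CC K Q Set.univ →
      τ ∈ CC K L Set.univ ∧ σ = tr (e A) τ := by
    intro σ
    by_cases hσ : σ ∈ CC K Q Set.univ
    · obtain ⟨g, hg, T, hT, h⟩ := hσ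
      obtain ⟨A, l, hl, rfl⟩ := hdec g hg
      exact ⟨A, face K l T, fun _ => ⟨face_mem_CC K hl hT, by rw [tr_face, h]⟩⟩
    · exact ⟨0, ∅, fun h => absurd h hσ⟩
  choose α β h using this
  exact ⟨α, β, h⟩

theorem base (hodd : Odd (Fintype.card F)) (he : ∀ A A', e (A + A') = e A * e A')
    {K : I → Subgroup G} {Q L : Subgroup G}
    (hLQ : L ≤ Q) (heQ : ∀ A, e A ∈ Q) (hdec : ∀ q ∈ Q, ∃ A, ∃ l ∈ L, q = e A * l)
    (hstrict : ∀ c A, ∀ l ∈ L, ∀ l' ∈ L, l⁻¹ * e A * l' ∈ K c → l⁻¹ * l' ∈ K c)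
    (hsmul : ∀ c A (a : F), ∀ l ∈ L, l⁻¹ * e A * l ∈ K c → l⁻¹ * e (a • A) * l ∈ K c)
    {m : ℕ} (lam : N →ₗ[F] F) {b : N} (hb1 : lam b = 1)
    (hM : RelAcyc (CC K L Set.univ) {σ | ∃ A, tr (e A) σ = σ ∧ lam A ≠ 0} m)
    {z : Ch (Vtx I G)} (hz : z ∈ chains (CC K Q Set.univ) m) (hb : bd z = 0)
    (hinv : ∀ A ∈ LinearMap.ker lam, act (e A) z = z) (A : N) :
    act (e A) z + z ∈ bdries (CC K Q Set.univ) m := by
  classical
  obtain ⟨α, β, hαβ⟩ := exists_dec (K := K) hdec
  have hσ := mem_chains.1 hz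
  let S : Ch (Vtx I G) →ₗ[ZMod 2] Ch (Vtx I G) := avS e (LinearMap.ker lam)
  let y : F → Ch (Vtx I G) := fun t =>
    ∑ σ ∈ z.support.filter (fun σ => lam (α σ) = t), sng (β σ)
  have hy : ∀ t, y t ∈ chains (CC K L Set.univ) m := by
    intro t
    refine Submodule.sum_mem _ fun σ h => ?_
    have h1 := hσ σ (mem_filter.1 h).1
    obtain ⟨h2, h3⟩ := hαβ σ h1.1
    refine sng_mem_chains h2 ?_
    rw [← h1.2]
    conv_rhs => rw [h3, card_tr]
  have hzy : z = ∑ t, S (act (e (t • b)) (y t)) := by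
    rw [← avS_eq_self hodd (LinearMap.ker lam) hinv, map_eq_sum (avS e (LinearMap.ker lam)) z,
      ← sum_fiberwise z.support (fun σ => lam (α σ))]
    refine sum_congr rfl fun t _ => ?_
    simp only [y, map_sum]
    refine sum_congr rfl fun σ h => ?_
    obtain ⟨h1, h1'⟩ := mem_filter.1 h
    obtain ⟨_, h3⟩ := hαβ σ (hσ σ h1).1
    have h5 : α σ - t • b ∈ LinearMap.ker lam := by
      rw [LinearMap.mem_ker, map_sub, map_smul, hb1, h1', smul_eq_mul, mul_one, sub_self]
    conv_rhs => rw [← avS_act he _ h5, act_e he, sub_add_cancel, act_sng, ← h3]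
  have hbd : ∀ t, bd (y t) ∈ supp (CC K L Set.univ) := fun t =>
    bd_mem_supp (isLowerSet_CC K L _) (chains_le_supp _ _ (hy t))
  have hbdA : ∀ t, bd (y t) ∈ supp {σ | ∃ A, tr (e A) σ = σ ∧ lam A ≠ 0} := by
    intro t0
    refine mem_supp.2 fun σ h => ?_
    by_contra hn
    have hσL := mem_supp.1 (hbd t0) σ h
    have h0 : ∑ t, S (act (e ((t - t0) • b)) (bd (y t))) = 0 := by
      have h1 := congrArg (fun w => act (e (-(t0 • b))) (bd w)) hzy
      simp only [hb, map_zero, map_sum] at h1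
      rw [h1]
      refine sum_congr rfl fun t _ => ?_
      rw [bd_avS, bd_act, ← avS_act_comm he, act_e he, sub_smul, neg_add_eq_sub]
    have h2 := congrArg (fun w : Ch (Vtx I G) => w σ) h0
    simp only [Finsupp.finsetSum_apply, Finsupp.coe_zero, Pi.zero_apply] at h2
    rw [sum_eq_single t0] at h2
    · rw [sub_self, zero_smul, e_zero he, act_one, eval_avS hodd he hstrict _ (hbd t0) hσL] at h2
      exact Finsupp.mem_support_iff.1 h h2
    · intro t _ ht
      refine eval_avS_zero he hstrict lam ?_ (hbd t) hσL hn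
      rw [map_smul, hb1, smul_eq_mul, mul_one]
      exact sub_ne_zero.2 ht
    · intro h; exact absurd (mem_univ _) h
  choose y' hy' hyy' using fun t => hM (y t) (hy t) (hbdA t)
  let z' := ∑ t, S (act (e (t • b)) (y' t))
  have hzz' : z + z' ∈ bdries (CC K Q Set.univ) m := by
    have h0 : z + z' = ∑ t, S (act (e (t • b)) (y t + y' t)) := by
      simp only [map_add, sum_add_distrib]
      rw [← hzy]
    rw [h0]
    refine Submodule.sum_mem _ fun t _ => ?_
    refine sumAct_mem_bdries K (fun A _ => heQ A) (act_mem_bdries K (heQ _) ?_)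
    exact bdries_mono (CC_mono K hLQ subset_rfl) m (hyy' t)
  have hz' : act (e A) z' = z' := by
    simp only [z', map_sum]
    refine sum_congr rfl fun t _ => ?_
    rw [← avS_act_comm he, act_e he, inv_of_fixed he hsmul lam (hy' t),
      inv_of_fixed he hsmul lam (hy' t)]
  have h1 := act_mem_bdries K (heQ A) hzz'
  rw [map_add, hz'] at h1
  exact bdries_trans h1 (by rwa [add_comm] at hzz')

/-- sum over a line -/
noncomputable def lineS (F : Type) [Field F] [Fintype F] [Module F N] (e : N → G) (u : N) :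
    Ch (Vtx I G) →ₗ[ZMod 2] Ch (Vtx I G) :=
  sumAct (univ : Finset F) (fun x => e (x • u))

theorem act_lineS (he : ∀ A A', e (A + A') = e A * e A') (u B : N) (w : Ch (Vtx I G)) :
    act (e B) (lineS F e u w) = lineS F e u (act (e B) w) := by
  simp only [lineS, sumAct_apply, map_sum, act_e he, add_comm]

theorem lineS_mem (u : N) {K : I → Subgroup G} {Q : Subgroup G} (heQ : ∀ A, e A ∈ Q) {m : ℕ}
    {w : Ch (Vtx I G)} (hw : w ∈ chains (CC K Q Set.univ) m) :
    lineS F e u w ∈ chains (CC K Q Set.univ) m := sumAct_mem_chains K (fun _ _ => heQ _) hw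

theorem bd_lineS (u : N) (w : Ch (Vtx I G)) : bd (lineS F e u w) = lineS F e u (bd w) :=
  bd_sumAct _ _ _

theorem act_lineS_self (he : ∀ A A', e (A + A') = e A * e A') (u : N) (t : F)
    (w : Ch (Vtx I G)) : act (e (t • u)) (lineS F e u w) = lineS F e u w := by
  simp only [lineS, sumAct_apply, map_sum, act_e he, ← add_smul]
  exact Fintype.sum_equiv (Equiv.addLeft t) _ _ fun _ => rfl

theorem line_identity (hodd : Odd (Fintype.card F)) (he : ∀ A A', e (A + A') = e A * e A')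
    (a b : N) (z : Ch (Vtx I G)) :
    z = ∑ k : F, lineS F e (a + k • b) z + lineS F e b z + lineS F e a (lineS F e b z) := by
  classical
  have h1 : ∑ k : F, lineS F e (a + k • b) z
      = z + ∑ x ∈ (univ : Finset F).erase 0, ∑ y : F, act (e (x • a + y • b)) z := by
    simp only [lineS, sumAct_apply]
    rw [sum_comm, ← add_sum_erase _ _ (mem_univ (0 : F))]
    congr 1
    · simp only [zero_smul, e_zero he, act_one]
      exact sum_const_odd hodd z
    · refine sum_congr rfl fun x hx => ?_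
      refine Fintype.sum_equiv (Equiv.mulLeft₀ x (mem_erase.1 hx).1) _ _ fun k => ?_
      simp only [Equiv.mulLeft₀_apply, smul_add, mul_smul]
  have h2 : lineS F e a (lineS F e b z)
      = lineS F e b z + ∑ x ∈ (univ : Finset F).erase 0, ∑ y : F, act (e (x • a + y • b)) z := by
    simp only [lineS, sumAct_apply, map_sum, act_e he]
    rw [sum_comm, ← add_sum_erase _ _ (mem_univ (0 : F))]
    simp only [zero_smul, zero_add]
  rw [h1, h2, add_assoc, add_add_cancel_ch', add_add_cancel_ch]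

theorem part_one (hodd : Odd (Fintype.card F)) (he : ∀ A A', e (A + A') = e A * e A')
    {K : I → Subgroup G} {Q L : Subgroup G}
    (hLQ : L ≤ Q) (heQ : ∀ A, e A ∈ Q) (hdec : ∀ q ∈ Q, ∃ A, ∃ l ∈ L, q = e A * l)
    (hstrict : ∀ c A, ∀ l ∈ L, ∀ l' ∈ L, l⁻¹ * e A * l' ∈ K c → l⁻¹ * l' ∈ K c)
    (hsmul : ∀ c A (a : F), ∀ l ∈ L, l⁻¹ * e A * l ∈ K c → l⁻¹ * e (a • A) * l ∈ K c)
    {m : ℕ}
    (hM : ∀ lam : N →ₗ[F] F, lam ≠ 0 →
      RelAcyc (CC K L Set.univ) {σ | ∃ A, tr (e A) σ = σ ∧ lam A ≠ 0} m) (N1 : Submodule F N) :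
    ∀ z ∈ chains (CC K Q Set.univ) m, bd z = 0 → (∀ B ∈ N1, act (e B) z = z) → ∀ A,
      act (e A) z + z ∈ bdries (CC K Q Set.univ) m := by
  induction N1 using WellFoundedGT.induction with
  | ind N1 ih =>
  intro z hz hb hinv A
  have hline : ∀ u ∉ N1, ∀ w ∈ chains (CC K Q Set.univ) m, bd w = 0 →
      (∀ B ∈ N1, act (e B) w = w) →
      act (e A) (lineS F e u w) + lineS F e u w ∈ bdries (CC K Q Set.univ) m := by
    intro u hu w hw hbw hiw
    refine ih (N1 ⊔ Submodule.span F {u}) ?_ _ (lineS_mem u heQ hw) ?_ ?_ A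
    · refine lt_of_le_of_ne le_sup_left fun h => hu ?_
      rw [h]
      exact Submodule.mem_sup_right (Submodule.mem_span_singleton_self u)
    · rw [bd_lineS, hbw, map_zero]
    · intro B hB
      obtain ⟨B1, hB1, B2, hB2, rfl⟩ := Submodule.mem_sup.1 hB
      obtain ⟨t, rfl⟩ := Submodule.mem_span_singleton.1 hB2
      rw [← act_e he, act_lineS_self he, act_lineS he, hiw B1 hB1]
  by_cases hA : ∃ a b : N, b ∉ N1 ∧ ∀ k : F, a + k • b ∉ N1
  · obtain ⟨a, b, hb1, hab⟩ := hA
    have ha : a ∉ N1 := by simpa using hab 0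
    have hid := line_identity hodd he a b z
    have h1 : act (e A) z + z = ∑ k : F, (act (e A) (lineS F e (a + k • b) z)
        + lineS F e (a + k • b) z) + (act (e A) (lineS F e b z) + lineS F e b z)
        + (act (e A) (lineS F e a (lineS F e b z)) + lineS F e a (lineS F e b z)) := by
      conv_lhs => rw [hid]
      simp only [map_add, map_sum, sum_add_distrib]
      abel
    rw [h1]
    refine add_mem (add_mem (Submodule.sum_mem _ fun k _ => hline _ (hab k) z hz hb hinv)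
      (hline b hb1 z hz hb hinv)) (hline a ha _ (lineS_mem b heQ hz) ?_ ?_)
    · rw [bd_lineS, hb, map_zero]
    · intro B hB
      rw [act_lineS he, hinv B hB]
  · by_cases hAN : A ∈ N1
    · rw [hinv A hAN, add_self_ch]; exact Submodule.zero_mem _
    · push Not at hA
      obtain ⟨lam, hl1, hl2⟩ := N1.exists_dual_map_eq_bot_of_notMem hAN inferInstance
      have hker : ∀ B ∈ N1, lam B = 0 := fun B hB => by
        have : lam B ∈ N1.map lam := Submodule.mem_map_of_mem hB
        rwa [hl2, Submodule.mem_bot] at this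
      refine base hodd he hLQ heQ hdec hstrict hsmul lam (b := (lam A)⁻¹ • A) ?_
        (hM lam fun h => hl1 (by rw [h]; rfl)) hz hb (fun B hB => hinv B ?_) A
      · rw [map_smul, smul_eq_mul, inv_mul_cancel₀ hl1]
      · obtain ⟨k, hk⟩ := hA B A hAN
        have h1 := hker _ hk
        rw [map_add, LinearMap.mem_ker.1 hB, zero_add, map_smul, smul_eq_mul] at h1
        have h2 : k = 0 := (mul_eq_zero.1 h1).resolve_right hl1
        rwa [h2, zero_smul, add_zero] at hk

end Unip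

/-- an abelian unipotent radical acts trivially on homology -/
theorem unip_trivial {I G F N : Type} [Group G] [Field F] [Fintype F]
    (hodd : Odd (Fintype.card F)) [AddCommGroup N] [Module F N] [Finite N]
    (e : N → G) (he : ∀ A A', e (A + A') = e A * e A') (K : I → Subgroup G) (Q L : Subgroup G)
    (hLQ : L ≤ Q) (heQ : ∀ A, e A ∈ Q) (hdec : ∀ q ∈ Q, ∃ A, ∃ l ∈ L, q = e A * l)
    (hstrict : ∀ c A, ∀ l ∈ L, ∀ l' ∈ L, l⁻¹ * e A * l' ∈ K c → l⁻¹ * l' ∈ K c)
    (hsmul : ∀ c A (a : F), ∀ l ∈ L, l⁻¹ * e A * l ∈ K c → l⁻¹ * e (a • A) * l ∈ K c)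
    {m : ℕ}
    (hM : ∀ lam : N →ₗ[F] F, lam ≠ 0 →
      RelAcyc (CC K L Set.univ) {σ | ∃ A, tr (e A) σ = σ ∧ lam A ≠ 0} m) :
    (∀ z ∈ chains (CC K Q Set.univ) m, bd z = 0 → ∀ A,
      act (e A) z + z ∈ bdries (CC K Q Set.univ) m) ∧
    (∀ z ∈ chains (CC K Q Set.univ) m, bd z = 0 →
      ∃ z' ∈ chains (CC K L Set.univ) m, bd z' = 0 ∧ z + z' ∈ bdries (CC K Q Set.univ) m) := by
  classical
  have : Fintype N := Fintype.ofFinite N
  have h1 : ∀ z ∈ chains (CC K Q Set.univ) m, bd z = 0 → ∀ A,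
      act (e A) z + z ∈ bdries (CC K Q Set.univ) m := by
    intro z hz hb A
    refine Unip.part_one hodd he hLQ heQ hdec hstrict hsmul hM ⊥ z hz hb (fun B hB => ?_) A
    rw [(Submodule.mem_bot F).1 hB, Unip.e_zero he, act_one]
  have h2 : ∀ z ∈ chains (CC K Q Set.univ) m, bd z = 0 →
      Unip.avS e (⊤ : Submodule F N) z + z ∈ bdries (CC K Q Set.univ) m := by
    intro z hz hb
    refine sumAct_add_mem ?_ fun A _ => h1 z hz hb A
    convert Unip.odd_card_filter hodd (⊤ : Submodule F N).toAddSubgroup using 3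
    simp
  refine ⟨h1, fun z hz hb => ?_⟩
  obtain ⟨α, β, hαβ⟩ := Unip.exists_dec (K := K) hdec
  have hσ := mem_chains.1 hz
  let y : Ch (Vtx I G) := ∑ σ ∈ z.support, sng (β σ)
  have hy : y ∈ chains (CC K L Set.univ) m := by
    refine Submodule.sum_mem _ fun σ h => ?_
    have h1 := hσ σ h
    obtain ⟨h2, h3⟩ := hαβ σ h1.1
    refine sng_mem_chains h2 ?_
    rw [← h1.2]
    conv_rhs => rw [h3, card_tr]
  have hzy : Unip.avS e (⊤ : Submodule F N) z = Unip.avS e (⊤ : Submodule F N) y := by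
    rw [map_eq_sum (Unip.avS e (⊤ : Submodule F N)) z]
    simp only [y, map_sum]
    refine sum_congr rfl fun σ h => ?_
    obtain ⟨_, h3⟩ := hαβ σ (hσ σ h).1
    conv_rhs => rw [← Unip.avS_act he _ (Submodule.mem_top (x := α σ)), act_sng, ← h3]
  have hbd : bd y ∈ supp (CC K L Set.univ) :=
    bd_mem_supp (isLowerSet_CC K L _) (chains_le_supp _ _ hy)
  have hby : bd y = 0 := by
    ext σ
    by_contra hn
    have hσL := mem_supp.1 hbd σ (Finsupp.mem_support_iff.2 hn)
    refine hn ?_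
    rw [← Unip.eval_avS hodd he hstrict ⊤ hbd hσL, ← Unip.bd_avS, ← hzy, Unip.bd_avS, hb,
      map_zero]
  refine ⟨y, hy, hby, ?_⟩
  have h3 := h2 z hz hb
  have h4 := h2 y (chains_mono (CC_mono K hLQ subset_rfl) m hy) hby
  rw [add_comm, hzy] at h3
  exact bdries_trans h3 h4

end Vale.Agent.P067
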