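import Vale.Agent.P067.Coset
import Vale.Agent.P067.ChainRed

set_option linter.unusedSectionVars false

namespace Vale.Agent.P067

open Finset

namespace BridgeAux

variable {I G : Type} [Group G] [DecidableEq I]

theorem exists_cochain (K : I → Subgroup G) (R : Finset I) (a : Finset I → G → ZMod 2)
    (ha : Typed K a) : ∃ f : Finset (Vtx I G) → ZMod 2,
      ∀ k ∈ KT K R, ∀ T, f (face K k T) = a (T ∪ R) k := by
  classical
  refine ⟨fun σ => if h : ∃ p : G × Finset I, p.1 ∈ KT K R ∧ σ = face K p.1 p.2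
    then a (h.choose.2 ∪ R) h.choose.1 else 0, fun k hk T => ?_⟩
  have h : ∃ p : G × Finset I, p.1 ∈ KT K R ∧ face K k T = face K p.1 p.2 := ⟨(k, T), hk, rfl⟩
  simp only [dif_pos h]
  obtain ⟨h1, h2⟩ := h.choose_spec
  obtain ⟨h3, h4⟩ := (face_eq_iff K).1 h2
  rw [← h3]
  have h5 : k⁻¹ * h.choose.1 ∈ KT K (T ∪ R) := by
    rw [mem_KT]
    intro c hc
    rcases mem_union.1 hc with hc | hc
    · exact mem_KT.1 h4 c hc
    · exact mem_KT.1 ((KT K R).mul_mem ((KT K R).inv_mem hk) h1) c hc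
  have := ha (T ∪ R) k _ h5
  rwa [mul_inv_cancel_left] at this

theorem sum_face {M : Type*} [AddCommMonoid M] (K : I → Subgroup G) (g : G) (T : Finset I)
    (F : Finset (Vtx I G) → M) :
    ∑ v ∈ face K g T, F ((face K g T).erase v) = ∑ c ∈ T, F (face K g (T.erase c)) := by
  conv_lhs => rw [face]
  rw [Finset.sum_image (fun a _ b _ hab => vtx_injective K g hab)]
  refine Finset.sum_congr rfl fun c _ => ?_
  rw [face_erase]
  rfl

/-- vertex map induced by an automorphism -/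
def Th (θ : G ≃* G) (τ : I ≃ I) (v : Vtx I G) : Vtx I G := ⟨τ v.ty, θ '' v.cs⟩

theorem Th_symm (θ : G ≃* G) (τ : I ≃ I) (v : Vtx I G) : Th θ.symm τ.symm (Th θ τ v) = v := by
  refine Vtx.ext (τ.symm_apply_apply _) ?_
  simp [Th, Set.image_image]

theorem Th_injective (θ : G ≃* G) (τ : I ≃ I) : Function.Injective (Th θ τ) :=
  Function.LeftInverse.injective (Th_symm θ τ)

theorem Th_smul (θ : G ≃* G) (τ : I ≃ I) (g : G) (v : Vtx I G) :
    Th θ τ (g • v) = θ g • Th θ τ v := by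
  refine Vtx.ext rfl ?_
  simp only [Th, smul_cs]
  ext x
  simp only [Set.mem_image, Set.mem_smul_set, smul_eq_mul]
  constructor
  · rintro ⟨_, ⟨y, hy, rfl⟩, rfl⟩
    exact ⟨θ y, ⟨y, hy, rfl⟩, (map_mul θ g y).symm⟩
  · rintro ⟨_, ⟨y, hy, rfl⟩, rfl⟩
    exact ⟨g * y, ⟨y, hy, rfl⟩, map_mul θ g y⟩

theorem Th_vtx (K : I → Subgroup G) (θ : G ≃* G) (τ : I ≃ I)
    (hK : ∀ c g, θ g ∈ K (τ c) ↔ g ∈ K c) (g : G) (c : I) :
    Th θ τ (vtx K g c) = vtx K (θ g) (τ c) := by
  refine Vtx.ext rfl ?_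
  simp only [Th, vtx]
  ext x
  simp only [Set.mem_image, Set.mem_smul_set, smul_eq_mul, SetLike.mem_coe]
  constructor
  · rintro ⟨_, ⟨y, hy, rfl⟩, rfl⟩
    exact ⟨θ y, (hK c y).2 hy, (map_mul θ g y).symm⟩
  · rintro ⟨y, hy, rfl⟩
    refine ⟨g * θ.symm y, ⟨θ.symm y, (hK c _).1 (by simpa using hy), rfl⟩, by simp⟩

theorem Th_mem_chains (K : I → Subgroup G) (θ : G ≃* G) (τ : I ≃ I)
    (hK : ∀ c g, θ g ∈ K (τ c) ↔ g ∈ K c) {L L' : Subgroup G} (hL : ∀ g ∈ L, θ g ∈ L') {m : ℕ}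
    {z : Ch (Vtx I G)} (hz : z ∈ chains (CC K L Set.univ) m) :
    mapCh (Th θ τ) z ∈ chains (CC K L' Set.univ) m := by
  refine mapCh_mem_chains fun σ hσ => ?_
  obtain ⟨⟨g, hg, T, -, rfl⟩, h2⟩ := mem_chains.1 hz σ hσ
  refine ⟨⟨θ g, hL g hg, T.image τ, Set.subset_univ _, ?_⟩, ?_⟩
  · simp only [face, image_image]
    exact image_congr fun c _ => Th_vtx K θ τ hK g c
  · rw [card_image_of_injective _ (Th_injective θ τ), h2]

end BridgeAux

open BridgeAux in
/-- a bounded cone in the link gives coboundary expansion of the link -/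
theorem linkExp_of_hasCone {I G : Type} [Group G] [Fintype G] [Fintype I] [DecidableEq I]
    (K : I → Subgroup G) (R : Finset I) {j ρ m : ℕ} (hm : m ≤ R.card + j)
    (h : HasCone (CC K (KT K R) (↑R : Set I)ᶜ) j ρ) :
    LinkExp K R m (2 ^ Fintype.card I * ρ) := by
  classical
  intro a ha
  obtain ⟨c, hc⟩ := h
  obtain ⟨f, hf⟩ := exists_cochain K R a ha
  set H := KT K R with hH
  let pf : Ch (Vtx I G) →ₗ[ZMod 2] ZMod 2 := Finsupp.linearCombination (ZMod 2) f
  let df : Finset (Vtx I G) → ZMod 2 := fun σ => ∑ v ∈ σ, f (σ.erase v)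
  let pd : Ch (Vtx I G) →ₗ[ZMod 2] ZMod 2 := Finsupp.linearCombination (ZMod 2) df
  have hpf : ∀ σ, pf (sng σ) = f σ := fun σ => linearCombination_sng _ _
  have hpd : ∀ σ, pd (sng σ) = df σ := fun σ => linearCombination_sng _ _
  have hbd : ∀ w, pf (bd w) = pd w := by
    intro w
    have : (pf ∘ₗ bd) w = pd w := by
      refine map_congr_of_sng fun σ _ => ?_
      simp only [LinearMap.comp_apply, bd_sng, map_sum, hpf, hpd, df]
    simpa using this
  have hdf : ∀ k ∈ H, ∀ T, Disjoint T R → df (face K k T) = tdel R a (T ∪ R) k := by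
    intro k hk T hT
    simp only [df, tdel]
    rw [sum_face K k T f, union_sdiff_cancel_right hT]
    refine Finset.sum_congr rfl fun x hx => ?_
    rw [hf k hk, erase_union_distrib, erase_eq_of_notMem (disjoint_left.1 hT hx)]
  let φ : G → Finset I → G → ZMod 2 := fun y T k =>
    if R ⊆ T ∧ k ∈ H then pf (act y (c (face K (y⁻¹ * k) (T \ R)))) else 0
  have hφ : ∀ y, Typed K (φ y) := by
    intro y T k k' hk'
    simp only [φ]
    by_cases hT : R ⊆ T
    · have h1 : k' ∈ H := KT_anti K hT hk'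
      have h2 : face K (y⁻¹ * (k * k')) (T \ R) = face K (y⁻¹ * k) (T \ R) := by
        symm
        refine (face_eq_iff K).2 ⟨rfl, ?_⟩
        have : (y⁻¹ * k)⁻¹ * (y⁻¹ * (k * k')) = k' := by group
        rw [this]
        exact KT_anti K sdiff_subset hk'
      rw [h2]
      simp only [H.mul_mem_cancel_right h1]
    · rw [if_neg (fun h => hT h.1), if_neg (fun h => hT h.1)]
  have hmem : ∀ k ∈ H, ∀ T : Finset I, face K k (T \ R) ∈ CC K H (↑R : Set I)ᶜ := by
    intro k hk T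
    refine face_mem_CC K hk ?_
    intro x hx
    exact (mem_sdiff.1 hx).2
  have hcard : ∀ k, ∀ T : Finset I, R ⊆ T → T.card = m → (face K k (T \ R)).card ≤ j := by
    intro k T h1 h2
    rw [card_face, card_sdiff_of_subset h1]
    omega
  have hkey : ∀ y ∈ H, ∀ T : Finset I, R ⊆ T → T.card = m → ∀ k ∈ H,
      (a + tdel R (φ y)) T k = pd (act y (c (face K (y⁻¹ * k) (T \ R)))) := by
    intro y hy T h1 h2 k hk
    have hk' : y⁻¹ * k ∈ H := H.mul_mem (H.inv_mem hy) hk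
    obtain ⟨-, -, h3⟩ := hc _ (hmem _ hk' T) (hcard _ T h1 h2)
    rw [← hbd, bd_act, h3, map_add, map_add, act_sng, tr_face, mul_inv_cancel_left, hpf, hf k hk,
      sdiff_union_of_subset h1, sum_face K _ _ c, map_sum, map_sum]
    simp only [Pi.add_apply, tdel]
    congr 1
    refine Finset.sum_congr rfl fun x hx => ?_
    have h4 : R ⊆ T.erase x := subset_erase.2 ⟨h1, (mem_sdiff.1 hx).2⟩
    simp only [φ]
    rw [if_pos ⟨h4, hk⟩, erase_sdiff_comm]
  set N := cnt H R (m + 1) (tdel R a) with hN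
  let Hs : Finset G := univ.filter (fun k => k ∈ H)
  have hHs : ∀ k, k ∈ Hs ↔ k ∈ H := fun k => by simp [Hs]
  have hone : ∀ τ ∈ CC K H (↑R : Set I)ᶜ, τ.card + R.card = m + 1 →
      (Hs.filter (fun y => df (tr y τ) ≠ 0)).card ≤ N := by
    rintro τ ⟨g, hg, T, hT, rfl⟩ h2
    have hTR : Disjoint T R := disjoint_left.2 fun x hx => hT hx
    rw [card_face] at h2
    calc (Hs.filter (fun y => df (tr y (face K g T)) ≠ 0)).card
        ≤ (univ.filter (fun k => k ∈ H ∧ tdel R a (T ∪ R) k ≠ 0)).card := by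
          refine card_le_card_of_injOn (fun y => y * g) ?_ (fun x _ y _ h => mul_right_cancel h)
          intro y hy
          simp only [coe_filter, Set.mem_ofPred_eq, hHs] at hy
          have h3 := H.mul_mem hy.1 hg
          rw [tr_face, hdf _ h3 T hTR] at hy
          simp only [coe_filter, Set.mem_ofPred_eq, mem_univ, true_and]
          exact ⟨h3, hy.2⟩
      _ ≤ N := by
          rw [hN, cnt]
          refine Finset.single_le_sum
            (f := fun T => (univ.filter (fun k => k ∈ H ∧ tdel R a T k ≠ 0)).card)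
            (fun _ _ => Nat.zero_le _) ?_
          rw [mem_filter]
          exact ⟨mem_univ _, subset_union_right, by rw [card_union_of_disjoint hTR, h2]⟩
  have htwo : ∀ T : Finset I, R ⊆ T → T.card = m → ∀ k ∈ H,
      (Hs.filter (fun y => pd (act y (c (face K k (T \ R)))) ≠ 0)).card ≤ ρ * N := by
    intro T h1 h2 k hk
    obtain ⟨h3, h4, -⟩ := hc _ (hmem _ hk T) (hcard _ T h1 h2)
    calc (Hs.filter (fun y => pd (act y (c (face K k (T \ R)))) ≠ 0)).card
        ≤ ((c (face K k (T \ R))).support.biUnion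
            (fun τ => Hs.filter (fun y => df (tr y τ) ≠ 0))).card := by
          refine card_le_card fun y hy => ?_
          rw [mem_filter] at hy
          have h5 : pd (act y (c (face K k (T \ R))))
              = ∑ τ ∈ (c (face K k (T \ R))).support, df (tr y τ) := by
            rw [map_eq_sum (act y), map_sum]
            simp only [act_sng, hpd]
          obtain ⟨τ, hτ, h6⟩ := Finset.exists_ne_zero_of_sum_ne_zero (h5 ▸ hy.2)
          exact mem_biUnion.2 ⟨τ, hτ, mem_filter.2 ⟨hy.1, h6⟩⟩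
      _ ≤ (c (face K k (T \ R))).support.card * N := by
          refine card_biUnion_le_card_mul _ _ _ fun τ hτ => ?_
          obtain ⟨h5, h6⟩ := mem_chains.1 h3 τ hτ
          refine hone τ h5 ?_
          rw [h6, card_face, card_sdiff_of_subset h1]
          have := card_le_card h1
          omega
      _ ≤ ρ * N := Nat.mul_le_mul_right _ h4
  have hthree : ∀ T : Finset I, R ⊆ T → T.card = m →
      ∑ y ∈ Hs, (univ.filter (fun k => k ∈ H ∧ (a + tdel R (φ y)) T k ≠ 0)).card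
        ≤ Hs.card * (ρ * N) := by
    intro T h1 h2
    calc ∑ y ∈ Hs, (univ.filter (fun k => k ∈ H ∧ (a + tdel R (φ y)) T k ≠ 0)).card
        ≤ ∑ y ∈ Hs, (Hs.filter (fun k => pd (act y (c (face K k (T \ R)))) ≠ 0)).card := by
          refine Finset.sum_le_sum fun y hy => ?_
          rw [hHs] at hy
          refine card_le_card_of_injOn (fun k => y⁻¹ * k) ?_ (fun x _ y _ h => mul_left_cancel h)
          intro k hk
          simp only [coe_filter, Set.mem_ofPred_eq, mem_univ, true_and] at hk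
          rw [hkey y hy T h1 h2 k hk.1] at hk
          simp only [coe_filter, Set.mem_ofPred_eq, hHs]
          exact ⟨H.mul_mem (H.inv_mem hy) hk.1, hk.2⟩
      _ = ∑ k ∈ Hs, (Hs.filter (fun y => pd (act y (c (face K k (T \ R)))) ≠ 0)).card := by
          simp only [card_filter]
          exact Finset.sum_comm
      _ ≤ Hs.card * (ρ * N) := by
          rw [← smul_eq_mul]
          exact Finset.sum_le_card_nsmul _ _ _ fun k hk => htwo T h1 h2 k ((hHs k).1 hk)
  have hfour : ∑ y ∈ Hs, cnt H R m (a + tdel R (φ y))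
      ≤ ∑ _y ∈ Hs, 2 ^ Fintype.card I * ρ * N := by
    simp only [cnt]
    rw [Finset.sum_comm]
    refine (Finset.sum_le_card_nsmul _ _ (Hs.card * (ρ * N)) fun T hT => ?_).trans ?_
    · rw [mem_filter] at hT
      exact hthree T hT.2.1 hT.2.2
    · rw [Finset.sum_const, smul_eq_mul, smul_eq_mul]
      have h5 : ((univ : Finset (Finset I)).filter (fun T => R ⊆ T ∧ T.card = m)).card
          ≤ 2 ^ Fintype.card I := by
        rw [← Fintype.card_finset]
        exact card_le_univ _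
      calc _ ≤ 2 ^ Fintype.card I * (Hs.card * (ρ * N)) := Nat.mul_le_mul_right _ h5
        _ = _ := by ring
  obtain ⟨y, -, hy⟩ := Finset.exists_le_of_sum_le ⟨1, (hHs 1).2 H.one_mem⟩ hfour
  exact ⟨φ y, hφ y, hy⟩

/-- transport of cones along an embedding of groups -/
theorem hasCone_CC_map {I G J U : Type} [Group G] [Group U] (K : I → Subgroup G)
    (KU : J → Subgroup U) (ι : U →* G) (τ : J → I) (T₀ : Set J) (hτ : Set.InjOn τ T₀)
    (hK : ∀ j ∈ T₀, ∀ u, ι u ∈ K (τ j) ↔ u ∈ KU j) (Q : Subgroup U)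
    (a : Vtx J U → Prop) (a' : Vtx I G → Prop)
    (ha : ∀ u ∈ Q, ∀ j ∈ T₀, a' (vtx K (ι u) (τ j)) ↔ a (vtx KU u j)) {m ρ : ℕ}
    (h : HasCone (Full (CC KU Q T₀) a) m ρ) :
    HasCone (Full (CC K (Q.map ι) (τ '' T₀)) a') m ρ := by
  classical
  have hv0 : Nonempty (Vtx J U) := by
    obtain ⟨c, hc⟩ := h
    obtain ⟨h1, -, h3⟩ := hc ∅ ⟨⟨1, Q.one_mem, ∅, by simp, rfl⟩, by simp⟩ (by simp)
    have h4 : c ∅ ≠ 0 := by
      intro h0
      rw [h0, map_zero, sum_empty, add_zero] at h3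
      have := congrArg Finsupp.support h3
      simp at this
    obtain ⟨σ, hσ⟩ := Finsupp.support_nonempty_iff.2 h4
    obtain ⟨v, -⟩ := card_pos.1 (by rw [(mem_chains.1 h1 σ hσ).2]; omega : 0 < σ.card)
    exact ⟨v⟩
  obtain ⟨v0⟩ := hv0
  have hiff : ∀ u u' : U, ∀ j ∈ T₀, ∀ j' ∈ T₀,
      (vtx K (ι u) (τ j) = vtx K (ι u') (τ j') ↔ vtx KU u j = vtx KU u' j') := by
    intro u u' j hj j' hj'
    rw [vtx_eq_iff, vtx_eq_iff, ← map_inv, ← map_mul, hK j hj]
    exact ⟨fun h => ⟨hτ hj hj' h.1, h.2⟩, fun h => ⟨by rw [h.1], h.2⟩⟩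
  obtain ⟨φ, hφ⟩ : ∃ φ : Vtx I G → Vtx J U, ∀ u, ∀ j ∈ T₀, φ (vtx K (ι u) (τ j)) = vtx KU u j := by
    refine ⟨fun w => if h : ∃ p : U × J, p.2 ∈ T₀ ∧ w = vtx K (ι p.1) (τ p.2)
      then vtx KU h.choose.1 h.choose.2 else v0, fun u j hj => ?_⟩
    have h : ∃ p : U × J, p.2 ∈ T₀ ∧ vtx K (ι u) (τ j) = vtx K (ι p.1) (τ p.2) :=
      ⟨(u, j), hj, rfl⟩
    simp only [dif_pos h]
    exact ((hiff _ _ j hj _ h.choose_spec.1).1 h.choose_spec.2).symm
  obtain ⟨ψ, hψ⟩ : ∃ ψ : Vtx J U → Vtx I G, ∀ u, ∀ j ∈ T₀, ψ (vtx KU u j) = vtx K (ι u) (τ j) := by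
    refine ⟨fun w => if h : ∃ p : U × J, p.2 ∈ T₀ ∧ w = vtx KU p.1 p.2
      then vtx K (ι h.choose.1) (τ h.choose.2) else ⟨τ w.ty, ∅⟩, fun u j hj => ?_⟩
    have h : ∃ p : U × J, p.2 ∈ T₀ ∧ vtx KU u j = vtx KU p.1 p.2 := ⟨(u, j), hj, rfl⟩
    simp only [dif_pos h]
    exact ((hiff _ _ j hj _ h.choose_spec.1).2 h.choose_spec.2).symm
  refine hasCone_transport φ ψ ?_ ?_ h
  · rintro σ ⟨⟨g, ⟨u, hu, rfl⟩, T, hT, rfl⟩, h2⟩
    obtain ⟨T', hT', rfl⟩ := Finset.subset_set_image_iff.1 hT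
    have e : (face K (ι u) (T'.image τ)).image φ = face KU u T' := by
      simp only [face, image_image]
      exact image_congr fun j hj => hφ u j (hT' hj)
    refine ⟨⟨by rw [e]; exact face_mem_CC KU hu hT', ?_⟩, ?_⟩
    · intro v hv
      rw [e] at hv
      obtain ⟨j, hj, rfl⟩ := mem_image.1 hv
      exact (ha u hu j (hT' hj)).1 (h2 _ (vtx_mem_face.2 (mem_image_of_mem τ hj)))
    · intro v hv
      obtain ⟨i, hi, rfl⟩ := mem_image.1 hv
      obtain ⟨j, hj, rfl⟩ := mem_image.1 hi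
      rw [hφ u j (hT' hj), hψ u j (hT' hj)]
  · rintro σ ⟨⟨u, hu, T, hT, rfl⟩, h2⟩
    have e : (face KU u T).image ψ = face K (ι u) (T.image τ) := by
      simp only [face, image_image]
      exact image_congr fun j hj => hψ u j (hT hj)
    refine ⟨⟨?_, ?_⟩, ?_⟩
    · rw [e]
      refine face_mem_CC K (Subgroup.mem_map_of_mem ι hu) ?_
      rw [coe_image]
      exact Set.image_mono hT
    · intro v hv
      rw [e] at hv
      obtain ⟨i, hi, rfl⟩ := mem_image.1 hv
      obtain ⟨j, hj, rfl⟩ := mem_image.1 hi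
      exact (ha u hu j (hT hj)).2 (h2 _ (vtx_mem_face.2 hj))
    · intro v hv w hw hvw
      obtain ⟨j, hj, rfl⟩ := mem_image.1 (mem_coe.1 hv)
      obtain ⟨j', hj', rfl⟩ := mem_image.1 (mem_coe.1 hw)
      rw [hψ u j (hT hj), hψ u j' (hT hj')] at hvw
      exact (hiff u u j (hT hj) j' (hT hj')).1 hvw

open BridgeAux in
/-- transport of the triviality of an action along an automorphism -/
theorem act_transport {I G : Type} [Group G] (K : I → Subgroup G) (θ : G ≃* G) (τ : I ≃ I)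
    (hK : ∀ c g, θ g ∈ K (τ c) ↔ g ∈ K c) (Q L Q' L' : Subgroup G)
    (hQ : ∀ g, θ g ∈ Q' ↔ g ∈ Q) (hL : ∀ g, θ g ∈ L' ↔ g ∈ L) (γ : G) {m : ℕ}
    (h : ∀ z ∈ chains (CC K L' Set.univ) m, bd z = 0 →
      act (θ γ) z + z ∈ bdries (CC K Q' Set.univ) m) :
    ∀ z ∈ chains (CC K L Set.univ) m, bd z = 0 → act γ z + z ∈ bdries (CC K Q Set.univ) m := by
  classical
  intro z hz hb
  have hK' : ∀ c g, θ.symm g ∈ K (τ.symm c) ↔ g ∈ K c := by
    intro c g
    rw [← hK (τ.symm c) (θ.symm g)]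
    simp
  obtain ⟨w, hw, hw'⟩ := mem_bdries.1 (h (mapCh (Th θ τ) z)
    (Th_mem_chains K θ τ hK (fun g hg => (hL g).2 hg) hz)
    (by rw [bd_mapCh (fun _ _ => (Th_injective θ τ).injOn), hb, map_zero]))
  refine mem_bdries.2 ⟨mapCh (Th θ.symm τ.symm) w,
    Th_mem_chains K θ.symm τ.symm hK' (fun g hg => (hQ _).1 (by simpa using hg)) hw, ?_⟩
  rw [bd_mapCh (fun _ _ => (Th_injective θ.symm τ.symm).injOn), hw', map_add]
  simp only [act, mapCh_mapCh]
  congr 1
  · congr 2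
    funext v
    simp only [Function.comp_apply]
    rw [← Th_smul, Th_symm]
  · exact mapCh_eq_self fun σ _ =>
      (image_congr (g := id) (fun v _ => Th_symm θ τ v)).trans image_id

end Vale.Agent.P067
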