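import Mathlib

/-!
Mod 2 simplicial chains (augmented) on the full simplex over a vertex type `V`.
A complex is a lower set `Y : Set (Finset V)`; degrees are cardinalities of faces.
-/

set_option linter.unusedSectionVars false

namespace Vale.Agent.P067

open Finset

abbrev Ch (V : Type*) := Finset V →₀ ZMod 2

section defs
variable {V : Type*} {V' : Type*}

noncomputable def sng (σ : Finset V) : Ch V := Finsupp.single σ 1

noncomputable def chains (Y : Set (Finset V)) (m : ℕ) : Submodule (ZMod 2) (Ch V) :=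
  Finsupp.supported (ZMod 2) (ZMod 2) {σ | σ ∈ Y ∧ σ.card = m}

noncomputable def supp (Y : Set (Finset V)) : Submodule (ZMod 2) (Ch V) :=
  Finsupp.supported (ZMod 2) (ZMod 2) Y

/-- full subcomplex on the vertices satisfying `a` -/
def Full (Y : Set (Finset V)) (a : V → Prop) : Set (Finset V) := {σ | σ ∈ Y ∧ ∀ v ∈ σ, a v}

variable [DecidableEq V] [DecidableEq V']

noncomputable def bd : Ch V →ₗ[ZMod 2] Ch V :=
  Finsupp.linearCombination (ZMod 2) (fun σ : Finset V => ∑ v ∈ σ, sng (σ.erase v))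

noncomputable def bdries (Y : Set (Finset V)) (m : ℕ) : Submodule (ZMod 2) (Ch V) :=
  (chains Y (m + 1)).map bd

/-- every cycle of faces of cardinality `m` bounds -/
def Acyc (Y : Set (Finset V)) (m : ℕ) : Prop :=
  ∀ z ∈ chains Y m, bd z = 0 → z ∈ bdries Y m

/-- every chain of `Y` with boundary in `A` is homologous in `Y` to a chain in `Y ∩ A` -/
def RelAcyc (Y A : Set (Finset V)) (m : ℕ) : Prop :=
  ∀ y ∈ chains Y m, bd y ∈ supp A → ∃ y' ∈ chains (Y ∩ A) m, y + y' ∈ bdries Y m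

/-- cycles of size at most `M` have fillings of size at most `M'` -/
def Fill (Y : Set (Finset V)) (m M M' : ℕ) : Prop :=
  ∀ z ∈ chains Y m, bd z = 0 → z.support.card ≤ M →
    ∃ w ∈ chains Y (m + 1), bd w = z ∧ w.support.card ≤ M'

/-- a contracting homotopy of radius `ρ` on faces of cardinality at most `m` -/
def HasCone (Y : Set (Finset V)) (m ρ : ℕ) : Prop :=
  ∃ c : Finset V → Ch V, ∀ σ ∈ Y, σ.card ≤ m →
    c σ ∈ chains Y (σ.card + 1) ∧ (c σ).support.card ≤ ρ ∧
      bd (c σ) = sng σ + ∑ v ∈ σ, c (σ.erase v)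

/-- the good link of a face `τ` made of bad vertices -/
def GLink (Y : Set (Finset V)) (bad : V → Prop) (τ : Finset V) : Set (Finset V) :=
  {σ | (∀ v ∈ σ, ¬ bad v) ∧ σ ∪ τ ∈ Y}

noncomputable def mapCh (φ : V → V') : Ch V →ₗ[ZMod 2] Ch V' :=
  Finsupp.lmapDomain (ZMod 2) (ZMod 2) (Finset.image φ)

noncomputable def joinCh (τ : Finset V) : Ch V →ₗ[ZMod 2] Ch V :=
  Finsupp.lmapDomain (ZMod 2) (ZMod 2) (fun σ => σ ∪ τ)

noncomputable def coneCh (y : V) : Ch V →ₗ[ZMod 2] Ch V :=
  Finsupp.linearCombination (ZMod 2) (fun σ : Finset V => if y ∈ σ then 0 else sng (insert y σ))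

end defs

section basic
variable {V : Type*} {V' : Type*}

@[simp] theorem add_self_ch (w : Ch V) : w + w = 0 := by
  ext σ; simp [CharTwo.add_self_eq_zero]

@[simp] theorem neg_ch (w : Ch V) : -w = w := by
  rw [neg_eq_iff_add_eq_zero, add_self_ch]

theorem sub_ch (w w' : Ch V) : w - w' = w + w' := by rw [sub_eq_add_neg, neg_ch]

theorem add_eq_zero_ch {w w' : Ch V} : w + w' = 0 ↔ w = w' := by
  rw [← sub_ch, sub_eq_zero]

theorem add_add_cancel_ch (w w' : Ch V) : w + w' + w' = w := by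
  rw [add_assoc, add_self_ch, add_zero]

theorem add_add_cancel_ch' (w w' : Ch V) : w + (w + w') = w' := by
  rw [← add_assoc, add_self_ch, zero_add]

theorem zmod2_eq_one {a : ZMod 2} (h : a ≠ 0) : a = 1 := by
  revert a; decide

theorem mem_chains {Y : Set (Finset V)} {m : ℕ} {w : Ch V} :
    w ∈ chains Y m ↔ ∀ σ ∈ w.support, σ ∈ Y ∧ σ.card = m := by
  simp only [chains, Finsupp.mem_supported]
  constructor
  · intro h σ hσ; exact h (Finset.mem_coe.2 hσ)
  · intro h σ hσ; exact h σ (Finset.mem_coe.1 hσ)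

theorem mem_supp {Y : Set (Finset V)} {w : Ch V} :
    w ∈ supp Y ↔ ∀ σ ∈ w.support, σ ∈ Y := by
  simp only [supp, Finsupp.mem_supported]
  constructor
  · intro h σ hσ; exact h (Finset.mem_coe.2 hσ)
  · intro h σ hσ; exact h σ (Finset.mem_coe.1 hσ)

theorem chains_mono {Y Y' : Set (Finset V)} (h : Y ⊆ Y') (m : ℕ) : chains Y m ≤ chains Y' m := by
  intro w hw
  rw [mem_chains] at hw ⊢
  exact fun σ hσ => ⟨h (hw σ hσ).1, (hw σ hσ).2⟩

theorem supp_mono {Y Y' : Set (Finset V)} (h : Y ⊆ Y') : supp Y ≤ supp Y' := by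
  intro w hw
  rw [mem_supp] at hw ⊢
  exact fun σ hσ => h (hw σ hσ)

theorem chains_le_supp (Y : Set (Finset V)) (m : ℕ) : chains Y m ≤ supp Y := by
  intro w hw
  rw [mem_chains] at hw
  rw [mem_supp]
  exact fun σ hσ => (hw σ hσ).1

@[simp] theorem support_sng (σ : Finset V) : (sng σ).support = {σ} := by
  simp [sng]

theorem sng_mem_chains {Y : Set (Finset V)} {σ : Finset V} (h : σ ∈ Y) {m : ℕ}
    (hm : σ.card = m) : sng σ ∈ chains Y m := by
  rw [mem_chains]; intro τ hτ
  simp only [support_sng, mem_singleton] at hτ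
  subst hτ; exact ⟨h, hm⟩

theorem sng_mem_supp {Y : Set (Finset V)} {σ : Finset V} (h : σ ∈ Y) : sng σ ∈ supp Y := by
  rw [mem_supp]; intro τ hτ
  simp only [support_sng, mem_singleton] at hτ
  subst hτ; exact h

/-- a chain is the sum of the faces in its support -/
theorem eq_sum_sng (w : Ch V) : w = ∑ σ ∈ w.support, sng σ := by
  conv_lhs => rw [← Finsupp.sum_single w]
  unfold Finsupp.sum
  refine Finset.sum_congr rfl fun σ hσ => ?_
  rw [zmod2_eq_one (Finsupp.mem_support_iff.1 hσ)]; rfl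

/-- the value of a linear map on a chain -/
theorem map_eq_sum {M : Type*} [AddCommMonoid M] [Module (ZMod 2) M]
    (f : Ch V →ₗ[ZMod 2] M) (w : Ch V) : f w = ∑ σ ∈ w.support, f (sng σ) := by
  conv_lhs => rw [eq_sum_sng w]
  rw [map_sum]

theorem map_congr_of_sng {M : Type*} [AddCommMonoid M] [Module (ZMod 2) M]
    {f g : Ch V →ₗ[ZMod 2] M} {w : Ch V} (h : ∀ σ ∈ w.support, f (sng σ) = g (sng σ)) :
    f w = g w := by
  rw [map_eq_sum f, map_eq_sum g]; exact Finset.sum_congr rfl h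

theorem map_mem_of_sng {M : Type*} [AddCommMonoid M] [Module (ZMod 2) M]
    {f : Ch V →ₗ[ZMod 2] M} {w : Ch V} {P : Submodule (ZMod 2) M}
    (h : ∀ σ ∈ w.support, f (sng σ) ∈ P) : f w ∈ P := by
  rw [map_eq_sum f]; exact P.sum_mem h

theorem card_support_sum_le {ι : Type*} (s : Finset ι) (f : ι → Ch V) (b : ℕ)
    (h : ∀ i ∈ s, (f i).support.card ≤ b) : (∑ i ∈ s, f i).support.card ≤ s.card * b := by
  classical
  calc (∑ i ∈ s, f i).support.card ≤ (s.biUnion fun i => (f i).support).card :=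
        card_le_card Finsupp.support_finsetSum
    _ ≤ s.card * b := card_biUnion_le_card_mul s _ b h

theorem card_support_add_le (w w' : Ch V) :
    (w + w').support.card ≤ w.support.card + w'.support.card := by
  classical
  exact (card_le_card Finsupp.support_add).trans (card_union_le _ _)

theorem card_support_map_le (f : Ch V →ₗ[ZMod 2] Ch V') (w : Ch V) (b : ℕ)
    (h : ∀ σ ∈ w.support, (f (sng σ)).support.card ≤ b) :
    (f w).support.card ≤ w.support.card * b := by
  rw [map_eq_sum f]; exact card_support_sum_le _ _ _ h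

theorem linearCombination_sng {M : Type*} [AddCommMonoid M] [Module (ZMod 2) M]
    (f : Finset V → M) (σ : Finset V) :
    Finsupp.linearCombination (ZMod 2) f (sng σ) = f σ := by
  simp [sng]

theorem isLowerSet_full {Y : Set (Finset V)} (hY : IsLowerSet Y) (a : V → Prop) :
    IsLowerSet (Full Y a) := by
  intro σ τ hle hσ
  exact ⟨hY hle hσ.1, fun v hv => hσ.2 v (hle hv)⟩

variable [DecidableEq V] [DecidableEq V']

theorem isLowerSet_glink {Y : Set (Finset V)} (hY : IsLowerSet Y) (bad : V → Prop)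
    (τ : Finset V) : IsLowerSet (GLink Y bad τ) := by
  intro σ σ' hle hσ
  exact ⟨fun v hv => hσ.1 v (hle hv), hY (union_subset_union_left hle) hσ.2⟩

theorem bd_sng (σ : Finset V) : bd (sng σ) = ∑ v ∈ σ, sng (σ.erase v) :=
  linearCombination_sng _ _

omit [DecidableEq V] in
theorem mapCh_sng (φ : V → V') (σ : Finset V) : mapCh φ (sng σ) = sng (σ.image φ) := by
  simp [mapCh, sng, Finsupp.mapDomain_single]

theorem joinCh_sng (τ σ : Finset V) : joinCh τ (sng σ) = sng (σ ∪ τ) := by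
  simp [joinCh, sng, Finsupp.mapDomain_single]

theorem coneCh_sng (y : V) (σ : Finset V) :
    coneCh y (sng σ) = if y ∈ σ then 0 else sng (insert y σ) :=
  linearCombination_sng _ _

theorem bd_bd (w : Ch V) : bd (bd w) = 0 := by
  have : (bd ∘ₗ bd : Ch V →ₗ[ZMod 2] Ch V) w = (0 : Ch V →ₗ[ZMod 2] Ch V) w := by
    refine map_congr_of_sng fun σ _ => ?_
    simp only [LinearMap.comp_apply, bd_sng, map_sum, LinearMap.zero_apply]
    rw [Finset.sum_sigma']
    refine Finset.sum_involution (fun x _ => ⟨x.2, x.1⟩) ?_ ?_ ?_ ?_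
    · intro x _
      simp only
      rw [Finset.erase_right_comm, add_self_ch]
    · intro x hx _ h
      simp only [mem_sigma, mem_erase] at hx
      have := congrArg Sigma.fst h
      exact hx.2.1 this
    · intro x hx
      simp only [mem_sigma, mem_erase] at hx ⊢
      exact ⟨hx.2.2, fun h => hx.2.1 h.symm, hx.1⟩
    · intro x _; rfl
  simpa using this

theorem bd_mem_chains {Y : Set (Finset V)} (hY : IsLowerSet Y) {m : ℕ} {w : Ch V}
    (hw : w ∈ chains Y (m + 1)) : bd w ∈ chains Y m := by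
  refine map_mem_of_sng fun σ hσ => ?_
  rw [bd_sng]
  obtain ⟨h1, h2⟩ := mem_chains.1 hw σ hσ
  refine Submodule.sum_mem _ fun v hv => sng_mem_chains (hY (erase_subset v σ) h1) ?_
  rw [card_erase_of_mem hv, h2]; rfl

theorem bd_mem_supp {Y : Set (Finset V)} (hY : IsLowerSet Y) {w : Ch V}
    (hw : w ∈ supp Y) : bd w ∈ supp Y := by
  refine map_mem_of_sng fun σ hσ => ?_
  rw [bd_sng]
  exact Submodule.sum_mem _ fun v _ => sng_mem_supp (hY (erase_subset v σ) (mem_supp.1 hw σ hσ))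

theorem bd_eq_zero_of_chains_zero {Y : Set (Finset V)} {w : Ch V} (hw : w ∈ chains Y 0) :
    bd w = 0 := by
  rw [map_eq_sum]
  refine Finset.sum_eq_zero fun σ hσ => ?_
  have := card_eq_zero.1 (mem_chains.1 hw σ hσ).2
  subst this
  simp [bd_sng]

theorem mem_bdries {Y : Set (Finset V)} {m : ℕ} {z : Ch V} :
    z ∈ bdries Y m ↔ ∃ w ∈ chains Y (m + 1), bd w = z := Submodule.mem_map

theorem bd_mem_bdries {Y : Set (Finset V)} {m : ℕ} {w : Ch V} (hw : w ∈ chains Y (m + 1)) :
    bd w ∈ bdries Y m := mem_bdries.2 ⟨w, hw, rfl⟩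

theorem bdries_mono {Y Y' : Set (Finset V)} (h : Y ⊆ Y') (m : ℕ) : bdries Y m ≤ bdries Y' m :=
  Submodule.map_mono (chains_mono h _)

theorem bdries_le_chains {Y : Set (Finset V)} (hY : IsLowerSet Y) (m : ℕ) :
    bdries Y m ≤ chains Y m := by
  intro z hz
  obtain ⟨w, hw, rfl⟩ := mem_bdries.1 hz
  exact bd_mem_chains hY hw

theorem bd_eq_zero_of_mem_bdries {Y : Set (Finset V)} {m : ℕ} {z : Ch V} (hz : z ∈ bdries Y m) :
    bd z = 0 := by
  obtain ⟨w, _, rfl⟩ := mem_bdries.1 hz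
  exact bd_bd w

/-- homologous chains: transitivity -/
theorem bdries_trans {Y : Set (Finset V)} {m : ℕ} {a b c : Ch V} (h1 : a + b ∈ bdries Y m)
    (h2 : b + c ∈ bdries Y m) : a + c ∈ bdries Y m := by
  have := Submodule.add_mem _ h1 h2
  rwa [add_assoc, add_add_cancel_ch'] at this

theorem bdries_of_add {Y : Set (Finset V)} {m : ℕ} {a b : Ch V} (h1 : a + b ∈ bdries Y m)
    (h2 : b ∈ bdries Y m) : a ∈ bdries Y m := by
  have := Submodule.add_mem _ h1 h2
  rwa [add_add_cancel_ch] at this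

theorem bd_coneCh (y : V) (w : Ch V) : bd (coneCh y w) + coneCh y (bd w) = w := by
  have : (bd ∘ₗ coneCh y + coneCh y ∘ₗ bd : Ch V →ₗ[ZMod 2] Ch V) w
      = (LinearMap.id : Ch V →ₗ[ZMod 2] Ch V) w := by
    refine map_congr_of_sng fun σ _ => ?_
    simp only [LinearMap.add_apply, LinearMap.comp_apply, LinearMap.id_apply, coneCh_sng, bd_sng,
      map_sum]
    by_cases hy : y ∈ σ
    · rw [if_pos hy, map_zero, zero_add, Finset.sum_eq_single y]
      · simp [insert_erase hy]
      · intro v _ hv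
        rw [if_pos (mem_erase.2 ⟨hv.symm, hy⟩)]
      · intro h; exact absurd hy h
    · rw [if_neg hy, bd_sng, sum_insert hy, erase_insert hy, add_assoc, ← sum_add_distrib]
      have : ∀ v ∈ σ, sng ((insert y σ).erase v) +
          (if y ∈ σ.erase v then 0 else sng (insert y (σ.erase v))) = 0 := by
        intro v hv
        have hne : y ≠ v := fun h => hy (h ▸ hv)
        rw [if_neg (fun h => hy (mem_of_mem_erase h)), erase_insert_of_ne hne, add_self_ch]
      rw [Finset.sum_congr rfl this]; simp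
  simpa using this

theorem coneCh_mem_chains {Y : Set (Finset V)} {m : ℕ} {w : Ch V} (y : V)
    (h : ∀ σ ∈ w.support, insert y σ ∈ Y ∧ σ.card = m) : coneCh y w ∈ chains Y (m + 1) := by
  refine map_mem_of_sng fun σ hσ => ?_
  rw [coneCh_sng]
  split_ifs with hy
  · exact Submodule.zero_mem _
  · exact sng_mem_chains (h σ hσ).1 (by rw [card_insert_of_notMem hy, (h σ hσ).2])

theorem card_support_coneCh_le (y : V) (w : Ch V) :
    (coneCh y w).support.card ≤ w.support.card := by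
  have := card_support_map_le (coneCh y) w 1 (fun σ _ => by
    rw [coneCh_sng]; split_ifs <;> simp)
  simpa using this

theorem card_support_mapCh_le (φ : V → V') (w : Ch V) :
    (mapCh φ w).support.card ≤ w.support.card := by
  have := card_support_map_le (mapCh φ) w 1 (fun σ _ => by rw [mapCh_sng]; simp)
  simpa using this

theorem card_support_joinCh_le (τ : Finset V) (w : Ch V) :
    (joinCh τ w).support.card ≤ w.support.card := by
  have := card_support_map_le (joinCh τ) w 1 (fun σ _ => by rw [joinCh_sng]; simp)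
  simpa using this

theorem bd_mapCh {φ : V → V'} {w : Ch V} (h : ∀ σ ∈ w.support, Set.InjOn φ σ) :
    bd (mapCh φ w) = mapCh φ (bd w) := by
  have : (bd ∘ₗ mapCh φ) w = (mapCh φ ∘ₗ bd) w := by
    refine map_congr_of_sng fun σ hσ => ?_
    simp only [LinearMap.comp_apply, mapCh_sng, bd_sng, map_sum]
    rw [Finset.sum_image (fun a ha b hb hab => h σ hσ ha hb hab)]
    refine Finset.sum_congr rfl fun v hv => ?_
    congr 1
    ext x
    simp only [mem_erase, mem_image]
    constructor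
    · rintro ⟨hx, a, ha, rfl⟩
      exact ⟨a, ⟨fun h' => hx (by rw [h']), ha⟩, rfl⟩
    · rintro ⟨a, ⟨ha1, ha2⟩, rfl⟩
      exact ⟨fun h' => ha1 (h σ hσ ha2 hv h'), a, ha2, rfl⟩
  simpa using this

theorem mapCh_mem_chains {φ : V → V'} {Y' : Set (Finset V')} {m : ℕ} {w : Ch V}
    (h : ∀ σ ∈ w.support, σ.image φ ∈ Y' ∧ (σ.image φ).card = m) : mapCh φ w ∈ chains Y' m := by
  refine map_mem_of_sng fun σ hσ => ?_
  rw [mapCh_sng]; exact sng_mem_chains (h σ hσ).1 (h σ hσ).2

theorem mapCh_mapCh {V'' : Type*} [DecidableEq V''] (φ : V → V') (ψ : V' → V'') (w : Ch V) :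
    mapCh ψ (mapCh φ w) = mapCh (ψ ∘ φ) w := by
  have : (mapCh ψ ∘ₗ mapCh φ) w = mapCh (ψ ∘ φ) w := by
    refine map_congr_of_sng fun σ _ => ?_
    simp only [LinearMap.comp_apply, mapCh_sng, image_image]
  simpa using this

theorem mapCh_eq_self {φ : V → V} {w : Ch V} (h : ∀ σ ∈ w.support, σ.image φ = σ) :
    mapCh φ w = w := by
  have : mapCh φ w = (LinearMap.id : Ch V →ₗ[ZMod 2] Ch V) w := by
    refine map_congr_of_sng fun σ hσ => ?_
    simp only [mapCh_sng, LinearMap.id_apply, h σ hσ]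
  simpa using this

/-- Leibniz rule for the join with a face disjoint from the chain -/
theorem bd_joinCh {τ : Finset V} {w : Ch V} (h : ∀ σ ∈ w.support, Disjoint σ τ) :
    bd (joinCh τ w) = joinCh τ (bd w) + ∑ v ∈ τ, joinCh (τ.erase v) w := by
  have : (bd ∘ₗ joinCh τ) w = (joinCh τ ∘ₗ bd + ∑ v ∈ τ, joinCh (τ.erase v)) w := by
    refine map_congr_of_sng fun σ hσ => ?_
    have hd := h σ hσ
    simp only [LinearMap.comp_apply, joinCh_sng, bd_sng, map_sum, LinearMap.add_apply,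
      LinearMap.sum_apply]
    rw [sum_union hd]
    congr 1
    · refine Finset.sum_congr rfl fun v hv => ?_
      congr 1
      have : v ∉ τ := disjoint_left.1 hd hv
      ext x; simp only [mem_erase, mem_union]
      constructor
      · rintro ⟨h1, h2 | h2⟩
        · exact Or.inl ⟨h1, h2⟩
        · exact Or.inr h2
      · rintro (⟨h1, h2⟩ | h2)
        · exact ⟨h1, Or.inl h2⟩
        · exact ⟨fun h' => this (h' ▸ h2), Or.inr h2⟩
    · refine Finset.sum_congr rfl fun v hv => ?_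
      congr 1
      have : v ∉ σ := disjoint_right.1 hd hv
      ext x; simp only [mem_erase, mem_union]
      constructor
      · rintro ⟨h1, h2 | h2⟩
        · exact Or.inl h2
        · exact Or.inr ⟨h1, h2⟩
      · rintro (h2 | ⟨h1, h2⟩)
        · exact ⟨fun h' => this (h' ▸ h2), Or.inl h2⟩
        · exact ⟨h1, Or.inr h2⟩
  simpa [LinearMap.sum_apply] using this

theorem joinCh_mem_chains {Y : Set (Finset V)} {τ : Finset V} {m : ℕ} {w : Ch V}
    (h : ∀ σ ∈ w.support, σ ∪ τ ∈ Y ∧ (σ ∪ τ).card = m) : joinCh τ w ∈ chains Y m := by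
  refine map_mem_of_sng fun σ hσ => ?_
  rw [joinCh_sng]; exact sng_mem_chains (h σ hσ).1 (h σ hσ).2

theorem Fill.mono {Y : Set (Finset V)} {m M M' N N' : ℕ} (h : Fill Y m M M') (h1 : N ≤ M)
    (h2 : M' ≤ N') : Fill Y m N N' := by
  intro z hz hb hc
  obtain ⟨w, hw, hw1, hw2⟩ := h z hz hb (hc.trans h1)
  exact ⟨w, hw, hw1, hw2.trans h2⟩

theorem HasCone.mono {Y : Set (Finset V)} {m ρ m' ρ' : ℕ} (h : HasCone Y m ρ) (h1 : m' ≤ m)
    (h2 : ρ ≤ ρ') : HasCone Y m' ρ' := by
  obtain ⟨c, hc⟩ := h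
  refine ⟨c, fun σ hσ hm => ?_⟩
  obtain ⟨a1, a2, a3⟩ := hc σ hσ (hm.trans h1)
  exact ⟨a1, a2.trans h2, a3⟩

/-- a cone with apex `a` fills every cycle -/
theorem fill_of_apex {Y : Set (Finset V)} (a : V) (h : ∀ σ ∈ Y, insert a σ ∈ Y) (m M : ℕ) :
    Fill Y m M M := by
  intro z hz hb hc
  refine ⟨coneCh a z, coneCh_mem_chains a fun σ hσ => ?_, ?_, (card_support_coneCh_le a z).trans hc⟩
  · exact ⟨h σ (mem_chains.1 hz σ hσ).1, (mem_chains.1 hz σ hσ).2⟩
  · have := bd_coneCh a z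
    rwa [hb, map_zero, add_zero] at this

theorem acyc_of_apex {Y : Set (Finset V)} (a : V) (h : ∀ σ ∈ Y, insert a σ ∈ Y) (m : ℕ) :
    Acyc Y m := by
  intro z hz hb
  obtain ⟨w, hw, hw1, _⟩ := fill_of_apex a h m _ z hz hb le_rfl
  exact mem_bdries.2 ⟨w, hw, hw1⟩

theorem HasCone.fill {Y : Set (Finset V)} {m ρ : ℕ} (h : HasCone Y m ρ) {m' : ℕ} (hm : m' ≤ m)
    (M : ℕ) : Fill Y m' M (M * ρ) := by
  obtain ⟨c, hc⟩ := h
  intro z hz hb hM
  let C : Ch V →ₗ[ZMod 2] Ch V := Finsupp.linearCombination (ZMod 2) c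
  have hC : ∀ σ, C (sng σ) = c σ := fun σ => linearCombination_sng _ _
  have hσ : ∀ σ ∈ z.support, σ ∈ Y ∧ σ.card = m' := mem_chains.1 hz
  refine ⟨C z, map_mem_of_sng fun σ h => ?_, ?_, ?_⟩
  · rw [hC, ← (hσ σ h).2]; exact (hc σ (hσ σ h).1 ((hσ σ h).2.le.trans hm)).1
  · have : (bd ∘ₗ C) z = (LinearMap.id + C ∘ₗ bd : Ch V →ₗ[ZMod 2] Ch V) z := by
      refine map_congr_of_sng fun σ h => ?_
      simp only [LinearMap.comp_apply, LinearMap.add_apply, LinearMap.id_apply, hC, bd_sng,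
        map_sum]
      exact (hc σ (hσ σ h).1 ((hσ σ h).2.le.trans hm)).2.2
    simpa [hb] using this
  · refine (card_support_map_le C z ρ fun σ h => ?_).trans (Nat.mul_le_mul_right _ hM)
    rw [hC]; exact (hc σ (hσ σ h).1 ((hσ σ h).2.le.trans hm)).2.1

theorem HasCone.acyc {Y : Set (Finset V)} {m ρ : ℕ} (h : HasCone Y m ρ) {m' : ℕ} (hm : m' ≤ m) :
    Acyc Y m' := by
  intro z hz hb
  obtain ⟨w, hw, hw1, _⟩ := h.fill hm _ z hz hb le_rfl
  exact mem_bdries.2 ⟨w, hw, hw1⟩

end basic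

end Vale.Agent.P067
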