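import Vale.Agent.P067.Chain

/-!
Coset complexes of a group `G` with respect to a family of subgroups `K : I → Subgroup G`,
and cochains described as families of right invariant functions on `G`.
-/

namespace Vale.Agent.P067

open Finset Pointwise

/-- vertices: a type and a coset -/
@[ext] structure Vtx (I G : Type) where
  ty : I
  cs : Set G

noncomputable instance (I G : Type) : DecidableEq (Vtx I G) := Classical.decEq _

instance (I G : Type) [Finite I] [Finite G] : Finite (Vtx I G) :=
  Finite.of_injective (fun v : Vtx I G => (v.ty, v.cs)) (by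
    intro v w h
    simp only [Prod.mk.injEq] at h
    exact Vtx.ext h.1 h.2)

section
variable {I G : Type} [Group G]

instance : MulAction G (Vtx I G) where
  smul g v := ⟨v.ty, g • v.cs⟩
  one_smul v := Vtx.ext rfl (one_smul G v.cs)
  mul_smul a b v := Vtx.ext rfl (mul_smul a b v.cs)

@[simp] theorem smul_ty (g : G) (v : Vtx I G) : (g • v).ty = v.ty := rfl
theorem smul_cs (g : G) (v : Vtx I G) : (g • v).cs = g • v.cs := rfl

def vtx (K : I → Subgroup G) (g : G) (c : I) : Vtx I G := ⟨c, g • (K c : Set G)⟩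

noncomputable def face (K : I → Subgroup G) (g : G) (T : Finset I) : Finset (Vtx I G) :=
  T.image (vtx K g)

def KT (K : I → Subgroup G) (T : Finset I) : Subgroup G := ⨅ c ∈ T, K c

/-- the coset complex spanned by the chambers in `Q`, with types in `T₀` -/
def CC (K : I → Subgroup G) (Q : Subgroup G) (T₀ : Set I) : Set (Finset (Vtx I G)) :=
  {σ | ∃ g ∈ Q, ∃ T : Finset I, (↑T : Set I) ⊆ T₀ ∧ σ = face K g T}

/-- translation of a face -/
noncomputable def tr (g : G) (σ : Finset (Vtx I G)) : Finset (Vtx I G) := σ.image (fun v => g • v)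

/-- translation of a chain -/
noncomputable def act (g : G) : Ch (Vtx I G) →ₗ[ZMod 2] Ch (Vtx I G) := mapCh (fun v => g • v)

@[simp] theorem vtx_ty (K : I → Subgroup G) (g : G) (c : I) : (vtx K g c).ty = c := rfl

theorem smul_vtx (K : I → Subgroup G) (h g : G) (c : I) : h • vtx K g c = vtx K (h * g) c :=
  Vtx.ext rfl (mul_smul h g _).symm

theorem vtx_eq_iff (K : I → Subgroup G) {g g' : G} {c c' : I} :
    vtx K g c = vtx K g' c' ↔ c = c' ∧ g⁻¹ * g' ∈ K c := by
  constructor
  · intro h
    have h1 : c = c' := congrArg Vtx.ty h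
    subst h1
    exact ⟨rfl, (leftCoset_eq_iff (K c)).1 (congrArg Vtx.cs h)⟩
  · rintro ⟨rfl, h⟩
    exact Vtx.ext rfl ((leftCoset_eq_iff (K c)).2 h)

theorem vtx_injective (K : I → Subgroup G) (g : G) : Function.Injective (vtx K g) :=
  fun _ _ h => congrArg Vtx.ty h

theorem mem_KT {K : I → Subgroup G} {T : Finset I} {g : G} : g ∈ KT K T ↔ ∀ c ∈ T, g ∈ K c := by
  simp [KT, Subgroup.mem_iInf]

@[simp] theorem KT_empty (K : I → Subgroup G) : KT K ∅ = ⊤ := by
  ext g; simp [mem_KT]

theorem KT_anti (K : I → Subgroup G) {T T' : Finset I} (h : T ⊆ T') : KT K T' ≤ KT K T :=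
  fun _ hg => mem_KT.2 fun c hc => mem_KT.1 hg c (h hc)

theorem KT_le (K : I → Subgroup G) {T : Finset I} {c : I} (h : c ∈ T) : KT K T ≤ K c :=
  fun _ hg => mem_KT.1 hg c h

theorem mem_face {K : I → Subgroup G} {g : G} {T : Finset I} {v : Vtx I G} :
    v ∈ face K g T ↔ v.ty ∈ T ∧ v = vtx K g v.ty := by
  simp only [face, mem_image]
  constructor
  · rintro ⟨c, hc, rfl⟩; exact ⟨hc, rfl⟩
  · rintro ⟨h1, h2⟩; exact ⟨_, h1, h2.symm⟩

theorem vtx_mem_face {K : I → Subgroup G} {g : G} {T : Finset I} {c : I} :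
    vtx K g c ∈ face K g T ↔ c ∈ T := by
  rw [mem_face]; simp

@[simp] theorem card_face (K : I → Subgroup G) (g : G) (T : Finset I) :
    (face K g T).card = T.card := card_image_of_injective _ (vtx_injective K g)

@[simp] theorem face_empty (K : I → Subgroup G) (g : G) : face K g ∅ = ∅ := rfl

theorem face_mono (K : I → Subgroup G) (g : G) {T T' : Finset I} (h : T ⊆ T') :
    face K g T ⊆ face K g T' := image_subset_image h

theorem face_eq_iff (K : I → Subgroup G) {g g' : G} {T T' : Finset I} :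
    face K g T = face K g' T' ↔ T = T' ∧ g⁻¹ * g' ∈ KT K T := by
  constructor
  · intro h
    have hT : T = T' := by
      ext c
      constructor
      · intro hc
        have : vtx K g c ∈ face K g' T' := h ▸ vtx_mem_face.2 hc
        exact (mem_face.1 this).1
      · intro hc
        have : vtx K g' c ∈ face K g T := h ▸ vtx_mem_face.2 hc
        exact (mem_face.1 this).1
    subst hT
    refine ⟨rfl, mem_KT.2 fun c hc => ?_⟩
    have : vtx K g c ∈ face K g' T := h ▸ vtx_mem_face.2 hc
    exact ((vtx_eq_iff K).1 (mem_face.1 this).2).2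
  · rintro ⟨rfl, h⟩
    exact image_congr fun c hc => (vtx_eq_iff K).2 ⟨rfl, mem_KT.1 h c hc⟩

theorem tr_face (K : I → Subgroup G) (h g : G) (T : Finset I) :
    tr h (face K g T) = face K (h * g) T := by
  simp only [tr, face, image_image]
  exact image_congr fun c _ => smul_vtx K h g c

theorem tr_tr (g h : G) (σ : Finset (Vtx I G)) : tr g (tr h σ) = tr (g * h) σ := by
  simp only [tr, image_image]
  exact image_congr fun v _ => (mul_smul g h v).symm

@[simp] theorem tr_one (σ : Finset (Vtx I G)) : tr (1 : G) σ = σ := by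
  simp [tr]

@[simp] theorem card_tr (g : G) (σ : Finset (Vtx I G)) : (tr g σ).card = σ.card :=
  card_image_of_injective _ (MulAction.injective g)

theorem mem_tr {g : G} {σ : Finset (Vtx I G)} {v : Vtx I G} : v ∈ tr g σ ↔ g⁻¹ • v ∈ σ := by
  simp only [tr, mem_image]
  constructor
  · rintro ⟨w, hw, rfl⟩; simpa using hw
  · intro h; exact ⟨_, h, by simp⟩

theorem subset_face {K : I → Subgroup G} {g : G} {T : Finset I} {σ : Finset (Vtx I G)}
    (h : σ ⊆ face K g T) : ∃ T' ⊆ T, σ = face K g T' := by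
  obtain ⟨T', h1, h2⟩ := subset_image_iff.1 h
  exact ⟨T', h1, h2.symm⟩

theorem isLowerSet_CC (K : I → Subgroup G) (Q : Subgroup G) (T₀ : Set I) :
    IsLowerSet (CC K Q T₀) := by
  rintro σ τ hle ⟨g, hg, T, hT, rfl⟩
  obtain ⟨T', h1, rfl⟩ := subset_face hle
  exact ⟨g, hg, T', (Finset.coe_subset.2 h1).trans hT, rfl⟩

theorem face_mem_CC (K : I → Subgroup G) {Q : Subgroup G} {T₀ : Set I} {g : G} (hg : g ∈ Q)
    {T : Finset I} (hT : (↑T : Set I) ⊆ T₀) : face K g T ∈ CC K Q T₀ := ⟨g, hg, T, hT, rfl⟩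

theorem CC_mono (K : I → Subgroup G) {Q Q' : Subgroup G} (h : Q ≤ Q') {T₀ T₁ : Set I}
    (hT : T₀ ⊆ T₁) : CC K Q T₀ ⊆ CC K Q' T₁ := by
  rintro σ ⟨g, hg, T, hT', rfl⟩
  exact ⟨g, h hg, T, hT'.trans hT, rfl⟩

theorem tr_mem_CC (K : I → Subgroup G) {Q : Subgroup G} {T₀ : Set I} {h : G} (hh : h ∈ Q)
    {σ : Finset (Vtx I G)} (hσ : σ ∈ CC K Q T₀) : tr h σ ∈ CC K Q T₀ := by
  obtain ⟨g, hg, T, hT, rfl⟩ := hσ
  rw [tr_face]
  exact ⟨_, Q.mul_mem hh hg, T, hT, rfl⟩

/-- two vertices of the same type in a face coincide -/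
theorem eq_of_ty_eq {K : I → Subgroup G} {Q : Subgroup G} {T₀ : Set I} {σ : Finset (Vtx I G)}
    (hσ : σ ∈ CC K Q T₀) {v w : Vtx I G} (hv : v ∈ σ) (hw : w ∈ σ) (h : v.ty = w.ty) : v = w := by
  obtain ⟨g, _, T, _, rfl⟩ := hσ
  rw [(mem_face.1 hv).2, (mem_face.1 hw).2, h]

theorem act_sng (g : G) (σ : Finset (Vtx I G)) : act g (sng σ) = sng (tr g σ) := mapCh_sng _ _

theorem act_act (g h : G) (w : Ch (Vtx I G)) : act g (act h w) = act (g * h) w := by
  simp only [act, mapCh_mapCh]
  congr 2
  funext v; simp [mul_smul]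

@[simp] theorem act_one (w : Ch (Vtx I G)) : act (1 : G) w = w :=
  mapCh_eq_self fun σ _ => by simp

theorem bd_act (g : G) (w : Ch (Vtx I G)) : bd (act g w) = act g (bd w) :=
  bd_mapCh fun _ _ => (MulAction.injective g).injOn

theorem act_mem_chains (K : I → Subgroup G) {Q : Subgroup G} {T₀ : Set I} {h : G} (hh : h ∈ Q)
    {m : ℕ} {w : Ch (Vtx I G)} (hw : w ∈ chains (CC K Q T₀) m) :
    act h w ∈ chains (CC K Q T₀) m :=
  mapCh_mem_chains fun σ hσ =>
    ⟨tr_mem_CC K hh (mem_chains.1 hw σ hσ).1, (card_tr h σ).trans (mem_chains.1 hw σ hσ).2⟩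

theorem act_mem_bdries (K : I → Subgroup G) {Q : Subgroup G} {T₀ : Set I} {h : G} (hh : h ∈ Q)
    {m : ℕ} {z : Ch (Vtx I G)} (hz : z ∈ bdries (CC K Q T₀) m) :
    act h z ∈ bdries (CC K Q T₀) m := by
  obtain ⟨w, hw, rfl⟩ := mem_bdries.1 hz
  exact mem_bdries.2 ⟨act h w, act_mem_chains K hh hw, bd_act h w⟩

variable [DecidableEq I]

theorem face_insert (K : I → Subgroup G) (g : G) (T : Finset I) (c : I) :
    face K g (insert c T) = insert (vtx K g c) (face K g T) := image_insert _ _ _

theorem face_union (K : I → Subgroup G) (g : G) (T T' : Finset I) :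
    face K g (T ∪ T') = face K g T ∪ face K g T' := image_union _ _

theorem face_erase (K : I → Subgroup G) (g : G) (T : Finset I) (c : I) :
    face K g (T.erase c) = (face K g T).erase (vtx K g c) :=
  image_erase (vtx_injective K g) _ _

theorem mem_KT_insert {K : I → Subgroup G} {T : Finset I} {c : I} {g : G} :
    g ∈ KT K (insert c T) ↔ g ∈ K c ∧ g ∈ KT K T := by
  simp [mem_KT]

end

section typed
variable {I G : Type} [Group G]

/-- right invariance under a subgroup -/
def RInv {α : Type} (H : Subgroup G) (φ : G → α) : Prop := ∀ x : G, ∀ k ∈ H, φ (x * k) = φ x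

/-- a cochain on the coset complex, as a family of right invariant functions -/
def Typed (K : I → Subgroup G) (a : Finset I → G → ZMod 2) : Prop := ∀ T, RInv (KT K T) (a T)

variable [DecidableEq I]

/-- the coboundary in the link of the faces of type `R`; the global one for `R = ∅` -/
def tdel (R : Finset I) (a : Finset I → G → ZMod 2) : Finset I → G → ZMod 2 :=
  fun T x => ∑ c ∈ T \ R, a (T.erase c) x

variable [Fintype I] [Fintype G]

open Classical in
/-- size of the support, among types of cardinality `m` containing `R`, and chambers in `H` -/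
noncomputable def cnt (H : Subgroup G) (R : Finset I) (m : ℕ) (a : Finset I → G → ZMod 2) : ℕ :=
  ∑ T ∈ (univ : Finset (Finset I)).filter (fun T => R ⊆ T ∧ T.card = m),
    ((univ : Finset G).filter (fun k => k ∈ H ∧ a T k ≠ 0)).card

/-- coboundary expansion (counting form) of the link of the standard face of type `R`,
for cochains on types of total cardinality `m` -/
def LinkExp (K : I → Subgroup G) (R : Finset I) (m B : ℕ) : Prop :=
  ∀ a, Typed K a → ∃ φ, Typed K φ ∧
    cnt (KT K R) R m (a + tdel R φ) ≤ B * cnt (KT K R) R (m + 1) (tdel R a)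

open Classical in
/-- average over the right coset -/
noncomputable def avg (H : Subgroup G) (φ : G → ℝ) (x : G) : ℝ :=
  (∑ k ∈ (univ : Finset G).filter (fun k => k ∈ H), φ (x * k)) / (Nat.card H : ℝ)

/-- spectral expansion between one vertex type and all the others, in all links -/
def Spec (K : I → Subgroup G) (lam : ℝ) : Prop :=
  ∀ (R : Finset I) (u : I), u ∉ R → ∀ φ ψ : G → ℝ,
    RInv (KT K (insert u R)) φ → RInv (KT K (univ.erase u)) ψ →
    ∑ x, φ x * ψ x ≤ ∑ x, avg (KT K R) φ x * avg (KT K R) ψ x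
      + lam * (∑ x, φ x ^ 2 + ∑ x, ψ x ^ 2)

omit [DecidableEq I] [Fintype I] [Fintype G] in
theorem Typed.add {K : I → Subgroup G} {a b : Finset I → G → ZMod 2} (ha : Typed K a)
    (hb : Typed K b) : Typed K (a + b) := by
  intro T x k hk
  simp only [Pi.add_apply, ha T x k hk, hb T x k hk]

omit [Fintype I] [Fintype G] in
theorem Typed.tdel {K : I → Subgroup G} {a : Finset I → G → ZMod 2} (ha : Typed K a)
    (R : Finset I) : Typed K (tdel R a) := by
  intro T x k hk
  refine Finset.sum_congr rfl fun c _ => ?_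
  exact ha _ x k (KT_anti K (erase_subset c T) hk)

end typed

end Vale.Agent.P067
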