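import Mathlib

/-!
Definitions used in the statement of the result for P067.
A finite simplicial complex is a Mathlib `PreAbstractSimplicialComplex` on a finite vertex type.
-/

namespace Vale.Agent.P067

open Finset

variable {V : Type} [Fintype V] [DecidableEq V]

open Classical in
/-- `X(i)`: the faces with `i+1` vertices. -/
noncomputable def lvl (X : PreAbstractSimplicialComplex V) (i : ℕ) : Finset (Finset V) :=
  univ.filter (fun σ => σ ∈ X.faces ∧ σ.card = i + 1)

/-- `X` is pure of dimension `d`: it has a `d`-face, and every face lies in a `d`-face. -/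
def IsPure (X : PreAbstractSimplicialComplex V) (d : ℕ) : Prop :=
  (lvl X d).Nonempty ∧ ∀ σ ∈ X.faces, ∃ τ ∈ lvl X d, σ ⊆ τ

/-- `X` is connected: any two vertices are joined by a path of edges. -/
def IsConn (X : PreAbstractSimplicialComplex V) : Prop :=
  ∀ u v : V, {u} ∈ X.faces → {v} ∈ X.faces →
    Relation.ReflTransGen (fun a b : V => ({a, b} : Finset V) ∈ X.faces) u v

/-- `C^i(X)`: functions from `X(i)` to the field with two elements. -/
abbrev Cochain (X : PreAbstractSimplicialComplex V) (i : ℕ) : Type :=
  {σ : Finset V // σ ∈ lvl X i} → ZMod 2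

/-- The weight `w_i(σ)` in the pure `d`-dimensional complex `X`. -/
noncomputable def weight (X : PreAbstractSimplicialComplex V) (d i : ℕ) (σ : Finset V) : ℝ :=
  (((lvl X d).filter (fun τ => σ ⊆ τ)).card : ℝ) /
    (((d + 1).choose (i + 1) : ℝ) * ((lvl X d).card : ℝ))

/-- The norm of an `i`-cochain: the total weight of its support. -/
noncomputable def cnorm (X : PreAbstractSimplicialComplex V) (d i : ℕ) (f : Cochain X i) : ℝ :=
  ∑ σ ∈ univ.filter (fun σ => f σ ≠ 0), weight X d i σ.1

/-- The coboundary map. -/
noncomputable def cobd (X : PreAbstractSimplicialComplex V) (i : ℕ) (f : Cochain X i) :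
    Cochain X (i + 1) :=
  fun τ => ∑ σ ∈ univ.filter (fun σ : {σ : Finset V // σ ∈ lvl X i} => σ.1 ⊆ τ.1), f σ

/-- The coboundaries `B^i`: constants for `i = 0`, the image of the coboundary map otherwise. -/
def cobds (X : PreAbstractSimplicialComplex V) : (i : ℕ) → Set (Cochain X i)
  | 0 => {f | ∃ c : ZMod 2, f = fun _ => c}
  | (i + 1) => Set.range (cobd X i)

/-- The distance from a cochain to a set of cochains. -/
noncomputable def cdist (X : PreAbstractSimplicialComplex V) (d i : ℕ) (f : Cochain X i)
    (A : Set (Cochain X i)) : ℝ :=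
  sInf ((fun a => cnorm X d i (f - a)) '' A)

/-- `X` is an `ε`-coboundary expander (as a `d`-dimensional complex). -/
def IsCobExp (X : PreAbstractSimplicialComplex V) (d : ℕ) (ε : ℝ) : Prop :=
  ∀ i < d, ∀ f : Cochain X i,
    ε * cdist X d i f (cobds X i) ≤ cnorm X d (i + 1) (cobd X i f)

/-- The degree: the largest number of `d`-faces containing a single vertex. -/
noncomputable def degree (X : PreAbstractSimplicialComplex V) (d : ℕ) : ℕ :=
  univ.sup (fun v : V => ((lvl X d).filter (fun τ => v ∈ τ)).card)

end Vale.Agent.P067
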