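import Vale.Agent.P067.Group

set_option linter.unusedSectionVars false

namespace Vale.Agent.P067

open Finset

theorem fin_val_add_one {n : ℕ} [NeZero n] (hn : 2 ≤ n) (c : Fin n) :
    (c + 1).val = if c.val + 1 = n then 0 else c.val + 1 := by
  rw [Fin.val_add, Fin.val_one', Nat.mod_eq_of_lt (show 1 < n by omega)]
  have := c.2
  split_ifs with h
  · rw [h, Nat.mod_self]
  · exact Nat.mod_eq_of_lt (by omega)

theorem fin_val_sub_one {n : ℕ} [NeZero n] (hn : 2 ≤ n) (c : Fin n) :
    (c - 1).val = if c.val = 0 then n - 1 else c.val - 1 := by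
  have h1 := fin_val_add_one hn (c - 1)
  rw [sub_add_cancel] at h1
  have := (c - 1).2
  split_ifs at * <;> omega

theorem lt_card_filter_iff {N : ℕ} {f : Fin N → ℕ} (hf : StrictMono f) (P : ℕ) (x : Fin N) :
    x.val < (univ.filter (fun i => f i < P)).card ↔ f x < P := by
  constructor
  · intro h
    by_contra h1
    have : univ.filter (fun i => f i < P) ⊆ Iio x := by
      intro i hi
      rw [mem_Iio]
      exact hf.lt_iff_lt.1 ((mem_filter.1 hi).2.trans_le (not_lt.1 h1))
    have h2 := card_le_card this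
    rw [Fin.card_Iio] at h2
    omega
  · intro h
    have : Iic x ⊆ univ.filter (fun i => f i < P) := by
      intro i hi
      exact mem_filter.2 ⟨mem_univ _, (hf.monotone (mem_Iic.1 hi)).trans_lt h⟩
    have h2 := card_le_card this
    rw [Fin.card_Iic] at h2
    omega

variable {F : Type} {R : Type} [Field F] [CommRing R] [Algebra F R] [Finite R] {t : R} {n : ℕ}

theorem pos_bounds (c a : Fin n) : c.val ≤ pos c a ∧ pos c a < c.val + n := by
  have := a.2
  unfold pos
  simp only [Fin.lt_def]
  split_ifs <;> omega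

theorem pos_eq (c a : Fin n) : pos c a = a.val + n * ex a c := by
  unfold pos ex
  split_ifs <;> simp

theorem ex_le_one (a b : Fin n) : ex a b ≤ 1 := by
  unfold ex; split_ifs <;> omega

theorem det_eq_one_of_pos (c : Fin n) {M : Matrix (Fin n) (Fin n) R}
    (h : ∀ a b, ¬ pos c b < pos c a → M a b = (1 : Matrix (Fin n) (Fin n) R) a b) : M.det = 1 := by
  rw [@Matrix.det_of_isLowerTriangular (Fin n) R _ _ _
    (LinearOrder.lift' (pos c) (pos_injective c)) M]
  · exact Finset.prod_eq_one fun a _ => by rw [h a a (lt_irrefl _)]; simp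
  · intro a b hab
    have hab' : pos c a < pos c b := hab
    have : a ≠ b := fun h' => by simp [h'] at hab'
    rw [h a b (not_lt.2 hab'.le), Matrix.one_apply_ne this]

theorem iwCond_of_pattern (c : Fin n) {M : Matrix (Fin n) (Fin n) R}
    (h : ∀ a b, (pos c b < pos c a → ∃ u : F, M a b = u • t ^ ex a b) ∧
      (¬ pos c b < pos c a → M a b = (1 : Matrix (Fin n) (Fin n) R) a b)) : IwCond t M := by
  refine ⟨fun a b hab => ?_, fun a => by rw [(h a a).2 (lt_irrefl _)]; simp⟩
  by_cases h1 : pos c b < pos c a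
  · obtain ⟨u, hu⟩ := (h a b).1 h1
    rw [hu]; exact dvd_smul_pow_ex F t a b u hab
  · rw [(h a b).2 h1, Matrix.one_apply_ne hab.ne]; exact dvd_zero _

theorem mat_mkG_of_pattern (c : Fin n) {M : Matrix (Fin n) (Fin n) R}
    (h : ∀ a b, (pos c b < pos c a → ∃ u : F, M a b = u • t ^ ex a b) ∧
      (¬ pos c b < pos c a → M a b = (1 : Matrix (Fin n) (Fin n) R) a b)) :
    mat (mkG t M) = M :=
  mat_mkG t (det_eq_one_of_pos c fun a b => (h a b).2) (iwCond_of_pattern c h)

end Vale.Agent.P067
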