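import Vale.Agent.P067.UTModel
import Vale.Agent.P067.Bridge
import Vale.Agent.P067.GroupPat

set_option linter.unusedSectionVars false

namespace Vale.Agent.P067

open Finset

section
variable {F : Type} {R : Type} [Field F] [Fintype F] [CommRing R] [Algebra F R] [Finite R]
  {t : R} {n : ℕ}

theorem exists_enum (c : Fin n) (S : Finset (Fin n)) : ∃ e : Fin S.card → Fin n,
    StrictMono (fun i => pos c (e i)) ∧ ∀ a, a ∈ S ↔ ∃ i, e i = a := by
  have h1 : (S.image (pos c)).card = S.card := card_image_of_injective _ (pos_injective c)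
  have h2 : ∀ i, ∃ a ∈ S, pos c a = (S.image (pos c)).orderEmbOfFin h1 i :=
    fun i => mem_image.1 (orderEmbOfFin_mem _ h1 i)
  choose e he1 he2 using h2
  refine ⟨e, ?_, fun a => ⟨fun ha => ?_, ?_⟩⟩
  · simp only [he2]
    exact ((S.image (pos c)).orderEmbOfFin h1).strictMono
  · have h3 : pos c a ∈ Set.range ((S.image (pos c)).orderEmbOfFin h1) := by
      rw [range_orderEmbOfFin]
      exact Finset.mem_coe.2 (mem_image_of_mem _ ha)
    obtain ⟨i, hi⟩ := h3
    exact ⟨i, pos_injective c ((he2 i).trans hi)⟩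
  · rintro ⟨i, rfl⟩; exact he1 i

theorem eq_zero_of_smul_pow_ex (hN : Nice F t) {u : F} {a b : Fin n} (h : u • t ^ ex a b = 0) :
    u = 0 := by
  apply hN.free
  unfold ex at h
  split_ifs at h
  · rwa [pow_one] at h
  · rw [← one_mul t, ← smul_mul_assoc, ← pow_zero t, h, zero_mul]

open Classical in
/-- the matrix of the embedding of the unitriangular group -/
noncomputable def embMat (t : R) {N : ℕ} (e : Fin N → Fin n) (u : UU F N) :
    Matrix (Fin n) (Fin n) R :=
  Matrix.of fun a b => if h : (∃ i, e i = a) ∧ (∃ j, e j = b) then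
    umat u h.1.choose h.2.choose • t ^ ex a b else (1 : Matrix (Fin n) (Fin n) R) a b

theorem embMat_apply {N : ℕ} {e : Fin N → Fin n} (he : Function.Injective e) (u : UU F N)
    (i j : Fin N) : embMat t e u (e i) (e j) = umat u i j • t ^ ex (e i) (e j) := by
  have h : (∃ i', e i' = e i) ∧ (∃ j', e j' = e j) := ⟨⟨i, rfl⟩, ⟨j, rfl⟩⟩
  rw [embMat, Matrix.of_apply, dif_pos h, he h.1.choose_spec, he h.2.choose_spec]

theorem embMat_apply_of_not {N : ℕ} {e : Fin N → Fin n} (u : UU F N) {a b : Fin n}
    (h : ¬ ((∃ i, e i = a) ∧ (∃ j, e j = b))) :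
    embMat t e u a b = (1 : Matrix (Fin n) (Fin n) R) a b := by
  rw [embMat, Matrix.of_apply, dif_neg h]

theorem embMat_pattern {c : Fin n} {N : ℕ} {e : Fin N → Fin n}
    (he : StrictMono (fun i => pos c (e i))) (u : UU F N) (a b : Fin n) :
    (pos c b < pos c a → ∃ v : F, embMat t e u a b = v • t ^ ex a b) ∧
      (¬ pos c b < pos c a → embMat t e u a b = (1 : Matrix (Fin n) (Fin n) R) a b) := by
  have hinj : Function.Injective e := fun a b h => he.injective (by simp only [h])
  by_cases h : (∃ i, e i = a) ∧ (∃ j, e j = b)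
  · obtain ⟨⟨i, rfl⟩, ⟨j, rfl⟩⟩ := h
    rw [embMat_apply hinj]
    refine ⟨fun _ => ⟨_, rfl⟩, fun h1 => ?_⟩
    rw [umat_tri u i j (fun h2 => h1 (he h2))]
    by_cases hij : i = j
    · subst hij; simp [ex]
    · rw [Matrix.one_apply_ne hij, Matrix.one_apply_ne (hinj.ne hij), zero_smul]
  · rw [embMat_apply_of_not u h]
    refine ⟨fun h1 => ⟨0, ?_⟩, fun _ => rfl⟩
    have : a ≠ b := fun h' => by simp [h'] at h1
    rw [Matrix.one_apply_ne this, zero_smul]

theorem embMat_mul {c : Fin n} {N : ℕ} {e : Fin N → Fin n}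
    (he : StrictMono (fun i => pos c (e i))) (u u' : UU F N) :
    embMat t e (u * u') = embMat t e u * embMat t e u' := by
  have hinj : Function.Injective e := fun a b h => he.injective (by simp only [h])
  ext a b
  rw [Matrix.mul_apply]
  by_cases ha : ∃ i, e i = a
  · by_cases hb : ∃ j, e j = b
    · obtain ⟨i, rfl⟩ := ha
      obtain ⟨j, rfl⟩ := hb
      rw [embMat_apply hinj, umat_mul, Matrix.mul_apply, Finset.sum_smul]
      refine Fintype.sum_of_injective e hinj _ _ (fun d hd => ?_) (fun y => ?_)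
      · have h1 : e i ≠ d := fun h => hd ⟨i, h⟩
        rw [embMat_apply_of_not u (fun h => hd h.2), Matrix.one_apply_ne h1, zero_mul]
      · rw [embMat_apply hinj, embMat_apply hinj, smul_mul_smul_comm, ← pow_add]
        by_cases h1 : i < y
        · rw [umat_tri u i y (not_lt.2 h1.le), Matrix.one_apply_ne h1.ne]; simp
        · by_cases h2 : y < j
          · rw [umat_tri u' y j (not_lt.2 h2.le), Matrix.one_apply_ne h2.ne]; simp
          · rw [ex_add_ex (c := c) (he.monotone (not_lt.1 h2)) (he.monotone (not_lt.1 h1))]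
    · rw [Finset.sum_congr rfl (fun d _ => by rw [embMat_apply_of_not u' (fun h => hb h.2)]),
        ← Matrix.mul_apply, Matrix.mul_one, embMat_apply_of_not _ (fun h => hb h.2),
        embMat_apply_of_not _ (fun h => hb h.2)]
  · rw [Finset.sum_congr rfl (fun d _ => by rw [embMat_apply_of_not u (fun h => ha h.1)]),
      ← Matrix.mul_apply, Matrix.one_mul, embMat_apply_of_not _ (fun h => ha h.1),
      embMat_apply_of_not _ (fun h => ha h.1)]

/-- the vertex group of the Levi subgroup is the unitriangular group -/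
theorem exists_embed (hN : Nice F t) (c : Fin n) (S : Finset (Fin n)) {N : ℕ} (e : Fin N → Fin n)
    (he : StrictMono (fun i => pos c (e i))) (hS : ∀ a, a ∈ S ↔ ∃ i, e i = a) :
    ∃ ι : UU F N →* GG t n, ι.range = Kc F t c ⊓ Lv t S ∧
      (∀ u i j, mat (ι u) (e i) (e j) = umat u i j • t ^ ex (e i) (e j)) ∧
      (∀ (c' : Fin n) u, ι u ∈ Kc F t c' ↔
        u ∈ KU F N (univ.filter (fun i => pos c (e i) < pos c c')).card) := by
  have hinj : Function.Injective e := fun a b h => he.injective (by simp only [h])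
  have hm : ∀ u : UU F N, mat (mkG t (embMat t e u)) = embMat t e u :=
    fun u => mat_mkG_of_pattern c (embMat_pattern he u)
  let ι : UU F N →* GG t n := MonoidHom.mk' (fun u => mkG t (embMat t e u)) (fun u u' =>
    mat_injective (by rw [mat_mul, hm, hm, hm, embMat_mul he]))
  have hι : ∀ u, mat (ι u) = embMat t e u := hm
  have hnot : ∀ a b, (a ∉ S ∨ b ∉ S) ↔ ¬ ((∃ i, e i = a) ∧ (∃ j, e j = b)) := by
    intro a b; rw [← hS, ← hS]; tauto
  refine ⟨ι, ?_, fun u i j => by rw [hι, embMat_apply hinj], fun c' u => ?_⟩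
  · ext k
    constructor
    · rintro ⟨u, rfl⟩
      refine Subgroup.mem_inf.2 ⟨fun a b => ?_, fun a b h => ?_⟩
      · rw [hι]; exact embMat_pattern he u a b
      · rw [hι]; exact embMat_apply_of_not u ((hnot a b).1 h)
    · intro hk
      obtain ⟨hk1, hk2⟩ := Subgroup.mem_inf.1 hk
      have h1 : ∀ i j : Fin N, ∃ v : F, (¬ j < i → v = (1 : Matrix (Fin N) (Fin N) F) i j) ∧
          mat k (e i) (e j) = v • t ^ ex (e i) (e j) := by
        intro i j
        by_cases hij : j < i
        · obtain ⟨v, hv⟩ := (hk1 (e i) (e j)).1 (he hij)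
          exact ⟨v, fun h => absurd hij h, hv⟩
        · refine ⟨_, fun _ => rfl, ?_⟩
          rw [(hk1 (e i) (e j)).2 (fun h => hij (he.lt_iff_lt.1 h))]
          by_cases h : i = j
          · subst h; simp [ex]
          · rw [Matrix.one_apply_ne h, Matrix.one_apply_ne (hinj.ne h), zero_smul]
      choose v hv1 hv2 using h1
      refine ⟨mkU (Matrix.of v) hv1, mat_injective ?_⟩
      rw [hι]
      ext a b
      by_cases h : (∃ i, e i = a) ∧ (∃ j, e j = b)
      · obtain ⟨⟨i, rfl⟩, ⟨j, rfl⟩⟩ := h
        rw [embMat_apply hinj, hv2]; rfl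
      · rw [embMat_apply_of_not _ h, hk2 a b ((hnot a b).2 h)]
  · have hlt := lt_card_filter_iff he (pos c c')
    have key : ∀ i j : Fin N, j < i → (pos c' (e j) < pos c' (e i) ↔
        ¬ (pos c (e j) < pos c c' ∧ ¬ pos c (e i) < pos c c')) := by
      intro i j hij
      have h1 : pos c (e j) < pos c (e i) := he hij
      have := (e i).2
      have := (e j).2
      have := c.2
      have := c'.2
      unfold pos at *
      simp only [Fin.lt_def] at *
      split_ifs at * <;> omega
    constructor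
    · intro h i j h1 h2
      have hij : j < i := by rw [Fin.lt_def]; omega
      have h3 := (h (e i) (e j)).2 (by
        rw [key i j hij, not_not, ← hlt, ← hlt]; omega)
      rw [hι, embMat_apply hinj, Matrix.one_apply_ne (hinj.ne hij.ne')] at h3
      exact eq_zero_of_smul_pow_ex hN h3
    · intro h a b
      rw [hι]
      refine ⟨fun h1 => ?_, fun h1 => ?_⟩
      · by_cases h2 : pos c b < pos c a
        · exact (embMat_pattern he u a b).1 h2
        · have : a ≠ b := fun h' => by simp [h'] at h1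
          exact ⟨0, by rw [(embMat_pattern he u a b).2 h2, Matrix.one_apply_ne this, zero_smul]⟩
      · by_cases h2 : pos c b < pos c a
        · by_cases h3 : (∃ i, e i = a) ∧ (∃ j, e j = b)
          · obtain ⟨⟨i, rfl⟩, ⟨j, rfl⟩⟩ := h3
            have hij : j < i := he.lt_iff_lt.1 h2
            rw [key i j hij, not_not, ← hlt, ← hlt] at h1
            rw [embMat_apply hinj, h i j h1.1 (not_lt.1 h1.2), zero_smul,
              Matrix.one_apply_ne (hinj.ne hij.ne')]
          · exact embMat_apply_of_not u h3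
        · exact (embMat_pattern he u a b).2 h2

end

/-- bounded cones in the links -/
theorem link_cone (n d : ℕ) (h : (d + 3) * (d + 3) ≤ n) : ∃ ρ q0 : ℕ,
    ∀ (F R : Type) [Field F] [Fintype F] [CommRing R] [Algebra F R] [Finite R] (t : R),
      Nice F t → q0 ≤ Fintype.card F → ∀ Rr : Finset (Fin n), Rr.Nonempty → Rr.card ≤ d + 1 →
      HasCone (CC (Kc F t) (KT (Kc F t) Rr) (↑Rr : Set (Fin n))ᶜ) d ρ := by
  obtain ⟨ρ, q0, h1⟩ := ut_cone_link n d (d + 1) (by nlinarith)
  refine ⟨ρ, q0, fun F R _ _ _ _ _ t hN hq Rr ⟨c, hc⟩ hR => ?_⟩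
  have hc2 := c.2
  let e : Fin n → Fin n := fun i => ⟨if c.val + i.val < n then c.val + i.val else c.val + i.val - n,
    by have := i.2; split_ifs <;> omega⟩
  have hpos : ∀ i, pos c (e i) = c.val + i.val := by
    intro i
    have := i.2
    unfold pos
    simp only [Fin.lt_def, e]
    split_ifs <;> omega
  have he : StrictMono (fun i => pos c (e i)) := fun a b hab => by
    simp only [hpos]; rw [Fin.lt_def] at hab; omega
  have hsurj : ∀ a, e ⟨pos c a - c.val, by have := pos_bounds c a; omega⟩ = a := by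
    intro a
    apply pos_injective c
    rw [hpos]
    have := pos_bounds c a
    simp only; omega
  obtain ⟨ι, hι1, -, hι3⟩ := exists_embed hN c univ e he
    (fun a => ⟨fun _ => ⟨_, hsurj a⟩, fun _ => mem_univ _⟩)
  have hrk : ∀ c', (univ.filter (fun i => pos c (e i) < pos c c')).card = pos c c' - c.val := by
    intro c'
    have h2 := pos_bounds c c'
    refine eq_of_forall_lt_iff fun x => ?_
    by_cases hx : x < n
    · rw [lt_card_filter_iff he _ ⟨x, hx⟩, hpos]
      simp only; omega
    · have := card_le_univ (univ.filter (fun i => pos c (e i) < pos c c'))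
      rw [Fintype.card_fin] at this
      omega
  simp only [hrk] at hι3
  let τ : ℕ → Fin n := fun j => if h : j < n then e ⟨j, h⟩ else c
  have hτ : ∀ j, j < n → pos c (τ j) - c.val = j := by
    intro j hj
    rw [show τ j = e ⟨j, hj⟩ from dif_pos hj, hpos]
    simp
  have hτ' : ∀ a, τ (pos c a - c.val) = a := by
    intro a
    have := pos_bounds c a
    rw [show τ (pos c a - c.val) = e ⟨_, by omega⟩ from dif_pos (by omega), hsurj]
  have h2 := h1 F (Rr.image (fun a => pos c a - c.val)) hq (card_image_le.trans hR)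
  have h3 := hasCone_CC_map (Kc F t) (KU F n) ι τ
    (Set.Ioo 0 n \ ↑(Rr.image (fun a => pos c a - c.val)))
    (fun a ha b hb hab => by rw [← hτ a ha.1.2, ← hτ b hb.1.2, hab])
    (fun j hj u => by rw [hι3, hτ j hj.1.2])
    (KT (KU F n) (Rr.image (fun a => pos c a - c.val))) (fun _ => True) (fun _ => True)
    (fun _ _ _ _ => Iff.rfl) (m := d) (ρ := ρ) (by convert h2 using 1; ext σ; simp [Full])
  have h4 : (KT (KU F n) (Rr.image (fun a => pos c a - c.val))).map ι = KT (Kc F t) Rr := by
    ext k
    constructor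
    · rintro ⟨u, hu, rfl⟩
      exact mem_KT.2 fun a ha => (hι3 a u).2 (mem_KT.1 hu _ (mem_image_of_mem _ ha))
    · intro hk
      obtain ⟨u, rfl⟩ : k ∈ ι.range := by
        rw [hι1, Lv_univ, inf_top_eq]; exact mem_KT.1 hk c hc
      refine ⟨u, mem_KT.2 fun j hj => ?_, rfl⟩
      obtain ⟨a, ha, rfl⟩ := mem_image.1 hj
      exact (hι3 a u).1 (mem_KT.1 hk a ha)
  have h5 : τ '' (Set.Ioo 0 n \ ↑(Rr.image (fun a => pos c a - c.val))) = (↑Rr : Set (Fin n))ᶜ := by
    ext a
    constructor
    · rintro ⟨j, hj, rfl⟩ ha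
      exact hj.2 (Finset.mem_coe.2 (mem_image.2 ⟨_, ha, hτ j hj.1.2⟩))
    · intro ha
      have h6 := pos_bounds c a
      have h7 : pos c a ≠ c.val := fun h' => ha (by
        rw [pos_injective c (show pos c a = pos c c by rw [h']; simp [pos])]; exact hc)
      refine ⟨pos c a - c.val, ⟨⟨by omega, by omega⟩, fun h8 => ?_⟩, hτ' a⟩
      obtain ⟨a', ha', h9⟩ := mem_image.1 (Finset.mem_coe.1 h8)
      have h10 := pos_bounds c a'
      exact ha (pos_injective c (show pos c a' = pos c a by omega) ▸ ha')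
  rw [h4, h5] at h3
  convert h3 using 1
  ext σ; simp [Full]

end Vale.Agent.P067
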