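import Vale.Agent.P067.Coset

/-!
Averages over right cosets and real valued counts, used for the local to global argument.
-/

set_option linter.unusedSectionVars false

namespace Vale.Agent.P067.LG

open Finset

variable {I G : Type} [Group G] [Fintype G]

open Classical in
theorem avg_eq (H : Subgroup G) (φ : G → ℝ) (x : G) :
    avg H φ x = (∑ k : H, φ (x * k)) / (Nat.card H : ℝ) := by
  unfold avg
  congr 1
  exact Finset.sum_subtype _ (by simp) (fun k => φ (x * k))

theorem card_pos' (H : Subgroup G) : (0 : ℝ) < (Nat.card H : ℝ) := by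
  have : 0 < Nat.card H := Nat.card_pos
  exact_mod_cast this

theorem avg_mono (H : Subgroup G) {φ ψ : G → ℝ} (h : ∀ y, φ y ≤ ψ y) (x : G) :
    avg H φ x ≤ avg H ψ x := by
  classical
  rw [avg_eq, avg_eq]
  exact div_le_div_of_nonneg_right (sum_le_sum fun k _ => h _) (card_pos' H).le

theorem avg_const (H : Subgroup G) (c : ℝ) (x : G) : avg H (fun _ => c) x = c := by
  classical
  rw [avg_eq]
  have := card_pos' H
  simp only [sum_const, card_univ, nsmul_eq_mul, Nat.card_eq_fintype_card] at this ⊢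
  field_simp

theorem avg_nonneg (H : Subgroup G) {φ : G → ℝ} (h : ∀ y, 0 ≤ φ y) (x : G) : 0 ≤ avg H φ x := by
  have := avg_mono H (φ := fun _ => (0 : ℝ)) (ψ := φ) h x
  rwa [avg_const] at this

theorem avg_le (H : Subgroup G) {φ : G → ℝ} {c : ℝ} (h : ∀ y, φ y ≤ c) (x : G) :
    avg H φ x ≤ c := by
  have := avg_mono H (φ := φ) (ψ := fun _ => c) h x
  rwa [avg_const] at this

theorem avg_sum (H : Subgroup G) {α : Type} (s : Finset α) (φ : α → G → ℝ) (x : G) :
    avg H (fun y => ∑ a ∈ s, φ a y) x = ∑ a ∈ s, avg H (φ a) x := by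
  classical
  simp only [avg_eq]
  rw [sum_comm, sum_div]

theorem rinv_avg (H : Subgroup G) (φ : G → ℝ) : RInv H (avg H φ) := by
  classical
  intro x k hk
  rw [avg_eq, avg_eq]
  congr 1
  rw [← Equiv.sum_comp (Equiv.mulLeft (⟨k, hk⟩ : H)) (fun k' : H => φ (x * k'))]
  refine sum_congr rfl fun k' _ => ?_
  simp [mul_assoc]

theorem avg_of_rinv {H : Subgroup G} {φ : G → ℝ} (h : RInv H φ) (x : G) : avg H φ x = φ x := by
  classical
  rw [← avg_const H (φ x) x, avg_eq, avg_eq]
  congr 1
  exact sum_congr rfl fun k _ => h x k k.2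

theorem sum_mul_avg {H : Subgroup G} {φ : G → ℝ} (h : RInv H φ) (ψ : G → ℝ) :
    ∑ x, φ x * avg H ψ x = ∑ x, φ x * ψ x := by
  classical
  have h1 : ∀ k : H, ∑ x, φ x * ψ (x * k) = ∑ x, φ x * ψ x := by
    intro k
    rw [← Equiv.sum_comp (Equiv.mulRight (k : G)) (fun x => φ x * ψ x)]
    refine sum_congr rfl fun x _ => ?_
    simp [h x k k.2]
  have hc := card_pos' H
  calc ∑ x, φ x * avg H ψ x = (∑ k : H, ∑ x, φ x * ψ (x * k)) / (Nat.card H : ℝ) := by
        rw [sum_comm, sum_div]
        refine sum_congr rfl fun x _ => ?_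
        rw [avg_eq, ← mul_sum, mul_div_assoc]
    _ = ∑ x, φ x * ψ x := by
        simp only [h1, sum_const, card_univ, nsmul_eq_mul, Nat.card_eq_fintype_card] at hc ⊢
        field_simp

theorem sum_avg (H : Subgroup G) (ψ : G → ℝ) : ∑ x, avg H ψ x = ∑ x, ψ x := by
  have := sum_mul_avg (H := H) (φ := fun _ => (1 : ℝ)) (fun _ _ _ => rfl) ψ
  simpa using this

theorem avg_avg {H H' : Subgroup G} (hle : H ≤ H') (φ : G → ℝ) (x : G) :
    avg H' (avg H φ) x = avg H' φ x := by
  classical
  have h1 : ∀ k : H, ∑ k' : H', φ (x * k' * k) = ∑ k' : H', φ (x * k') := by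
    intro k
    rw [← Equiv.sum_comp (Equiv.mulRight (⟨k, hle k.2⟩ : H')) (fun k' : H' => φ (x * k'))]
    refine sum_congr rfl fun k' _ => ?_
    simp [mul_assoc]
  have hc := card_pos' H
  rw [avg_eq H' (avg H φ), avg_eq H' φ]
  congr 1
  simp only [avg_eq]
  rw [← sum_div, sum_comm]
  simp only [h1, sum_const, card_univ, nsmul_eq_mul, Nat.card_eq_fintype_card] at hc ⊢
  field_simp

theorem avg_top (φ : G → ℝ) (x : G) : avg ⊤ φ x = (∑ y, φ y) / (Fintype.card G : ℝ) := by
  classical
  unfold avg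
  congr 1
  · rw [← Equiv.sum_comp (Equiv.mulLeft x) φ]
    simp
  · simp

/-- the indicator of a nonzero value -/
noncomputable def ind (z : ZMod 2) : ℝ := if z = 0 then 0 else 1

theorem ind_nonneg (z : ZMod 2) : 0 ≤ ind z := by unfold ind; split_ifs <;> norm_num

theorem ind_le_one (z : ZMod 2) : ind z ≤ 1 := by unfold ind; split_ifs <;> norm_num

theorem ind_sq (z : ZMod 2) : ind z ^ 2 = ind z := by unfold ind; split_ifs <;> norm_num

@[simp] theorem ind_zero : ind 0 = 0 := by simp [ind]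

theorem ind_add_le (z w : ZMod 2) : ind (z + w) ≤ ind z + ind w := by
  by_cases hz : z = 0
  · subst hz; simp
  · have := ind_le_one (z + w)
    have := ind_nonneg w
    have h3 : ind z = 1 := by simp [ind, hz]
    linarith

theorem ind_sum_le {α : Type} (s : Finset α) (f : α → ZMod 2) :
    ind (∑ a ∈ s, f a) ≤ ∑ a ∈ s, ind (f a) := by
  classical
  induction s using Finset.induction_on with
  | empty => simp
  | insert a s ha ih =>
    rw [sum_insert ha, sum_insert ha]
    exact (ind_add_le _ _).trans (by linarith)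

variable [Fintype I] [DecidableEq I]

/-- the types of cardinality `m` containing `R` -/
def TS (R : Finset I) (m : ℕ) : Finset (Finset I) :=
  (univ : Finset (Finset I)).filter (fun T => R ⊆ T ∧ T.card = m)

theorem mem_TS {R T : Finset I} {m : ℕ} : T ∈ TS R m ↔ R ⊆ T ∧ T.card = m := by simp [TS]

theorem card_TS_le (R : Finset I) (m : ℕ) : (TS R m).card ≤ 2 ^ Fintype.card I := by
  rw [← Fintype.card_finset]
  exact card_le_univ _

open Classical in
theorem cnt_real (H : Subgroup G) (R : Finset I) (m : ℕ) (a : Finset I → G → ZMod 2) :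
    (cnt H R m a : ℝ) = ∑ T ∈ TS R m, ∑ k : G, if k ∈ H then ind (a T k) else 0 := by
  unfold cnt TS
  push_cast
  refine sum_congr (by congr) fun T _ => ?_
  rw [card_filter]
  push_cast
  refine sum_congr rfl fun k _ => ?_
  by_cases h1 : k ∈ H <;> by_cases h2 : a T k = 0 <;> simp [h1, h2, ind]

/-- number of types containing `R` where the cochain is nonzero -/
noncomputable def fR (R : Finset I) (m : ℕ) (g : Finset I → G → ZMod 2) (y : G) : ℝ :=
  ∑ T ∈ TS R m, ind (g T y)

theorem fR_nonneg (R : Finset I) (m : ℕ) (g : Finset I → G → ZMod 2) (y : G) : 0 ≤ fR R m g y :=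
  sum_nonneg fun _ _ => ind_nonneg _

theorem fR_le (R : Finset I) (m : ℕ) (g : Finset I → G → ZMod 2) (y : G) :
    fR R m g y ≤ 2 ^ Fintype.card I := by
  calc fR R m g y ≤ ∑ _T ∈ TS R m, (1 : ℝ) := sum_le_sum fun _ _ => ind_le_one _
    _ = (TS R m).card := by simp
    _ ≤ 2 ^ Fintype.card I := by exact_mod_cast card_TS_le R m

theorem fR_anti {R R' : Finset I} (h : R' ⊆ R) (m : ℕ) (g : Finset I → G → ZMod 2) (y : G) :
    fR R m g y ≤ fR R' m g y :=
  sum_le_sum_of_subset_of_nonneg
    (fun _ hT => mem_TS.2 ⟨h.trans (mem_TS.1 hT).1, (mem_TS.1 hT).2⟩) fun _ _ _ => ind_nonneg _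

theorem cnt_top (R : Finset I) (m : ℕ) (a : Finset I → G → ZMod 2) :
    (cnt ⊤ R m a : ℝ) = ∑ y, fR R m a y := by
  rw [cnt_real, sum_comm]
  simp [fR]

theorem cnt_eq_avg (H : Subgroup G) (R : Finset I) (m : ℕ) (g : Finset I → G → ZMod 2) (x : G) :
    (cnt H R m (fun T y => g T (x * y)) : ℝ) = Nat.card H * avg H (fR R m g) x := by
  classical
  rw [cnt_real, sum_comm]
  unfold avg
  have := card_pos' H
  rw [mul_div_cancel₀ _ this.ne', sum_filter]
  refine sum_congr rfl fun k _ => ?_
  by_cases hk : k ∈ H <;> simp [hk, fR]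

theorem cnt_add_le (H : Subgroup G) (R : Finset I) (m : ℕ) (a b : Finset I → G → ZMod 2) :
    cnt H R m (a + b) ≤ cnt H R m a + cnt H R m b := by
  classical
  have : (cnt H R m (a + b) : ℝ) ≤ cnt H R m a + cnt H R m b := by
    simp only [cnt_real, ← sum_add_distrib]
    refine sum_le_sum fun T _ => sum_le_sum fun k _ => ?_
    by_cases hk : k ∈ H
    · simpa [hk] using ind_add_le _ _
    · simp [hk]
  exact_mod_cast this

theorem cnt_congr (H : Subgroup G) (R : Finset I) (m : ℕ) {a b : Finset I → G → ZMod 2}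
    (h : ∀ T, R ⊆ T → T.card = m → ∀ k ∈ H, a T k = b T k) : cnt H R m a = cnt H R m b := by
  classical
  have : (cnt H R m a : ℝ) = cnt H R m b := by
    simp only [cnt_real]
    refine sum_congr rfl fun T hT => sum_congr rfl fun k _ => ?_
    by_cases hk : k ∈ H
    · simp [hk, h T (mem_TS.1 hT).1 (mem_TS.1 hT).2 k hk]
    · simp [hk]
  exact_mod_cast this

theorem cnt_le (H : Subgroup G) (R : Finset I) (m : ℕ) (a : Finset I → G → ZMod 2) :
    cnt H R m a ≤ 2 ^ Fintype.card I * Nat.card H := by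
  have h1 := cnt_eq_avg H R m a 1
  simp only [one_mul] at h1
  have h2 := avg_le H (fR_le R m a) 1
  have h3 := card_pos' H
  have : (cnt H R m a : ℝ) ≤ 2 ^ Fintype.card I * Nat.card H := by
    rw [h1]; nlinarith
  exact_mod_cast this

theorem eq_zero_of_cnt {H : Subgroup G} {R : Finset I} {m : ℕ} {a : Finset I → G → ZMod 2}
    (h : cnt H R m a = 0) {T : Finset I} (h1 : R ⊆ T) (h2 : T.card = m) {k : G} (hk : k ∈ H) :
    a T k = 0 := by
  classical
  unfold cnt at h
  rw [sum_eq_zero_iff] at h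
  have h3 := h T (by simp [h1, h2])
  rw [card_eq_zero, filter_eq_empty_iff] at h3
  by_contra hne
  exact h3 (mem_univ k) ⟨hk, hne⟩

theorem tdel_add (R : Finset I) (a b : Finset I → G → ZMod 2) :
    tdel R (a + b) = tdel R a + tdel R b := by
  funext T x
  simp [tdel, sum_add_distrib]

theorem tdel_zero (R : Finset I) : tdel R (0 : Finset I → G → ZMod 2) = 0 := by
  funext T x
  simp [tdel]

theorem tdel_tdel (a : Finset I → G → ZMod 2) : tdel ∅ (tdel ∅ a) = 0 := by
  funext T x
  simp only [tdel, sdiff_empty, Pi.zero_apply]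
  rw [sum_sigma']
  refine sum_involution (fun p _ => ⟨p.2, p.1⟩) ?_ ?_ ?_ ?_
  · intro p _
    rw [erase_right_comm]
    exact CharTwo.add_self_eq_zero _
  · intro p hp _ h
    have h1 : p.2 = p.1 := congrArg Sigma.fst h
    have h2 := (mem_sigma.1 hp).2
    exact (mem_erase.1 h2).1 h1
  · intro p hp
    have h1 := (mem_sigma.1 hp).1
    have h2 := mem_erase.1 (mem_sigma.1 hp).2
    exact mem_sigma.2 ⟨h2.2, mem_erase.2 ⟨fun h => h2.1 h.symm, h1⟩⟩
  · intro p _
    rfl

end Vale.Agent.P067.LG
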