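import Vale.Agent.P067.Coset
import Vale.Agent.P067.Defs
import Vale.Agent.P067.LocalGlobalAux

set_option linter.unusedSectionVars false

namespace Vale.Agent.P067

open Finset

namespace Fin0

open LG

variable {I G : Type} [Group G] [Fintype G] [Fintype I] [DecidableEq I] [Fintype (Vtx I G)]

/-- the `d`-skeleton of the coset complex -/
def skel (K : I → Subgroup G) (d : ℕ) : PreAbstractSimplicialComplex (Vtx I G) where
  faces := {σ | σ ∈ CC K ⊤ Set.univ ∧ σ.Nonempty ∧ σ.card ≤ d + 1}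
  isRelLowerSet_faces := by
    rintro σ ⟨h1, h2, h3⟩
    exact ⟨h2, fun τ hτ hne => ⟨isLowerSet_CC K ⊤ Set.univ hτ h1, hne, (card_le_card hτ).trans h3⟩⟩

theorem mem_skel {K : I → Subgroup G} {d : ℕ} {σ : Finset (Vtx I G)} :
    σ ∈ (skel K d).faces ↔ ∃ g T, T.Nonempty ∧ T.card ≤ d + 1 ∧ σ = face K g T := by
  constructor
  · rintro ⟨⟨g, _, T, _, rfl⟩, h2, h3⟩
    refine ⟨g, T, ?_, by simpa using h3, rfl⟩
    rw [← card_pos] at h2 ⊢
    simpa using h2
  · rintro ⟨g, T, h1, h2, rfl⟩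
    refine ⟨face_mem_CC K (Subgroup.mem_top g) (Set.subset_univ _), ?_, by simpa using h2⟩
    rw [← card_pos] at h1 ⊢
    simpa using h1

theorem mem_lvl {K : I → Subgroup G} {d i : ℕ} (hi : i ≤ d) {σ : Finset (Vtx I G)} :
    σ ∈ lvl (skel K d) i ↔ ∃ g T, T.card = i + 1 ∧ σ = face K g T := by
  classical
  unfold lvl
  rw [mem_filter, mem_skel]
  constructor
  · rintro ⟨_, ⟨g, T, _, _, rfl⟩, h⟩
    exact ⟨g, T, by simpa using h, rfl⟩
  · rintro ⟨g, T, h, rfl⟩
    exact ⟨mem_univ _, ⟨g, T, card_pos.1 (by omega), by omega, rfl⟩, by simpa using h⟩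

theorem face_mem_lvl (K : I → Subgroup G) {d i : ℕ} (hi : i ≤ d) (g : G) {T : Finset I}
    (hT : T.card = i + 1) : face K g T ∈ lvl (skel K d) i := (mem_lvl hi).2 ⟨g, T, hT, rfl⟩

theorem card_of_mem_lvl {K : I → Subgroup G} {d i : ℕ} {g : G} {T : Finset I}
    (h : face K g T ∈ lvl (skel K d) i) : T.card = i + 1 := by
  classical
  unfold lvl at h
  simpa using (mem_filter.1 h).2.2

theorem isPure (K : I → Subgroup G) {d : ℕ} (hd : d + 1 ≤ Fintype.card I) :
    IsPure (skel K d) d := by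
  constructor
  · obtain ⟨T, _, hT⟩ := exists_subset_card_eq (s := (univ : Finset I)) (n := d + 1) hd
    exact ⟨_, face_mem_lvl K le_rfl 1 hT⟩
  · intro σ hσ
    obtain ⟨g, T, _, h2, rfl⟩ := mem_skel.1 hσ
    obtain ⟨T', h3, h4⟩ := exists_superset_card_eq h2 hd
    exact ⟨_, face_mem_lvl K le_rfl g h4, face_mono K g h3⟩

open Classical in
theorem card_coset_le (K : I → Subgroup G) {κ : ℕ} (hκ : ∀ c, Nat.card (K c) ≤ κ) (c : I) (g : G) :
    ((univ : Finset G).filter (fun x => g⁻¹ * x ∈ K c)).card ≤ κ := by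
  refine le_trans ?_ (hκ c)
  rw [Nat.card_eq_fintype_card, ← card_univ]
  refine card_le_card_of_injOn
    (fun x => if h : g⁻¹ * x ∈ K c then (⟨g⁻¹ * x, h⟩ : K c) else 1) (fun _ _ => by simp) ?_
  intro x hx y hy h
  have hx' : g⁻¹ * x ∈ K c := by simpa using hx
  have hy' : g⁻¹ * y ∈ K c := by simpa using hy
  simpa [hx', hy'] using h

theorem deg_le (K : I → Subgroup G) {κ d : ℕ} (hκ : ∀ c, Nat.card (K c) ≤ κ) (v : Vtx I G) :
    ((lvl (skel K d) d).filter (fun τ => v ∈ τ)).card ≤ 2 ^ Fintype.card I * κ := by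
  classical
  rcases ((lvl (skel K d) d).filter (fun τ => v ∈ τ)).eq_empty_or_nonempty with h | ⟨τ, hτ⟩
  · rw [h]; simp
  obtain ⟨h1, h2⟩ := mem_filter.1 hτ
  obtain ⟨g, T, _, rfl⟩ := (mem_lvl le_rfl).1 h1
  have hv := (mem_face.1 h2).2
  have hsub : (lvl (skel K d) d).filter (fun τ => v ∈ τ) ⊆
      ((univ : Finset (Finset I)) ×ˢ (univ : Finset G).filter (fun x => g⁻¹ * x ∈ K v.ty)).image
        (fun p => face K p.2 p.1) := by
    intro σ hσ
    obtain ⟨h3, h4⟩ := mem_filter.1 hσ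
    obtain ⟨g', T', _, rfl⟩ := (mem_lvl le_rfl).1 h3
    have hv' := (mem_face.1 h4).2
    refine mem_image.2 ⟨(T', g'), mem_product.2 ⟨mem_univ _, mem_filter.2 ⟨mem_univ _, ?_⟩⟩, rfl⟩
    exact ((vtx_eq_iff K).1 (hv.symm.trans hv')).2
  refine (card_le_card hsub).trans (card_image_le.trans ?_)
  rw [card_product, card_univ, Fintype.card_finset]
  exact Nat.mul_le_mul_left _ (card_coset_le K hκ _ _)

theorem fibre_le (K : I → Subgroup G) {κ : ℕ} (hκ : ∀ c, Nat.card (K c) ≤ κ)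
    (S : Finset (Finset I × G)) (hS : ∀ p ∈ S, p.1.Nonempty) :
    S.card ≤ κ * (S.image (fun p => face K p.2 p.1)).card := by
  classical
  refine card_le_mul_card_image S κ fun σ hσ => ?_
  obtain ⟨p, hp, rfl⟩ := mem_image.1 hσ
  obtain ⟨c, hc⟩ := hS p hp
  refine le_trans ?_ (card_coset_le K hκ c p.2)
  refine card_le_card_of_injOn (fun q => q.2) (fun q hq => ?_) ?_
  · have h1 := (mem_filter.1 (mem_coe.1 hq)).2
    have h2 := (face_eq_iff K).1 h1.symm
    simpa using KT_le K hc h2.2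
  · intro q hq q' hq' h
    have h1 := (face_eq_iff K).1 (mem_filter.1 (mem_coe.1 hq)).2
    have h2 := (face_eq_iff K).1 (mem_filter.1 (mem_coe.1 hq')).2
    exact Prod.ext (h1.1.trans h2.1.symm) h

theorem card_G_le (K : I → Subgroup G) {κ d : ℕ} (hκ : ∀ c, Nat.card (K c) ≤ κ)
    (hd : d + 1 ≤ Fintype.card I) : Fintype.card G ≤ κ * (lvl (skel K d) 0).card := by
  classical
  obtain ⟨c⟩ : Nonempty I := Fintype.card_pos_iff.1 (by omega)
  have h1 := fibre_le K hκ (({{c}} : Finset (Finset I)) ×ˢ (univ : Finset G)) (by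
    intro p hp
    have := (mem_product.1 hp).1
    rw [mem_singleton] at this
    rw [this]; simp)
  rw [card_product, card_singleton, one_mul, card_univ] at h1
  refine h1.trans (Nat.mul_le_mul_left _ (card_le_card ?_))
  intro σ hσ
  obtain ⟨p, hp, rfl⟩ := mem_image.1 hσ
  have := (mem_product.1 hp).1
  rw [mem_singleton] at this
  exact face_mem_lvl K (Nat.zero_le _) _ (by rw [this]; simp)

/-- a typed family describing a cochain -/
def Rep (K : I → Subgroup G) (d i : ℕ) (f : Cochain (skel K d) i) (a : Finset I → G → ZMod 2) :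
    Prop := ∀ T x (h : face K x T ∈ lvl (skel K d) i), a T x = f ⟨face K x T, h⟩

theorem exists_rep (K : I → Subgroup G) (d i : ℕ) (f : Cochain (skel K d) i) :
    ∃ a, Typed K a ∧ Rep K d i f a := by
  classical
  refine ⟨fun T x => if h : face K x T ∈ lvl (skel K d) i then f ⟨face K x T, h⟩ else 0, ?_, ?_⟩
  · intro T x k hk
    have : face K (x * k) T = face K x T :=
      ((face_eq_iff K).2 ⟨rfl, by simpa using hk⟩).symm
    simp only [this]
  · intro T x h
    simp only [dif_pos h]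

theorem exists_cochain_fin (K : I → Subgroup G) {d i : ℕ} (hi : i ≤ d) {a : Finset I → G → ZMod 2}
    (ha : Typed K a) : ∃ f : Cochain (skel K d) i, Rep K d i f a := by
  have h1 : ∀ σ : {σ // σ ∈ lvl (skel K d) i}, ∃ g T, T.card = i + 1 ∧ σ.1 = face K g T :=
    fun σ => (mem_lvl hi).1 σ.2
  choose g T _ h3 using h1
  refine ⟨fun σ => a (T σ) (g σ), fun T' x h => ?_⟩
  have h4 := (face_eq_iff K).1 (h3 ⟨_, h⟩)
  have h5 := ha T' x _ h4.2
  rw [mul_inv_cancel_left] at h5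
  simp only [← h4.1, h5]

theorem rep_cobd {K : I → Subgroup G} {d i : ℕ} (hi : i ≤ d) {f : Cochain (skel K d) i}
    {a : Finset I → G → ZMod 2} (h : Rep K d i f a) :
    Rep K d (i + 1) (cobd (skel K d) i f) (tdel ∅ a) := by
  intro T x hx
  have hT := card_of_mem_lvl hx
  have hm : ∀ c ∈ T, face K x (T.erase c) ∈ lvl (skel K d) i := fun c hc =>
    face_mem_lvl K hi x (by rw [card_erase_of_mem hc, hT]; rfl)
  simp only [tdel, cobd, sdiff_empty]
  refine sum_bij (fun c hc => ⟨face K x (T.erase c), hm c hc⟩) ?_ ?_ ?_ ?_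
  · intro c _
    exact mem_filter.2 ⟨mem_univ _, face_mono K x (erase_subset c T)⟩
  · intro c hc c' _ hcc
    have h1 := ((face_eq_iff K).1 (congrArg Subtype.val hcc)).1
    exact (erase_inj T hc).1 h1
  · intro σ hσ
    obtain ⟨T', h1, h2⟩ := subset_face (mem_filter.1 hσ).2
    have h3 : T'.card = i + 1 := card_of_mem_lvl (h2 ▸ σ.2)
    obtain ⟨c, hc, hc'⟩ := exists_of_ssubset (s₁ := T') (s₂ := T)
      (Finset.ssubset_iff_subset_ne.2 ⟨h1, fun h => by rw [h] at h3; omega⟩)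
    refine ⟨c, hc, Subtype.ext ?_⟩
    have h4 : T' = T.erase c := by
      refine eq_of_subset_of_card_le (subset_erase.2 ⟨h1, hc'⟩) ?_
      rw [card_erase_of_mem hc, hT, h3]; rfl
    simp only [h2, h4]
  · intro c hc
    exact h _ x (hm c hc)

theorem supp_cnt {K : I → Subgroup G} {d i κ : ℕ} (hi : i ≤ d) (hκ : ∀ c, Nat.card (K c) ≤ κ)
    {f : Cochain (skel K d) i} {a : Finset I → G → ZMod 2} (h : Rep K d i f a) :
    (univ.filter (fun σ => f σ ≠ 0)).card ≤ cnt ⊤ ∅ (i + 1) a ∧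
      cnt ⊤ ∅ (i + 1) a ≤ κ * (univ.filter (fun σ => f σ ≠ 0)).card := by
  classical
  set S : Finset (Finset I × G) := univ.filter (fun p => p.1.card = i + 1 ∧ a p.1 p.2 ≠ 0) with hS
  have h1 : cnt ⊤ ∅ (i + 1) a = S.card := by
    unfold cnt
    rw [← card_sigma]
    refine card_bij (fun p _ => (p.1, p.2)) ?_ ?_ ?_
    · intro p hp
      simpa [hS] using hp
    · rintro ⟨p, p'⟩ _ ⟨q, q'⟩ _ hpq
      simp only [Prod.mk.injEq] at hpq
      obtain ⟨rfl, rfl⟩ := hpq
      rfl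
    · rintro ⟨T, x⟩ hp
      exact ⟨⟨T, x⟩, by simpa [hS] using hp, rfl⟩
  have h2 : S.image (fun p => face K p.2 p.1) =
      (univ.filter (fun σ => f σ ≠ 0)).image Subtype.val := by
    ext σ
    simp only [mem_image, hS, mem_filter, mem_univ, true_and]
    constructor
    · rintro ⟨⟨T, x⟩, ⟨h3, h4⟩, rfl⟩
      have h5 := face_mem_lvl K hi x h3
      exact ⟨⟨_, h5⟩, by rwa [← h T x h5], rfl⟩
    · rintro ⟨⟨σ, hσ⟩, h3, rfl⟩
      obtain ⟨x, T, h4, rfl⟩ := (mem_lvl hi).1 hσ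
      exact ⟨(T, x), ⟨h4, by rwa [h T x hσ]⟩, rfl⟩
  have h3 : (S.image (fun p => face K p.2 p.1)).card = (univ.filter (fun σ => f σ ≠ 0)).card := by
    rw [h2, card_image_of_injective _ Subtype.val_injective]
  rw [h1, ← h3]
  refine ⟨card_image_le, fibre_le K hκ S fun p hp => card_pos.1 ?_⟩
  have := (mem_filter.1 hp).2.1
  omega

theorem exists_cobds (K : I → Subgroup G) {d i : ℕ} (hi : i ≤ d) {φ : Finset I → G → ZMod 2}
    (hφ : Typed K φ) : ∃ b ∈ cobds (skel K d) i, Rep K d i b (tdel ∅ φ) := by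
  cases i with
  | zero =>
    refine ⟨fun _ => φ ∅ 1, ⟨_, rfl⟩, fun T x hx => ?_⟩
    obtain ⟨c, rfl⟩ := card_eq_one.1 (card_of_mem_lvl hx)
    have := hφ ∅ 1 x (by simp)
    simpa [tdel] using this
  | succ j =>
    obtain ⟨f, hf⟩ := exists_cochain_fin K (d := d) (i := j) (by omega) hφ
    exact ⟨_, ⟨f, rfl⟩, rep_cobd (by omega) hf⟩

theorem weight_bounds (K : I → Subgroup G) {d i κ : ℕ} (hd : d + 1 ≤ Fintype.card I) (hi : i ≤ d)
    (hκ : ∀ c, Nat.card (K c) ≤ κ) {σ : Finset (Vtx I G)} (hσ : σ ∈ lvl (skel K d) i) :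
    1 / (2 ^ (d + 1) * ((lvl (skel K d) d).card : ℝ)) ≤ weight (skel K d) d i σ ∧
      weight (skel K d) d i σ ≤
        ((2 ^ Fintype.card I * κ : ℕ) : ℝ) / ((lvl (skel K d) d).card : ℝ) := by
  classical
  have hp := isPure K hd
  have hN : (0 : ℝ) < ((lvl (skel K d) d).card : ℝ) := by exact_mod_cast card_pos.2 hp.1
  have hc1 : (1 : ℝ) ≤ ((d + 1).choose (i + 1) : ℝ) := by
    exact_mod_cast Nat.choose_pos (by omega)
  have hc2 : ((d + 1).choose (i + 1) : ℝ) ≤ 2 ^ (d + 1) := by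
    exact_mod_cast Nat.choose_le_two_pow _ _
  have hσ' : σ ∈ (skel K d).faces := by
    unfold lvl at hσ; exact (mem_filter.1 hσ).2.1
  have h1 : (1 : ℝ) ≤ (((lvl (skel K d) d).filter (fun τ => σ ⊆ τ)).card : ℝ) := by
    obtain ⟨τ, h1, h2⟩ := hp.2 σ hσ'
    exact_mod_cast card_pos.2 ⟨τ, mem_filter.2 ⟨h1, h2⟩⟩
  have h2 : (((lvl (skel K d) d).filter (fun τ => σ ⊆ τ)).card : ℝ) ≤
      ((2 ^ Fintype.card I * κ : ℕ) : ℝ) := by
    obtain ⟨v, hv⟩ := hσ'.2.1
    have := deg_le K (d := d) hκ v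
    have hsub : (lvl (skel K d) d).filter (fun τ => σ ⊆ τ) ⊆
        (lvl (skel K d) d).filter (fun τ => v ∈ τ) := fun τ hτ =>
      mem_filter.2 ⟨(mem_filter.1 hτ).1, (mem_filter.1 hτ).2 hv⟩
    exact_mod_cast (card_le_card hsub).trans this
  unfold weight
  constructor
  · gcongr
  · calc _ ≤ ((2 ^ Fintype.card I * κ : ℕ) : ℝ) / (1 * ((lvl (skel K d) d).card : ℝ)) := by gcongr
      _ = _ := by rw [one_mul]

theorem isCobExp (K : I → Subgroup G) {d κ C : ℕ} (hd : d + 1 ≤ Fintype.card I)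
    (hκ : ∀ c, Nat.card (K c) ≤ κ) (hL : ∀ m, 1 ≤ m → m ≤ d → LinkExp K ∅ m C) :
    IsCobExp (skel K d) d (1 / (((2 ^ Fintype.card I * κ * C * κ * 2 ^ (d + 1) : ℕ) : ℝ) + 1)) := by
  classical
  intro i hi f
  obtain ⟨a, ha, hr⟩ := exists_rep K d i f
  obtain ⟨φ, hφ, h1⟩ := hL (i + 1) (by omega) hi a ha
  rw [KT_empty] at h1
  obtain ⟨b, hb, hrb⟩ := exists_cobds K hi.le hφ
  have hrs : Rep K d i (f - b) (a + tdel ∅ φ) := by
    intro T x hx
    simp only [Pi.add_apply, Pi.sub_apply, hr T x hx, hrb T x hx, CharTwo.sub_eq_add]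
  have h2 := (supp_cnt hi.le hκ hrs).1
  have h3 := (supp_cnt (i := i + 1) hi hκ (rep_cobd hi.le hr)).2
  set s1 := (univ.filter (fun σ => (f - b) σ ≠ 0)).card with hs1
  set s2 := (univ.filter (fun σ => cobd (skel K d) i f σ ≠ 0)).card with hs2
  have h4 : (s1 : ℝ) ≤ C * (κ * s2) := by
    exact_mod_cast h2.trans (h1.trans (Nat.mul_le_mul_left _ h3))
  have hN : (0 : ℝ) < ((lvl (skel K d) d).card : ℝ) := by
    exact_mod_cast card_pos.2 (isPure K hd).1
  set N : ℝ := ((lvl (skel K d) d).card : ℝ) with hNdef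
  set D : ℝ := ((2 ^ Fintype.card I * κ : ℕ) : ℝ) with hD
  have h5 : cnorm (skel K d) d i (f - b) ≤ s1 * (D / N) := by
    have := sum_le_card_nsmul (univ.filter (fun σ => (f - b) σ ≠ 0))
      (fun σ => weight (skel K d) d i σ.1) (D / N)
      (fun σ _ => (weight_bounds K hd hi.le hκ σ.2).2)
    rwa [nsmul_eq_mul] at this
  have h6 : s2 * (1 / (2 ^ (d + 1) * N)) ≤ cnorm (skel K d) d (i + 1) (cobd (skel K d) i f) := by
    have := card_nsmul_le_sum (univ.filter (fun σ => cobd (skel K d) i f σ ≠ 0))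
      (fun σ => weight (skel K d) d (i + 1) σ.1) (1 / (2 ^ (d + 1) * N))
      (fun σ _ => (weight_bounds K hd hi hκ σ.2).1)
    rwa [nsmul_eq_mul] at this
  have h7 : cdist (skel K d) d i f (cobds (skel K d) i) ≤ cnorm (skel K d) d i (f - b) := by
    refine csInf_le ⟨0, ?_⟩ ⟨b, hb, rfl⟩
    rintro _ ⟨b', _, rfl⟩
    exact sum_nonneg fun σ _ => by unfold weight; positivity
  have hD0 : 0 ≤ D := Nat.cast_nonneg _
  have e1 : (((2 ^ Fintype.card I * κ * C * κ * 2 ^ (d + 1) : ℕ) : ℝ)) =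
      D * C * κ * 2 ^ (d + 1) := by rw [hD]; push_cast; ring
  rw [e1, one_div_mul_eq_div, div_le_iff₀ (by positivity)]
  have h8 : s1 * (D / N) ≤ (s2 * (1 / (2 ^ (d + 1) * N))) * (D * C * κ * 2 ^ (d + 1)) := by
    calc s1 * (D / N) ≤ (C * (κ * s2)) * (D / N) := by gcongr
      _ = _ := by field_simp
  have h9 : 0 ≤ s2 * (1 / (2 ^ (d + 1) * N)) := by positivity
  calc _ ≤ (s2 * (1 / (2 ^ (d + 1) * N))) * (D * C * κ * 2 ^ (d + 1)) := h7.trans (h5.trans h8)
    _ ≤ cnorm (skel K d) d (i + 1) (cobd (skel K d) i f) * (D * C * κ * 2 ^ (d + 1) + 1) := by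
      refine mul_le_mul h6 (by linarith) (by positivity) (h9.trans h6)

theorem isConn (K : I → Subgroup G) {d C : ℕ} (hd : 1 ≤ d) (hL : LinkExp K ∅ 1 C) :
    IsConn (skel K d) := by
  classical
  intro u v hu hv
  let r : Vtx I G → Vtx I G → Prop := fun a b => ({a, b} : Finset (Vtx I G)) ∈ (skel K d).faces
  let a : Finset I → G → ZMod 2 := fun T x =>
    if ∃ c ∈ T, Relation.ReflTransGen r u (vtx K x c) then 1 else 0
  have ha : Typed K a := by
    intro T x k hk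
    have : ∀ c ∈ T, vtx K (x * k) c = vtx K x c := fun c hc =>
      ((vtx_eq_iff K).2 ⟨rfl, by simpa using KT_le K hc hk⟩).symm
    refine if_congr (exists_congr fun c => and_congr_right fun hc => by rw [this c hc]) rfl rfl
  have hedge : ∀ x c c', r (vtx K x c) (vtx K x c') := by
    intro x c c'
    refine mem_skel.2 ⟨x, {c, c'}, by simp, card_le_two.trans (by omega), ?_⟩
    simp [face]
  have hz : cnt (⊤ : Subgroup G) ∅ 2 (tdel ∅ a) = 0 := by
    have h0 : cnt (⊤ : Subgroup G) (∅ : Finset I) 2 0 = 0 := by simp [cnt]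
    rw [← h0]
    refine cnt_congr _ _ _ fun T _ hT x _ => ?_
    obtain ⟨c, c', hne, rfl⟩ := card_eq_two.1 hT
    have e1 : ({c, c'} : Finset I).erase c = {c'} := by
      ext z; simp only [mem_erase, mem_insert, mem_singleton]; grind
    have e2 : ({c, c'} : Finset I).erase c' = {c} := by
      ext z; simp only [mem_erase, mem_insert, mem_singleton]; grind
    have e3 : a {c'} x = a {c} x := by
      refine if_congr ?_ rfl rfl
      simp only [mem_singleton, exists_eq_left]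
      exact ⟨fun h => h.tail (hedge x _ _), fun h => h.tail (hedge x _ _)⟩
    simp only [tdel, sdiff_empty, sum_pair hne, e1, e2, e3, Pi.zero_apply]
    exact CharTwo.add_self_eq_zero _
  obtain ⟨φ, hφ, h1⟩ := hL a ha
  rw [KT_empty, hz, mul_zero, Nat.le_zero] at h1
  have hconst : ∀ x c, a {c} x = φ ∅ 1 := by
    intro x c
    have h2 := eq_zero_of_cnt h1 (T := {c}) (empty_subset _) (card_singleton c)
      (Subgroup.mem_top x)
    have h3 := hφ ∅ 1 x (by simp)
    rw [one_mul] at h3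
    simp only [Pi.add_apply, tdel, sdiff_empty, sum_singleton, erase_singleton, h3] at h2
    exact CharTwo.add_eq_zero.1 h2
  have hvtx : ∀ w : Vtx I G, {w} ∈ (skel K d).faces → ∃ x, w = vtx K x w.ty := by
    intro w hw
    obtain ⟨x, T, _, _, h⟩ := mem_skel.1 hw
    exact ⟨x, (mem_face.1 (h ▸ mem_singleton_self w)).2⟩
  obtain ⟨x, hx⟩ := hvtx u hu
  obtain ⟨y, hy⟩ := hvtx v hv
  have h4 : a {u.ty} x = 1 := if_pos ⟨u.ty, mem_singleton_self _, by rw [← hx]⟩
  have h5 : a {v.ty} y = 1 := by rw [hconst, ← hconst x u.ty, h4]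
  by_contra hn
  have h6 : a {v.ty} y = 0 := if_neg (by
    rintro ⟨c, hc, h⟩
    rw [mem_singleton.1 hc, ← hy] at h
    exact hn h)
  rw [h5] at h6
  exact one_ne_zero h6

end Fin0

/-- from the counting form on typed cochains to the weighted form on the `d`-skeleton -/
theorem exists_complex (n d κ C : ℕ) (hd : 1 ≤ d) (hdn : d + 1 ≤ n) : ∃ (D : ℕ) (ε : ℝ), 0 < ε ∧
    ∀ (G : Type) [Group G] [Fintype G] (I : Type) [Fintype I] [DecidableEq I]
      (K : I → Subgroup G), Fintype.card I = n → (∀ c, Nat.card (K c) ≤ κ) →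
      (∀ m, 1 ≤ m → m ≤ d → LinkExp K ∅ m C) →
      ∃ (V : Type) (_ : Fintype V) (_ : DecidableEq V) (X : PreAbstractSimplicialComplex V),
        IsPure X d ∧ IsConn X ∧ degree X d ≤ D ∧ IsCobExp X d ε ∧
          Fintype.card G ≤ κ * (lvl X 0).card := by
  refine ⟨2 ^ n * κ, 1 / (((2 ^ n * κ * C * κ * 2 ^ (d + 1) : ℕ) : ℝ) + 1), by positivity, ?_⟩
  intro G _ _ I _ _ K hI hκ hL
  subst hI
  let _ : Fintype (Vtx I G) := Fintype.ofFinite _
  refine ⟨Vtx I G, inferInstance, inferInstance, Fin0.skel K d, Fin0.isPure K hdn,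
    Fin0.isConn K hd (hL 1 le_rfl hd), ?_, Fin0.isCobExp K hdn hκ hL, Fin0.card_G_le K hκ hdn⟩
  exact Finset.sup_le fun v _ => Fin0.deg_le K hκ v

end Vale.Agent.P067
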