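import Vale.Agent.P067.ChainRed

/-!
Bounded cones for complexes of flags of subspaces opposite to a fixed flag.
-/

set_option linter.unusedSectionVars false

namespace Vale.Agent.P067

open Finset Module

section
variable {F V : Type} [Field F] [AddCommGroup V] [Module F V]

noncomputable instance : DecidableEq (Submodule F V) := Classical.decEq _

/-- `W` is opposite to the flag `E` and satisfies the conditions `(ρ i, H i)`, `i ∈ s` -/
def GoodSub (E : ℕ → Submodule F V) {ι : Type} (s : Finset ι) (ρ : ι → ℕ)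
    (H : ι → Submodule F V) (W : Submodule F V) : Prop :=
  Disjoint W (E (finrank F W)) ∧ ∀ i ∈ s, ρ i < finrank F W → ¬ (W ⊓ E (ρ i) ≤ H i)

/-- chains of good subspaces strictly between `A` and `B` -/
def FlagCx (E : ℕ → Submodule F V) {ι : Type} (s : Finset ι) (ρ : ι → ℕ)
    (H : ι → Submodule F V) (A B : Submodule F V) : Set (Finset (Submodule F V)) :=
  {σ | IsChain (· ≤ ·) (↑σ : Set (Submodule F V)) ∧
    ∀ W ∈ σ, A < W ∧ W < B ∧ GoodSub E s ρ H W}

theorem isLowerSet_flagCx (E : ℕ → Submodule F V) {ι : Type} (s : Finset ι) (ρ : ι → ℕ)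
    (H : ι → Submodule F V) (A B : Submodule F V) : IsLowerSet (FlagCx E s ρ H A B) := by
  intro σ τ hle hσ
  exact ⟨hσ.1.mono (Finset.coe_subset.2 hle), fun W hW => hσ.2 W (hle hW)⟩

variable [FiniteDimensional F V]

theorem eq_of_chain_of_finrank_eq {σ : Finset (Submodule F V)}
    (h : IsChain (· ≤ ·) (↑σ : Set (Submodule F V))) {W W' : Submodule F V} (hW : W ∈ σ)
    (hW' : W' ∈ σ) (he : finrank F W = finrank F W') : W = W' := by
  rcases h.total (Finset.mem_coe.2 hW) (Finset.mem_coe.2 hW') with h1 | h1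
  · exact Submodule.eq_of_le_of_finrank_eq h1 he
  · exact (Submodule.eq_of_le_of_finrank_eq h1 he.symm).symm

theorem finrank_sup_span {W : Submodule F V} {l : V} (h : l ∉ W) :
    finrank F (W ⊔ Submodule.span F {l} : Submodule F V) = finrank F W + 1 := by
  have h0 : l ≠ 0 := fun h' => h (h' ▸ W.zero_mem)
  have h1 := Submodule.finrank_sup_add_finrank_inf_eq W (Submodule.span F {l})
  rw [((Submodule.disjoint_span_singleton' h0).2 h).eq_bot, finrank_bot,
    finrank_span_singleton h0] at h1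
  omega

theorem sup_eq_top_of_disjoint {E : ℕ → Submodule F V}
    (hE : ∀ j ≤ finrank F V, finrank F (E j) + j = finrank F V) {W : Submodule F V}
    (h : Disjoint W (E (finrank F W))) : W ⊔ E (finrank F W) = ⊤ := by
  apply Submodule.eq_top_of_finrank_eq
  have h1 := Submodule.finrank_sup_add_finrank_inf_eq W (E (finrank F W))
  rw [h.eq_bot, finrank_bot] at h1
  have h2 := hE _ (Submodule.finrank_le W)
  omega

/-- adding a generic line keeps a subspace good -/
theorem goodSub_sup_span {E : ℕ → Submodule F V} (hA : Antitone E)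
    (hE : ∀ j ≤ finrank F V, finrank F (E j) + j = finrank F V) {ι : Type} {s : Finset ι}
    {ρ : ι → ℕ} {H : ι → Submodule F V} {W : Submodule F V} (hW : GoodSub E s ρ H W) {l : V}
    (h1 : l ∉ W ⊔ E (finrank F W + 1))
    (h2 : ∀ i ∈ s, ρ i = finrank F W → l ∉ W ⊔ (H i ⊓ E (ρ i))) :
    GoodSub E s ρ H (W ⊔ Submodule.span F {l}) := by
  have h3 : l ∉ W := fun h => h1 (Submodule.mem_sup_left h)
  have h4 := finrank_sup_span h3
  refine ⟨?_, fun i hi h5 h6 => ?_⟩
  · rw [h4, Submodule.disjoint_def]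
    intro x hx hx'
    obtain ⟨w, hw, y, hy, rfl⟩ := Submodule.mem_sup.1 hx
    obtain ⟨a, rfl⟩ := Submodule.mem_span_singleton.1 hy
    by_cases ha : a = 0
    · rw [ha, zero_smul, add_zero] at hx' ⊢
      exact Submodule.disjoint_def.1 hW.1 w hw (hA (Nat.le_succ _) hx')
    · exfalso
      apply h1
      have : l = a⁻¹ • ((w + a • l) - w) := by
        rw [add_sub_cancel_left, smul_smul, inv_mul_cancel₀ ha, one_smul]
      rw [this]
      exact Submodule.smul_mem _ _ (Submodule.sub_mem _ (Submodule.mem_sup_right hx')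
        (Submodule.mem_sup_left hw))
  · rw [h4] at h5
    rcases (Nat.lt_succ_iff.1 h5).eq_or_lt with h7 | h7
    · apply h2 i hi h7
      have h8 : l ∈ W ⊔ E (finrank F W) := by rw [sup_eq_top_of_disjoint hE hW.1]; trivial
      obtain ⟨w, hw, y, hy, h9⟩ := Submodule.mem_sup.1 h8
      rw [← h7] at hy
      have h10 : y ∈ W ⊔ Submodule.span F {l} := by
        have : y = l - w := by rw [← h9]; simp
        rw [this]
        exact Submodule.sub_mem _ (Submodule.mem_sup_right (Submodule.mem_span_singleton_self l))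
          (Submodule.mem_sup_left hw)
      rw [← h9]
      exact Submodule.add_mem _ (Submodule.mem_sup_left hw)
        (Submodule.mem_sup_right ⟨h6 ⟨h10, hy⟩, hy⟩)
    · exact hW.2 i hi h7 ((inf_le_inf_right _ le_sup_left).trans h6)

theorem exists_avoid [Fintype F] (B : Submodule F V) (P : Finset (Submodule F V))
    (h1 : ∀ p ∈ P, ¬ B ≤ p) (h2 : P.card < Fintype.card F) : ∃ l ∈ B, ∀ p ∈ P, l ∉ p := by
  have := Submodule.iUnion_ssubset_of_forall_ne_top_of_card_lt (K := F) (M := B) P.attach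
    (fun p => p.1.comap B.subtype) (fun p h => h1 p.1 p.2 (Submodule.comap_subtype_eq_top.1 h))
    (by rw [card_attach, ENat.card_eq_coe_fintype_card]; exact_mod_cast h2)
  obtain ⟨l, _, hl⟩ := Set.exists_of_ssubset this
  refine ⟨l.1, l.2, fun p hp h => hl ?_⟩
  simp only [Set.mem_iUnion]
  exact ⟨⟨p, hp⟩, mem_attach _ _, h⟩

theorem exists_generic [Fintype F] {E : ℕ → Submodule F V} (hA : Antitone E)
    (hE : ∀ j ≤ finrank F V, finrank F (E j) + j = finrank F V) {ι : Type} {s : Finset ι}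
    {ρ : ι → ℕ} {H : ι → Submodule F V} {B : Submodule F V} (hB : GoodSub E s ρ H B)
    (P : Finset (Submodule F V))
    (hP : ∀ W ∈ P, GoodSub E s ρ H W ∧ finrank F W + 2 ≤ finrank F B)
    (hc : P.card * (1 + s.card) < Fintype.card F) :
    ∃ l ∈ B, ∀ W ∈ P, l ∉ W ∧ GoodSub E s ρ H (W ⊔ Submodule.span F {l}) := by
  classical
  obtain ⟨l, hl, h⟩ := exists_avoid B (P.biUnion fun W => insert (W ⊔ E (finrank F W + 1))
      ((s.filter (fun i => ρ i = finrank F W)).image (fun i => W ⊔ (H i ⊓ E (ρ i))))) (by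
    intro p hp hle
    obtain ⟨W, hW, hp⟩ := mem_biUnion.1 hp
    obtain ⟨h1, h2⟩ := hP W hW
    have hBV := Submodule.finrank_le B
    rcases mem_insert.1 hp with rfl | hp
    · have h3 : (⊤ : Submodule F V) ≤ W ⊔ E (finrank F W + 1) := by
        rw [← sup_eq_top_of_disjoint hE hB.1]
        exact sup_le hle ((hA (by omega)).trans le_sup_right)
      have h4 := Submodule.finrank_mono h3
      have h5 := Submodule.finrank_add_le_finrank_add_finrank W (E (finrank F W + 1))
      have h6 := hE (finrank F W + 1) (by omega)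
      rw [finrank_top] at h4
      omega
    · obtain ⟨i, hi, rfl⟩ := mem_image.1 hp
      obtain ⟨hi1, hi2⟩ := mem_filter.1 hi
      apply hB.2 i hi1 (by omega)
      intro x hx
      obtain ⟨w, hw, y, hy, rfl⟩ := Submodule.mem_sup.1 (hle hx.1)
      have h3 : w ∈ E (finrank F W) := by
        rw [← hi2]
        have : w = (w + y) - y := by simp
        rw [this]
        exact Submodule.sub_mem _ hx.2 hy.2
      rw [Submodule.disjoint_def.1 h1.1 w hw h3, zero_add]
      exact hy.1) (by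
    refine lt_of_le_of_lt (card_biUnion_le_card_mul _ _ (1 + s.card) fun W _ => ?_) hc
    refine (card_insert_le _ _).trans ?_
    have := (card_image_le (s := s.filter (fun i => ρ i = finrank F W))
      (f := fun i => W ⊔ (H i ⊓ E (ρ i)))).trans (card_filter_le _ _)
    omega)
  refine ⟨l, hl, fun W hW => ?_⟩
  have h1 : l ∉ W ⊔ E (finrank F W + 1) := h _ (mem_biUnion.2 ⟨W, hW, mem_insert_self _ _⟩)
  refine ⟨fun h' => h1 (Submodule.mem_sup_left h'), goodSub_sup_span hA hE (hP W hW).1 h1 ?_⟩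
  intro i hi h2
  exact h _ (mem_biUnion.2 ⟨W, hW, mem_insert_of_mem
    (mem_image.2 ⟨i, mem_filter.2 ⟨hi, h2⟩, rfl⟩)⟩)

end

/-- the bound in the pushing argument -/
def pushB : ℕ → ℕ → ℕ
  | 0, M => M
  | (δ + 1), M => M * M + pushB δ (M + M * M)

section
variable {F V : Type} [Field F] [AddCommGroup V] [Module F V] [FiniteDimensional F V]

theorem fill_push {E : ℕ → Submodule F V} {ι : Type} {s : Finset ι}
    {ρ : ι → ℕ} {H : ι → Submodule F V} {A B a : Submodule F V} (ha1 : A < a) (ha2 : a < B)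
    (ha3 : GoodSub E s ρ H a) (δ m : ℕ) : ∀ M : ℕ,
    Fill (Full (FlagCx E s ρ H A B) (fun W => GoodSub E s ρ H (W ⊔ a) ∧ W ⊔ a < B ∧
      (a ≤ W ∨ finrank F W ≤ finrank F A + δ))) m M (pushB δ M) := by
  induction δ with
  | zero =>
    intro M
    refine fill_of_apex a ?_ m M
    rintro σ ⟨⟨h1, h2⟩, h3⟩
    have h4 : ∀ W ∈ σ, a ≤ W := fun W hW => (h3 W hW).2.2.resolve_right (by
      have := Submodule.finrank_lt_finrank_of_lt (h2 W hW).1
      omega)
    refine ⟨⟨?_, fun W hW => ?_⟩, fun W hW => ?_⟩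
    · rw [coe_insert]
      exact h1.insert fun W hW _ => Or.inl (h4 W hW)
    · rcases mem_insert.1 hW with rfl | hW
      · exact ⟨ha1, ha2, ha3⟩
      · exact h2 W hW
    · rcases mem_insert.1 hW with rfl | hW
      · rw [sup_idem]; exact ⟨ha3, ha2, Or.inl le_rfl⟩
      · exact h3 W hW
  | succ δ ih =>
    intro M
    refine fill_of_dom (isLowerSet_full (isLowerSet_flagCx E s ρ H A B) _)
      (fun W => ¬ a ≤ W ∧ finrank F W = finrank F A + δ + 1) ?_ (fun W => W ⊔ a) ?_ ?_
    · intro σ hσ W hW W' hW' h1 h2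
      exact eq_of_chain_of_finrank_eq hσ.1.1 hW hW' (h1.2.trans h2.2.symm)
    · rintro σ ⟨⟨h1, h2⟩, h3⟩ W hW hb
      refine ⟨fun h => h.1 le_sup_right, ⟨?_, fun W' hW' => ?_⟩, fun W' hW' => ?_⟩
      · rw [coe_insert]
        refine h1.insert fun W' hW' _ => ?_
        rcases h1.total (Finset.mem_coe.2 hW) hW' with h4 | h4
        · rcases h4.eq_or_lt with h5 | h5
          · exact Or.inr (h5 ▸ le_sup_left)
          · refine Or.inl (sup_le h4 ((h3 W' hW').2.2.resolve_right ?_))
            have := Submodule.finrank_lt_finrank_of_lt h5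
            have := hb.2
            omega
        · exact Or.inr (h4.trans le_sup_left)
      · rcases mem_insert.1 hW' with rfl | hW'
        · exact ⟨(h2 W hW).1.trans_le le_sup_left, (h3 W hW).2.1, (h3 W hW).1⟩
        · exact h2 W' hW'
      · rcases mem_insert.1 hW' with rfl | hW'
        · rw [sup_assoc, sup_idem]
          exact ⟨(h3 W hW).1, (h3 W hW).2.1, Or.inl le_sup_right⟩
        · exact h3 W' hW'
    · convert ih (M + M * M) using 1
      ext σ
      constructor
      · rintro ⟨⟨h1, h2⟩, h3⟩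
        refine ⟨h1, fun W hW => ⟨(h2 W hW).1, (h2 W hW).2.1, ?_⟩⟩
        by_cases h4 : a ≤ W
        · exact Or.inl h4
        · have h5 := (h2 W hW).2.2.resolve_left h4
          have h6 : finrank F W ≠ finrank F A + δ + 1 := fun h => h3 W hW ⟨h4, h⟩
          exact Or.inr (by omega)
      · rintro ⟨h1, h2⟩
        refine ⟨⟨h1, fun W hW => ⟨(h2 W hW).1, (h2 W hW).2.1, (h2 W hW).2.2.imp id ?_⟩⟩,
          fun W hW h => ?_⟩
        · intro h; omega
        · have h5 := (h2 W hW).2.2.resolve_left h.1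
          have := h.2
          omega

theorem fill_low [Fintype F] {E : ℕ → Submodule F V} (hA : Antitone E)
    (hE : ∀ j ≤ finrank F V, finrank F (E j) + j = finrank F V) {ι : Type} {s : Finset ι}
    {ρ : ι → ℕ} {H : ι → Submodule F V} {A B : Submodule F V} (hA1 : GoodSub E s ρ H A)
    (hB1 : GoodSub E s ρ H B) (hAB : A ≤ B) (h2 : finrank F A + 2 ≤ finrank F B) {r : ℕ}
    (hr : finrank F B ≤ finrank F A + r) {m M : ℕ}
    (hq : (M * m + 1) * (1 + s.card) < Fintype.card F) :
    ∀ z ∈ chains (Full (FlagCx E s ρ H A B) (fun W => ¬ finrank F W + 1 = finrank F B)) m,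
      bd z = 0 → z.support.card ≤ M →
      ∃ w ∈ chains (FlagCx E s ρ H A B) (m + 1), bd w = z ∧ w.support.card ≤ pushB r M := by
  intro z hz hb hM
  have hz' := mem_chains.1 hz
  have hP : ∀ W ∈ z.support.biUnion id, A < W ∧ W < B ∧ GoodSub E s ρ H W ∧
      finrank F W + 2 ≤ finrank F B := by
    intro W hW
    obtain ⟨σ, hσ, hW⟩ := mem_biUnion.1 hW
    obtain ⟨h3, h4, h5⟩ := (hz' σ hσ).1.1.2 W hW
    have h6 := (hz' σ hσ).1.2 W hW
    have h7 := Submodule.finrank_lt_finrank_of_lt h4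
    exact ⟨h3, h4, h5, by omega⟩
  obtain ⟨l, hl, h⟩ := exists_generic hA hE hB1 (insert A (z.support.biUnion id)) (by
    intro W hW
    rcases mem_insert.1 hW with rfl | hW
    · exact ⟨hA1, h2⟩
    · exact (hP W hW).2.2) (by
    refine lt_of_le_of_lt (Nat.mul_le_mul_right _ ?_) hq
    refine (card_insert_le _ _).trans (Nat.add_le_add_right ?_ 1)
    exact (card_biUnion_le_card_mul _ _ m fun σ hσ => (hz' σ hσ).2.le).trans
      (Nat.mul_le_mul_right _ hM))
  have hlB : Submodule.span F {l} ≤ B := (Submodule.span_singleton_le_iff_mem _ _).2 hl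
  have hlt : ∀ W : Submodule F V, W ≤ B → l ∉ W → finrank F W + 2 ≤ finrank F B →
      W ⊔ Submodule.span F {l} < B := by
    intro W h3 h4 h5
    refine lt_of_le_of_ne (sup_le h3 hlB) fun h6 => ?_
    have := finrank_sup_span h4
    rw [h6] at this
    omega
  obtain ⟨hA2, hA3⟩ := h A (mem_insert_self _ _)
  have ha1 : A < A ⊔ Submodule.span F {l} := by
    refine lt_of_le_of_ne le_sup_left fun h6 => hA2 ?_
    rw [h6]
    exact Submodule.mem_sup_right (Submodule.mem_span_singleton_self l)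
  obtain ⟨w, hw1, hw2, hw3⟩ := fill_push ha1 (hlt A hAB hA2 h2) hA3 r m M z (mem_chains.2
    fun σ hσ => ⟨⟨(hz' σ hσ).1.1, fun W hW => by
      have h3 : W ∈ z.support.biUnion id := mem_biUnion.2 ⟨σ, hσ, hW⟩
      obtain ⟨h4, h5, _, h7⟩ := hP W h3
      obtain ⟨h8, h9⟩ := h W (mem_insert_of_mem h3)
      beta_reduce
      rw [← sup_assoc, sup_eq_left.2 h4.le]
      exact ⟨h9, hlt W h5.le h8 h7, Or.inr (by omega)⟩⟩, (hz' σ hσ).2⟩) hb hM
  exact ⟨w, chains_mono (full_subset _ _) _ hw1, hw2, hw3⟩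

theorem glink_flagCx {E : ℕ → Submodule F V} {ι : Type} {s : Finset ι}
    {ρ : ι → ℕ} {H : ι → Submodule F V} {A B W₀ : Submodule F V}
    (h1 : finrank F W₀ + 1 = finrank F B) (h2 : {W₀} ∈ FlagCx E s ρ H A B) :
    GLink (FlagCx E s ρ H A B) (fun W => finrank F W + 1 = finrank F B) {W₀}
      = FlagCx E s ρ H A W₀ := by
  obtain ⟨h3, h4, h5⟩ := h2.2 W₀ (mem_singleton_self _)
  ext σ
  constructor
  · rintro ⟨h6, h7, h8⟩
    refine ⟨h7.mono (Finset.coe_subset.2 subset_union_left), fun W hW => ?_⟩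
    obtain ⟨h9, h10, h11⟩ := h8 W (mem_union_left _ hW)
    refine ⟨h9, ?_, h11⟩
    have h12 := h6 W hW
    have h13 := Submodule.finrank_lt_finrank_of_lt h10
    rcases h7.total (Finset.mem_coe.2 (mem_union_left _ hW))
      (Finset.mem_coe.2 (mem_union_right _ (mem_singleton_self W₀))) with h14 | h14
    · exact lt_of_le_of_ne h14 fun h => h12 (h ▸ h1)
    · have := Submodule.finrank_mono h14
      omega
  · rintro ⟨h6, h7⟩
    refine ⟨fun W hW h => ?_, ?_, fun W hW => ?_⟩
    · have := Submodule.finrank_lt_finrank_of_lt (h7 W hW).2.1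
      omega
    · rw [union_comm, ← insert_eq, coe_insert]
      exact h6.insert fun W hW _ => Or.inr (h7 W hW).2.1.le
    · rcases mem_union.1 hW with hW | hW
      · exact ⟨(h7 W hW).1, (h7 W hW).2.1.trans h4, (h7 W hW).2.2⟩
      · rw [mem_singleton.1 hW]; exact ⟨h3, h4, h5⟩

end

theorem fill_of_glink' {V : Type*} [DecidableEq V] {Y : Set (Finset V)} (hY : IsLowerSet Y)
    (bad : V → Prop)
    (hind : ∀ σ ∈ Y, ∀ v ∈ σ, ∀ w ∈ σ, bad v → bad w → v = w) {m M M' M'' : ℕ}
    (h : ∀ v : V, bad v → {v} ∈ Y → 1 ≤ m → Fill (GLink Y bad {v}) (m - 1) M M')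
    (h2 : ∀ z ∈ chains (Full Y (fun v => ¬ bad v)) m, bd z = 0 → z.support.card ≤ M + M * M' →
      ∃ w ∈ chains Y (m + 1), bd w = z ∧ w.support.card ≤ M'') :
    Fill Y m M (M * M' + M'') := by
  classical
  intro z hz hb hM
  obtain ⟨U, hU1, hU2, hU3, hU4⟩ := reduce_step_quant bad hY (k := 1) (M' := M') hz
    (fun σ hσ => card_le_one.2 fun v hv w hw =>
      hind σ (mem_chains.1 hz σ hσ).1 v (mem_filter.1 hv).1 w (mem_filter.1 hw).1
        (mem_filter.1 hv).2 (mem_filter.1 hw).2)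
    (by simp [hb]) hM (fun τ h1 h3 h4 h5 => by
      obtain ⟨v, rfl⟩ := card_eq_one.1 h1
      exact h v (h3 v (mem_singleton_self v)) h4 h5)
  obtain ⟨w, hw1, hw2, hw3⟩ := h2 (z + bd U) (mem_chains_full_of_lt_one bad
    (Submodule.add_mem _ hz (bd_mem_chains hY hU1)) hU2) (by rw [map_add, hb, bd_bd, add_zero])
    (by simpa using hU4)
  refine ⟨U + w, Submodule.add_mem _ hU1 hw1, ?_,
    (card_support_add_le _ _).trans (add_le_add hU3 hw3)⟩
  rw [map_add, hw2, add_comm z, add_add_cancel_ch']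

theorem geom_fill (k r : ℕ) : ∀ m M : ℕ, ∃ M' q0 : ℕ,
    ∀ (F V : Type) [Field F] [Fintype F] [AddCommGroup V] [Module F V] [FiniteDimensional F V]
      (E : ℕ → Submodule F V) (ι : Type) (s : Finset ι) (ρ : ι → ℕ) (H : ι → Submodule F V)
      (A B : Submodule F V),
      q0 ≤ Fintype.card F → Antitone E → (∀ j ≤ finrank F V, finrank F (E j) + j = finrank F V) →
      s.card ≤ k → GoodSub E s ρ H A → GoodSub E s ρ H B → A ≤ B →
      finrank F A + m + 2 ≤ finrank F B → finrank F B ≤ finrank F A + r →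
      Fill (FlagCx E s ρ H A B) m M M' := by
  induction r with
  | zero =>
    intro m M
    exact ⟨0, 0, fun F V _ _ _ _ _ E ι s ρ H A B _ _ _ _ _ _ _ h1 h2 => by omega⟩
  | succ r ih =>
    intro m M
    obtain ⟨M1, q1, h1⟩ := ih (m - 1) M
    refine ⟨M * M1 + pushB (r + 1) (M + M * M1), max q1 (((M + M * M1) * m + 1) * (1 + k) + 1),
      fun F V _ _ _ _ _ E ι s ρ H A B hq hA hE hs hA1 hB1 hAB h2 h3 => ?_⟩
    refine fill_of_glink' (isLowerSet_flagCx E s ρ H A B)
      (fun W => finrank F W + 1 = finrank F B) ?_ ?_ ?_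
    · intro σ hσ W hW W' hW' h4 h5
      exact eq_of_chain_of_finrank_eq hσ.1 hW hW' (by omega)
    · intro W₀ h4 h5 h6
      rw [glink_flagCx h4 h5]
      obtain ⟨h7, _, h8⟩ := h5.2 W₀ (mem_singleton_self _)
      exact h1 F V E ι s ρ H A W₀ (le_of_max_le_left hq) hA hE hs hA1 h8 h7.le (by omega) (by omega)
    · refine fill_low hA hE hA1 hB1 hAB (by omega) h3 ?_
      have h4 := le_of_max_le_right hq
      exact lt_of_le_of_lt (Nat.mul_le_mul_left _ (by omega)) h4

theorem geom_cone (r m k : ℕ) : ∃ ρc q0 : ℕ,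
    ∀ (F V : Type) [Field F] [Fintype F] [AddCommGroup V] [Module F V] [FiniteDimensional F V]
      (E : ℕ → Submodule F V) (ι : Type) (s : Finset ι) (ρ : ι → ℕ) (H : ι → Submodule F V)
      (A B : Submodule F V),
      q0 ≤ Fintype.card F → Antitone E → (∀ j ≤ finrank F V, finrank F (E j) + j = finrank F V) →
      s.card ≤ k → GoodSub E s ρ H A → GoodSub E s ρ H B → A ≤ B →
      finrank F A + m + 2 ≤ finrank F B → finrank F B ≤ finrank F A + r →
      HasCone (FlagCx E s ρ H A B) m ρc := by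
  induction m with
  | zero =>
    obtain ⟨M', q0, h⟩ := geom_fill k r 0 1
    exact ⟨M', q0, fun F V _ _ _ _ _ E ι s ρ H A B h1 h2 h3 h4 h5 h6 h7 h8 h9 =>
      hasCone_zero (h F V E ι s ρ H A B h1 h2 h3 h4 h5 h6 h7 h8 h9)⟩
  | succ m ih =>
    obtain ⟨ρc, q1, h⟩ := ih
    obtain ⟨M', q2, h'⟩ := geom_fill k r (m + 1) (1 + (m + 1) * ρc)
    exact ⟨max ρc M', max q1 q2, fun F V _ _ _ _ _ E ι s ρ H A B h1 h2 h3 h4 h5 h6 h7 h8 h9 =>
      hasCone_succ (isLowerSet_flagCx E s ρ H A B)
        (h F V E ι s ρ H A B (le_of_max_le_left h1) h2 h3 h4 h5 h6 h7 (by omega) h9)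
        (h' F V E ι s ρ H A B (le_of_max_le_right h1) h2 h3 h4 h5 h6 h7 h8 h9)⟩

end Vale.Agent.P067
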