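import Vale.Agent.P067.Coset

/-!
The groups: matrices of determinant one over `R` that are lower unitriangular modulo `t`.
Types (cuts) `c : Fin n` mean the cut just before the index `c` in the cyclic order.
-/

set_option linter.unusedSectionVars false

namespace Vale.Agent.P067

open Finset

/-- a submonoid of a finite group is a subgroup -/
def finSubgroup {G : Type*} [Group G] [Finite G] (S : Submonoid G) : Subgroup G :=
  { S with
    inv_mem' := fun {x} hx => by
      have h1 : x⁻¹ = x ^ (orderOf x - 1) := by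
        have h2 : 0 < orderOf x := orderOf_pos x
        rw [inv_eq_iff_mul_eq_one, ← pow_succ', Nat.sub_add_cancel h2, pow_orderOf_eq_one]
      show x⁻¹ ∈ S
      rw [h1]
      exact S.pow_mem hx _ }

theorem mem_finSubgroup {G : Type*} [Group G] [Finite G] {S : Submonoid G} {x : G} :
    x ∈ finSubgroup S ↔ x ∈ S := Iff.rfl

instance finite_SL (n : ℕ) (R : Type) [CommRing R] [Finite R] :
    Finite (Matrix.SpecialLinearGroup (Fin n) R) :=
  inferInstanceAs (Finite {A : Matrix (Fin n) (Fin n) R // A.det = 1})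

/-- standing assumptions on the coefficient ring (think of `F[t]/(t^s)`, `s ≥ 2`) -/
structure Nice (F : Type) {R : Type} [Field F] [Fintype F] [CommRing R] [Algebra F R] (t : R) :
    Prop where
  odd : Odd (Fintype.card F)
  nilp : IsNilpotent t
  span : ∀ r : R, r ∈ Submodule.span F (Set.range (fun k : ℕ => t ^ k))
  free : ∀ u : F, u • t = 0 → u = 0

section defs
variable (F : Type) {R : Type} [Field F] [CommRing R] [Algebra F R] [Finite R] (t : R) {n : ℕ}

/-- lower unitriangular modulo `t` -/
def IwCond (M : Matrix (Fin n) (Fin n) R) : Prop :=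
  (∀ a b, a < b → t ∣ M a b) ∧ ∀ a, t ∣ M a a - 1

theorem iwCond_one : IwCond t (1 : Matrix (Fin n) (Fin n) R) :=
  ⟨fun a b h => by simp [Matrix.one_apply_ne h.ne], fun a => by simp⟩

theorem IwCond.mul {t : R} {M M' : Matrix (Fin n) (Fin n) R} (h : IwCond t M) (h' : IwCond t M') :
    IwCond t (M * M') := by
  constructor
  · intro a b hab
    rw [Matrix.mul_apply]
    refine Finset.dvd_sum fun c _ => ?_
    by_cases hc : a < c
    · exact (h.1 a c hc).mul_right _
    · exact (h'.1 c b (lt_of_le_of_lt (not_lt.1 hc) hab)).mul_left _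
  · intro a
    rw [Matrix.mul_apply, ← Finset.add_sum_erase _ _ (mem_univ a)]
    have h1 : t ∣ M a a * M' a a - 1 := by
      have : M a a * M' a a - 1 = (M a a - 1) * M' a a + (M' a a - 1) := by ring
      rw [this]
      exact dvd_add ((h.2 a).mul_right _) (h'.2 a)
    have h2 : t ∣ ∑ c ∈ univ.erase a, M a c * M' c a := by
      refine Finset.dvd_sum fun c hc => ?_
      rcases lt_or_gt_of_ne (mem_erase.1 hc).1 with h3 | h3
      · exact (h'.1 c a h3).mul_left _
      · exact (h.1 a c h3).mul_right _
    have := dvd_add h1 h2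
    convert this using 1
    ring

def Iw (n : ℕ) : Subgroup (Matrix.SpecialLinearGroup (Fin n) R) :=
  finSubgroup
    { carrier := {g | IwCond t g.1}
      one_mem' := iwCond_one t
      mul_mem' := fun ha hb => IwCond.mul ha hb }

/-- the group -/
def GG (n : ℕ) : Type := ↥(Iw t n)

instance : Group (GG t n) := inferInstanceAs (Group ↥(Iw t n))
instance : Finite (GG t n) := inferInstanceAs (Finite ↥(Iw t n))
noncomputable instance : Fintype (GG t n) := Fintype.ofFinite _

variable {t}

def mat (g : GG t n) : Matrix (Fin n) (Fin n) R := g.1.1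

@[simp] theorem mat_mul (g h : GG t n) : mat (g * h) = mat g * mat h := rfl
@[simp] theorem mat_one : mat (1 : GG t n) = 1 := rfl
theorem mat_injective : Function.Injective (mat : GG t n → _) :=
  fun _ _ h => Subtype.ext (Subtype.ext h)
theorem det_mat (g : GG t n) : (mat g).det = 1 := g.1.2
theorem iw_mat (g : GG t n) : IwCond t (mat g) := g.2
@[simp] theorem mat_inv_mul (g : GG t n) : mat g⁻¹ * mat g = 1 := by rw [← mat_mul]; simp
@[simp] theorem mat_mul_inv (g : GG t n) : mat g * mat g⁻¹ = 1 := by rw [← mat_mul]; simp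

variable (t)

def mkG' (M : Matrix (Fin n) (Fin n) R) (h : M.det = 1 ∧ IwCond t M) : GG t n :=
  (⟨(⟨M, h.1⟩ : Matrix.SpecialLinearGroup (Fin n) R), h.2⟩ : ↥(Iw t n))

open Classical in
/-- the group element with a given matrix (junk value `1`) -/
noncomputable def mkG (M : Matrix (Fin n) (Fin n) R) : GG t n :=
  if h : M.det = 1 ∧ IwCond t M then mkG' t M h else 1

theorem mat_mkG {M : Matrix (Fin n) (Fin n) R} (h1 : M.det = 1) (h2 : IwCond t M) :
    mat (mkG t M) = M := by
  rw [mkG, dif_pos ⟨h1, h2⟩]; rfl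

def ex (a b : Fin n) : ℕ := if a < b then 1 else 0

/-- position of the index `a` in the window starting at the cut `c` -/
def pos (c a : Fin n) : ℕ := a.val + if a < c then n else 0

theorem pos_injective (c : Fin n) : Function.Injective (pos c) := by
  intro a b h
  have ha := a.2
  have hb := b.2
  unfold pos at h
  apply Fin.ext
  split_ifs at h <;> omega

theorem ex_add_ex {c a b d : Fin n} (h1 : pos c d ≤ pos c b) (h2 : pos c b ≤ pos c a) :
    ex a b + ex b d = ex a d := by
  have ha := a.2
  have hb := b.2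
  have hd := d.2
  unfold pos at h1 h2
  unfold ex
  simp only [Fin.lt_def] at *
  split_ifs at * <;> omega

/-- the vertex groups -/
def Kc (c : Fin n) : Subgroup (GG t n) :=
  finSubgroup
    { carrier := {g | ∀ a b, (pos c b < pos c a → ∃ u : F, mat g a b = u • t ^ ex a b) ∧
        (¬ pos c b < pos c a → mat g a b = (1 : Matrix (Fin n) (Fin n) R) a b)}
      one_mem' := fun a b => ⟨fun h => ⟨0, by
        have : a ≠ b := fun h' => by simp [h'] at h
        simp [Matrix.one_apply_ne this]⟩, fun _ => rfl⟩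
      mul_mem' := by
        intro g h hg hh a b
        have key : ∀ {k : GG t n}, (∀ a b, (pos c b < pos c a → ∃ u : F, mat k a b = u • t ^ ex a b) ∧
            (¬ pos c b < pos c a → mat k a b = (1 : Matrix (Fin n) (Fin n) R) a b)) →
            ∀ a b, (pos c b ≤ pos c a → ∃ u : F, mat k a b = u • t ^ ex a b) ∧
              (pos c a < pos c b → mat k a b = 0) := by
          intro k hk a b
          refine ⟨fun h1 => ?_, fun h1 => ?_⟩
          · rcases h1.eq_or_lt with h2 | h2
            · obtain rfl := pos_injective c h2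
              exact ⟨1, by rw [(hk b b).2 (lt_irrefl _)]; simp [ex]⟩
            · exact (hk a b).1 h2
          · have : a ≠ b := fun h' => by simp [h'] at h1
            rw [(hk a b).2 (not_lt.2 h1.le), Matrix.one_apply_ne this]
        refine ⟨fun h1 => ?_, fun h1 => ?_⟩
        · rw [mat_mul, Matrix.mul_apply]
          have : ∑ d, mat g a d * mat h d b ∈ Submodule.span F {t ^ ex a b} := by
            refine Submodule.sum_mem _ fun d _ => ?_
            by_cases h2 : pos c d ≤ pos c a
            · by_cases h3 : pos c b ≤ pos c d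
              · obtain ⟨u, hu⟩ := (key hg a d).1 h2
                obtain ⟨u', hu'⟩ := (key hh d b).1 h3
                rw [hu, hu', smul_mul_smul_comm, ← pow_add, ex_add_ex h3 h2]
                exact Submodule.smul_mem _ _ (Submodule.mem_span_singleton_self _)
              · rw [(key hh d b).2 (not_le.1 h3), mul_zero]; exact Submodule.zero_mem _
            · rw [(key hg a d).2 (not_le.1 h2), zero_mul]; exact Submodule.zero_mem _
          obtain ⟨u, hu⟩ := Submodule.mem_span_singleton.1 this
          exact ⟨u, hu.symm⟩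
        · rw [mat_mul, Matrix.mul_apply, Finset.sum_eq_single a]
          · rw [(hg a a).2 (lt_irrefl _), (hh a b).2 h1]; simp
          · intro d _ hd
            by_cases h2 : pos c d < pos c a
            · rw [(key hh d b).2 (lt_of_lt_of_le h2 (not_lt.1 h1)), mul_zero]
            · rw [(hg a d).2 h2, Matrix.one_apply_ne hd.symm, zero_mul]
          · simp }

theorem mem_Kc {c : Fin n} {g : GG t n} : g ∈ Kc F t c ↔
    ∀ a b, (pos c b < pos c a → ∃ u : F, mat g a b = u • t ^ ex a b) ∧
      (¬ pos c b < pos c a → mat g a b = (1 : Matrix (Fin n) (Fin n) R) a b) := Iff.rfl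

/-- the Levi subgroups -/
def Lv (S : Finset (Fin n)) : Subgroup (GG t n) :=
  finSubgroup
    { carrier := {g | ∀ a b, (a ∉ S ∨ b ∉ S) → mat g a b = (1 : Matrix (Fin n) (Fin n) R) a b}
      one_mem' := fun _ _ _ => rfl
      mul_mem' := by
        intro g h hg hh a b hab
        rw [mat_mul, Matrix.mul_apply]
        rcases hab with hab | hab
        · rw [Finset.sum_congr rfl (fun d _ => by rw [hg a d (Or.inl hab)]), ← Matrix.mul_apply,
            Matrix.one_mul, hh a b (Or.inl hab)]
        · rw [Finset.sum_congr rfl (fun d _ => by rw [hh d b (Or.inr hab)]), ← Matrix.mul_apply,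
            Matrix.mul_one, hg a b (Or.inr hab)] }

theorem mem_Lv {S : Finset (Fin n)} {g : GG t n} : g ∈ Lv t S ↔
    ∀ a b, (a ∉ S ∨ b ∉ S) → mat g a b = (1 : Matrix (Fin n) (Fin n) R) a b := Iff.rfl

theorem Lv_univ : Lv t (univ : Finset (Fin n)) = ⊤ := by
  ext g; simp [mem_Lv]

theorem Lv_mono {S S' : Finset (Fin n)} (h : S ⊆ S') : Lv t S ≤ Lv t S' := by
  intro g hg a b hab
  exact hg a b (hab.imp (fun h1 h2 => h1 (h h2)) (fun h1 h2 => h1 (h h2)))

/-- elements whose row `b` is standard -/
def Prow (b : Fin n) : Subgroup (GG t n) :=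
  finSubgroup
    { carrier := {g | ∀ a, mat g b a = (1 : Matrix (Fin n) (Fin n) R) b a}
      one_mem' := fun _ => rfl
      mul_mem' := by
        intro g h hg hh a
        rw [mat_mul, Matrix.mul_apply, Finset.sum_congr rfl (fun d _ => by rw [hg d]),
          ← Matrix.mul_apply, Matrix.one_mul, hh a] }

theorem mem_Prow {b : Fin n} {g : GG t n} : g ∈ Prow t b ↔
    ∀ a, mat g b a = (1 : Matrix (Fin n) (Fin n) R) b a := Iff.rfl

/-- matrices supported in the rows `S` and the columns `B`, divisible by `t` above the diagonal -/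
def Ncol (S B : Finset (Fin n)) : Submodule F (Matrix (Fin n) (Fin n) R) where
  carrier := {A | (∀ a b, (a ∉ S ∨ b ∉ B) → A a b = 0) ∧ ∀ a b, a < b → t ∣ A a b}
  zero_mem' := ⟨fun _ _ _ => rfl, fun _ _ _ => by simp⟩
  add_mem' := by
    intro A A' hA hA'
    refine ⟨fun a b h => by simp [hA.1 a b h, hA'.1 a b h], fun a b h => ?_⟩
    exact dvd_add (hA.2 a b h) (hA'.2 a b h)
  smul_mem' := by
    intro u A hA
    refine ⟨fun a b h => by simp [hA.1 a b h], fun a b h => ?_⟩
    rw [Matrix.smul_apply, Algebra.smul_def]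
    exact (hA.2 a b h).mul_left _

theorem mem_Ncol {S B : Finset (Fin n)} {A : Matrix (Fin n) (Fin n) R} : A ∈ Ncol F t S B ↔
    (∀ a b, (a ∉ S ∨ b ∉ B) → A a b = 0) ∧ ∀ a b, a < b → t ∣ A a b := Iff.rfl

/-- the element `1 + A` -/
noncomputable def eN (A : Matrix (Fin n) (Fin n) R) : GG t n := mkG t (1 + A)

theorem Ncol_mul_eq_zero {S B S' B' : Finset (Fin n)} (h : Disjoint B S')
    {A A' : Matrix (Fin n) (Fin n) R} (hA : A ∈ Ncol F t S B) (hA' : A' ∈ Ncol F t S' B') :
    A * A' = 0 := by
  ext a b
  rw [Matrix.mul_apply, Matrix.zero_apply]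
  refine Finset.sum_eq_zero fun d _ => ?_
  by_cases hd : d ∈ B
  · rw [hA'.1 d b (Or.inl (disjoint_left.1 h hd)), mul_zero]
  · rw [hA.1 a d (Or.inr hd), zero_mul]

theorem mat_eN {S B : Finset (Fin n)} (h : Disjoint S B) {A : Matrix (Fin n) (Fin n) R}
    (hA : A ∈ Ncol F t S B) : mat (eN t A) = 1 + A := by
  refine mat_mkG t ?_ ⟨fun a b hab => ?_, fun a => ?_⟩
  · let P : Matrix (Fin n) (Fin n) R := Matrix.diagonal (fun b => if b ∈ B then 1 else 0)
    have h1 : A * P = A := by
      ext a b
      rw [Matrix.mul_diagonal]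
      split_ifs with hb
      · simp
      · simp [hA.1 a b (Or.inr hb)]
    have h2 : P * A = 0 := by
      ext a b
      rw [Matrix.diagonal_mul]
      split_ifs with ha
      · simp [hA.1 a b (Or.inl (disjoint_right.1 h ha))]
      · simp
    rw [← h1, Matrix.det_one_add_mul_comm, h2, add_zero, Matrix.det_one]
  · rw [Matrix.add_apply, Matrix.one_apply_ne hab.ne, zero_add]
    exact hA.2 a b hab
  · have : A a a = 0 := by
      by_cases ha : a ∈ S
      · exact hA.1 a a (Or.inr (disjoint_left.1 h ha))
      · exact hA.1 a a (Or.inl ha)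
    simp [this]

theorem eN_add {S B : Finset (Fin n)} (h : Disjoint S B) {A A' : Matrix (Fin n) (Fin n) R}
    (hA : A ∈ Ncol F t S B) (hA' : A' ∈ Ncol F t S B) : eN t (A + A') = eN t A * eN t A' := by
  apply mat_injective
  rw [mat_mul, mat_eN F t h hA, mat_eN F t h hA', mat_eN F t h (Submodule.add_mem _ hA hA'),
    add_mul, mul_add, mul_add, Ncol_mul_eq_zero F t h.symm hA hA']
  simp [add_assoc, add_comm A']

/-- elementary matrices -/
noncomputable def el (a b : Fin n) (r : R) : GG t n := eN t (Matrix.single a b r)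

theorem single_mem_Ncol {S B : Finset (Fin n)} {a b : Fin n} (ha : a ∈ S) (hb : b ∈ B) {r : R}
    (hr : a < b → t ∣ r) : Matrix.single a b r ∈ Ncol F t S B := by
  refine ⟨fun a' b' h => ?_, fun a' b' h => ?_⟩
  · refine Matrix.single_apply_of_ne _ _ _ _ _ ?_
    rintro ⟨rfl, rfl⟩
    exact h.elim (fun h => h ha) (fun h => h hb)
  · by_cases h' : a = a' ∧ b = b'
    · obtain ⟨rfl, rfl⟩ := h'
      rw [Matrix.single_apply_same]; exact hr h
    · rw [Matrix.single_apply_of_ne _ _ _ _ _ h']; exact dvd_zero _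

include F in
theorem mat_el {a b : Fin n} (hab : a ≠ b) {r : R} (hr : a < b → t ∣ r) :
    mat (el t a b r) = 1 + Matrix.single a b r :=
  mat_eN F t (S := {a}) (B := {b}) (by simpa using hab)
    (single_mem_Ncol F t (mem_singleton_self a) (mem_singleton_self b) hr)

theorem dvd_smul_pow_ex (a b : Fin n) (u : F) (h : a < b) : t ∣ u • t ^ ex a b := by
  rw [ex, if_pos h, pow_one, Algebra.smul_def]
  exact Dvd.intro_left _ rfl

/-- simple root elements: the root crossing the cut `j` -/
noncomputable def xs [NeZero n] (j : Fin n) (u : F) : GG t n :=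
  el t j (j - 1) (u • t ^ ex j (j - 1))

/-- the roots crossing the cuts `j` and `j + 1` -/
noncomputable def zs [NeZero n] (j : Fin n) (u : F) : GG t n :=
  el t (j + 1) (j - 1) (u • t ^ ex (j + 1) (j - 1))

theorem mem_KT_Kc {T : Finset (Fin n)} (hT : T.Nonempty) {g : GG t n} : g ∈ KT (Kc F t) T ↔
    ∀ a b, ((∀ c ∈ T, pos c b < pos c a) → ∃ u : F, mat g a b = u • t ^ ex a b) ∧
      (¬ (∀ c ∈ T, pos c b < pos c a) → mat g a b = (1 : Matrix (Fin n) (Fin n) R) a b) := by
  rw [mem_KT]
  constructor
  · intro h a b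
    refine ⟨fun h1 => ?_, fun h1 => ?_⟩
    · obtain ⟨c, hc⟩ := hT
      exact (h c hc a b).1 (h1 c hc)
    · push Not at h1
      obtain ⟨c, hc, h2⟩ := h1
      exact (h c hc a b).2 (not_lt.2 h2)
  · intro h c hc a b
    refine ⟨fun h1 => ?_, fun h1 => (h a b).2 fun h2 => h1 (h2 c hc)⟩
    by_cases h2 : ∀ c ∈ T, pos c b < pos c a
    · exact (h a b).1 h2
    · have : a ≠ b := fun h' => by simp [h'] at h1
      exact ⟨0, by rw [(h a b).2 h2, Matrix.one_apply_ne this, zero_smul]⟩

end defs

end Vale.Agent.P067
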