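import Vale.Agent.P067.Group

set_option linter.unusedSectionVars false

namespace Vale.Agent.P067

open Finset

variable {F : Type} {R : Type} [Field F] [Fintype F] [CommRing R] [Algebra F R] [Finite R]
  {t : R} {n : ℕ} [NeZero n]

/-- the column and row unipotent elements at the index `b` -/
def colrow (F : Type) {R : Type} [Field F] [CommRing R] [Algebra F R] [Finite R] (t : R) {n : ℕ}
    (S : Finset (Fin n)) (b : Fin n) : Set (GG t n) :=
  {g | ∃ A, (A ∈ Ncol F t (S.erase b) {b} ∨ A ∈ Ncol F t {b} (S.erase b)) ∧ g = eN t A}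

theorem val_add_one' (b : Fin n) : (b + 1).val = if b.val + 1 < n then b.val + 1 else 0 := by
  have hb := b.2
  rw [Fin.val_add, Fin.val_one', Nat.add_mod_mod]
  split_ifs with h
  · exact Nat.mod_eq_of_lt h
  · have : b.val + 1 = n := by omega
    rw [this, Nat.mod_self]

theorem val_sub_one' (b : Fin n) : (b - 1).val = if b.val = 0 then n - 1 else b.val - 1 := by
  have h1 := val_add_one' (b - 1)
  rw [sub_add_cancel] at h1
  have h2 := (b - 1).2
  split_ifs at h1 ⊢ <;> omega

theorem eN_zero_g : eN t (0 : Matrix (Fin n) (Fin n) R) = 1 := by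
  apply mat_injective
  rw [eN, add_zero, mat_mkG t Matrix.det_one (iwCond_one t), mat_one]

theorem el_zero (a b : Fin n) : el t a b (0 : R) = 1 := by
  rw [el, Matrix.single_zero, eN_zero_g]

include F in
theorem el_add {a b : Fin n} (hab : a ≠ b) {r r' : R} (hr : a < b → t ∣ r) (hr' : a < b → t ∣ r') :
    el t a b (r + r') = el t a b r * el t a b r' := by
  rw [el, Matrix.single_add]
  exact eN_add F t (S := {a}) (B := {b}) (by simpa using hab)
    (single_mem_Ncol F t (mem_singleton_self a) (mem_singleton_self b) hr)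
    (single_mem_Ncol F t (mem_singleton_self a) (mem_singleton_self b) hr')

include F in
theorem el_neg {a b : Fin n} (hab : a ≠ b) {r : R} (hr : a < b → t ∣ r) :
    el t a b (-r) = (el t a b r)⁻¹ := by
  rw [eq_inv_iff_mul_eq_one, ← el_add (F := F) hab (fun h => (hr h).neg_right) hr, neg_add_cancel,
    el_zero]

include F in
theorem el_commute {a b c d : Fin n} (hab : a ≠ b) (hcd : c ≠ d) (hbc : b ≠ c) (hda : d ≠ a)
    {r r' : R} (hr : a < b → t ∣ r) (hr' : c < d → t ∣ r') :
    Commute (el t a b r) (el t c d r') := by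
  apply mat_injective
  rw [mat_mul, mat_mul, mat_el F t hab hr, mat_el F t hcd hr']
  simp only [add_mul, mul_add, one_mul, mul_one]
  rw [Matrix.single_mul_single_of_ne _ _ _ _ hbc, Matrix.single_mul_single_of_ne _ _ _ _ hda]
  abel

theorem dvd_mul_of_lt {a b d : Fin n} {r r' : R} (hr : a < b → t ∣ r) (hr' : b < d → t ∣ r')
    (h : a < d) : t ∣ r * r' := by
  by_cases h1 : a < b
  · exact (hr h1).mul_right _
  · exact (hr' (lt_of_le_of_lt (not_lt.1 h1) h)).mul_left _

include F in
theorem el_heis {a b d : Fin n} (hab : a ≠ b) (hbd : b ≠ d) (had : a ≠ d) {r r' : R}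
    (hr : a < b → t ∣ r) (hr' : b < d → t ∣ r') :
    el t a b r * el t b d r' = el t b d r' * el t a b r * el t a d (r * r') := by
  apply mat_injective
  rw [mat_mul, mat_mul, mat_mul, mat_el F t hab hr, mat_el F t hbd hr',
    mat_el F t had (dvd_mul_of_lt hr hr')]
  simp only [add_mul, mul_add, one_mul, mul_one]
  rw [Matrix.single_mul_single_same, Matrix.single_mul_single_of_ne _ _ _ _ had.symm,
    Matrix.single_mul_single_of_ne _ _ _ _ had.symm,
    Matrix.single_mul_single_of_ne _ _ _ _ hab.symm, zero_mul]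
  abel

include F in
theorem el_mem_of_comm {H : Subgroup (GG t n)} {a b d : Fin n} (hab : a ≠ b) (hbd : b ≠ d)
    (had : a ≠ d) {r r' : R} (hr : a < b → t ∣ r) (hr' : b < d → t ∣ r')
    (h1 : el t a b r ∈ H) (h2 : el t b d r' ∈ H) : el t a d (r * r') ∈ H := by
  have h := H.mul_mem h1 h2
  rw [el_heis (F := F) hab hbd had hr hr'] at h
  exact (H.mul_mem_cancel_left (H.mul_mem h2 h1)).1 h

theorem eN_mem_of_el {H : Subgroup (GG t n)} {S B : Finset (Fin n)} (h : Disjoint S B)
    {A : Matrix (Fin n) (Fin n) R} (hA : A ∈ Ncol F t S B)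
    (hH : ∀ a ∈ S, ∀ b ∈ B, el t a b (A a b) ∈ H) : eN t A ∈ H := by
  have key : ∀ (s : Finset (Fin n)) (f : Fin n → Matrix (Fin n) (Fin n) R),
      (∀ i, f i ∈ Ncol F t S B ∧ eN t (f i) ∈ H) →
        ∑ i ∈ s, f i ∈ Ncol F t S B ∧ eN t (∑ i ∈ s, f i) ∈ H := by
    intro s f hf
    refine Finset.sum_induction f (fun X => X ∈ Ncol F t S B ∧ eN t X ∈ H) ?_ ?_ fun i _ => hf i
    · intro X Y hX hY
      exact ⟨Submodule.add_mem _ hX.1 hY.1, by
        rw [eN_add F t h hX.1 hY.1]
        exact H.mul_mem hX.2 hY.2⟩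
    · exact ⟨Submodule.zero_mem _, by rw [eN_zero_g]; exact H.one_mem⟩
  rw [Matrix.matrix_eq_sum_single A]
  refine (key _ _ fun a => key _ _ fun b => ?_).2
  by_cases hab : a ∈ S ∧ b ∈ B
  · exact ⟨single_mem_Ncol F t hab.1 hab.2 (hA.2 a b), hH a hab.1 b hab.2⟩
  · rw [hA.1 a b (not_and_or.1 hab), Matrix.single_zero, eN_zero_g]
    exact ⟨Submodule.zero_mem _, H.one_mem⟩

theorem eN_mem_Lv {S S' B : Finset (Fin n)} (h : Disjoint S' B) (h1 : S' ⊆ S) (h2 : B ⊆ S)
    {A : Matrix (Fin n) (Fin n) R} (hA : A ∈ Ncol F t S' B) : eN t A ∈ Lv t S := by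
  intro a b hab
  rw [mat_eN F t h hA, Matrix.add_apply,
    hA.1 a b (hab.imp (fun h3 h4 => h3 (h1 h4)) (fun h3 h4 => h3 (h2 h4))), add_zero]

include F in
theorem el_mem_Lv {S : Finset (Fin n)} {a b : Fin n} (ha : a ∈ S) (hb : b ∈ S) (hab : a ≠ b)
    {r : R} (hr : a < b → t ∣ r) : el t a b r ∈ Lv t S :=
  eN_mem_Lv (F := F) (S' := {a}) (B := {b}) (by simpa using hab) (by simpa using ha)
    (by simpa using hb) (single_mem_Ncol F t (mem_singleton_self a) (mem_singleton_self b) hr)

theorem colrow_subset (S : Finset (Fin n)) {b : Fin n} (hb : b ∈ S) :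
    colrow F t S b ⊆ Lv t S := by
  rintro _ ⟨A, hA | hA, rfl⟩
  · exact eN_mem_Lv (by simp) (erase_subset _ _) (by simpa using hb) hA
  · exact eN_mem_Lv (by simp) (by simpa using hb) (erase_subset _ _) hA

theorem el_mem_colrow {S : Finset (Fin n)} {b a a' : Fin n} (ha : a ∈ S) (ha' : a' ∈ S)
    (hne : a ≠ a') (h : a = b ∨ a' = b) {r : R} (hr : a < a' → t ∣ r) :
    el t a a' r ∈ colrow F t S b := by
  rcases h with rfl | rfl
  · exact ⟨_, Or.inr (single_mem_Ncol F t (mem_singleton_self _) (mem_erase.2 ⟨hne.symm, ha'⟩) hr),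
      rfl⟩
  · exact ⟨_, Or.inl (single_mem_Ncol F t (mem_erase.2 ⟨hne, ha⟩) (mem_singleton_self _) hr), rfl⟩

theorem el_entry_mem_KT {T : Finset (Fin n)} {g : GG t n} (hg : g ∈ KT (Kc F t) T) {a b : Fin n}
    (hab : a ≠ b) : el t a b (mat g a b) ∈ KT (Kc F t) T := by
  rw [mem_KT] at hg ⊢
  intro c hc a' b'
  rw [mat_el F t hab ((iw_mat g).1 a b), Matrix.add_apply]
  by_cases h : a = a' ∧ b = b'
  · obtain ⟨rfl, rfl⟩ := h
    rw [Matrix.single_apply_same, Matrix.one_apply_ne hab, zero_add]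
    refine ⟨(hg c hc a b).1, fun h1 => ?_⟩
    rw [(hg c hc a b).2 h1, Matrix.one_apply_ne hab]
  · rw [Matrix.single_apply_of_ne _ _ _ _ _ h, add_zero]
    refine ⟨fun h1 => ⟨0, ?_⟩, fun _ => rfl⟩
    have : a' ≠ b' := fun h' => by simp [h'] at h1
    rw [Matrix.one_apply_ne this, zero_smul]

/-- the elementary matrices inside a Levi subgroup and a face group -/
def elSet (F : Type) {R : Type} [Field F] [CommRing R] [Algebra F R] [Finite R] (t : R) {n : ℕ}
    (S T : Finset (Fin n)) : Set (GG t n) :=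
  {g | ∃ a ∈ S, ∃ b ∈ S, ∃ r, a ≠ b ∧ (a < b → t ∣ r) ∧ g = el t a b r ∧ g ∈ KT (Kc F t) T}

theorem reduce_one {S T : Finset (Fin n)} {b : Fin n} (hb : b ∈ S)
    (ih : Lv t (S.erase b) ⊓ KT (Kc F t) T ≤ Subgroup.closure (elSet F t (S.erase b) T))
    {g : GG t n} (hg : g ∈ Lv t S) (hg' : g ∈ KT (Kc F t) T) (h1 : mat g b b = 1) :
    g ∈ Subgroup.closure (elSet F t S T) := by
  let A : Matrix (Fin n) (Fin n) R := fun a d => if a ≠ b ∧ d = b then -mat g a b else 0
  let A' : Matrix (Fin n) (Fin n) R := fun a d => if a = b ∧ d ≠ b then -mat g b d else 0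
  have hA : A ∈ Ncol F t (S.erase b) {b} := by
    refine ⟨fun a d h => ?_, fun a d h => ?_⟩
    · simp only [A]
      split_ifs with h2
      · obtain ⟨h3, rfl⟩ := h2
        have h4 : a ∉ S := by simpa [h3] using h
        rw [hg a d (Or.inl h4), Matrix.one_apply_ne h3, neg_zero]
      · rfl
    · simp only [A]
      split_ifs with h2
      · obtain ⟨_, rfl⟩ := h2
        exact ((iw_mat g).1 a d h).neg_right
      · exact dvd_zero _
  have hA' : A' ∈ Ncol F t {b} (S.erase b) := by
    refine ⟨fun a d h => ?_, fun a d h => ?_⟩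
    · simp only [A']
      split_ifs with h2
      · obtain ⟨rfl, h3⟩ := h2
        have h4 : d ∉ S := by simpa [h3] using h
        rw [hg a d (Or.inr h4), Matrix.one_apply_ne h3.symm, neg_zero]
      · rfl
    · simp only [A']
      split_ifs with h2
      · obtain ⟨rfl, _⟩ := h2
        exact ((iw_mat g).1 a d h).neg_right
      · exact dvd_zero _
  have hel : ∀ a ∈ S, ∀ d ∈ S, a ≠ d → el t a d (-mat g a d) ∈
      Subgroup.closure (elSet F t S T) ⊓ KT (Kc F t) T := by
    intro a ha d hd had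
    rw [el_neg (F := F) had ((iw_mat g).1 a d)]
    refine Subgroup.inv_mem _ ⟨Subgroup.subset_closure ?_, el_entry_mem_KT hg' had⟩
    exact ⟨a, ha, d, hd, _, had, (iw_mat g).1 a d, rfl, el_entry_mem_KT hg' had⟩
  have hx : eN t A ∈ Subgroup.closure (elSet F t S T) ⊓ KT (Kc F t) T := by
    refine eN_mem_of_el (by simp) hA fun a ha d hd => ?_
    rw [mem_singleton] at hd
    subst hd
    have h2 := (mem_erase.1 ha).1
    simp only [A, h2, ne_eq, not_false_eq_true, and_self, if_true]
    exact hel a (mem_of_mem_erase ha) d hb h2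
  have hy : eN t A' ∈ Subgroup.closure (elSet F t S T) ⊓ KT (Kc F t) T := by
    refine eN_mem_of_el (by simp) hA' fun a ha d hd => ?_
    rw [mem_singleton] at ha
    subst ha
    have h2 := (mem_erase.1 hd).1
    simp only [A', h2, ne_eq, not_false_eq_true, and_self, if_true]
    exact hel a hb d (mem_of_mem_erase hd) h2.symm
  have e1 : ∀ a d, mat (eN t A * g) a d =
      mat g a d + if a ≠ b then -mat g a b * mat g b d else 0 := by
    intro a d
    rw [mat_mul, mat_eN F t (by simp) hA, add_mul, one_mul, Matrix.add_apply, Matrix.mul_apply,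
      Finset.sum_eq_single b]
    · simp only [A]
      split_ifs <;> simp_all
    · intro c _ hc
      simp [A, hc]
    · simp
  have e2 : ∀ a d, mat (eN t A * g * eN t A') a d = mat (eN t A * g) a d +
      if d ≠ b then mat (eN t A * g) a b * -mat g b d else 0 := by
    intro a d
    rw [mat_mul (eN t A * g), mat_eN F t (by simp) hA', mul_add, mul_one, Matrix.add_apply,
      Matrix.mul_apply, Finset.sum_eq_single b]
    · simp only [A']
      split_ifs <;> simp_all
    · intro c _ hc
      simp [A', hc]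
    · simp
  have hL : eN t A * g * eN t A' ∈ Lv t S :=
    (Lv t S).mul_mem ((Lv t S).mul_mem (colrow_subset S hb ⟨A, Or.inl hA, rfl⟩) hg)
      (colrow_subset S hb ⟨A', Or.inr hA', rfl⟩)
  have hL' : eN t A * g * eN t A' ∈ Lv t (S.erase b) := by
    intro a d had
    by_cases ha : a = b
    · subst ha
      rw [e2, e1, e1]
      by_cases hd : d = a
      · subst hd
        simp [h1]
      · simp [h1, hd, Matrix.one_apply_ne (Ne.symm hd)]
    · by_cases hd : d = b
      · subst hd
        rw [e2, e1]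
        simp [h1, ha]
      · exact hL a d (by simpa [ha, hd] using had)
  have hz : eN t A * g * eN t A' ∈ Subgroup.closure (elSet F t S T) := by
    refine Subgroup.closure_mono ?_ (ih ⟨hL', Subgroup.mul_mem _ (Subgroup.mul_mem _ hx.2 hg') hy.2⟩)
    rintro _ ⟨a, ha, d, hd, r, h⟩
    exact ⟨a, mem_of_mem_erase ha, d, mem_of_mem_erase hd, r, h⟩
  rw [Subgroup.mul_mem_cancel_right _ hy.1, Subgroup.mul_mem_cancel_left _ hx.1] at hz
  exact hz

include F in
theorem mat_el_mul {a b : Fin n} (hab : a ≠ b) {r : R} (hr : a < b → t ∣ r) (g : GG t n)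
    (c d : Fin n) : mat (el t a b r * g) c d = mat g c d + if c = a then r * mat g b d else 0 := by
  rw [mat_mul, mat_el F t hab hr, add_mul, one_mul, Matrix.add_apply]
  split_ifs with h
  · rw [h, Matrix.single_mul_apply_same]
  · rw [Matrix.single_mul_apply_of_ne _ _ _ _ _ h]

theorem gen1 (hN : Nice F t) (T S : Finset (Fin n)) :
    Lv t S ⊓ KT (Kc F t) T ≤ Subgroup.closure (elSet F t S T) := by
  induction S using Finset.induction_on_min with
  | empty =>
    intro g hg
    have : g = 1 := mat_injective (Matrix.ext fun a b => hg.1 a b (Or.inl (notMem_empty a)))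
    rw [this]
    exact Subgroup.one_mem _
  | insert b s hlt ih =>
    have hbs : b ∉ s := fun h => lt_irrefl _ (hlt b h)
    have hb : b ∈ insert b s := mem_insert_self _ _
    rw [← Finset.erase_insert hbs] at ih
    intro g hg
    rcases T.eq_empty_or_nonempty with rfl | ⟨c, hc⟩
    · rcases s.eq_empty_or_nonempty with rfl | ⟨a, ha⟩
      · refine reduce_one hb ih hg.1 hg.2 ?_
        have h1 : mat g = Matrix.diagonal (Function.update 1 b (mat g b b)) := by
          ext x y
          by_cases hxy : x = b ∧ y = b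
          · obtain ⟨rfl, rfl⟩ := hxy
            simp
          · rw [hg.1 x y (by simpa using not_and_or.1 hxy)]
            by_cases h2 : x = y
            · subst h2
              have : x ≠ b := fun h => hxy ⟨h, h⟩
              simp [this]
            · simp [h2, Matrix.one_apply_ne h2]
        have h2 := det_mat g
        rw [h1, Matrix.det_diagonal, Finset.prod_update_of_mem (mem_univ b)] at h2
        simpa using h2
      · have hab : b < a := hlt a ha
        have ha' : a ∈ insert b s := mem_insert_of_mem ha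
        obtain ⟨r, hr⟩ := (iw_mat g).2 b
        have hu : IsUnit (mat g b b) := by
          have : mat g b b = t * r + 1 := by rw [← hr]; ring
          rw [this]
          exact ((Commute.all t r).isNilpotent_mul_right hN.nilp).isUnit_add_one
        obtain ⟨v, hv⟩ := hu.exists_left_inv
        have c1 : a < b → t ∣ (1 - mat g a b) * v := fun h => absurd h (not_lt.2 hab.le)
        have c2 : b < a → t ∣ 1 - mat g b b := fun _ => ⟨-r, by rw [mul_neg, ← hr]; ring⟩
        have m1 : el t a b ((1 - mat g a b) * v) ∈ Subgroup.closure (elSet F t (insert b s) ∅) :=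
          Subgroup.subset_closure ⟨a, ha', b, hb, _, hab.ne', c1, rfl, by simp⟩
        have m2 : el t b a (1 - mat g b b) ∈ Subgroup.closure (elSet F t (insert b s) ∅) :=
          Subgroup.subset_closure ⟨b, hb, a, ha', _, hab.ne, c2, rfl, by simp⟩
        rw [← Subgroup.mul_mem_cancel_left _ m1, ← Subgroup.mul_mem_cancel_left _ m2]
        refine reduce_one hb ih ?_ (by simp) ?_
        · exact Subgroup.mul_mem _ (el_mem_Lv (F := F) hb ha' hab.ne c2)
            (Subgroup.mul_mem _ (el_mem_Lv (F := F) ha' hb hab.ne' c1) hg.1)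
        · rw [mat_el_mul (F := F) hab.ne c2, mat_el_mul (F := F) hab.ne' c1,
            mat_el_mul (F := F) hab.ne' c1, if_pos rfl, if_pos rfl, if_neg hab.ne, mul_assoc, hv]
          ring
    · refine reduce_one hb ih hg.1 hg.2 ?_
      rw [(mem_KT.1 hg.2 c hc b b).2 (lt_irrefl _), Matrix.one_apply_eq]

theorem Lv_le_closure (hN : Nice F t) (S : Finset (Fin n)) {b : Fin n} (hb : b ∈ S) :
    Lv t S ≤ Subgroup.closure ((Lv t (S.erase b) : Set (GG t n)) ∪ colrow F t S b) := by
  have _ := hb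
  intro g hg
  refine Subgroup.closure_mono ?_ (gen1 hN ∅ S ⟨hg, by simp⟩)
  rintro _ ⟨a, ha, a', ha', r, hne, hr, rfl, -⟩
  by_cases h : a = b ∨ a' = b
  · exact Or.inr (el_mem_colrow ha ha' hne h hr)
  · push Not at h
    exact Or.inl (el_mem_Lv (F := F) (mem_erase.2 ⟨h.1, ha⟩) (mem_erase.2 ⟨h.2, ha'⟩) hne hr)

theorem el_mem_Kc {c a b : Fin n} (h : pos c b < pos c a) (u : F) :
    el t a b (u • t ^ ex a b) ∈ Kc F t c := by
  have hab : a ≠ b := fun h' => by simp [h'] at h
  intro a' b'
  rw [mat_el F t hab (dvd_smul_pow_ex F t a b u), Matrix.add_apply]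
  by_cases h1 : a = a' ∧ b = b'
  · obtain ⟨rfl, rfl⟩ := h1
    rw [Matrix.single_apply_same, Matrix.one_apply_ne hab, zero_add]
    exact ⟨fun _ => ⟨u, rfl⟩, fun h2 => absurd h h2⟩
  · rw [Matrix.single_apply_of_ne _ _ _ _ _ h1, add_zero]
    refine ⟨fun h2 => ⟨0, ?_⟩, fun _ => rfl⟩
    have : a' ≠ b' := fun h' => by simp [h'] at h2
    rw [Matrix.one_apply_ne this, zero_smul]

theorem exists_pow_ex_mul {a b : Fin n} {r : R} (hr : a < b → t ∣ r) :
    ∃ r0, r = t ^ ex a b * r0 := by
  unfold ex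
  split_ifs with h
  · obtain ⟨r0, h0⟩ := hr h
    exact ⟨r0, by rw [pow_one]; exact h0⟩
  · exact ⟨r, by simp⟩

theorem dvd_pow_ex_mul (a b : Fin n) (r : R) (h : a < b) : t ∣ t ^ ex a b * r := by
  rw [ex, if_pos h, pow_one]
  exact Dvd.intro _ rfl

theorem exists_split (hN : Nice F t) (r : R) : ∃ (u : F) (r' : R), r = u • (1 : R) + t * r' := by
  refine Submodule.span_induction ?_ ?_ ?_ ?_ (hN.span r)
  · rintro _ ⟨k, rfl⟩
    cases k with
    | zero => exact ⟨1, 0, by simp⟩
    | succ k => exact ⟨0, t ^ k, by simp [pow_succ']⟩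
  · exact ⟨0, 0, by simp⟩
  · rintro _ _ _ _ ⟨u, x, rfl⟩ ⟨v, y, rfl⟩
    exact ⟨u + v, x + y, by rw [add_smul]; ring⟩
  · rintro a _ _ ⟨u, x, rfl⟩
    exact ⟨a * u, a • x, by rw [smul_add, smul_smul, mul_smul_comm]⟩

theorem el_entry_of_mem_KT {T : Finset (Fin n)} (hT : T.Nonempty) {a b : Fin n} (hab : a ≠ b)
    {r : R} (hr : a < b → t ∣ r) (h : el t a b r ∈ KT (Kc F t) T) :
    ((∀ c ∈ T, pos c b < pos c a) ∧ ∃ u : F, r = u • t ^ ex a b) ∨ r = 0 := by
  have h1 := (mem_KT_Kc F t hT).1 h a b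
  rw [mat_el F t hab hr, Matrix.add_apply, Matrix.single_apply_same, Matrix.one_apply_ne hab,
    zero_add] at h1
  by_cases h2 : ∀ c ∈ T, pos c b < pos c a
  · exact Or.inl ⟨h2, h1.1 h2⟩
  · exact Or.inr (h1.2 h2)

theorem cone_hyp (hN : Nice F t) (S : Finset (Fin n)) {b : Fin n} (hb : b ∈ S)
    (Γ : Subgroup (GG t n)) (h1 : Γ ≤ Lv t S) (h2 : ∀ q ∈ Lv t S, ∀ γ ∈ Γ, q * γ * q⁻¹ ∈ Γ)
    (h3 : colrow F t S b ⊆ Γ) (T : Finset (Fin n)) (hT : b + 1 ∉ T) :
    ∀ k ∈ Lv t S ⊓ KT (Kc F t) T, ∃ γ ∈ Γ, γ⁻¹ * k ∈ KT (Kc F t) (insert (b + 1) T) := by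
  have _ := hT
  have _ := h1
  let H : Subgroup (GG t n) := finSubgroup
    { carrier := {k | ∃ γ ∈ Γ, ∃ l ∈ Lv t S ⊓ KT (Kc F t) (insert (b + 1) T), k = γ * l}
      one_mem' := ⟨1, Γ.one_mem, 1, Subgroup.one_mem _, by simp⟩
      mul_mem' := by
        rintro _ _ ⟨γ, hγ, l, hl, rfl⟩ ⟨γ', hγ', l', hl', rfl⟩
        exact ⟨γ * (l * γ' * l⁻¹), Γ.mul_mem hγ (h2 l hl.1 γ' hγ'), l * l',
          Subgroup.mul_mem _ hl hl', by group⟩ }
  have hΓ : ∀ γ ∈ Γ, γ ∈ H := fun γ hγ => ⟨γ, hγ, 1, Subgroup.one_mem _, by simp⟩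
  suffices hs : Subgroup.closure (elSet F t S T) ≤ H by
    intro k hk
    obtain ⟨γ, hγ, l, hl, rfl⟩ := hs (gen1 hN T S hk)
    exact ⟨γ, hγ, by simpa using hl.2⟩
  rw [Subgroup.closure_le]
  rintro _ ⟨a, ha, a', ha', r, hne, hr, rfl, hK⟩
  by_cases h : a = b ∨ a' = b
  · exact hΓ _ (h3 (el_mem_colrow ha ha' hne h hr))
  push Not at h
  have hcomm : ∀ x : R, el t a a' (t ^ (ex a b + ex b a') * x) ∈ Γ := by
    intro x
    rw [pow_add, mul_assoc, ← mul_one (t ^ ex a b)]
    exact el_mem_of_comm (F := F) h.1 h.2.symm hne (dvd_pow_ex_mul a b 1) (dvd_pow_ex_mul b a' x)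
      (h3 (el_mem_colrow ha hb h.1 (Or.inr rfl) (dvd_pow_ex_mul a b 1)))
      (h3 (el_mem_colrow hb ha' h.2.symm (Or.inl rfl) (dvd_pow_ex_mul b a' x)))
  have hva := a.2
  have hva' := a'.2
  have hvb := b.2
  have hab : a.val ≠ b.val := fun hh => h.1 (Fin.ext hh)
  have hab' : a'.val ≠ b.val := fun hh => h.2 (Fin.ext hh)
  have haa : a.val ≠ a'.val := fun hh => hne (Fin.ext hh)
  by_cases hp : pos (b + 1) a' < pos (b + 1) a
  · have hex : ex a b + ex b a' = ex a a' + 1 := by
      have := val_add_one' b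
      unfold pos at hp
      unfold ex
      simp only [Fin.lt_def] at *
      split_ifs at * <;> omega
    obtain ⟨u, r', hr1, hr2⟩ : ∃ (u : F) (r' : R), r = t ^ (ex a a' + 1) * r' + u • t ^ ex a a' ∧
        el t a a' (u • t ^ ex a a') ∈ KT (Kc F t) T := by
      rcases T.eq_empty_or_nonempty with rfl | hT'
      · obtain ⟨r0, rfl⟩ := exists_pow_ex_mul hr
        obtain ⟨u, r', rfl⟩ := exists_split hN r0
        exact ⟨u, r', by rw [mul_add, mul_smul_comm, mul_one, pow_succ, mul_assoc, add_comm], by simp⟩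
      · rcases el_entry_of_mem_KT hT' hne hr hK with ⟨_, u, rfl⟩ | rfl
        · exact ⟨u, 0, by simp, hK⟩
        · exact ⟨0, 0, by simp, by simpa using hK⟩
    have c1 : a < a' → t ∣ t ^ (ex a a' + 1) * r' := fun _ =>
      (dvd_pow_self t (Nat.succ_ne_zero _)).mul_right _
    refine ⟨el t a a' (t ^ (ex a a' + 1) * r'), by rw [← hex]; exact hcomm r',
      el t a a' (u • t ^ ex a a'),
      ⟨el_mem_Lv (F := F) ha ha' hne (dvd_smul_pow_ex F t a a' u),
        mem_KT_insert.2 ⟨el_mem_Kc hp u, hr2⟩⟩, ?_⟩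
    rw [← el_add (F := F) hne c1 (dvd_smul_pow_ex F t a a' u), ← hr1]
  · have hex : ex a b + ex b a' = ex a a' := by
      have := val_add_one' b
      unfold pos at hp
      unfold ex
      simp only [Fin.lt_def] at *
      split_ifs at * <;> omega
    obtain ⟨r0, rfl⟩ := exists_pow_ex_mul hr
    rw [← hex]
    exact hΓ _ (hcomm r0)

theorem el_mem_closure_xs (T : Finset (Fin n)) (c : Fin n) (k : ℕ) : ∀ a a' : Fin n,
    pos c a = pos c a' + k + 1 → (∀ j, pos c a' < pos c j → pos c j ≤ pos c a → j ∉ T) →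
    ∀ u : F, el t a a' (u • t ^ ex a a') ∈
      Subgroup.closure {g : GG t n | ∃ j, j ∉ T ∧ ∃ a : F, g = xs F t j a} := by
  have hstep : ∀ a a' : Fin n, pos c a' < pos c a → pos c (a' + 1) = pos c a' + 1 := by
    intro a a' h
    have := val_add_one' a'
    have h1 := a.2
    have h2 := a'.2
    have h3 := c.2
    unfold pos at *
    simp only [Fin.lt_def] at *
    split_ifs at * <;> omega
  induction k with
  | zero =>
    intro a a' h hT u
    have h1 : a' + 1 = a := pos_injective c (by rw [hstep a a' (by omega), h])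
    refine Subgroup.subset_closure ⟨a, hT a (by omega) le_rfl, u, ?_⟩
    rw [xs, ← h1, add_sub_cancel_right]
  | succ k ih =>
    intro a a' h hT u
    have h1 := hstep a a' (by omega)
    have n1 : a ≠ a' + 1 := fun hh => by rw [← hh] at h1; omega
    have n2 : a' + 1 ≠ a' := fun hh => by rw [hh] at h1; omega
    have n3 : a ≠ a' := fun hh => by rw [hh] at h; omega
    have e : u • t ^ ex a a' = (u • t ^ ex a (a' + 1)) * ((1 : F) • t ^ ex (a' + 1) a') := by
      rw [one_smul, smul_mul_assoc, ← pow_add, ex_add_ex (c := c) (by omega) (by omega)]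
    rw [e]
    refine el_mem_of_comm (F := F) n1 n2 n3 (dvd_smul_pow_ex F t _ _ _) (dvd_smul_pow_ex F t _ _ _)
      (ih a (a' + 1) (by omega) (fun j h2 h3 => hT j (by omega) h3) u) ?_
    refine Subgroup.subset_closure ⟨a' + 1, hT _ (by omega) (by omega), 1, ?_⟩
    rw [xs, add_sub_cancel_right]

theorem dvd_smul_pow_ex_add (a b : Fin n) (u : F) (k : ℕ) (h : a < b) :
    t ∣ u • t ^ (ex a b + k) := by
  rw [pow_add, ← smul_mul_assoc]
  exact (dvd_smul_pow_ex F t a b u h).mul_right _

theorem el_pow_mem (hn : 3 ≤ n) {H : Subgroup (GG t n)}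
    (h0 : ∀ a a' : Fin n, a ≠ a' → ∀ u : F, el t a a' (u • t ^ ex a a') ∈ H) (k : ℕ) :
    ∀ a a' : Fin n, a ≠ a' → ∀ u : F, el t a a' (u • t ^ (ex a a' + k)) ∈ H := by
  induction k with
  | zero => exact h0
  | succ k ih =>
    have key : ∀ a a' : Fin n, a ≠ a' → a' ≠ a + 1 → ∀ u : F,
        el t a a' (u • t ^ (ex a a' + (k + 1))) ∈ H := by
      intro a a' h1 h2 u
      have hv := val_add_one' a
      have ha := a.2
      have ha' := a'.2
      have h1' : a.val ≠ a'.val := fun hh => h1 (Fin.ext hh)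
      have h2' : a'.val ≠ (a + 1).val := fun hh => h2 (Fin.ext hh)
      have n1 : a ≠ a + 1 := fun hh => by
        have := congrArg Fin.val hh
        split_ifs at hv <;> omega
      have hex : ex a (a + 1) + k + ex (a + 1) a' = ex a a' + (k + 1) := by
        unfold ex
        simp only [Fin.lt_def] at *
        split_ifs at * <;> omega
      have e : u • t ^ (ex a a' + (k + 1)) =
          (u • t ^ (ex a (a + 1) + k)) * ((1 : F) • t ^ ex (a + 1) a') := by
        rw [one_smul, smul_mul_assoc, ← pow_add, hex]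
      rw [e]
      exact el_mem_of_comm (F := F) n1 h2.symm h1 (dvd_smul_pow_ex_add _ _ _ _)
        (dvd_smul_pow_ex F t _ _ _) (ih _ _ n1 u) (h0 _ _ h2.symm 1)
    intro a a' h1 u
    by_cases h2 : a' = a + 1
    · have hv := val_add_one' a
      have hv' := val_add_one' a'
      rw [← h2] at hv
      have ha := a.2
      have ha' := a'.2
      have n1 : a ≠ a' + 1 := fun hh => by
        have := congrArg Fin.val hh
        split_ifs at hv hv' <;> omega
      have n2 : a' + 1 ≠ a' := fun hh => by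
        have := congrArg Fin.val hh
        split_ifs at hv hv' <;> omega
      have hex : ex a (a' + 1) + (k + 1) + ex (a' + 1) a' = ex a a' + (k + 1) := by
        unfold ex
        simp only [Fin.lt_def] at *
        split_ifs at * <;> omega
      have e : u • t ^ (ex a a' + (k + 1)) =
          (u • t ^ (ex a (a' + 1) + (k + 1))) * ((1 : F) • t ^ ex (a' + 1) a') := by
        rw [one_smul, smul_mul_assoc, ← pow_add, hex]
      rw [e]
      exact el_mem_of_comm (F := F) n1 n2 h1 (dvd_smul_pow_ex_add _ _ _ _)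
        (dvd_smul_pow_ex F t _ _ _) (key _ _ n1 (h2 ▸ n2) u) (h0 _ _ n2 1)
    · exact key a a' h1 h2 u

theorem sub_one_ne (hn : 3 ≤ n) (j : Fin n) : j ≠ j - 1 := fun h => by
  have h1 := val_sub_one' j
  have := congrArg Fin.val h
  split_ifs at h1 <;> omega

theorem add_one_ne (hn : 3 ≤ n) (j : Fin n) : j + 1 ≠ j := fun h => by
  have h1 := val_add_one' j
  have := congrArg Fin.val h
  split_ifs at h1 <;> omega

theorem add_one_ne_sub_one (hn : 3 ≤ n) (j : Fin n) : j + 1 ≠ j - 1 := fun h => by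
  have h1 := val_add_one' j
  have h2 := val_sub_one' j
  have h3 := j.2
  have := congrArg Fin.val h
  split_ifs at h1 h2 <;> omega

theorem KT_eq_closure (hN : Nice F t) (hn : 3 ≤ n) (T : Finset (Fin n)) :
    KT (Kc F t) T = Subgroup.closure {g : GG t n | ∃ j, j ∉ T ∧ ∃ a : F, g = xs F t j a} := by
  apply le_antisymm
  · intro g hg
    refine (Subgroup.closure_le _).2 ?_ (gen1 hN T univ ⟨by rw [Lv_univ]; trivial, hg⟩)
    rintro _ ⟨a, -, a', -, r, hne, hr, rfl, hK⟩
    rcases T.eq_empty_or_nonempty with rfl | hT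
    · have h0 : ∀ a a' : Fin n, a ≠ a' → ∀ u : F, el t a a' (u • t ^ ex a a') ∈
          Subgroup.closure {g : GG t n | ∃ j, j ∉ (∅ : Finset (Fin n)) ∧
            ∃ a : F, g = xs F t j a} := by
        intro a a' h u
        refine el_mem_closure_xs ∅ a' (pos a' a - pos a' a' - 1) a a' ?_ (by simp) u
        have h1 : a.val ≠ a'.val := fun hh => h (Fin.ext hh)
        have h2 := a'.2
        unfold pos
        simp only [Fin.lt_def]
        split_ifs <;> omega
      obtain ⟨r0, rfl⟩ := exists_pow_ex_mul hr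
      have c0 : ∀ (u : F) (x : R), a < a' → t ∣ u • (t ^ ex a a' * x) := fun u x h => by
        rw [← mul_smul_comm]
        exact dvd_pow_ex_mul a a' _ h
      have key : ∀ u : F, el t a a' (u • (t ^ ex a a' * r0)) ∈
          Subgroup.closure {g : GG t n | ∃ j, j ∉ (∅ : Finset (Fin n)) ∧
            ∃ a : F, g = xs F t j a} := by
        refine Submodule.span_induction (p := fun x _ => ∀ u : F,
          el t a a' (u • (t ^ ex a a' * x)) ∈ _) ?_ ?_ ?_ ?_ (hN.span r0)
        · rintro _ ⟨k, rfl⟩ u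
          rw [← pow_add]
          exact el_pow_mem hn h0 k a a' hne u
        · intro u
          rw [mul_zero, smul_zero, el_zero]
          exact Subgroup.one_mem _
        · intro x y _ _ hx hy u
          rw [mul_add, smul_add, el_add (F := F) hne (c0 u x) (c0 u y)]
          exact Subgroup.mul_mem _ (hx u) (hy u)
        · intro v x _ hx u
          rw [mul_smul_comm, smul_smul]
          exact hx _
      simpa using key 1
    · rcases el_entry_of_mem_KT hT hne hr hK with ⟨h1, u, rfl⟩ | rfl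
      · obtain ⟨c, hc⟩ := hT
        have h2 := h1 c hc
        refine el_mem_closure_xs T c (pos c a - pos c a' - 1) a a' (by omega) ?_ u
        intro j h3 h4 hj
        have h5 := h1 j hj
        have := a.2
        have := a'.2
        have := c.2
        have := j.2
        unfold pos at *
        simp only [Fin.lt_def] at *
        split_ifs at * <;> omega
      · rw [el_zero]
        exact Subgroup.one_mem _
  · rw [Subgroup.closure_le]
    rintro _ ⟨j, hj, u, rfl⟩
    refine mem_KT.2 fun c hc => el_mem_Kc ?_ u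
    have h1 : c.val ≠ j.val := fun hh => hj (Fin.ext hh ▸ hc)
    have h2 := val_sub_one' j
    have := c.2
    have := j.2
    unfold pos
    simp only [Fin.lt_def]
    split_ifs at * <;> omega

theorem xs_add (hn : 3 ≤ n) (j : Fin n) (a b : F) :
    xs F t j (a + b) = xs F t j a * xs F t j b := by
  rw [xs, xs, xs, add_smul]
  exact el_add (F := F) (sub_one_ne hn j) (dvd_smul_pow_ex F t _ _ _) (dvd_smul_pow_ex F t _ _ _)

theorem zs_add (hn : 3 ≤ n) (j : Fin n) (a b : F) :
    zs F t j (a + b) = zs F t j a * zs F t j b := by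
  rw [zs, zs, zs, add_smul]
  exact el_add (F := F) (add_one_ne_sub_one hn j) (dvd_smul_pow_ex F t _ _ _)
    (dvd_smul_pow_ex F t _ _ _)

theorem commute_zs_xs (hn : 3 ≤ n) (j : Fin n) (a b : F) : Commute (zs F t j a) (xs F t j b) :=
  el_commute (F := F) (add_one_ne_sub_one hn j) (sub_one_ne hn j) (sub_one_ne hn j).symm
    (add_one_ne_sub_one hn j).symm (dvd_smul_pow_ex F t _ _ _) (dvd_smul_pow_ex F t _ _ _)

theorem commute_zs_xs' (hn : 3 ≤ n) (j : Fin n) (a b : F) :
    Commute (zs F t j a) (xs F t (j + 1) b) :=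
  el_commute (F := F) (add_one_ne_sub_one hn j) (sub_one_ne hn _) (add_one_ne_sub_one hn j).symm
    (sub_one_ne hn _).symm (dvd_smul_pow_ex F t _ _ _) (dvd_smul_pow_ex F t _ _ _)

theorem xs_heis (hn : 3 ≤ n) (j : Fin n) (a b : F) :
    xs F t (j + 1) a * xs F t j b = xs F t j b * xs F t (j + 1) a * zs F t j (a * b) := by
  have hex : ex (j + 1) j + ex j (j - 1) = ex (j + 1) (j - 1) := by
    have h1 := val_add_one' j
    have h2 := val_sub_one' j
    have h3 := j.2
    unfold ex
    simp only [Fin.lt_def]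
    split_ifs at * <;> omega
  rw [xs, xs, zs, add_sub_cancel_right, el_heis (F := F) (add_one_ne hn j) (sub_one_ne hn j)
    (add_one_ne_sub_one hn j) (dvd_smul_pow_ex F t _ _ _) (dvd_smul_pow_ex F t _ _ _),
    smul_mul_smul_comm, ← pow_add, hex]

theorem commute_xs_xs (hn : 3 ≤ n) (j j' : Fin n) (h1 : j' ≠ j + 1) (h2 : j ≠ j' + 1) (a b : F) :
    Commute (xs F t j a) (xs F t j' b) :=
  el_commute (F := F) (sub_one_ne hn j) (sub_one_ne hn j')
    (fun h => h2 (by rw [← h, sub_add_cancel])) (fun h => h1 (by rw [← h, sub_add_cancel]))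
    (dvd_smul_pow_ex F t _ _ _) (dvd_smul_pow_ex F t _ _ _)

end Vale.Agent.P067
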