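import Vale.Agent.P067.GroupPat

set_option linter.unusedSectionVars false

namespace Vale.Agent.P067

open Finset

variable {F : Type} {R : Type} [Field F] [Fintype F] [CommRing R] [Algebra F R] [Finite R]
  {t : R} {n : ℕ}

theorem dvd_det_sub {M : Matrix (Fin n) (Fin n) R} {d : R} (h1 : ∀ a b, a < b → t ∣ M a b)
    (h2 : ∀ a, t ∣ M a a - d) : t ∣ M.det - d ^ n := by
  let π := Ideal.Quotient.mk (Ideal.span {t})
  have hπ : ∀ x, π x = 0 ↔ t ∣ x := fun x => by
    rw [Ideal.Quotient.eq_zero_iff_mem, Ideal.mem_span_singleton]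
  rw [← hπ, map_sub, RingHom.map_det, Matrix.det_of_isLowerTriangular, sub_eq_zero, map_pow]
  · rw [Finset.prod_congr rfl (g := fun _ => π d)]
    · simp
    · intro a _
      have := (hπ _).2 (h2 a)
      rw [map_sub, sub_eq_zero] at this
      exact this
  · intro a b hab
    exact (hπ _).2 (h1 a b hab)

theorem isUnit_of_dvd_sub (hN : Nice F t) {x d : R} (hd : IsUnit d) (h : t ∣ x - d) :
    IsUnit x := by
  obtain ⟨r, hr⟩ := h
  have : x = t * r + d := by rw [← hr]; ring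
  rw [this]
  exact ((Commute.all t r).isNilpotent_mul_right hN.nilp).isUnit_add_right_of_commute hd
    (Commute.all _ _)

theorem isUnit_two (hN : Nice F t) : IsUnit (2 : R) := by
  have h1 : ringChar F ≠ 2 := fun h => by
    have := FiniteField.even_card_iff_char_two.1 h
    have h2 := Nat.odd_iff.1 hN.odd
    omega
  have h2 : IsUnit (2 : F) := (Ring.two_ne_zero h1).isUnit
  simpa [map_ofNat] using h2.map (algebraMap F R)

theorem odd_card_subgroup (hN : Nice F t) (H : Subgroup (GG t n)) : Odd (Nat.card H) := by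
  rw [← Nat.not_even_iff_odd, even_iff_two_dvd]
  intro h
  have : Fact (Nat.Prime 2) := ⟨Nat.prime_two⟩
  obtain ⟨x, hx⟩ := exists_prime_orderOf_dvd_card' 2 h
  have h1 : x ^ 2 = 1 := hx ▸ pow_orderOf_eq_one x
  have h2 : mat x.1 * mat x.1 = 1 := by
    rw [← mat_mul, ← Subgroup.coe_mul, ← sq, h1]; rfl
  have h3 : IsUnit (mat x.1 + 1).det := by
    refine isUnit_of_dvd_sub hN ((isUnit_two hN).pow n) (dvd_det_sub (fun a b hab => ?_) fun a => ?_)
    · rw [Matrix.add_apply, Matrix.one_apply_ne hab.ne, add_zero]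
      exact (iw_mat x.1).1 a b hab
    · have := (iw_mat x.1).2 a
      convert this using 1
      rw [Matrix.add_apply, Matrix.one_apply_eq]; ring
  have h4 : (mat x.1 + 1) * (mat x.1 - 1) = 0 := by
    rw [add_mul, mul_sub, h2]; simp
  have h5 : mat x.1 - 1 = 0 :=
    (IsUnit.mul_right_eq_zero ((Matrix.isUnit_iff_isUnit_det _).2 h3)).1 h4
  have h6 : x = 1 := Subtype.ext (mat_injective (by rw [sub_eq_zero] at h5; exact h5))
  rw [h6, orderOf_one] at hx
  omega

theorem card_Kc_le (c : Fin n) : Nat.card (Kc F t c) ≤ Fintype.card F ^ (n * n) := by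
  have h : ∀ (k : Kc F t c) (p : Fin n × Fin n), ∃ u : F,
      pos c p.2 < pos c p.1 → mat k.1 p.1 p.2 = u • t ^ ex p.1 p.2 := by
    intro k p
    by_cases h1 : pos c p.2 < pos c p.1
    · obtain ⟨u, hu⟩ := (k.2 p.1 p.2).1 h1
      exact ⟨u, fun _ => hu⟩
    · exact ⟨0, fun h => absurd h h1⟩
  choose f hf using h
  have hinj : Function.Injective f := by
    intro k k' hk
    refine Subtype.ext (mat_injective ?_)
    ext a b
    by_cases h1 : pos c b < pos c a
    · rw [hf k (a, b) h1, hf k' (a, b) h1, hk]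
    · rw [(k.2 a b).2 h1, (k'.2 a b).2 h1]
  have := Nat.card_le_card_of_injective f hinj
  simpa using this

theorem card_le_card_GG (hn : 2 ≤ n) : Nat.card R ≤ Fintype.card (GG t n) := by
  let a : Fin n := ⟨1, by omega⟩
  let b : Fin n := ⟨0, by omega⟩
  have hab : a ≠ b := by simp [a, b]
  have hm : ∀ r : R, mat (mkG t (1 + Matrix.single a b r)) = 1 + Matrix.single a b r := by
    intro r
    refine mat_mkG t (Matrix.det_transvection_of_ne a b hab r) ⟨fun x y h => ?_, fun x => ?_⟩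
    · rw [Matrix.add_apply, Matrix.one_apply_ne h.ne, Matrix.single_apply_of_ne]
      · simp
      · rintro ⟨-, rfl⟩
        exact absurd h (by simp [b, Fin.lt_def])
    · rw [Matrix.add_apply, Matrix.single_apply_of_ne]
      · simp
      · rintro ⟨h1, h2⟩; exact hab (h1.trans h2.symm)
  rw [← Nat.card_eq_fintype_card]
  refine Nat.card_le_card_of_injective (fun r => mkG t (1 + Matrix.single a b r)) ?_
  intro r r' h
  have := congrFun (congrFun (congrArg mat h) a) b
  simp only [hm, Matrix.add_apply, Matrix.single_apply_same] at this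
  exact add_left_cancel this

/-- rows can be prescribed independently -/
theorem row_join (hN : Nice F t) (S : Finset (Fin n)) {b₀ : Fin n} (hb₀ : b₀ ∈ S)
    (T : Finset (Fin n)) (h : Fin n → GG t n)
    (hh : ∀ b ∈ S.erase b₀, h b ∈ Lv t S ⊓ KT (Kc F t) T) :
    ∃ g ∈ Lv t S ⊓ KT (Kc F t) T, ∀ b ∈ S.erase b₀, g⁻¹ * h b ∈ Prow t b := by
  let M : Matrix (Fin n) (Fin n) R := Matrix.of fun a b =>
    if a ∈ S.erase b₀ then mat (h a)⁻¹ a b else (1 : Matrix (Fin n) (Fin n) R) a b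
  have hM1 : ∀ a ∈ S.erase b₀, ∀ b, M a b = mat (h a)⁻¹ a b := fun a ha b => if_pos ha
  have hM2 : ∀ a, a ∉ S.erase b₀ → ∀ b, M a b = (1 : Matrix (Fin n) (Fin n) R) a b :=
    fun a ha b => if_neg ha
  have hIw : IwCond t M := by
    refine ⟨fun a b hab => ?_, fun a => ?_⟩
    · by_cases ha : a ∈ S.erase b₀
      · rw [hM1 a ha]; exact (iw_mat _).1 a b hab
      · rw [hM2 a ha]; exact (iwCond_one t).1 a b hab
    · by_cases ha : a ∈ S.erase b₀
      · rw [hM1 a ha]; exact (iw_mat _).2 a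
      · rw [hM2 a ha]; exact (iwCond_one t).2 a
  have hL : ∀ a b, (a ∉ S ∨ b ∉ S) → M a b = (1 : Matrix (Fin n) (Fin n) R) a b := by
    intro a b hab
    by_cases ha : a ∈ S.erase b₀
    · rw [hM1 a ha]; exact (inv_mem (Subgroup.mem_inf.1 (hh a ha)).1 :) a b hab
    · exact hM2 a ha b
  have hfin : ∀ g' : GG t n, (∀ a ∈ S.erase b₀, ∀ b, mat g' a b = M a b) →
      ∀ b ∈ S.erase b₀, g'⁻¹⁻¹ * h b ∈ Prow t b := by
    intro g' hg' b hb a
    rw [inv_inv, mat_mul, Matrix.mul_apply,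
      Finset.sum_congr rfl (fun d _ => by rw [hg' b hb d, hM1 b hb d]), ← Matrix.mul_apply,
      mat_inv_mul]
  rcases T.eq_empty_or_nonempty with rfl | hT
  · have hd : t ∣ M.det - 1 := by simpa using dvd_det_sub hIw.1 hIw.2
    obtain ⟨u, hu⟩ := isUnit_of_dvd_sub hN isUnit_one hd
    let M' := M.updateRow b₀ ((↑u⁻¹ : R) • M b₀)
    have hM' : ∀ a, a ≠ b₀ → ∀ b, M' a b = M a b := fun a ha b => by
      simp only [M', Matrix.updateRow_ne ha]
    have hM'' : ∀ b, M' b₀ b = (↑u⁻¹ : R) * (1 : Matrix (Fin n) (Fin n) R) b₀ b := fun b => by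
      simp only [M', Matrix.updateRow_self, Pi.smul_apply, smul_eq_mul, hM2 b₀ (notMem_erase _ _)]
    have hdet : M'.det = 1 := by
      simp only [M']
      rw [Matrix.det_updateRow_smul, Matrix.updateRow_eq_self, ← hu, Units.inv_mul]
    have hIw' : IwCond t M' := by
      refine ⟨fun a b hab => ?_, fun a => ?_⟩
      · by_cases ha : a = b₀
        · subst ha; rw [hM'', Matrix.one_apply_ne hab.ne]; simp
        · rw [hM' a ha]; exact hIw.1 a b hab
      · by_cases ha : a = b₀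
        · subst ha
          rw [hM'', Matrix.one_apply_eq, mul_one]
          have : (↑u⁻¹ : R) - 1 = -(↑u⁻¹ : R) * (M.det - 1) := by
            rw [← hu, mul_sub, neg_mul, Units.inv_mul]; ring
          rw [this]
          exact hd.mul_left _
        · rw [hM' a ha]; exact hIw.2 a
    have hm := mat_mkG t hdet hIw'
    refine ⟨(mkG t M')⁻¹, inv_mem (Subgroup.mem_inf.2 ⟨fun a b hab => ?_, by simp⟩),
      hfin _ fun a ha b => by rw [hm, hM' a (mem_erase.1 ha).1]⟩
    rw [hm]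
    by_cases ha : a = b₀
    · subst ha
      have hb : a ≠ b := fun h => by subst h; tauto
      rw [hM'', Matrix.one_apply_ne hb, mul_zero]
    · rw [hM' a ha, hL a b hab]
  · have hpat : ∀ c ∈ T, ∀ a b, (pos c b < pos c a → ∃ u : F, M a b = u • t ^ ex a b) ∧
        (¬ pos c b < pos c a → M a b = (1 : Matrix (Fin n) (Fin n) R) a b) := by
      intro c hc a b
      by_cases ha : a ∈ S.erase b₀
      · rw [hM1 a ha]
        exact (inv_mem (mem_KT.1 (Subgroup.mem_inf.1 (hh a ha)).2 c hc) :) a b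
      · rw [hM2 a ha]
        exact (one_mem (Kc F t c) :) a b
    obtain ⟨c₀, hc₀⟩ := hT
    have hm := mat_mkG_of_pattern c₀ (hpat c₀ hc₀)
    refine ⟨(mkG t M)⁻¹, inv_mem (Subgroup.mem_inf.2 ⟨fun a b hab => ?_, mem_KT.2 fun c hc a b => ?_⟩),
      hfin _ fun a _ b => by rw [hm]⟩
    · rw [hm, hL a b hab]
    · rw [hm]; exact hpat c hc a b

theorem Lv_sdiff_le (S B : Finset (Fin n)) : Lv t (S \ B) ≤ Lv t S ⊓ KT (Prow t) B :=
  le_inf (Lv_mono t sdiff_subset) fun g hg => mem_KT.2 fun b hb a =>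
    hg b a (Or.inl fun h => (mem_sdiff.1 h).2 hb)

theorem eN_mem {S B : Finset (Fin n)} (hB : B ⊆ S) {A : Matrix (Fin n) (Fin n) R}
    (hA : A ∈ Ncol F t (S \ B) B) : eN t A ∈ Lv t S ⊓ KT (Prow t) B := by
  have hm := mat_eN F t sdiff_disjoint hA
  refine Subgroup.mem_inf.2 ⟨fun a b hab => ?_, mem_KT.2 fun b hb a => ?_⟩
  · rw [hm, Matrix.add_apply, hA.1 a b (hab.imp (fun h h' => h (mem_sdiff.1 h').1)
      (fun h h' => h (hB h'))), add_zero]
  · rw [hm, Matrix.add_apply, hA.1 b a (Or.inl fun h => (mem_sdiff.1 h).2 hb), add_zero]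

theorem mul_mat_eq_self {S B : Finset (Fin n)} {A M : Matrix (Fin n) (Fin n) R}
    (hA : A ∈ Ncol F t S B) (hM : ∀ d ∈ B, ∀ b, M d b = (1 : Matrix (Fin n) (Fin n) R) d b) :
    A * M = A := by
  ext a b
  conv_rhs => rw [← Matrix.mul_one A]
  rw [Matrix.mul_apply, Matrix.mul_apply]
  refine Finset.sum_congr rfl fun d _ => ?_
  by_cases hd : d ∈ B
  · rw [hM d hd]
  · rw [hA.1 a d (Or.inr hd), zero_mul, zero_mul]

theorem eN_zero : eN t (0 : Matrix (Fin n) (Fin n) R) = 1 := by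
  apply mat_injective
  rw [eN, add_zero, mat_mkG t Matrix.det_one (iwCond_one t), mat_one]

theorem eN_neg {S B : Finset (Fin n)} (h : Disjoint S B) {A : Matrix (Fin n) (Fin n) R}
    (hA : A ∈ Ncol F t S B) : (eN t A)⁻¹ = eN t (-A) := by
  rw [inv_eq_iff_mul_eq_one, ← eN_add F t h hA (Submodule.neg_mem _ hA), add_neg_cancel, eN_zero]

theorem col_decomp {S B : Finset (Fin n)} (hB : B ⊆ S) :
    ∀ q ∈ Lv t S ⊓ KT (Prow t) B, ∃ A ∈ Ncol F t (S \ B) B, ∃ l ∈ Lv t (S \ B),
      q = eN t A * l := by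
  intro q hq
  obtain ⟨hq1, hq2⟩ := Subgroup.mem_inf.1 hq
  have hq3 : ∀ d ∈ B, ∀ b, mat q d b = (1 : Matrix (Fin n) (Fin n) R) d b :=
    fun d hd => mem_KT.1 hq2 d hd
  let A : Matrix (Fin n) (Fin n) R := Matrix.of fun a b => if a ∉ B ∧ b ∈ B then mat q a b else 0
  have hA : A ∈ Ncol F t (S \ B) B := by
    refine ⟨fun a b hab => ?_, fun a b hab => ?_⟩
    · simp only [A, Matrix.of_apply]
      split_ifs with h
      · have h1 : a ∉ S := fun h1 => hab.elim (fun h2 => h2 (mem_sdiff.2 ⟨h1, h.1⟩)) (fun h2 => h2 h.2)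
        have h2 : a ≠ b := fun h2 => h.1 (h2 ▸ h.2)
        rw [hq1 a b (Or.inl h1), Matrix.one_apply_ne h2]
      · rfl
    · simp only [A, Matrix.of_apply]
      split_ifs
      · exact (iw_mat q).1 a b hab
      · exact dvd_zero _
  refine ⟨A, hA, (eN t A)⁻¹ * q, fun a b hab => ?_, by simp⟩
  rw [eN_neg sdiff_disjoint hA, mat_mul, mat_eN F t sdiff_disjoint (Submodule.neg_mem _ hA),
    add_mul, Matrix.one_mul, mul_mat_eq_self (Submodule.neg_mem _ hA) hq3, Matrix.add_apply,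
    Matrix.neg_apply]
  simp only [A, Matrix.of_apply]
  split_ifs with h
  · have h2 : a ≠ b := fun h2 => h.1 (h2 ▸ h.2)
    rw [Matrix.one_apply_ne h2, add_neg_cancel]
  · rw [neg_zero, add_zero]
    by_cases ha : a ∈ B
    · exact hq3 a ha b
    · have hb : b ∉ B := fun h' => h ⟨ha, h'⟩
      exact hq1 a b (hab.imp (fun h1 h2 => h1 (mem_sdiff.2 ⟨h2, ha⟩))
        (fun h1 h2 => h1 (mem_sdiff.2 ⟨h2, hb⟩)))

theorem mul_mem_Ncol {S B : Finset (Fin n)} {l : GG t n} (hl : l ∈ Lv t S)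
    {A : Matrix (Fin n) (Fin n) R} (hA : A ∈ Ncol F t S B) : mat l * A ∈ Ncol F t S B := by
  refine ⟨fun a b hab => ?_, fun a b hab => ?_⟩
  · rw [Matrix.mul_apply]
    rcases hab with hab | hab
    · rw [Finset.sum_congr rfl (fun d _ => by rw [hl a d (Or.inl hab)]), ← Matrix.mul_apply,
        Matrix.one_mul, hA.1 a b (Or.inl hab)]
    · exact Finset.sum_eq_zero fun d _ => by rw [hA.1 d b (Or.inr hab), mul_zero]
  · rw [Matrix.mul_apply]
    refine Finset.dvd_sum fun d _ => ?_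
    by_cases hd : a < d
    · exact ((iw_mat l).1 a d hd).mul_right _
    · exact (hA.2 d b (lt_of_le_of_lt (not_lt.1 hd) hab)).mul_left _

theorem conj_eN {S B : Finset (Fin n)} (h : Disjoint S B) {l : GG t n} (hl : l ∈ Lv t S)
    {A : Matrix (Fin n) (Fin n) R} (hA : A ∈ Ncol F t S B) :
    l * eN t A * l⁻¹ = eN t (mat l * A) := by
  apply mat_injective
  rw [mat_mul, mat_mul, mat_eN F t h hA, mat_eN F t h (mul_mem_Ncol hl hA), mul_add, add_mul,
    Matrix.mul_one, mat_mul_inv, Matrix.mul_assoc,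
    mul_mat_eq_self hA (fun d hd b => (inv_mem hl :) d b (Or.inl (disjoint_right.1 h hd)))]

theorem col_strict {S B : Finset (Fin n)} (h : Disjoint S B) (c : Fin n)
    {A : Matrix (Fin n) (Fin n) R} (hA : A ∈ Ncol F t S B) {l l' : GG t n} (hl : l ∈ Lv t S)
    (hl' : l' ∈ Lv t S) (hk : l⁻¹ * eN t A * l' ∈ Kc F t c) : l⁻¹ * l' ∈ Kc F t c := by
  have h1 : l⁻¹ * eN t A * l' = (l⁻¹ * eN t A * l⁻¹⁻¹) * (l⁻¹ * l') := by simp
  have hl'' : l⁻¹ * l' ∈ Lv t S := mul_mem (inv_mem hl) hl'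
  have hA' := mul_mem_Ncol (inv_mem hl) hA
  rw [h1, conj_eN h (inv_mem hl) hA] at hk
  intro a b
  by_cases hb : b ∈ B
  · rw [hl'' a b (Or.inr (disjoint_right.1 h hb))]
    exact (one_mem (Kc F t c) :) a b
  · have h2 := hk a b
    rwa [mat_mul, mat_eN F t h hA', add_mul, Matrix.one_mul,
      mul_mat_eq_self hA' (fun d hd b => hl'' d b (Or.inl (disjoint_right.1 h hd))),
      Matrix.add_apply, hA'.1 a b (Or.inr hb), add_zero] at h2

theorem eN_smul_mem {S B : Finset (Fin n)} (h : Disjoint S B) (c : Fin n)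
    {A : Matrix (Fin n) (Fin n) R} (hA : A ∈ Ncol F t S B) (u : F) (hk : eN t A ∈ Kc F t c) :
    eN t (u • A) ∈ Kc F t c := by
  intro a b
  have h1 := hk a b
  rw [mat_eN F t h hA, Matrix.add_apply] at h1
  rw [mat_eN F t h (Submodule.smul_mem _ u hA), Matrix.add_apply, Matrix.smul_apply]
  refine ⟨fun h2 => ?_, fun h2 => ?_⟩
  · have : a ≠ b := fun h' => by simp [h'] at h2
    obtain ⟨v, hv⟩ := h1.1 h2
    rw [Matrix.one_apply_ne this, zero_add] at hv ⊢
    exact ⟨u * v, by rw [hv, mul_smul]⟩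
  · have h3 := h1.2 h2
    rw [add_eq_left] at h3
    rw [h3, smul_zero, add_zero]

theorem col_smul {S B : Finset (Fin n)} (h : Disjoint S B) (c : Fin n)
    {A : Matrix (Fin n) (Fin n) R} (hA : A ∈ Ncol F t S B) (a : F) {l : GG t n} (hl : l ∈ Lv t S)
    (hk : l⁻¹ * eN t A * l ∈ Kc F t c) : l⁻¹ * eN t (a • A) * l ∈ Kc F t c := by
  have h1 := conj_eN h (inv_mem hl) hA
  have h2 := conj_eN h (inv_mem hl) (Submodule.smul_mem _ a hA)
  rw [inv_inv] at h1 h2
  rw [h1] at hk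
  rw [h2, Matrix.mul_smul]
  exact eN_smul_mem h c (mul_mem_Ncol (inv_mem hl) hA) a hk

/-- reversed transpose -/
def rtr (M : Matrix (Fin n) (Fin n) R) : Matrix (Fin n) (Fin n) R :=
  Matrix.of fun a b => M b.rev a.rev

theorem rtr_apply (M : Matrix (Fin n) (Fin n) R) (a b : Fin n) : rtr M a b = M b.rev a.rev := rfl

theorem rtr_eq (M : Matrix (Fin n) (Fin n) R) :
    rtr M = M.transpose.submatrix Fin.revPerm Fin.revPerm := rfl

theorem rtr_rtr (M : Matrix (Fin n) (Fin n) R) : rtr (rtr M) = M := by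
  ext a b; simp [rtr_apply]

theorem rtr_mul (M M' : Matrix (Fin n) (Fin n) R) : rtr (M * M') = rtr M' * rtr M := by
  rw [rtr_eq, rtr_eq, rtr_eq, Matrix.submatrix_mul_equiv, Matrix.transpose_mul]

theorem rtr_one_apply (a b : Fin n) :
    (1 : Matrix (Fin n) (Fin n) R) b.rev a.rev = (1 : Matrix (Fin n) (Fin n) R) a b := by
  by_cases h : a = b
  · subst h; simp
  · rw [Matrix.one_apply_ne h, Matrix.one_apply_ne (fun h' => h (Fin.rev_injective h').symm)]

theorem mat_mkG_rtr (g : GG t n) : mat (mkG t (rtr (mat g))) = rtr (mat g) := by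
  refine mat_mkG t ?_ ⟨fun a b hab => ?_, fun a => ?_⟩
  · rw [rtr_eq, Matrix.det_submatrix_equiv_self, Matrix.det_transpose, det_mat]
  · exact (iw_mat g).1 _ _ (Fin.rev_lt_rev.2 hab)
  · exact (iw_mat g).2 _

/-- the inverse transpose, with reversed indices -/
theorem exists_theta [NeZero n] : ∃ θ : GG t n ≃* GG t n,
    (∀ c g, θ g ∈ Kc F t (-c) ↔ g ∈ Kc F t c) ∧
    (∀ (S : Finset (Fin n)) g, θ g ∈ Lv t (S.image Fin.rev) ↔ g ∈ Lv t S) ∧
    (∀ (S B : Finset (Fin n)), Disjoint S B → ∀ A ∈ Ncol F t B S,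
      ∃ A' ∈ Ncol F t (S.image Fin.rev) (B.image Fin.rev), θ (eN t A) = eN t A') := by
  let f : GG t n →* GG t n := MonoidHom.mk' (fun g => mkG t (rtr (mat g⁻¹))) (fun g h =>
    mat_injective (by rw [mat_mul, mat_mkG_rtr, mat_mkG_rtr, mat_mkG_rtr, mul_inv_rev, mat_mul,
      rtr_mul]))
  have hf : ∀ g, mat (f g) = rtr (mat g⁻¹) := fun g => mat_mkG_rtr _
  have hff : ∀ g, f (f g) = g := fun g => mat_injective (by
    rw [hf, ← map_inv, hf, inv_inv, rtr_rtr])
  have hmem : ∀ (S : Finset (Fin n)) (a : Fin n), a ∈ S.image Fin.rev ↔ a.rev ∈ S := by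
    intro S a
    rw [mem_image]
    exact ⟨fun ⟨b, hb, h⟩ => by rw [← h, Fin.rev_rev]; exact hb, fun h => ⟨_, h, Fin.rev_rev a⟩⟩
  have hK : ∀ c g, g ∈ Kc F t c → f g ∈ Kc F t (-c) := by
    intro c g hg a b
    have h1 := (inv_mem hg : g⁻¹ ∈ Kc F t c) b.rev a.rev
    have h2 : pos (-c) b < pos (-c) a ↔ pos c a.rev < pos c b.rev := by
      have := a.2
      have := b.2
      have := c.2
      have h3 := Fin.val_neg c
      have h4 : c = 0 ↔ c.val = 0 := by rw [Fin.ext_iff]; simp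
      unfold pos
      simp only [Fin.lt_def, Fin.val_rev, h4] at *
      split_ifs at * <;> omega
    have h3 : ex b.rev a.rev = ex a b := by simp [ex]
    rw [hf, rtr_apply, h2, ← h3, ← rtr_one_apply]
    exact h1
  have hL : ∀ (S : Finset (Fin n)) g, g ∈ Lv t S → f g ∈ Lv t (S.image Fin.rev) := by
    intro S g hg a b hab
    rw [hmem, hmem] at hab
    rw [hf, rtr_apply, ← rtr_one_apply]
    exact (inv_mem hg : g⁻¹ ∈ Lv t S) _ _ hab.symm
  refine ⟨MonoidHom.toMulEquiv f f (MonoidHom.ext hff) (MonoidHom.ext hff),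
    fun c g => ⟨fun h => ?_, hK c g⟩, fun S g => ⟨fun h => ?_, hL S g⟩, fun S B hd A hA => ?_⟩
  · have := hK _ _ h
    rwa [neg_neg, show f (MonoidHom.toMulEquiv f f (MonoidHom.ext hff) (MonoidHom.ext hff) g) = g
      from hff g] at this
  · have := hL _ _ h
    rwa [image_image, show Fin.rev ∘ Fin.rev = (id : Fin n → Fin n) from funext Fin.rev_rev,
      image_id, show f (MonoidHom.toMulEquiv f f (MonoidHom.ext hff) (MonoidHom.ext hff) g) = g
      from hff g] at this
  · have hA' : rtr (-A) ∈ Ncol F t (S.image Fin.rev) (B.image Fin.rev) := by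
      refine ⟨fun a b hab => ?_, fun a b hab => ?_⟩
      · rw [hmem, hmem] at hab
        exact (Submodule.neg_mem _ hA).1 _ _ hab.symm
      · exact (Submodule.neg_mem _ hA).2 _ _ (Fin.rev_lt_rev.2 hab)
    refine ⟨_, hA', mat_injective ?_⟩
    rw [mat_eN F t ((disjoint_image Fin.rev_injective).2 hd) hA']
    show mat (f (eN t A)) = _
    rw [hf, eN_neg hd.symm hA, mat_eN F t hd.symm (Submodule.neg_mem _ hA)]
    ext a b
    rw [rtr_apply, Matrix.add_apply, Matrix.add_apply, rtr_one_apply, rtr_apply]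

end Vale.Agent.P067
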