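import Vale.Agent.P067.LocalGlobalAux2

set_option linter.unusedSectionVars false

namespace Vale.Agent.P067

open Finset

namespace LG

variable {I G : Type} [Group G] [Fintype G] [Fintype I] [DecidableEq I]

open Classical in
/-- extension by zero of a cochain on the link of the face `x R` -/
noncomputable def extZ (K : I → Subgroup G) (R : Finset I) (x : G) (φ : Finset I → G → ZMod 2) :
    Finset I → G → ZMod 2 :=
  fun T y => if R ⊆ T ∧ x⁻¹ * y ∈ KT K R then φ T (x⁻¹ * y) else 0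

theorem typed_extZ {K : I → Subgroup G} (R : Finset I) (x : G) {φ : Finset I → G → ZMod 2}
    (hφ : Typed K φ) : Typed K (extZ K R x φ) := by
  intro T y k hk
  unfold extZ
  by_cases hRT : R ⊆ T
  · have hk' : k ∈ KT K R := KT_anti K hRT hk
    have h1 : x⁻¹ * (y * k) ∈ KT K R ↔ x⁻¹ * y ∈ KT K R := by
      rw [← mul_assoc]
      exact (KT K R).mul_mem_cancel_right hk'
    have h2 : φ T (x⁻¹ * (y * k)) = φ T (x⁻¹ * y) := by
      rw [← mul_assoc]; exact hφ T _ k hk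
    by_cases h3 : x⁻¹ * y ∈ KT K R
    · rw [if_pos ⟨hRT, h1.2 h3⟩, if_pos ⟨hRT, h3⟩, h2]
    · rw [if_neg (fun h => h3 (h1.1 h.2)), if_neg (fun h => h3 h.2)]
  · simp [hRT]

theorem tdel_extZ (K : I → Subgroup G) (R : Finset I) (x : G) (φ : Finset I → G → ZMod 2) :
    tdel ∅ (extZ K R x φ) = extZ K R x (tdel R φ) := by
  classical
  funext T y
  simp only [tdel, extZ, sdiff_empty]
  by_cases h : R ⊆ T ∧ x⁻¹ * y ∈ KT K R
  · rw [if_pos h, sdiff_eq_filter, sum_filter]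
    refine sum_congr rfl fun c _ => ?_
    have : R ⊆ T.erase c ↔ c ∉ R := by
      rw [subset_erase]; exact ⟨fun h' => h'.2, fun h' => ⟨h.1, h'⟩⟩
    simp [this, h.2]
  · rw [if_neg h]
    refine sum_eq_zero fun c _ => ?_
    rw [if_neg]
    rintro ⟨h1, h2⟩
    exact h ⟨h1.trans (erase_subset c T), h2⟩

theorem cnt_add_extZ (K : I → Subgroup G) (R : Finset I) (x : G) (M : ℕ)
    (g ψ : Finset I → G → ZMod 2) :
    cnt ⊤ ∅ M (g + extZ K R x ψ) + cnt (KT K R) R M (fun T y => g T (x * y)) =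
      cnt ⊤ ∅ M g + cnt (KT K R) R M ((fun T y => g T (x * y)) + ψ) := by
  classical
  have key : ∀ a : Finset I → G → ZMod 2, (cnt (KT K R) R M a : ℝ) =
      ∑ T ∈ TS (∅ : Finset I) M, ∑ k : G,
        if R ⊆ T ∧ k ∈ KT K R then ind (a T k) else 0 := by
    intro a
    rw [cnt_real]
    have : TS R M = (TS (∅ : Finset I) M).filter (fun T => R ⊆ T) := by
      ext T; simp [mem_TS, and_comm]
    rw [this, sum_filter]
    refine sum_congr rfl fun T _ => ?_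
    by_cases h : R ⊆ T <;> simp [h]
  have key2 : ∀ a : Finset I → G → ZMod 2, (cnt ⊤ ∅ M a : ℝ) =
      ∑ T ∈ TS (∅ : Finset I) M, ∑ k : G, ind (a T (x * k)) := by
    intro a
    rw [cnt_real]
    refine sum_congr rfl fun T _ => ?_
    rw [← Equiv.sum_comp (Equiv.mulLeft x)]
    simp
  have : (cnt ⊤ ∅ M (g + extZ K R x ψ) : ℝ) + cnt (KT K R) R M (fun T y => g T (x * y)) =
      cnt ⊤ ∅ M g + cnt (KT K R) R M ((fun T y => g T (x * y)) + ψ) := by
    rw [key, key, key2, key2]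
    simp only [← sum_add_distrib]
    refine sum_congr rfl fun T _ => sum_congr rfl fun k _ => ?_
    by_cases h : R ⊆ T ∧ k ∈ KT K R
    · simp [extZ, h, add_comm]
    · have h' : extZ K R x ψ T (x * k) = 0 := by
        unfold extZ
        rw [if_neg]
        simpa using h
      simp only [if_neg h, Pi.add_apply, h', add_zero]
  exact_mod_cast this

theorem cnt_extZ_le (K : I → Subgroup G) (R : Finset I) (x : G) (m : ℕ)
    (φ : Finset I → G → ZMod 2) :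
    cnt ⊤ ∅ m (extZ K R x φ) ≤ 2 ^ Fintype.card I * Nat.card (KT K R) := by
  have h1 := cnt_add_extZ K R x m 0 φ
  have h0 : cnt (⊤ : Subgroup G) (∅ : Finset I) m 0 = 0 := by simp [cnt]
  have h2 := cnt_le (KT K R) R m ((fun T y => (0 : Finset I → G → ZMod 2) T (x * y)) + φ)
  rw [zero_add] at h1
  omega

/-- a global minimizer is locally minimal -/
theorem exists_locMin (K : I → Subgroup G) (m κ : ℕ) (hκ : ∀ c, Nat.card (K c) ≤ κ)
    {a : Finset I → G → ZMod 2} :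
    ∃ φ, Typed K φ ∧ LocMin K (m + 1) (tdel ∅ (a + φ)) ∧
      cnt ⊤ ∅ (m + 1) (tdel ∅ (a + φ)) ≤ cnt ⊤ ∅ (m + 1) (tdel ∅ a) ∧
      cnt ⊤ ∅ m φ ≤ (2 ^ Fintype.card I * κ + 1) * cnt ⊤ ∅ (m + 1) (tdel ∅ a) := by
  classical
  set L := 2 ^ Fintype.card I * κ with hL
  let Φ : (Finset I → G → ZMod 2) → ℕ := fun φ =>
    (L + 1) * cnt ⊤ ∅ (m + 1) (tdel ∅ (a + φ)) + cnt ⊤ ∅ m φ
  have h0 : Typed K (0 : Finset I → G → ZMod 2) := fun _ _ _ _ => rfl
  obtain ⟨φ, hφ, hmin⟩ : ∃ φ, Typed K φ ∧ ∀ ψ, Typed K ψ → Φ φ ≤ Φ ψ := by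
    obtain ⟨φ, h1, h2⟩ := exists_min_image
      ((univ : Finset (Finset I → G → ZMod 2)).filter (fun φ => Typed K φ)) Φ ⟨0, by simp [h0]⟩
    exact ⟨φ, (mem_filter.1 h1).2, fun ψ hψ => h2 ψ (mem_filter.2 ⟨mem_univ _, hψ⟩)⟩
  have h1 := hmin 0 h0
  have hz : cnt (⊤ : Subgroup G) (∅ : Finset I) m 0 = 0 := by simp [cnt]
  simp only [Φ, add_zero, hz] at h1
  refine ⟨φ, hφ, ?_, ?_, by omega⟩
  · intro R hne x φ0 hφ0
    by_contra hlt
    have h2 := hmin (φ + extZ K R x φ0) (hφ.add (typed_extZ R x hφ0))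
    simp only [Φ] at h2
    rw [← add_assoc, tdel_add ∅ (a + φ), tdel_extZ] at h2
    have h3 := cnt_add_extZ K R x (m + 1) (tdel ∅ (a + φ)) (tdel R φ0)
    have h4 := cnt_add_le ⊤ ∅ m φ (extZ K R x φ0)
    have h5 := cnt_extZ_le K R x m φ0
    obtain ⟨c, hc⟩ := hne
    have h6 : Nat.card (KT K R) ≤ κ :=
      (Subgroup.card_le_of_le (KT_le K hc)).trans (hκ c)
    have h7 : 2 ^ Fintype.card I * Nat.card (KT K R) ≤ L := Nat.mul_le_mul_left _ h6
    have h8 : cnt ⊤ ∅ (m + 1) (tdel ∅ (a + φ) + extZ K R x (tdel R φ0)) + 1 ≤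
        cnt ⊤ ∅ (m + 1) (tdel ∅ (a + φ)) := by omega
    have h9 := Nat.mul_le_mul_left (L + 1) h8
    rw [mul_add] at h9
    omega
  · exact Nat.le_of_mul_le_mul_left (le_trans (Nat.le_add_right _ _) h1) (Nat.succ_pos L)

end LG

open LG in
theorem local_global (n B : ℕ) : ∃ lam : ℝ, 0 < lam ∧ ∀ κ : ℕ, ∃ C : ℕ,
    ∀ (G : Type) [Group G] [Fintype G] (I : Type) [Fintype I] [DecidableEq I]
      (K : I → Subgroup G) (m : ℕ), Fintype.card I = n → m + 1 ≤ n →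
      (∀ c, Nat.card (K c) ≤ κ) → Spec K lam →
      (∀ R : Finset I, R.Nonempty → R.card ≤ m + 1 → LinkExp K R (m + 1) B) →
      (∃ B', LinkExp K ∅ m B') → LinkExp K ∅ m C := by
  set b : ℕ := B * n + 1 with hb
  set D : ℕ := 2 ^ n * b ^ n with hD
  have hD0 : (0 : ℝ) < D := by positivity
  refine ⟨1 / (4 * D * 2 ^ n * (n + 1)), by positivity, fun κ => ⟨2 ^ n * κ + 1 + 2 ^ n * (2 * D), ?_⟩⟩
  intro G _ _ I _ _ K m hI hm hκ hS hL hB' a ha
  obtain ⟨B', hB'⟩ := hB'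
  rw [KT_empty]
  by_cases hsm : 2 * D * cnt ⊤ ∅ (m + 1) (tdel ∅ a) < Fintype.card G
  · obtain ⟨φ, hφ, hmin, h1, h2⟩ := exists_locMin K m κ hκ (a := a)
    have hDr : (D : ℝ) = 2 ^ n * (b : ℝ) ^ n := by rw [hD]; push_cast; ring
    have hz : cnt ⊤ ∅ (m + 1) (tdel ∅ (a + φ)) = 0 := by
      refine small_vanish (b := (b : ℝ)) (by positivity) ((ha.add hφ).tdel ∅) hS
        (fun T _ y => by rw [tdel_tdel]; rfl) hmin hL ?_ ?_ (by omega) ?_ ?_
      · rw [hb]; push_cast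
        have : (0 : ℝ) ≤ B * n := by positivity
        linarith
      · rw [hI, hb]; push_cast; linarith
      · rw [hI, ← hDr]
        have e : (D : ℝ) * (n * (1 / (4 * D * 2 ^ n * (n + 1)) * (2 * 2 ^ n))) =
            n / (n + 1) * (1 / 2) := by field_simp; ring
        rw [e]
        have : (n : ℝ) / (n + 1) ≤ 1 := by
          rw [div_le_one (by positivity)]; linarith
        linarith
      · rw [hI, ← hDr]
        have : 2 * D * cnt ⊤ ∅ (m + 1) (tdel ∅ (a + φ)) < Fintype.card G :=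
          lt_of_le_of_lt (Nat.mul_le_mul_left _ h1) hsm
        exact_mod_cast this
    obtain ⟨h, hh, h3⟩ := hB' _ (ha.add hφ)
    rw [KT_empty, hz, mul_zero, Nat.le_zero] at h3
    refine ⟨h, hh, ?_⟩
    have h4 : cnt ⊤ ∅ m (a + tdel ∅ h) = cnt ⊤ ∅ m φ := by
      refine cnt_congr _ _ _ fun T h5 h6 k hk => ?_
      have h7 := eq_zero_of_cnt h3 h5 h6 hk
      simp only [Pi.add_apply] at h7 ⊢
      rw [add_right_comm] at h7
      exact CharTwo.add_eq_zero.1 h7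
    rw [h4]
    refine h2.trans (Nat.mul_le_mul_right _ ?_)
    rw [hI]; omega
  · refine ⟨0, fun _ _ _ _ => rfl, ?_⟩
    have h1 := cnt_le (⊤ : Subgroup G) (∅ : Finset I) m (a + tdel ∅ 0)
    rw [Subgroup.card_top, Nat.card_eq_fintype_card, hI] at h1
    have h2 : Fintype.card G ≤ 2 * D * cnt ⊤ ∅ (m + 1) (tdel ∅ a) := not_lt.1 hsm
    calc cnt ⊤ ∅ m (a + tdel ∅ 0) ≤ 2 ^ n * (2 * D * cnt ⊤ ∅ (m + 1) (tdel ∅ a)) :=
          h1.trans (Nat.mul_le_mul_left _ h2)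
      _ = 2 ^ n * (2 * D) * cnt ⊤ ∅ (m + 1) (tdel ∅ a) := by ring
      _ ≤ _ := Nat.mul_le_mul_right _ (by omega)

end Vale.Agent.P067
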