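import Vale.Agent.P067.LocalGlobalAux

/-!
Small locally minimal cocycles vanish.
-/

set_option linter.unusedSectionVars false

namespace Vale.Agent.P067.LG

open Finset

variable {I G : Type} [Group G] [Fintype G] [Fintype I] [DecidableEq I]

/-- local minimality -/
def LocMin (K : I → Subgroup G) (M : ℕ) (g : Finset I → G → ZMod 2) : Prop :=
  ∀ R : Finset I, R.Nonempty → ∀ x : G, ∀ φ, Typed K φ →
    cnt (KT K R) R M (fun T y => g T (x * y)) ≤
      cnt (KT K R) R M ((fun T y => g T (x * y)) + tdel R φ)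

theorem typed_shift {K : I → Subgroup G} {g : Finset I → G → ZMod 2} (hg : Typed K g) (x : G) :
    Typed K (fun T y => g T (x * y)) := by
  intro T y k hk
  simp only [← mul_assoc]
  exact hg T _ k hk

/-- the local density -/
noncomputable def hR (K : I → Subgroup G) (R : Finset I) (M : ℕ) (g : Finset I → G → ZMod 2) :
    G → ℝ := avg (KT K R) (fR R M g)

/-- the part of the support avoiding the type `u` -/
noncomputable def psi (R : Finset I) (u : I) (M : ℕ) (g : Finset I → G → ZMod 2) (y : G) : ℝ :=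
  ∑ T ∈ (TS R M).filter (fun T => u ∉ T), ind (g T y)

theorem psi_nonneg (R : Finset I) (u : I) (M : ℕ) (g : Finset I → G → ZMod 2) (y : G) :
    0 ≤ psi R u M g y := sum_nonneg fun _ _ => ind_nonneg _

theorem psi_le (R : Finset I) (u : I) (M : ℕ) (g : Finset I → G → ZMod 2) (y : G) :
    psi R u M g y ≤ fR R M g y :=
  sum_le_sum_of_subset_of_nonneg (filter_subset _ _) fun _ _ _ => ind_nonneg _

theorem rinv_psi {K : I → Subgroup G} {g : Finset I → G → ZMod 2} (hg : Typed K g)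
    (R : Finset I) (u : I) (M : ℕ) : RInv (KT K (univ.erase u)) (psi R u M g) := by
  intro x k hk
  refine sum_congr rfl fun T hT => ?_
  have hu : u ∉ T := (mem_filter.1 hT).2
  have hsub : T ⊆ univ.erase u := fun c hc =>
    mem_erase.2 ⟨fun h => hu (h ▸ hc), mem_univ _⟩
  rw [hg T x k (KT_anti K hsub hk)]

theorem tdel_of_cocycle {g : Finset I → G → ZMod 2} {R T : Finset I} (hRT : R ⊆ T) {y : G}
    (h : tdel ∅ g T y = 0) : tdel R g T y = ∑ u ∈ R, g (T.erase u) y := by
  simp only [tdel, sdiff_empty] at h ⊢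
  rw [← sum_sdiff hRT] at h
  exact (CharTwo.add_eq_zero.1 h)

theorem fR_tdel_le {g : Finset I → G → ZMod 2} {M : ℕ}
    (hc : ∀ T : Finset I, T.card = M + 1 → ∀ y, tdel ∅ g T y = 0) (R : Finset I) (y : G) :
    fR R (M + 1) (tdel R g) y ≤ ∑ u ∈ R, psi (R.erase u) u M g y := by
  calc fR R (M + 1) (tdel R g) y ≤ ∑ T ∈ TS R (M + 1), ∑ u ∈ R, ind (g (T.erase u) y) := by
        refine sum_le_sum fun T hT => ?_
        rw [tdel_of_cocycle (mem_TS.1 hT).1 (hc T (mem_TS.1 hT).2 y)]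
        exact ind_sum_le _ _
    _ = ∑ u ∈ R, ∑ T ∈ TS R (M + 1), ind (g (T.erase u) y) := sum_comm
    _ ≤ ∑ u ∈ R, psi (R.erase u) u M g y := by
        refine sum_le_sum fun u hu => ?_
        have hinj : Set.InjOn (fun T : Finset I => T.erase u) (TS R (M + 1)) := by
          intro T hT T' hT' h
          have h1 : u ∈ T := (mem_TS.1 hT).1 hu
          have h2 : u ∈ T' := (mem_TS.1 hT').1 hu
          have h3 : T.erase u = T'.erase u := h
          rw [← insert_erase h1, ← insert_erase h2, h3]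
        rw [← sum_image (f := fun T => ind (g T y)) hinj]
        refine sum_le_sum_of_subset_of_nonneg ?_ fun _ _ _ => ind_nonneg _
        intro T hT
        obtain ⟨T', hT', rfl⟩ := mem_image.1 hT
        obtain ⟨h1, h2⟩ := mem_TS.1 hT'
        refine mem_filter.2 ⟨mem_TS.2 ⟨erase_subset_erase u h1, ?_⟩, notMem_erase u T'⟩
        rw [card_erase_of_mem (h1 hu), h2]; rfl

theorem hR_le_psi {K : I → Subgroup G} {g : Finset I → G → ZMod 2} {M B : ℕ} (hg : Typed K g)
    (hc : ∀ T : Finset I, T.card = M + 1 → ∀ y, tdel ∅ g T y = 0) (hmin : LocMin K M g)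
    {R : Finset I} (hne : R.Nonempty) (hL : LinkExp K R M B) (x : G) :
    hR K R M g x ≤ B * ∑ u ∈ R, avg (KT K R) (psi (R.erase u) u M g) x := by
  obtain ⟨φ, hφ, h1⟩ := hL _ (typed_shift hg x)
  have h2 := (hmin R hne x φ hφ).trans h1
  have h3 : tdel R (fun T y => g T (x * y)) = fun T y => tdel R g T (x * y) := rfl
  rw [h3] at h2
  have h4 : (cnt (KT K R) R M (fun T y => g T (x * y)) : ℝ) ≤
      B * cnt (KT K R) R (M + 1) (fun T y => tdel R g T (x * y)) := by exact_mod_cast h2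
  rw [cnt_eq_avg, cnt_eq_avg] at h4
  have hp := card_pos' (KT K R)
  have h5 : hR K R M g x ≤ B * avg (KT K R) (fR R (M + 1) (tdel R g)) x := by
    unfold hR
    refine le_of_mul_le_mul_left ?_ hp
    linarith
  refine h5.trans (mul_le_mul_of_nonneg_left ?_ (Nat.cast_nonneg _))
  rw [← avg_sum]
  exact avg_mono _ (fR_tdel_le hc R) x

theorem hR_nonneg (K : I → Subgroup G) (R : Finset I) (M : ℕ) (g : Finset I → G → ZMod 2)
    (x : G) : 0 ≤ hR K R M g x := avg_nonneg _ (fR_nonneg R M g) x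

theorem hR_le (K : I → Subgroup G) (R : Finset I) (M : ℕ) (g : Finset I → G → ZMod 2)
    (x : G) : hR K R M g x ≤ 2 ^ Fintype.card I := avg_le _ (fR_le R M g) x

theorem sum_fR_le (R : Finset I) (M : ℕ) (g : Finset I → G → ZMod 2) :
    ∑ x, fR R M g x ≤ cnt ⊤ ∅ M g := by
  rw [cnt_top]
  exact sum_le_sum fun x _ => fR_anti (empty_subset R) M g x

theorem sum_sq_le {f : G → ℝ} {c w : ℝ} (h0 : ∀ x, 0 ≤ f x) (h1 : ∀ x, f x ≤ c)
    (hw : ∑ x, f x ≤ w) (hc : 0 ≤ c) : ∑ x, f x ^ 2 ≤ c * w := by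
  calc ∑ x, f x ^ 2 ≤ ∑ x, c * f x := sum_le_sum fun x _ => by
        have := h0 x; have := h1 x; nlinarith
    _ = c * ∑ x, f x := (mul_sum _ _ _).symm
    _ ≤ c * w := mul_le_mul_of_nonneg_left hw hc

theorem spec_step {K : I → Subgroup G} {g : Finset I → G → ZMod 2} {M : ℕ} {lam : ℝ}
    (hlam : 0 ≤ lam) (hg : Typed K g) (hS : Spec K lam) {R : Finset I} {u : I} (hu : u ∈ R) :
    ∑ x, hR K R M g x * avg (KT K R) (psi (R.erase u) u M g) x ≤
      ∑ x, hR K (R.erase u) M g x ^ 2 +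
        lam * (2 * 2 ^ Fintype.card I * (cnt ⊤ ∅ M g : ℝ)) := by
  have hinv : RInv (KT K R) (hR K R M g) := rinv_avg _ _
  rw [sum_mul_avg hinv]
  have h1 := hS (R.erase u) u (notMem_erase u R) (hR K R M g) (psi (R.erase u) u M g)
    (by rw [insert_erase hu]; exact hinv) (rinv_psi hg _ u M)
  refine h1.trans (add_le_add ?_ (mul_le_mul_of_nonneg_left ?_ hlam))
  · refine sum_le_sum fun x _ => ?_
    have a1 : avg (KT K (R.erase u)) (hR K R M g) x ≤ hR K (R.erase u) M g x := by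
      unfold hR
      rw [avg_avg (KT_anti K (erase_subset u R))]
      exact avg_mono _ (fR_anti (erase_subset u R) M g) x
    have a2 : avg (KT K (R.erase u)) (psi (R.erase u) u M g) x ≤ hR K (R.erase u) M g x :=
      avg_mono _ (psi_le _ u M g) x
    have a3 := avg_nonneg (KT K (R.erase u)) (psi_nonneg (R.erase u) u M g) x
    have a4 := hR_nonneg K (R.erase u) M g x
    rw [sq]
    exact mul_le_mul a1 a2 a3 a4
  · have b1 : ∑ x, hR K R M g x ^ 2 ≤ 2 ^ Fintype.card I * (cnt ⊤ ∅ M g : ℝ) := by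
      refine sum_sq_le (hR_nonneg K R M g) (hR_le K R M g) ?_ (by positivity)
      unfold hR
      rw [sum_avg]
      exact sum_fR_le R M g
    have b2 : ∑ x, psi (R.erase u) u M g x ^ 2 ≤ 2 ^ Fintype.card I * (cnt ⊤ ∅ M g : ℝ) := by
      refine sum_sq_le (psi_nonneg _ u M g) (fun x => (psi_le _ u M g x).trans (fR_le _ M g x)) ?_
        (by positivity)
      exact (sum_le_sum fun x _ => psi_le _ u M g x).trans (sum_fR_le _ M g)
    linarith

theorem q_bound {K : I → Subgroup G} {g : Finset I → G → ZMod 2} {M B : ℕ} {lam b : ℝ}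
    (hlam : 0 ≤ lam) (hg : Typed K g) (hS : Spec K lam)
    (hc : ∀ T : Finset I, T.card = M + 1 → ∀ y, tdel ∅ g T y = 0) (hmin : LocMin K M g)
    (hL : ∀ R : Finset I, R.Nonempty → R.card ≤ M → LinkExp K R M B)
    (hb1 : 1 ≤ b) (hb : (B : ℝ) * Fintype.card I ≤ b) (j : ℕ) :
    ∀ R : Finset I, R.card = j → j ≤ M → ∑ x, hR K R M g x ^ 2 ≤
      b ^ j * ((cnt ⊤ ∅ M g : ℝ) ^ 2 / Fintype.card G +
        j * (lam * (2 * 2 ^ Fintype.card I * (cnt ⊤ ∅ M g : ℝ)))) := by
  induction j with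
  | zero =>
    intro R hR0 _
    rw [card_eq_zero] at hR0
    subst hR0
    have hG : (0 : ℝ) < Fintype.card G := by exact_mod_cast Fintype.card_pos
    simp only [hR, KT_empty, avg_top, ← cnt_top, sum_const, card_univ, nsmul_eq_mul]
    apply le_of_eq
    field_simp
    simp [sq]
  | succ j ih =>
    intro R hRj hj
    have hne : R.Nonempty := card_pos.1 (by omega)
    set w : ℝ := (cnt ⊤ ∅ M g : ℝ) with hw
    set e : ℝ := lam * (2 * 2 ^ Fintype.card I * w) with he
    have hw0 : 0 ≤ w := Nat.cast_nonneg _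
    have he0 : 0 ≤ e := by positivity
    set A : ℝ := w ^ 2 / Fintype.card G with hA
    have hA0 : 0 ≤ A := by positivity
    have hbj : 1 ≤ b ^ j := one_le_pow₀ hb1
    have h1 : ∑ x, hR K R M g x ^ 2 ≤
        B * ∑ u ∈ R, ∑ x, hR K R M g x * avg (KT K R) (psi (R.erase u) u M g) x := by
      rw [sum_comm, mul_sum]
      refine sum_le_sum fun x _ => ?_
      rw [← mul_sum, sq, mul_left_comm]
      exact mul_le_mul_of_nonneg_left (hR_le_psi hg hc hmin hne (hL R hne (by omega)) x)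
        (hR_nonneg K R M g x)
    have h2 : ∀ u ∈ R, ∑ x, hR K R M g x * avg (KT K R) (psi (R.erase u) u M g) x ≤
        b ^ j * (A + (j + 1) * e) := by
      intro u hu
      have a1 := spec_step (M := M) hlam hg hS hu
      have a2 := ih (R.erase u) (by rw [card_erase_of_mem hu, hRj]; rfl) (by omega)
      have a3 : e ≤ b ^ j * e := le_mul_of_one_le_left he0 hbj
      nlinarith
    have h3 := sum_le_card_nsmul _ _ _ h2
    rw [nsmul_eq_mul] at h3
    have h4 : (R.card : ℝ) ≤ Fintype.card I := by exact_mod_cast card_le_univ R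
    have h5 : 0 ≤ b ^ j * (A + (j + 1) * e) := by positivity
    have hB : (0 : ℝ) ≤ B := Nat.cast_nonneg _
    calc ∑ x, hR K R M g x ^ 2 ≤ B * (R.card * (b ^ j * (A + (j + 1) * e))) :=
          h1.trans (mul_le_mul_of_nonneg_left h3 hB)
      _ ≤ B * (Fintype.card I * (b ^ j * (A + (j + 1) * e))) := by gcongr
      _ = (B * Fintype.card I) * (b ^ j * (A + (j + 1) * e)) := by ring
      _ ≤ b * (b ^ j * (A + (j + 1) * e)) := by gcongr
      _ = b ^ (j + 1) * (A + ((j + 1 : ℕ) : ℝ) * e) := by push_cast; ring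

theorem cnt_eq_sum_sq {K : I → Subgroup G} {g : Finset I → G → ZMod 2} (hg : Typed K g) (M : ℕ) :
    (cnt ⊤ ∅ M g : ℝ) = ∑ R ∈ TS ∅ M, ∑ x, hR K R M g x ^ 2 := by
  rw [cnt_top]
  unfold fR
  rw [sum_comm]
  refine sum_congr rfl fun R hRM => sum_congr rfl fun x _ => ?_
  have h1 : TS R M = {R} := by
    ext T
    rw [mem_TS, mem_singleton]
    constructor
    · rintro ⟨h1, h2⟩
      exact (eq_of_subset_of_card_le h1 (by rw [h2, (mem_TS.1 hRM).2])).symm
    · rintro rfl
      exact ⟨subset_rfl, (mem_TS.1 hRM).2⟩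
  have h2 : fR R M g = fun y => ind (g R y) := by
    funext y; simp [fR, h1]
  have h3 : RInv (KT K R) (fun y => ind (g R y)) := fun y k hk => by
    simp only [hg R y k hk]
  unfold hR
  rw [h2, avg_of_rinv h3, ind_sq]

theorem small_vanish {K : I → Subgroup G} {g : Finset I → G → ZMod 2} {M B : ℕ} {lam b : ℝ}
    (hlam : 0 ≤ lam) (hg : Typed K g) (hS : Spec K lam)
    (hc : ∀ T : Finset I, T.card = M + 1 → ∀ y, tdel ∅ g T y = 0) (hmin : LocMin K M g)
    (hL : ∀ R : Finset I, R.Nonempty → R.card ≤ M → LinkExp K R M B)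
    (hb1 : 1 ≤ b) (hb : (B : ℝ) * Fintype.card I ≤ b) (hM : M ≤ Fintype.card I)
    (hsmall : 2 ^ Fintype.card I * b ^ Fintype.card I *
      (Fintype.card I * (lam * (2 * 2 ^ Fintype.card I))) ≤ 1 / 2)
    (hw : 2 * (2 ^ Fintype.card I * b ^ Fintype.card I) * (cnt ⊤ ∅ M g : ℝ) < Fintype.card G) :
    cnt ⊤ ∅ M g = 0 := by
  set n := Fintype.card I with hn
  have h1 := cnt_eq_sum_sq hg M
  set w : ℝ := (cnt ⊤ ∅ M g : ℝ) with hwdef
  have hw0 : 0 ≤ w := Nat.cast_nonneg _
  have hG : (0 : ℝ) < Fintype.card G := by exact_mod_cast Fintype.card_pos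
  have h2 : ∀ R ∈ TS (∅ : Finset I) M, ∑ x, hR K R M g x ^ 2 ≤
      b ^ n * (w ^ 2 / Fintype.card G + n * (lam * (2 * 2 ^ n * w))) := by
    intro R hRM
    refine (q_bound hlam hg hS hc hmin hL hb1 hb M R (mem_TS.1 hRM).2 le_rfl).trans ?_
    have : (M : ℝ) ≤ n := by exact_mod_cast hM
    have : b ^ M ≤ b ^ n := pow_le_pow_right₀ hb1 hM
    gcongr
  have h3 := sum_le_card_nsmul _ _ _ h2
  rw [nsmul_eq_mul, ← h1] at h3
  have h4 : ((TS (∅ : Finset I) M).card : ℝ) ≤ 2 ^ n := by exact_mod_cast card_TS_le ∅ M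
  have hb0 : 0 ≤ b := by linarith
  have h5 : w ≤ 2 ^ n * (b ^ n * (w ^ 2 / Fintype.card G + n * (lam * (2 * 2 ^ n * w)))) :=
    h3.trans (by gcongr)
  have h6 : 2 ^ n * (b ^ n * (w ^ 2 / Fintype.card G + n * (lam * (2 * 2 ^ n * w)))) =
      (2 ^ n * b ^ n * w / Fintype.card G) * w +
        (2 ^ n * b ^ n * (n * (lam * (2 * 2 ^ n)))) * w := by ring
  have h7 : 2 ^ n * b ^ n * w / Fintype.card G < 1 / 2 := by
    rw [div_lt_iff₀ hG]; linarith
  by_contra hne
  have hw1 : 0 < w := by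
    have : 0 < cnt ⊤ ∅ M g := Nat.pos_of_ne_zero hne
    rw [hwdef]; exact_mod_cast this
  have h8 := mul_lt_mul_of_pos_right h7 hw1
  have h9 := mul_le_mul_of_nonneg_right hsmall hw0
  linarith

end Vale.Agent.P067.LG
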