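import Mathlib

namespace Vale.Agent.P067.SpecAux

open Finset
open scoped RealInnerProductSpace

variable {V : Type*} [NormedAddCommGroup V] [InnerProductSpace ℝ V]

/-- orthogonal projection, as an endomorphism -/
structure OP (P : Module.End ℝ V) : Prop where
  idem : P * P = P
  symm : ∀ v w, ⟪P v, w⟫ = ⟪v, P w⟫

theorem OP.app {P : Module.End ℝ V} (h : OP P) (v : V) : P (P v) = P v := by
  rw [← Module.End.mul_apply, h.idem]

theorem OP.compl {P : Module.End ℝ V} (h : OP P) : OP (1 - P) where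
  idem := by rw [sub_mul, mul_sub, mul_sub, h.idem]; simp
  symm v w := by simp [inner_sub_left, inner_sub_right, h.symm]

theorem OP.inner_self {P : Module.End ℝ V} (h : OP P) (v : V) : ⟪P v, v⟫ = ‖P v‖ ^ 2 := by
  rw [← real_inner_self_eq_norm_sq, h.symm v (P v), h.app, real_inner_comm]

theorem OP.pyth {P : Module.End ℝ V} (h : OP P) (v : V) :
    ‖(1 - P) v‖ ^ 2 = ‖v‖ ^ 2 - ‖P v‖ ^ 2 := by
  rw [← h.compl.inner_self, ← h.inner_self, ← real_inner_self_eq_norm_sq]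
  simp [inner_sub_left]

theorem OP.inner_nonneg_of {P Q : Module.End ℝ V} (hP : OP P) (hQ : OP Q) (u : V)
    (h : Q (P (Q u)) = P (Q u)) : 0 ≤ ⟪P u, Q u⟫ := by
  have : ⟪P u, Q u⟫ = ‖P (Q u)‖ ^ 2 := by
    rw [← hP.inner_self, hP.symm u, ← h, ← hQ.symm, real_inner_comm, h]
  rw [this]; positivity

theorem pair_ker {P Q : Module.End ℝ V} (hP : OP P) (hQ : OP Q) {ε : ℝ} (h0 : 0 ≤ ε)
    (h1 : ε ≤ 1 / 2) (w : V) (h : ‖Q (P w)‖ ≤ ε * ‖P w‖) :
    -(4 * ε) * (‖(1 - P) w‖ ^ 2 + ‖(1 - Q) w‖ ^ 2) ≤ ⟪(1 - P) w, (1 - Q) w⟫ := by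
  have hab : |⟪P w, Q w⟫| ≤ ε * (‖P w‖ * ‖Q w‖) := by
    rw [← hQ.app w, ← hQ.symm, hQ.app]
    refine (abs_real_inner_le_norm _ _).trans ?_
    rw [← mul_assoc]
    exact mul_le_mul_of_nonneg_right h (norm_nonneg _)
  obtain ⟨S, hS⟩ : ∃ S, S = ‖P w‖ ^ 2 + ‖Q w‖ ^ 2 := ⟨_, rfl⟩
  have hS0 : 0 ≤ S := by rw [hS]; positivity
  have hab2 : |⟪P w, Q w⟫| ≤ ε * S / 2 := by
    have : ‖P w‖ * ‖Q w‖ ≤ S / 2 := by rw [hS]; nlinarith [sq_nonneg (‖P w‖ - ‖Q w‖)]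
    calc _ ≤ ε * (‖P w‖ * ‖Q w‖) := hab
      _ ≤ ε * (S / 2) := by gcongr
      _ = _ := by ring
  have hab3 := abs_le.1 hab2
  have e1 : S = ⟪P w + Q w, w⟫ := by rw [inner_add_left, hP.inner_self, hQ.inner_self, hS]
  have e2 : ‖P w + Q w‖ ^ 2 ≤ (1 + ε) * S := by
    rw [norm_add_sq_real]; linarith [hab3.2]
  have e3 : S ≤ (1 + ε) * ‖w‖ ^ 2 := by
    have e4 : S ≤ ‖P w + Q w‖ * ‖w‖ := e1 ▸ real_inner_le_norm _ _
    have e5 : S ^ 2 ≤ (1 + ε) * S * ‖w‖ ^ 2 := by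
      calc S ^ 2 ≤ (‖P w + Q w‖ * ‖w‖) ^ 2 := by gcongr
        _ = ‖P w + Q w‖ ^ 2 * ‖w‖ ^ 2 := by ring
        _ ≤ _ := by gcongr
    rcases hS0.eq_or_lt with h | h
    · rw [← h]; positivity
    · nlinarith
  have e6 : ⟪(1 - P) w, (1 - Q) w⟫ = ‖w‖ ^ 2 - S + ⟪P w, Q w⟫ := by
    simp only [LinearMap.sub_apply, Module.End.one_apply, inner_sub_left, inner_sub_right]
    rw [real_inner_self_eq_norm_sq, hP.inner_self, real_inner_comm, hQ.inner_self, hS]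
    ring
  rw [e6, hP.pyth, hQ.pyth]
  have hw : 0 ≤ ‖w‖ ^ 2 := by positivity
  have e7 : ε * S ≤ ε * ((1 + ε) * ‖w‖ ^ 2) := by gcongr
  have e8 : ε * (ε * ‖w‖ ^ 2) ≤ (1 / 2) * (ε * ‖w‖ ^ 2) := by gcongr
  have e9 : 0 ≤ ε * ‖w‖ ^ 2 := by positivity
  rw [show ‖w‖ ^ 2 - ‖P w‖ ^ 2 + (‖w‖ ^ 2 - ‖Q w‖ ^ 2) = 2 * ‖w‖ ^ 2 - S by rw [hS]; ring]
  nlinarith [hab3.1]

theorem pair_bound {P Q Z : Module.End ℝ V} (hP : OP P) (hQ : OP Q) (hZ : OP Z)
    (cP : Z * P = P * Z) (cQ : Z * Q = Q * Z) (hPQ : Q * P * Z = P * Q * Z)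
    {ε δ : ℝ} (h0 : 0 ≤ ε) (h1 : ε ≤ 1 / 2) (hδ : δ ≤ ε ^ 2)
    (hk : P * Q * P * (1 - Z) = δ • (P * (1 - Z))) (v : V) :
    -(4 * ε) * (‖(1 - P) v‖ ^ 2 + ‖(1 - Q) v‖ ^ 2) ≤ ⟪(1 - P) v, (1 - Q) v⟫ := by
  obtain ⟨w, hw⟩ : ∃ w, w = (1 - Z) v := ⟨_, rfl⟩
  have hv : v = Z v + w := by rw [hw]; simp
  have hZw : Z w = 0 := by rw [hw]; simp [hZ.app]
  have cP' : ∀ y, Z ((1 - P) y) = (1 - P) (Z y) := fun y => by
    have := congrArg (fun T : Module.End ℝ V => T y) cP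
    simp only [Module.End.mul_apply] at this
    simp [this]
  have cQ' : ∀ y, Z ((1 - Q) y) = (1 - Q) (Z y) := fun y => by
    have := congrArg (fun T : Module.End ℝ V => T y) cQ
    simp only [Module.End.mul_apply] at this
    simp [this]
  have orth : ∀ A B : Module.End ℝ V, (∀ y, Z (A y) = A (Z y)) → (∀ y, Z (B y) = B (Z y)) →
      ⟪A (Z v), B w⟫ = 0 := by
    intro A B hA hB
    rw [← hA, hZ.symm, hB, hZw, map_zero, inner_zero_right]
  have split : ∀ A B : Module.End ℝ V, (∀ y, Z (A y) = A (Z y)) → (∀ y, Z (B y) = B (Z y)) →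
      ⟪A v, B v⟫ = ⟪A (Z v), B (Z v)⟫ + ⟪A w, B w⟫ := by
    intro A B hA hB
    conv_lhs => rw [hv]
    rw [map_add, map_add, inner_add_left, inner_add_right, inner_add_right, orth A B hA hB,
      real_inner_comm (B (Z v)) (A w), orth B A hB hA]
    ring
  have n1 : ‖(1 - P) w‖ ^ 2 ≤ ‖(1 - P) v‖ ^ 2 := by
    have := split _ _ cP' cP'
    simp only [real_inner_self_eq_norm_sq] at this
    nlinarith [sq_nonneg ‖(1 - P) (Z v)‖]
  have n2 : ‖(1 - Q) w‖ ^ 2 ≤ ‖(1 - Q) v‖ ^ 2 := by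
    have := split _ _ cQ' cQ'
    simp only [real_inner_self_eq_norm_sq] at this
    nlinarith [sq_nonneg ‖(1 - Q) (Z v)‖]
  have hpos : 0 ≤ ⟪(1 - P) (Z v), (1 - Q) (Z v)⟫ := by
    refine hP.compl.inner_nonneg_of hQ.compl _ ?_
    have e : (1 - Q) * (1 - P) * Z = (1 - P) * (1 - Q) * Z := by
      simp only [sub_mul, mul_sub, one_mul, mul_one, hPQ]; abel
    have e' : ∀ y, (1 - Q) ((1 - P) (Z y)) = (1 - P) ((1 - Q) (Z y)) := fun y =>
      congrArg (fun T : Module.End ℝ V => T y) e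
    rw [← cQ', e', cQ', hQ.compl.app]
  have hker : ‖Q (P w)‖ ≤ ε * ‖P w‖ := by
    have e : P (Q (P w)) = δ • P w := by
      rw [hw]; exact congrArg (fun T : Module.End ℝ V => T v) hk
    have e2 : ‖Q (P w)‖ ^ 2 = δ * ‖P w‖ ^ 2 := by
      rw [← hQ.inner_self, ← hP.symm, e, real_inner_smul_left, hP.inner_self]
    refine le_of_sq_le_sq ?_ (by positivity) |> fun h => h
    rw [e2, mul_pow]
    gcongr
  have := pair_ker hP hQ h0 h1 w hker
  rw [split _ _ cP' cQ']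
  nlinarith

theorem gap [FiniteDimensional ℝ V] (T : Module.End ℝ V) (hT : ∀ v w, ⟪T v, w⟫ = ⟪v, T w⟫)
    (hpos : ∀ v, 0 ≤ ⟪T v, v⟫) {γ : ℝ} (hγ : 0 ≤ γ) (h : ∀ v, γ * ⟪T v, v⟫ ≤ ‖T v‖ ^ 2) (v : V)
    (hv : ∀ y, T y = 0 → ⟪y, v⟫ = 0) : γ * ‖v‖ ^ 2 ≤ ⟪T v, v⟫ := by
  have hs : LinearMap.IsSymmetric T := hT
  have hmem : v ∈ (LinearMap.ker T)ᗮ := by
    rw [Submodule.mem_orthogonal]
    exact fun y hy => hv y hy
  rw [LinearMap.orthogonal_ker, hs.adjoint_eq] at hmem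
  obtain ⟨u, rfl⟩ := hmem
  have e1 := hpos (T u - γ • u)
  have e2 := h u
  simp only [map_sub, map_smul, inner_sub_left, inner_sub_right, real_inner_smul_left,
    real_inner_smul_right] at e1
  rw [hT (T u) u, real_inner_self_eq_norm_sq] at e1
  nlinarith

section grp
variable {G : Type*} [Group G] (ρ : G →* Module.End ℝ V)

/-- average of the operators `ρ (y s)` -/
noncomputable def avgOp {S : Type*} [Fintype S] (y : S → G) : Module.End ℝ V :=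
  (Fintype.card S : ℝ)⁻¹ • ∑ s, ρ (y s)

variable {S : Type*} [Fintype S]

theorem avgOp_left (y : S → G) (g : G) (e : S ≃ S) (h : ∀ t, g * y t = y (e t)) :
    ρ g * avgOp ρ y = avgOp ρ y := by
  unfold avgOp
  rw [mul_smul_comm, mul_sum]
  congr 1
  simp_rw [← map_mul, h]
  exact e.sum_comp fun t => ρ (y t)

theorem avgOp_right (y : S → G) (g : G) (e : S ≃ S) (h : ∀ t, y t * g = y (e t)) :
    avgOp ρ y * ρ g = avgOp ρ y := by
  unfold avgOp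
  rw [smul_mul_assoc, sum_mul]
  congr 1
  simp_rw [← map_mul, h]
  exact e.sum_comp fun t => ρ (y t)

theorem avgOp_mul_of [Nonempty S] (y : S → G) (A B : Module.End ℝ V)
    (h : ∀ t, ρ (y t) * A = B) : avgOp ρ y * A = B := by
  unfold avgOp
  rw [smul_mul_assoc, sum_mul]
  simp_rw [h]
  rw [sum_const, card_univ, ← Nat.cast_smul_eq_nsmul ℝ, smul_smul, inv_mul_cancel₀, one_smul]
  exact_mod_cast Fintype.card_ne_zero

theorem avgOp_symm (hρ : ∀ g v w, ⟪ρ g v, w⟫ = ⟪v, ρ g⁻¹ w⟫) (y : S → G) (e : S ≃ S)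
    (h : ∀ t, (y t)⁻¹ = y (e t)) (v w : V) : ⟪avgOp ρ y v, w⟫ = ⟪v, avgOp ρ y w⟫ := by
  unfold avgOp
  simp only [LinearMap.smul_apply, LinearMap.sum_apply, real_inner_smul_left,
    real_inner_smul_right, sum_inner, inner_sum, hρ, h]
  congr 1
  exact e.sum_comp fun t => ⟪v, ρ (y t) w⟫

theorem avgOp_commute (y : S → G) (A : Module.End ℝ V) (h : ∀ t, ρ (y t) * A = A * ρ (y t)) :
    avgOp ρ y * A = A * avgOp ρ y := by
  unfold avgOp
  rw [smul_mul_assoc, mul_smul_comm, sum_mul, mul_sum]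
  simp_rw [h]

theorem avgOp_comm {S' : Type*} [Fintype S'] (y : S → G) (y' : S' → G)
    (h : ∀ s t, Commute (y s) (y' t)) : avgOp ρ y * avgOp ρ y' = avgOp ρ y' * avgOp ρ y := by
  refine avgOp_commute ρ y _ fun s => (avgOp_commute ρ y' _ fun t => ?_).symm
  rw [← map_mul, ← map_mul, (h s t).eq]

variable {F : Type*} [Field F] [Fintype F]

omit [Fintype F] in
theorem hom_zero {y : F → G} (hy : ∀ a b, y (a + b) = y a * y b) : y 0 = 1 := by
  have := hy 0 0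
  rw [add_zero] at this
  exact mul_eq_left.1 this.symm

theorem root_left {y : F → G} (hy : ∀ a b, y (a + b) = y a * y b) (a : F) :
    ρ (y a) * avgOp ρ y = avgOp ρ y :=
  avgOp_left ρ y _ (Equiv.addLeft a) fun t => by simp [hy]

theorem root_right {y : F → G} (hy : ∀ a b, y (a + b) = y a * y b) (a : F) :
    avgOp ρ y * ρ (y a) = avgOp ρ y :=
  avgOp_right ρ y _ (Equiv.addRight a) fun t => by simp [hy]

theorem root_OP (hρ : ∀ g v w, ⟪ρ g v, w⟫ = ⟪v, ρ g⁻¹ w⟫) {y : F → G}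
    (hy : ∀ a b, y (a + b) = y a * y b) : OP (avgOp ρ y) where
  idem := avgOp_mul_of ρ y _ _ (root_left ρ hy)
  symm := avgOp_symm ρ hρ y (Equiv.neg F) fun t => by
    rw [Equiv.neg_apply, inv_eq_iff_mul_eq_one, ← hy, add_neg_cancel, hom_zero hy]

theorem heis_bound (hρ : ∀ g v w, ⟪ρ g v, w⟫ = ⟪v, ρ g⁻¹ w⟫) {x1 x2 z : F → G}
    (h1 : ∀ a b, x1 (a + b) = x1 a * x1 b) (h2 : ∀ a b, x2 (a + b) = x2 a * x2 b)
    (hz : ∀ a b, z (a + b) = z a * z b) (c1 : ∀ a b, Commute (z a) (x1 b))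
    (c2 : ∀ a b, Commute (z a) (x2 b)) (hrel : ∀ a b, x2 a * x1 b = x1 b * x2 a * z (a * b))
    {ε : ℝ} (h0 : 0 ≤ ε) (hε : ε ≤ 1 / 2) (hq : (Fintype.card F : ℝ)⁻¹ ≤ ε ^ 2) (v : V) :
    -(4 * ε) * (‖(1 - avgOp ρ x1) v‖ ^ 2 + ‖(1 - avgOp ρ x2) v‖ ^ 2) ≤
      ⟪(1 - avgOp ρ x1) v, (1 - avgOp ρ x2) v⟫ := by
  classical
  have hZ := root_OP ρ hρ hz
  have hP := root_OP ρ hρ h1
  have cP := avgOp_comm ρ z x1 c1
  refine pair_bound hP (root_OP ρ hρ h2) hZ cP (avgOp_comm ρ z x2 c2) ?_ h0 hε hq ?_ v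
  · have : ∀ a b, ρ (x2 a) * ρ (x1 b) * avgOp ρ z = ρ (x1 b) * ρ (x2 a) * avgOp ρ z := by
      intro a b
      rw [← map_mul, hrel, map_mul, map_mul, mul_assoc, root_left ρ hz]
    have e : ∀ b, avgOp ρ x2 * (ρ (x1 b) * avgOp ρ z) = ρ (x1 b) * (avgOp ρ x2 * avgOp ρ z) := by
      intro b
      conv_lhs => rw [avgOp]
      conv_rhs => rw [avgOp]
      simp only [smul_mul_assoc, mul_smul_comm, sum_mul, mul_sum, ← mul_assoc, this]
    rw [mul_assoc, mul_assoc]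
    conv_lhs => rw [avgOp.eq_1 ρ x1]
    conv_rhs => rw [avgOp.eq_1 ρ x1]
    simp only [smul_mul_assoc, mul_smul_comm, sum_mul, mul_sum, e]
  · have key : ∀ a, a ≠ 0 → avgOp ρ x1 * ρ (x2 a) * avgOp ρ x1 * (1 - avgOp ρ z) = 0 := by
      intro a ha
      have e1 : ∀ c, avgOp ρ x1 * ρ (x2 a) * (ρ (z c) * avgOp ρ x1) =
          avgOp ρ x1 * ρ (x2 a) * avgOp ρ x1 := by
        intro c
        have e2 : c = a * (a⁻¹ * c) := by field_simp
        calc avgOp ρ x1 * ρ (x2 a) * (ρ (z c) * avgOp ρ x1)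
            = avgOp ρ x1 * ρ (x1 (a⁻¹ * c)) * ρ (x2 a) * (ρ (z c) * avgOp ρ x1) := by
              rw [root_right ρ h1]
          _ = avgOp ρ x1 * ρ (x1 (a⁻¹ * c) * x2 a * z (a * (a⁻¹ * c))) * avgOp ρ x1 := by
              rw [← e2]; simp only [map_mul, mul_assoc]
          _ = avgOp ρ x1 * ρ (x2 a) * (ρ (x1 (a⁻¹ * c)) * avgOp ρ x1) := by
              rw [← hrel]; simp only [map_mul, mul_assoc]
          _ = _ := by rw [root_left ρ h1]
      have e3 : avgOp ρ x1 * ρ (x2 a) * (avgOp ρ z * avgOp ρ x1) =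
          avgOp ρ x1 * ρ (x2 a) * avgOp ρ x1 := by
        conv_lhs => rw [avgOp.eq_1 ρ z]
        simp only [smul_mul_assoc, mul_smul_comm, sum_mul, mul_sum, e1]
        rw [sum_const, card_univ, ← Nat.cast_smul_eq_nsmul ℝ, smul_smul, inv_mul_cancel₀,
          one_smul]
        exact_mod_cast Fintype.card_ne_zero
      rw [mul_sub, mul_one, mul_assoc _ (avgOp ρ x1) (avgOp ρ z), ← cP, e3, sub_self]
    conv_lhs => rw [avgOp.eq_1 ρ x2]
    simp only [smul_mul_assoc, mul_smul_comm, sum_mul, mul_sum]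
    congr 1
    rw [sum_eq_single 0 (fun a _ ha => key a ha) (by simp), hom_zero h2, map_one, mul_one,
      hP.idem]

end grp

theorem knabe {I : Type*} [Fintype I] [DecidableEq I] (Q : I → Module.End ℝ V)
    (hQ : ∀ i, OP (Q i)) (nxt : I → I) (hn : Function.Injective nxt) {e : ℝ} (he : 0 ≤ e)
    (h1 : ∀ i v, -e * (‖Q i v‖ ^ 2 + ‖Q (nxt i) v‖ ^ 2) ≤ ⟪Q i v, Q (nxt i) v⟫)
    (h2 : ∀ i j, j ≠ nxt i → i ≠ nxt j → ∀ v, 0 ≤ ⟪Q i v, Q j v⟫) (s : Finset I) (v : V) :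
    (1 - 4 * e) * ⟪(∑ i ∈ s, Q i) v, v⟫ ≤ ‖(∑ i ∈ s, Q i) v‖ ^ 2 := by
  rw [← real_inner_self_eq_norm_sq]
  simp only [LinearMap.sum_apply, sum_inner, inner_sum, (hQ _).inner_self]
  have hpt : ∀ i j, (if i = j then ‖Q i v‖ ^ 2 else 0)
      - e * ((if j = nxt i then ‖Q i v‖ ^ 2 else 0) + (if j = nxt i then ‖Q j v‖ ^ 2 else 0)
        + (if i = nxt j then ‖Q i v‖ ^ 2 else 0) + (if i = nxt j then ‖Q j v‖ ^ 2 else 0))
      ≤ ⟪Q j v, Q i v⟫ := by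
    intro i j
    have p1 : 0 ≤ e * ‖Q i v‖ ^ 2 := by positivity
    have p2 : 0 ≤ e * ‖Q j v‖ ^ 2 := by positivity
    by_cases hij : i = j
    · subst hij
      rw [real_inner_self_eq_norm_sq]
      split_ifs <;> nlinarith
    · by_cases ha : j = nxt i
      · have := h1 i v
        rw [← ha, real_inner_comm] at this
        rw [if_neg hij, if_pos ha, if_pos ha]
        split_ifs <;> nlinarith
      · by_cases hb : i = nxt j
        · have := h1 j v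
          rw [← hb] at this
          rw [if_neg hij, if_neg ha, if_neg ha, if_pos hb, if_pos hb]
          nlinarith
        · have := h2 j i hb ha v
          simp only [if_neg hij, if_neg ha, if_neg hb]
          linarith
  have hA : ∀ (f : I → ℝ), (∀ i, 0 ≤ f i) →
      ∑ i ∈ s, ∑ j ∈ s, (if j = nxt i then f i else 0) ≤ ∑ i ∈ s, f i := by
    intro f hf
    refine sum_le_sum fun i _ => ?_
    rw [sum_ite_eq']
    split_ifs
    · exact le_rfl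
    · exact hf i
  have hB : ∀ (f : I → ℝ), (∀ i, 0 ≤ f i) →
      ∑ i ∈ s, ∑ j ∈ s, (if j = nxt i then f j else 0) ≤ ∑ i ∈ s, f i := by
    intro f hf
    rw [sum_comm]
    refine sum_le_sum fun j _ => ?_
    rw [← sum_filter, sum_const, nsmul_eq_mul]
    have : (s.filter fun i => j = nxt i).card ≤ 1 := by
      rw [card_le_one]
      intro a ha b hb
      exact hn ((mem_filter.1 ha).2.symm.trans (mem_filter.1 hb).2)
    have : ((s.filter fun i => j = nxt i).card : ℝ) ≤ 1 := by exact_mod_cast this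
    nlinarith [hf j]
  refine le_trans ?_ (sum_le_sum fun i _ => sum_le_sum fun j _ => hpt i j)
  simp only [sum_sub_distrib, ← mul_sum, sum_add_distrib]
  have a1 := hA (fun i => ‖Q i v‖ ^ 2) fun i => by positivity
  have a2 := hB (fun i => ‖Q i v‖ ^ 2) fun i => by positivity
  have a3 := hB (fun i => ‖Q i v‖ ^ 2) fun i => by positivity
  have a4 := hA (fun i => ‖Q i v‖ ^ 2) fun i => by positivity
  rw [sum_comm] at a3 a4
  have a5 : ∑ i ∈ s, ∑ j ∈ s, (if i = j then ‖Q i v‖ ^ 2 else 0) = ∑ i ∈ s, ‖Q i v‖ ^ 2 :=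
    sum_congr rfl fun i hi => by rw [sum_ite_eq, if_pos hi]
  rw [a5]
  nlinarith

end Vale.Agent.P067.SpecAux
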