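import Vale.Agent.P067.Coset
import Vale.Agent.P067.SpectralAux

set_option linter.unusedSectionVars false

namespace Vale.Agent.P067

open Finset SpecAux
open scoped RealInnerProductSpace

section
variable (G : Type) [Group G] [Fintype G]

/-- the right regular representation -/
noncomputable def rreg : G →* Module.End ℝ (EuclideanSpace ℝ G) where
  toFun g :=
    { toFun := fun v => WithLp.toLp 2 fun x => v (x * g)
      map_add' := fun _ _ => rfl
      map_smul' := fun _ _ => rfl }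
  map_one' := by ext v x; simp
  map_mul' g h := by
    ext v x
    change v (x * (g * h)) = v (x * g * h)
    rw [mul_assoc]

theorem rreg_apply (g : G) (v : EuclideanSpace ℝ G) (x : G) : rreg G g v x = v (x * g) := rfl

theorem inner_eq_sum (v w : EuclideanSpace ℝ G) : ⟪v, w⟫ = ∑ x, v x * w x := by
  simp [PiLp.inner_apply, mul_comm]

theorem rreg_adj (g : G) (v w : EuclideanSpace ℝ G) :
    ⟪rreg G g v, w⟫ = ⟪v, rreg G g⁻¹ w⟫ := by
  simp only [inner_eq_sum, rreg_apply]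
  rw [← Equiv.sum_comp (Equiv.mulRight g) fun x => v x * w (x * g⁻¹)]
  simp

end

theorem spec_of_roots (lam : ℝ) (hlam : 0 < lam) : ∃ q0 : ℕ,
    ∀ (F : Type) [Field F] [Fintype F] (G : Type) [Group G] [Fintype G]
      (I : Type) [Fintype I] [DecidableEq I] (K : I → Subgroup G) (x z : I → F → G) (nxt : I → I),
      q0 ≤ Fintype.card F → Function.Injective nxt →
      (∀ j a b, x j (a + b) = x j a * x j b) → (∀ j a b, z j (a + b) = z j a * z j b) →
      (∀ j a b, Commute (z j a) (x j b)) → (∀ j a b, Commute (z j a) (x (nxt j) b)) →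
      (∀ j a b, x (nxt j) a * x j b = x j b * x (nxt j) a * z j (a * b)) →
      (∀ j j', j' ≠ nxt j → j ≠ nxt j' → ∀ a b, Commute (x j a) (x j' b)) →
      (∀ T : Finset I, KT K T = Subgroup.closure {g | ∃ j, j ∉ T ∧ ∃ a, g = x j a}) →
      Spec K lam := by
  classical
  obtain ⟨ε, hε0, hε1, hε2⟩ : ∃ ε : ℝ, 0 < ε ∧ ε ≤ 1 / 32 ∧ 16 * ε ≤ lam ^ 2 :=
    ⟨min (1 / 32) (lam ^ 2 / 16), by positivity, min_le_left _ _, by
      linarith [min_le_right (1 / 32) (lam ^ 2 / 16)]⟩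
  refine ⟨⌈(ε ^ 2)⁻¹⌉₊, ?_⟩
  intro F _ _ G _ _ I _ _ K x z nxt hq hn hx hz c1 c2 hrel hcomm hK R u hu φ ψ hφ hψ
  have hq' : (Fintype.card F : ℝ)⁻¹ ≤ ε ^ 2 := by
    have h1 : (ε ^ 2)⁻¹ ≤ Fintype.card F := (Nat.le_ceil _).trans (by exact_mod_cast hq)
    exact inv_le_of_inv_le₀ (by positivity) h1
  set ρ := rreg G with hρ
  have hadj := rreg_adj G
  have hmem : ∀ (T : Finset I) j a, j ∉ T → x j a ∈ KT K T := fun T j a hj => by
    rw [hK]; exact Subgroup.subset_closure ⟨j, hj, a, rfl⟩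
  let P : I → Module.End ℝ (EuclideanSpace ℝ G) := fun j => avgOp ρ (x j)
  have hP : ∀ j, OP (P j) := fun j => root_OP ρ hadj (hx j)
  have hQ : ∀ j, OP (1 - P j) := fun j => (hP j).compl
  let s : Finset I := univ \ R
  let T : Module.End ℝ (EuclideanSpace ℝ G) := ∑ j ∈ s, (1 - P j)
  have hTin : ∀ v, ⟪T v, v⟫ = ∑ j ∈ s, ‖(1 - P j) v‖ ^ 2 := fun v => by
    simp only [T, LinearMap.sum_apply, sum_inner, (hQ _).inner_self]
  have hkn : ∀ v, (1 - 4 * (4 * ε)) * ⟪T v, v⟫ ≤ ‖T v‖ ^ 2 := by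
    refine knabe (fun j => 1 - P j) hQ nxt hn (by positivity) ?_ ?_ s
    · intro i v
      exact heis_bound ρ hadj (hx i) (hx (nxt i)) (hz i) (c1 i) (c2 i) (hrel i) hε0.le
        (by linarith) hq' v
    · intro i j h1 h2 v
      refine (hQ i).inner_nonneg_of (hQ j) v ?_
      have e : P i * P j = P j * P i := avgOp_comm ρ _ _ (hcomm i j h1 h2)
      have e2 : (1 - P j) * (1 - P i) = (1 - P i) * (1 - P j) := by
        simp only [sub_mul, mul_sub, one_mul, mul_one, e]; abel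
      rw [← Module.End.mul_apply, e2, Module.End.mul_apply, (hQ j).app]
  have hfix : ∀ (j : I) (v : EuclideanSpace ℝ G), (∀ a, ρ (x j a) v = v) → P j v = v := by
    intro j v h
    simp only [P, avgOp, LinearMap.smul_apply, LinearMap.sum_apply, h]
    rw [sum_const, card_univ, ← Nat.cast_smul_eq_nsmul ℝ, smul_smul, inv_mul_cancel₀, one_smul]
    exact_mod_cast Fintype.card_ne_zero
  -- the projection onto invariants
  let H := KT K R
  let A : Module.End ℝ (EuclideanSpace ℝ G) := avgOp ρ (fun k : H => (k : G))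
  have hAl : ∀ k ∈ H, ρ k * A = A := fun k hk =>
    avgOp_left ρ _ k (Equiv.mulLeft (⟨k, hk⟩ : H)) fun t => rfl
  have hA : OP A :=
    ⟨avgOp_mul_of ρ _ _ _ fun t => hAl t t.2,
      avgOp_symm ρ hadj _ (Equiv.inv H) fun t => rfl⟩
  have hAfix : ∀ v : EuclideanSpace ℝ G, (∀ k ∈ H, ρ k v = v) → A v = v := by
    intro v h
    have h' : ∀ k : H, ρ k v = v := fun k => h k k.2
    simp only [A, avgOp, LinearMap.smul_apply, LinearMap.sum_apply, h']
    rw [sum_const, card_univ, ← Nat.cast_smul_eq_nsmul ℝ, smul_smul, inv_mul_cancel₀, one_smul]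
    exact_mod_cast Fintype.card_ne_zero
  have hAavg : ∀ (f : G → ℝ) (g : G), A (WithLp.toLp 2 f) g = avg H f g := by
    intro f g
    simp only [A, avgOp, LinearMap.smul_apply, LinearMap.sum_apply, avg, PiLp.smul_apply,
      smul_eq_mul, WithLp.ofLp_sum, Finset.sum_apply, hρ, rreg_apply]
    rw [Nat.card_eq_fintype_card, div_eq_inv_mul]
    congr 1
    exact (sum_subtype _ (by simp) fun k => f (g * k)).symm
  have hker : ∀ y, T y = 0 → A y = y := by
    intro y hy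
    have h0 := hTin y
    rw [hy, inner_zero_left, eq_comm, sum_eq_zero_iff_of_nonneg fun j _ => by positivity] at h0
    refine hAfix y fun k hk => ?_
    change k ∈ KT K R at hk
    rw [hK] at hk
    induction hk using Subgroup.closure_induction with
    | mem g hg =>
      obtain ⟨j, hj, a, rfl⟩ := hg
      have h1 := h0 j (by simp [s, hj])
      rw [sq_eq_zero_iff, norm_eq_zero, LinearMap.sub_apply, Module.End.one_apply,
        sub_eq_zero] at h1
      rw [h1, ← Module.End.mul_apply, root_left ρ (hx j)]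
    | one => simp
    | mul g h _ _ hg hh => rw [map_mul, Module.End.mul_apply, hh, hg]
    | inv g _ hg =>
      conv_lhs => rw [← hg, ← Module.End.mul_apply, ← map_mul, inv_mul_cancel, map_one]
      rfl
  obtain ⟨v, hv⟩ : ∃ v : EuclideanSpace ℝ G, v = WithLp.toLp 2 φ := ⟨_, rfl⟩
  obtain ⟨w, hw⟩ : ∃ w : EuclideanSpace ℝ G, w = WithLp.toLp 2 ψ := ⟨_, rfl⟩
  have hgap : (1 - 4 * (4 * ε)) * ‖(1 - A) v‖ ^ 2 ≤ ⟪T ((1 - A) v), (1 - A) v⟫ := by
    refine gap T ?_ ?_ (by linarith) hkn _ ?_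
    · intro a b
      simp only [T, LinearMap.sum_apply, sum_inner, inner_sum, (hQ _).symm]
    · intro a
      rw [hTin]; positivity
    · intro y hy
      rw [← hA.compl.symm]
      simp [hker y hy]
  have hTv : ⟪T ((1 - A) v), (1 - A) v⟫ = ‖(1 - A) v‖ ^ 2 - ‖P u ((1 - A) v)‖ ^ 2 := by
    rw [hTin, ← (hP u).pyth]
    refine sum_eq_single u (fun j hj hju => ?_) (fun h => absurd (by simp [s, hu]) h)
    have hjR : j ∉ R := by simpa [s] using hj
    have : P j ((1 - A) v) = (1 - A) v := by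
      refine hfix j _ fun a => ?_
      rw [LinearMap.sub_apply, Module.End.one_apply, map_sub, ← Module.End.mul_apply,
        hAl _ (hmem R j a hjR)]
      congr 1
      rw [hv]; ext g
      exact hφ g _ (hmem _ j a (by simp [hju, hjR]))
    rw [LinearMap.sub_apply, Module.End.one_apply, this, sub_self]; simp
  have hPw : P u w = w := by
    refine hfix u _ fun a => ?_
    rw [hw]; ext g
    exact hψ g _ (hmem _ u a (by simp))
  have e1 : ⟪v, w⟫ = ⟪A v, A w⟫ + ⟪P u ((1 - A) v), w⟫ := by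
    rw [(hP u).symm, hPw, ← hA.symm, hA.app]
    simp [inner_sub_left]
  have e2 : ‖P u ((1 - A) v)‖ ^ 2 ≤ lam ^ 2 * ‖v‖ ^ 2 := by
    have h1 := hA.pyth v
    have h2 : ‖(1 - A) v‖ ^ 2 ≤ ‖v‖ ^ 2 := by nlinarith [sq_nonneg ‖A v‖]
    have h3 : 16 * ε * ‖(1 - A) v‖ ^ 2 ≤ lam ^ 2 * ‖v‖ ^ 2 := by gcongr
    linarith
  have e3 : ‖P u ((1 - A) v)‖ ≤ lam * ‖v‖ :=
    le_of_sq_le_sq (by rw [mul_pow]; exact e2) (by positivity)
  have e4 : ⟪P u ((1 - A) v), w⟫ ≤ lam * (‖v‖ ^ 2 + ‖w‖ ^ 2) := by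
    calc _ ≤ ‖P u ((1 - A) v)‖ * ‖w‖ := real_inner_le_norm _ _
      _ ≤ lam * ‖v‖ * ‖w‖ := by gcongr
      _ = lam * (‖v‖ * ‖w‖) := by ring
      _ ≤ _ := by
        gcongr
        nlinarith [sq_nonneg (‖v‖ - ‖w‖), norm_nonneg v, norm_nonneg w]
  have f1 : ∑ g, φ g * ψ g = ⟪v, w⟫ := by rw [inner_eq_sum, hv, hw]
  have f2 : ∑ g, avg (KT K R) φ g * avg (KT K R) ψ g = ⟪A v, A w⟫ := by
    rw [inner_eq_sum, hv, hw]; simp only [hAavg]; rfl
  have f3 : ∑ g, φ g ^ 2 = ‖v‖ ^ 2 := by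
    rw [← real_inner_self_eq_norm_sq, inner_eq_sum, hv]; simp only [sq]
  have f4 : ∑ g, ψ g ^ 2 = ‖w‖ ^ 2 := by
    rw [← real_inner_self_eq_norm_sq, inner_eq_sum, hw]; simp only [sq]
  rw [f1, f2, f3, f4]
  linarith

end Vale.Agent.P067
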