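import Vale.Agent.P067.Vanish
import Vale.Agent.P067.Spectral
import Vale.Agent.P067.LocalGlobal
import Vale.Agent.P067.Final

set_option linter.unusedSectionVars false

namespace Vale.Agent.P067

open Finset Polynomial

theorem spec_GG (n : ℕ) (hn : 3 ≤ n) (lam : ℝ) (hlam : 0 < lam) : ∃ q0 : ℕ,
    ∀ (F R : Type) [Field F] [Fintype F] [CommRing R] [Algebra F R] [Finite R] (t : R),
      Nice F t → q0 ≤ Fintype.card F → Spec (Kc F t : Fin n → Subgroup (GG t n)) lam := by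
  obtain ⟨q0, h⟩ := spec_of_roots lam hlam
  refine ⟨q0, fun F R _ _ _ _ _ t hN hq => ?_⟩
  have : NeZero n := ⟨by omega⟩
  exact h F (GG t n) (Fin n) (Kc F t) (xs F t) (zs F t) (fun j => j + 1) hq
    (add_left_injective 1) (xs_add hn) (zs_add hn) (commute_zs_xs hn) (commute_zs_xs' hn)
    (xs_heis hn) (commute_xs_xs hn) (KT_eq_closure hN hn)

/-- the expansion of the typed cochains, uniformly in the ring -/
theorem typed_expansion (d : ℕ) : ∃ q0 : ℕ, ∀ (F : Type) [Field F] [Fintype F],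
    q0 ≤ Fintype.card F → ∃ C : ℕ,
    ∀ (R : Type) [CommRing R] [Algebra F R] [Finite R] (t : R), Nice F t →
      ∀ m, 1 ≤ m → m ≤ d →
        LinkExp (Kc F t : Fin ((d + 3) * (d + 3)) → Subgroup (GG t _)) ∅ m C := by
  set n := (d + 3) * (d + 3) with hn
  have hn3 : 3 ≤ n := by nlinarith
  have hn2 : 2 * d + 2 ≤ n := by nlinarith
  obtain ⟨ρ, q1, h1⟩ := link_cone n d le_rfl
  obtain ⟨lam, hlam, h2⟩ := local_global n (2 ^ n * ρ)
  obtain ⟨q2, h3⟩ := spec_GG n hn3 lam hlam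
  obtain ⟨q3, h4⟩ := vanish n hn3
  refine ⟨max q1 (max q2 q3), fun F _ _ hq => ?_⟩
  obtain ⟨C, h5⟩ := h2 (Fintype.card F ^ (n * n))
  refine ⟨C, fun R _ _ _ t hN m hm1 hm2 => ?_⟩
  refine h5 (GG t n) (Fin n) (Kc F t) m (by simp) (by omega) card_Kc_le
    (h3 F R t hN (by omega)) (fun Rr hR1 hR2 => ?_) ?_
  · have := linkExp_of_hasCone (Kc F t) Rr (m := m + 1) (j := d)
      (by have := card_pos.2 hR1; omega) (h1 F R t hN (by omega) Rr hR1 (by omega))
    simpa using this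
  · have h6 := hasCone_of_acyc (isLowerSet_CC (Kc F t) (⊤ : Subgroup (GG t n)) Set.univ) (m := d)
      (fun m' hm' => h4 F R t hN (by omega) m' (by omega))
    exact ⟨_, linkExp_of_hasCone (Kc F t) ∅ (m := m) (j := d) (by omega) (by simpa using h6)⟩

theorem exists_ring (F : Type) [Field F] [Fintype F] (hodd : Odd (Fintype.card F)) (s : ℕ) :
    ∃ (R : Type) (_ : CommRing R) (_ : Algebra F R) (_ : Finite R) (t : R),
      Nice F t ∧ s ≤ Nat.card R := by
  have hne : (X ^ (s + 2) : F[X]) ≠ 0 := pow_ne_zero _ X_ne_zero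
  let pb := AdjoinRoot.powerBasis hne
  have hdim : pb.dim = s + 2 := by simp [pb]
  have hgen : pb.gen = AdjoinRoot.root (X ^ (s + 2) : F[X]) := by simp [pb]
  have hfin : Finite (AdjoinRoot (X ^ (s + 2) : F[X])) := by
    have := pb.finite
    exact Module.finite_of_finite F
  refine ⟨AdjoinRoot (X ^ (s + 2) : F[X]), inferInstance, inferInstance, hfin, pb.gen,
    ⟨hodd, ⟨s + 2, ?_⟩, fun r => ?_, fun u hu => ?_⟩, ?_⟩
  · have := AdjoinRoot.eval₂_root (X ^ (s + 2) : F[X])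
    rw [hgen]
    simpa using this
  · have h1 : r ∈ Submodule.span F (Set.range pb.basis) := by rw [pb.basis.span_eq]; trivial
    refine Submodule.span_mono ?_ h1
    rintro _ ⟨i, rfl⟩
    exact ⟨i, (pb.basis_eq_pow i).symm⟩
  · have h1 : pb.basis ⟨1, by omega⟩ = pb.gen := by rw [pb.basis_eq_pow]; simp
    rw [← h1] at hu
    exact (smul_eq_zero.1 hu).resolve_right (pb.basis.ne_zero _)
  · rw [Module.natCard_eq_pow_finrank (K := F), pb.finrank, hdim]
    have : 2 ≤ Nat.card F := Finite.one_lt_card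
    calc s ≤ s + 2 := by omega
      _ ≤ 2 ^ (s + 2) := Nat.lt_two_pow_self.le
      _ ≤ Nat.card F ^ (s + 2) := Nat.pow_le_pow_left this _

theorem main (d : ℕ) (hd : 1 ≤ d) : ∃ (D : ℕ) (ε : ℝ), 0 < ε ∧
    ∃ (V : ℕ → Type) (_ : ∀ m, Fintype (V m)) (_ : ∀ m, DecidableEq (V m))
      (X : ∀ m, PreAbstractSimplicialComplex (V m)),
      Filter.Tendsto (fun m => (lvl (X m) 0).card) Filter.atTop Filter.atTop ∧
      ∀ m, IsPure (X m) d ∧ IsConn (X m) ∧ degree (X m) d ≤ D ∧ IsCobExp (X m) d ε := by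
  obtain ⟨q0, h1⟩ := typed_expansion d
  obtain ⟨p, hp1, hp⟩ := Nat.exists_infinite_primes (max q0 3)
  have : Fact p.Prime := ⟨hp⟩
  have hcard : Fintype.card (ZMod p) = p := ZMod.card p
  obtain ⟨C, h2⟩ := h1 (ZMod p) (by omega)
  set n := (d + 3) * (d + 3) with hn
  set κ := Fintype.card (ZMod p) ^ (n * n) with hκ
  obtain ⟨D, ε, hε, h3⟩ := exists_complex n d κ C hd (by nlinarith)
  refine ⟨D, ε, hε, ?_⟩
  have key : ∀ s : ℕ, ∃ (V : Type) (_ : Fintype V) (_ : DecidableEq V)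
      (X : PreAbstractSimplicialComplex V), s ≤ (lvl X 0).card ∧
        IsPure X d ∧ IsConn X ∧ degree X d ≤ D ∧ IsCobExp X d ε := by
    intro s
    obtain ⟨R, _, _, _, t, hN, hs⟩ := exists_ring (ZMod p)
      (by rw [hcard]; exact hp.odd_of_ne_two (by omega)) (κ * s)
    obtain ⟨V, i1, i2, X, a1, a2, a3, a4, a5⟩ := h3 (GG t n) (Fin n) (Kc (ZMod p) t) (by simp)
      card_Kc_le (h2 R t hN)
    refine ⟨V, i1, i2, X, ?_, a1, a2, a3, a4⟩
    have h4 : Nat.card R ≤ Fintype.card (GG t n) := card_le_card_GG (by nlinarith)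
    have hκ0 : 0 < κ := pow_pos (by rw [hcard]; exact hp.pos) _
    exact Nat.le_of_mul_le_mul_left (hs.trans (h4.trans a5)) hκ0
  choose V i1 i2 X hX1 hX2 using key
  exact ⟨V, i1, i2, X, Filter.tendsto_atTop_mono hX1 Filter.tendsto_id, hX2⟩

end Vale.Agent.P067
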