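import Vale.Agent.P067.GroupMisc

/-!
The height functions attached to a linear functional on column matrices.
-/

set_option linter.unusedSectionVars false

namespace Vale.Agent.P067

open Finset

theorem lex_of_lt {n a c κ μ : ℕ} (hc : c ≤ n) (h : a + n * κ < c + n * μ) : κ ≤ μ := by
  by_contra h1
  have : n * (μ + 1) ≤ n * κ := Nat.mul_le_mul_left _ (by omega)
  rw [Nat.mul_succ] at this
  omega

theorem lex_eq {n a c κ μ : ℕ} (ha : a < n) (hc : c < n) (h : a + n * κ = c + n * μ) :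
    a = c ∧ κ = μ := by
  have h1 : κ = μ := by
    rcases lt_trichotomy κ μ with h2 | h2 | h2
    · have : n * (κ + 1) ≤ n * μ := Nat.mul_le_mul_left _ h2
      rw [Nat.mul_succ] at this
      omega
    · exact h2
    · have : n * (μ + 1) ≤ n * κ := Nat.mul_le_mul_left _ h2
      rw [Nat.mul_succ] at this
      omega
  subst h1
  omega

/-- trichotomy for products, in a form `omega` can use -/
theorem mul_tri (n κ μ : ℕ) : (κ < μ ∧ n * κ + n ≤ n * μ) ∨ (κ = μ ∧ n * κ = n * μ) ∨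
    (μ < κ ∧ n * μ + n ≤ n * κ) := by
  rcases lt_trichotomy κ μ with h2 | h2 | h2
  · exact Or.inl ⟨h2, by rw [← Nat.mul_succ]; exact Nat.mul_le_mul_left _ h2⟩
  · exact Or.inr (Or.inl ⟨h2, by rw [h2]⟩)
  · exact Or.inr (Or.inr ⟨h2, by rw [← Nat.mul_succ]; exact Nat.mul_le_mul_left _ h2⟩)

variable {F : Type} {R : Type} [Field F] [Fintype F] [CommRing R] [Algebra F R] [Finite R]
  {t : R} {n : ℕ}

/-- the value of the functional on a translated elementary matrix -/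
noncomputable def val (Λ : Matrix (Fin n) (Fin n) R →ₗ[F] F) (l : GG t n) (a b : Fin n) :
    R →ₗ[F] F :=
  Λ ∘ₗ LinearMap.mulLeft F (mat l) ∘ₗ Matrix.singleLinearMap F a b

theorem val_apply (Λ : Matrix (Fin n) (Fin n) R →ₗ[F] F) (l : GG t n) (a b : Fin n) (r : R) :
    val Λ l a b r = Λ (mat l * Matrix.single a b r) := rfl

theorem mul_single_eq_sum (M : Matrix (Fin n) (Fin n) R) (a b : Fin n) (r : R) :
    M * Matrix.single a b r = ∑ a', Matrix.single a' b (M a' a * r) := by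
  ext x y
  rw [Matrix.sum_apply]
  by_cases hy : y = b
  · subst hy
    rw [Matrix.mul_single_apply_same, Finset.sum_eq_single x]
    · simp
    · intro a' _ h
      exact Matrix.single_apply_of_ne _ _ _ _ _ (fun h' => h h'.1)
    · simp
  · rw [Matrix.mul_single_apply_of_ne _ _ _ _ _ hy]
    exact (Finset.sum_eq_zero fun a' _ =>
      Matrix.single_apply_of_ne _ _ _ _ _ (fun h' => hy h'.2.symm)).symm

theorem val_mul (Λ : Matrix (Fin n) (Fin n) R →ₗ[F] F) (l k : GG t n) (a b : Fin n) (r : R) :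
    val Λ (l * k) a b r = ∑ a', val Λ l a' b (mat k a' a * r) := by
  simp only [val_apply, mat_mul]
  rw [Matrix.mul_assoc, mul_single_eq_sum, Finset.mul_sum, map_sum]

theorem apply_mul_eq_sum (Λ : Matrix (Fin n) (Fin n) R →ₗ[F] F) (l : GG t n)
    (A : Matrix (Fin n) (Fin n) R) : Λ (mat l * A) = ∑ a, ∑ b, val Λ l a b (A a b) := by
  conv_lhs => rw [Matrix.matrix_eq_sum_single A]
  simp only [Finset.mul_sum, map_sum, val_apply]

/-- the functional is nonzero on some position strictly between `b` and `M` -/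
def NZ (Λ : Matrix (Fin n) (Fin n) R →ₗ[F] F) (S : Finset (Fin n)) (b : Fin n) (l : GG t n)
    (M : ℕ) : Prop :=
  ∃ (κ : ℕ) (a : Fin n), a ∈ S ∧ b.val < a.val + n * κ ∧ a.val + n * κ < M ∧
    val Λ l a b (t ^ κ) ≠ 0

theorem NZ.mono {Λ : Matrix (Fin n) (Fin n) R →ₗ[F] F} {S : Finset (Fin n)} {b : Fin n}
    {l : GG t n} {M M' : ℕ} (h : NZ Λ S b l M) (hM : M ≤ M') : NZ Λ S b l M' := by
  obtain ⟨κ, a, h1, h2, h3, h4⟩ := h
  exact ⟨κ, a, h1, h2, h3.trans_le hM, h4⟩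

theorem entry_Kc {c : Fin n} {k : GG t n} (hk : k ∈ Kc F t c) (a b : Fin n) :
    (pos c b ≤ pos c a → ∃ u : F, mat k a b = u • t ^ ex a b) ∧
      (pos c a < pos c b → mat k a b = 0) := by
  refine ⟨fun h1 => ?_, fun h1 => ?_⟩
  · rcases h1.eq_or_lt with h2 | h2
    · obtain rfl := pos_injective c h2
      exact ⟨1, by rw [(hk b b).2 (lt_irrefl _)]; simp [ex]⟩
    · exact (hk a b).1 h2
  · have : a ≠ b := fun h' => by simp [h'] at h1
    rw [(hk a b).2 (not_lt.2 h1.le), Matrix.one_apply_ne this]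

theorem NZ.of_mul {Λ : Matrix (Fin n) (Fin n) R →ₗ[F] F} {S : Finset (Fin n)} {b c : Fin n}
    {l k : GG t n} (hk : k ∈ Kc F t c) (hk' : k ∈ Lv t S) {μ : ℕ}
    (h : NZ Λ S b (l * k) (c.val + n * μ)) : NZ Λ S b l (c.val + n * μ) := by
  obtain ⟨κ, a, h1, h2, h3, h4⟩ := h
  rw [val_mul] at h4
  obtain ⟨a', _, h5⟩ := exists_ne_zero_of_sum_ne_zero h4
  have h6 : mat k a' a ≠ 0 := fun h => h5 (by rw [h, zero_mul, map_zero])
  have h7 : pos c a ≤ pos c a' := by
    by_contra h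
    exact h6 ((entry_Kc hk a' a).2 (not_le.1 h))
  obtain ⟨u, hu⟩ := (entry_Kc hk a' a).1 h7
  have h8 : a' ∈ S := by
    by_contra h
    have h9 : a' ≠ a := fun h' => h (h' ▸ h1)
    exact h6 (by rw [hk' a' a (Or.inl h), Matrix.one_apply_ne h9])
  rw [hu, smul_mul_assoc, ← pow_add, map_smul] at h5
  have ha := a.2
  have ha' := a'.2
  have hc := c.2
  have h10 := mul_tri n κ μ
  refine ⟨ex a' a + κ, a', h8, ?_, ?_, fun h => h5 (by rw [h, smul_zero])⟩
  · unfold pos at h7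
    unfold ex
    simp only [Fin.lt_def] at *
    split_ifs at * <;> simp only [mul_add, mul_one, mul_zero] <;> omega
  · unfold pos at h7
    unfold ex
    simp only [Fin.lt_def] at *
    split_ifs at * <;> simp only [mul_add, mul_one, mul_zero] <;> omega

theorem NZ_mul_iff {Λ : Matrix (Fin n) (Fin n) R →ₗ[F] F} {S : Finset (Fin n)} {b c : Fin n}
    {l k : GG t n} (hk : k ∈ Kc F t c) (hk' : k ∈ Lv t S) {μ : ℕ} :
    NZ Λ S b (l * k) (c.val + n * μ) ↔ NZ Λ S b l (c.val + n * μ) :=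
  ⟨NZ.of_mul hk hk', fun h => NZ.of_mul (inv_mem hk) (inv_mem hk') (by simpa using h)⟩

/-- a column on which the functional does not vanish -/
def Active (t : R) (Λ : Matrix (Fin n) (Fin n) R →ₗ[F] F) (S : Finset (Fin n)) (b : Fin n) : Prop :=
  b ∉ S ∧ ∃ A ∈ Ncol F t S {b}, Λ A ≠ 0

theorem exists_pow_of_ne_zero (hN : Nice F t) (φ : R →ₗ[F] F) {r : R} (h : φ r ≠ 0) :
    ∃ κ : ℕ, φ (t ^ κ) ≠ 0 := by
  by_contra h1
  push Not at h1
  apply h
  have : Submodule.span F (Set.range (fun k : ℕ => t ^ k)) ≤ LinearMap.ker φ := by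
    rw [Submodule.span_le]
    rintro _ ⟨k, rfl⟩
    exact h1 k
  exact this (hN.span r)

theorem exists_NZ (hN : Nice F t) {Λ : Matrix (Fin n) (Fin n) R →ₗ[F] F} {S : Finset (Fin n)}
    {b : Fin n} (hb : Active t Λ S b) {l : GG t n} (hl : l ∈ Lv t S) (c : Fin n) :
    ∃ μ, NZ Λ S b l (c.val + n * μ) := by
  obtain ⟨hbS, A, hA, hΛ⟩ := hb
  have hA' := mul_mem_Ncol (inv_mem hl) hA
  have h1 : A = mat l * (mat l⁻¹ * A) := by rw [← Matrix.mul_assoc]; simp
  rw [h1, apply_mul_eq_sum] at hΛ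
  obtain ⟨a, _, h2⟩ := exists_ne_zero_of_sum_ne_zero hΛ
  obtain ⟨b', _, h3⟩ := exists_ne_zero_of_sum_ne_zero h2
  have h4 : (mat l⁻¹ * A) a b' ≠ 0 := fun h => h3 (by rw [h, map_zero])
  have h5 : a ∈ S := by
    by_contra h; exact h4 (hA'.1 a b' (Or.inl h))
  have h6 : b' = b := by
    by_contra h; exact h4 (hA'.1 a b' (Or.inr (by simpa using h)))
  subst h6
  have hab : a.val ≠ b'.val := fun h => hbS (Fin.ext h ▸ h5)
  have ha := a.2
  have hb' := b'.2
  by_cases h7 : a < b'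
  · obtain ⟨r, hr⟩ := hA'.2 a b' h7
    rw [hr] at h3
    obtain ⟨κ, hκ⟩ := exists_pow_of_ne_zero hN (val Λ l a b' ∘ₗ LinearMap.mulLeft F t) (r := r) h3
    refine ⟨κ + 2, κ + 1, a, h5, ?_, ?_, ?_⟩
    · simp only [mul_add, mul_one]; omega
    · simp only [mul_add, mul_one]; omega
    · rw [pow_succ']; exact hκ
  · obtain ⟨κ, hκ⟩ := exists_pow_of_ne_zero hN (val Λ l a b') h3
    refine ⟨κ + 1, κ, a, h5, ?_, ?_, hκ⟩
    · rw [Fin.lt_def] at h7; omega
    · simp only [mul_add, mul_one]; omega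

/-- the level of a vertex -/
noncomputable def lev (Λ : Matrix (Fin n) (Fin n) R →ₗ[F] F) (S : Finset (Fin n)) (b : Fin n)
    (v : Vtx (Fin n) (GG t n)) : ℕ :=
  sInf {μ | ∃ l ∈ Lv t S, v = vtx (Kc F t) l v.ty ∧ NZ Λ S b l (v.ty.val + n * μ)}

/-- the height of a vertex -/
noncomputable def Dh (Λ : Matrix (Fin n) (Fin n) R →ₗ[F] F) (S : Finset (Fin n)) (b : Fin n)
    (v : Vtx (Fin n) (GG t n)) : ℕ :=
  v.ty.val + n * lev Λ S b v

theorem lev_set {Λ : Matrix (Fin n) (Fin n) R →ₗ[F] F} {S : Finset (Fin n)} {b : Fin n}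
    {l : GG t n} (hl : l ∈ Lv t S) (c : Fin n) :
    lev Λ S b (vtx (Kc F t) l c) = sInf {μ | NZ Λ S b l (c.val + n * μ)} := by
  unfold lev
  congr 1
  ext μ
  simp only [Set.mem_ofPred_eq, vtx_ty]
  constructor
  · rintro ⟨l', hl', h1, h2⟩
    have h3 := ((vtx_eq_iff _).1 h1).2
    have h4 : l' = l * (l⁻¹ * l') := by simp
    rw [h4] at h2
    exact NZ.of_mul h3 (mul_mem (inv_mem hl) hl') h2
  · intro h; exact ⟨l, hl, rfl, h⟩

theorem NZ_lev (hN : Nice F t) {Λ : Matrix (Fin n) (Fin n) R →ₗ[F] F} {S : Finset (Fin n)}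
    {b : Fin n} (hb : Active t Λ S b) {l : GG t n} (hl : l ∈ Lv t S) (c : Fin n) :
    NZ Λ S b l (c.val + n * lev Λ S b (vtx (Kc F t) l c)) := by
  rw [lev_set hl]
  exact Nat.sInf_mem (s := {μ | NZ Λ S b l (c.val + n * μ)}) (exists_NZ hN hb hl c)

theorem lev_le {Λ : Matrix (Fin n) (Fin n) R →ₗ[F] F} {S : Finset (Fin n)}
    {b : Fin n} {l : GG t n} (hl : l ∈ Lv t S) {c : Fin n} {μ : ℕ}
    (h : NZ Λ S b l (c.val + n * μ)) : lev Λ S b (vtx (Kc F t) l c) ≤ μ := by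
  rw [lev_set hl]
  exact Nat.sInf_le h

theorem Dh_le {Λ : Matrix (Fin n) (Fin n) R →ₗ[F] F} {S : Finset (Fin n)}
    {b : Fin n} {l : GG t n} (hl : l ∈ Lv t S) {c : Fin n} {μ : ℕ}
    (h : NZ Λ S b l (c.val + n * μ)) : Dh Λ S b (vtx (Kc F t) l c) ≤ c.val + n * μ :=
  Nat.add_le_add_left (Nat.mul_le_mul_left _ (lev_le hl h)) _

theorem NZ_Dh (hN : Nice F t) {Λ : Matrix (Fin n) (Fin n) R →ₗ[F] F} {S : Finset (Fin n)}
    {b : Fin n} (hb : Active t Λ S b) {l : GG t n} (hl : l ∈ Lv t S) (c : Fin n) :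
    NZ Λ S b l (Dh Λ S b (vtx (Kc F t) l c)) := NZ_lev hN hb hl c

theorem Dh_inj {Λ : Matrix (Fin n) (Fin n) R →ₗ[F] F} {S : Finset (Fin n)} {b : Fin n}
    {v w : Vtx (Fin n) (GG t n)} (h : Dh Λ S b v = Dh Λ S b w) : v.ty = w.ty :=
  Fin.ext (lex_eq v.ty.2 w.ty.2 h).1

theorem Ncol_mono_right {S B B' : Finset (Fin n)} (h : B ⊆ B') : Ncol F t S B ≤ Ncol F t S B' :=
  fun _ hA => ⟨fun a b hab => hA.1 a b (hab.imp id (fun h1 h2 => h1 (h h2))), hA.2⟩

theorem tr_eN_iff {S B : Finset (Fin n)} (hd : Disjoint S B) {l : GG t n} (hl : l ∈ Lv t S)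
    {A : Matrix (Fin n) (Fin n) R} (hA : A ∈ Ncol F t S B) (T : Finset (Fin n)) :
    tr (eN t (mat l * A)) (face (Kc F t) l T) = face (Kc F t) l T ↔ eN t A ∈ KT (Kc F t) T := by
  rw [tr_face, eq_comm, face_eq_iff, ← conj_eN hd hl hA]
  simp [mul_assoc]

theorem active_of_val {Λ : Matrix (Fin n) (Fin n) R →ₗ[F] F} {S : Finset (Fin n)} {a b : Fin n}
    (ha : a ∈ S) (hb : b ∉ S) {l : GG t n} (hl : l ∈ Lv t S) {r : R} (hr : a < b → t ∣ r)
    (h : val Λ l a b r ≠ 0) : Active t Λ S b :=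
  ⟨hb, _, mul_mem_Ncol hl (single_mem_Ncol F t ha (mem_singleton_self b) hr), h⟩

theorem exists_active {Λ : Matrix (Fin n) (Fin n) R →ₗ[F] F} {S B : Finset (Fin n)}
    (hd : Disjoint S B) {A : Matrix (Fin n) (Fin n) R} (hA : A ∈ Ncol F t S B) (h : Λ A ≠ 0) :
    ∃ b ∈ B, Active t Λ S b := by
  have h1 : A = mat (1 : GG t n) * A := by simp
  rw [h1, apply_mul_eq_sum] at h
  obtain ⟨a, _, h2⟩ := exists_ne_zero_of_sum_ne_zero h
  obtain ⟨b, _, h3⟩ := exists_ne_zero_of_sum_ne_zero h2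
  have h4 : A a b ≠ 0 := fun h => h3 (by rw [h, map_zero])
  have h5 : a ∈ S := by
    by_contra h; exact h4 (hA.1 a b (Or.inl h))
  have h6 : b ∈ B := by
    by_contra h; exact h4 (hA.1 a b (Or.inr h))
  exact ⟨b, h6, active_of_val h5 (disjoint_right.1 hd h6) (one_mem _) (hA.2 a b) h3⟩

/-- the faces whose stabiliser is not killed by the functional -/
theorem stab_iff (hN : Nice F t) {Λ : Matrix (Fin n) (Fin n) R →ₗ[F] F} {S B : Finset (Fin n)}
    (hd : Disjoint S B) {σ : Finset (Vtx (Fin n) (GG t n))}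
    (hσ : σ ∈ CC (Kc F t) (Lv t S) Set.univ) :
    (∃ A ∈ Ncol F t S B, tr (eN t A) σ = σ ∧ Λ A ≠ 0) ↔
      ∃ b ∈ B, Active t Λ S b ∧ ∀ v ∈ σ, Dh Λ S b v ≤ b.val + n := by
  obtain ⟨l, hl, T, -, rfl⟩ := hσ
  constructor
  · rintro ⟨A, hA, h1, h2⟩
    rcases T.eq_empty_or_nonempty with rfl | hT
    · obtain ⟨b, hb1, hb2⟩ := exists_active hd hA h2
      exact ⟨b, hb1, hb2, by simp⟩
    have hA' := mul_mem_Ncol (inv_mem hl) hA
    have h3 : A = mat l * (mat l⁻¹ * A) := by rw [← Matrix.mul_assoc]; simp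
    set A' := mat l⁻¹ * A with hA'def
    rw [h3] at h1 h2
    rw [tr_eN_iff hd hl hA', mem_KT_Kc F t hT, mat_eN F t hd hA'] at h1
    rw [apply_mul_eq_sum] at h2
    obtain ⟨a, _, h2⟩ := exists_ne_zero_of_sum_ne_zero h2
    obtain ⟨b, _, h4⟩ := exists_ne_zero_of_sum_ne_zero h2
    have h5 : A' a b ≠ 0 := fun h => h4 (by rw [h, map_zero])
    have h6 : a ∈ S := by
      by_contra h; exact h5 (hA'.1 a b (Or.inl h))
    have h7 : b ∈ B := by
      by_contra h; exact h5 (hA'.1 a b (Or.inr h))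
    have h8 : b ∉ S := disjoint_right.1 hd h7
    have hab : a ≠ b := fun h => h8 (h ▸ h6)
    have h9 : ∀ c ∈ T, pos c b < pos c a := by
      by_contra h
      have := (h1 a b).2 h
      rw [Matrix.add_apply, add_eq_left] at this
      exact h5 this
    obtain ⟨u, hu⟩ := (h1 a b).1 h9
    rw [Matrix.add_apply, Matrix.one_apply_ne hab, zero_add] at hu
    have h10 : val Λ l a b (t ^ ex a b) ≠ 0 := fun h => h4 (by rw [hu, map_smul, h, smul_zero])
    refine ⟨b, h7, active_of_val h6 h8 hl (hA'.2 a b) h4, fun v hv => ?_⟩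
    obtain ⟨hv1, hv2⟩ := mem_face.1 hv
    have h11 := h9 _ hv1
    have ha := a.2
    have hb := b.2
    have hc := v.ty.2
    have hab' : a.val ≠ b.val := fun h => hab (Fin.ext h)
    have key : ∀ μ, a.val + n * ex a b < v.ty.val + n * μ → v.ty.val + n * μ ≤ b.val + n →
        Dh Λ S b v ≤ b.val + n := by
      intro μ h12 h13
      rw [hv2]
      refine (Dh_le hl (μ := μ) ⟨ex a b, a, h6, ?_, h12, h10⟩).trans h13
      unfold ex
      simp only [Fin.lt_def]
      split_ifs <;> omega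
    by_cases hcb : v.ty.val ≤ b.val
    · refine key 1 ?_ (by omega)
      unfold pos at h11
      unfold ex
      simp only [Fin.lt_def] at *
      split_ifs at * <;> omega
    · refine key 0 ?_ (by omega)
      unfold pos at h11
      unfold ex
      simp only [Fin.lt_def] at *
      split_ifs at * <;> omega
  · rintro ⟨b, hb1, hb2, h⟩
    rcases T.eq_empty_or_nonempty with rfl | hT
    · obtain ⟨_, A, hA, h1⟩ := hb2
      exact ⟨A, Ncol_mono_right (singleton_subset_iff.2 hb1) hA, rfl, h1⟩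
    obtain ⟨c₀, hc₀, hmin⟩ := exists_min_image T (fun c => Dh Λ S b (vtx (Kc F t) l c)) hT
    obtain ⟨κ, a, h1, h2, h3, h4⟩ := NZ_Dh hN hb2 hl c₀
    have ha := a.2
    have hb := b.2
    have hab : a ≠ b := fun h => hb2.1 (h ▸ h1)
    have hab' : a.val ≠ b.val := fun h => hab (Fin.ext h)
    have h5 : a.val + n * κ < b.val + n := h3.trans_le (h _ (vtx_mem_face.2 hc₀))
    have hκ : κ = ex a b := by
      have h6 := mul_tri n κ 1
      have h7 := mul_tri n κ 0
      unfold ex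
      simp only [Fin.lt_def]
      split_ifs <;> omega
    have hr : a < b → t ∣ t ^ κ := fun h => by
      rw [hκ, ex, if_pos h, pow_one]
    have hA' := single_mem_Ncol F t h1 hb1 hr
    refine ⟨_, mul_mem_Ncol hl hA', ?_, h4⟩
    rw [tr_eN_iff hd hl hA', mem_KT_Kc F t hT, mat_eN F t hd hA']
    have h8 : ∀ c ∈ T, pos c b < pos c a := by
      intro c hc
      have h9 := h3.trans_le (hmin c hc)
      have h10 := h _ (vtx_mem_face.2 hc)
      unfold Dh at h9 h10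
      simp only [vtx_ty] at h9 h10
      have h11 := mul_tri n (lev Λ S b (vtx (Kc F t) l c)) 1
      have h12 := mul_tri n (lev Λ S b (vtx (Kc F t) l c)) 0
      have hc' := c.2
      rw [hκ] at h9 h2
      unfold pos
      unfold ex at h9 h2
      simp only [Fin.lt_def] at *
      split_ifs at * <;> omega
    intro a' b'
    by_cases h9 : a = a' ∧ b = b'
    · obtain ⟨rfl, rfl⟩ := h9
      refine ⟨fun _ => ⟨1, ?_⟩, fun h' => absurd h8 h'⟩
      rw [Matrix.add_apply, Matrix.one_apply_ne hab, zero_add, Matrix.single_apply_same, one_smul,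
        hκ]
    · rw [Matrix.add_apply, Matrix.single_apply_of_ne _ _ _ _ _ h9, add_zero]
      refine ⟨fun h' => ⟨0, ?_⟩, fun _ => rfl⟩
      obtain ⟨c, hc⟩ := hT
      have : a' ≠ b' := fun h'' => by simpa [h''] using h' c hc
      rw [Matrix.one_apply_ne this, zero_smul]

/-- twin types -/
theorem Kc_inf_le {c c' : Fin n} {S : Finset (Fin n)}
    (h : ∀ a ∈ S, ∀ b ∈ S, pos c b < pos c a → pos c' b < pos c' a) {k : GG t n}
    (hk : k ∈ Kc F t c) (hk' : k ∈ Lv t S) : k ∈ Kc F t c' := by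
  intro a b
  by_cases hab : a ∈ S ∧ b ∈ S
  · refine ⟨fun h1 => ?_, fun h1 => (hk a b).2 fun h2 => h1 (h a hab.1 b hab.2 h2)⟩
    by_cases h2 : pos c b < pos c a
    · exact (hk a b).1 h2
    · have : a ≠ b := fun h' => by simp [h'] at h1
      exact ⟨0, by rw [(hk a b).2 h2, Matrix.one_apply_ne this, zero_smul]⟩
  · have h1 := hk' a b (by tauto)
    refine ⟨fun h2 => ⟨0, ?_⟩, fun _ => h1⟩
    have : a ≠ b := fun h' => by simp [h'] at h2
    rw [h1, Matrix.one_apply_ne this, zero_smul]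

end Vale.Agent.P067
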