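import Vale.Agent.P067.Embed
import Vale.Agent.P067.AbsMorse
import Vale.Agent.P067.MorseA

set_option linter.unusedSectionVars false

namespace Vale.Agent.P067

open Finset

theorem relAcyc_congr {V : Type*} [DecidableEq V] {Y A A' : Set (Finset V)} (hY : IsLowerSet Y)
    (h : ∀ σ ∈ Y, σ ∈ A ↔ σ ∈ A') {m : ℕ} (h1 : RelAcyc Y A m) : RelAcyc Y A' m := by
  intro y hy hb
  have h2 : bd y ∈ supp Y := bd_mem_supp hY (chains_le_supp Y m hy)
  obtain ⟨y', hy', h3⟩ := h1 y hy (mem_supp.2 fun σ hσ =>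
    (h σ (mem_supp.1 h2 σ hσ)).2 (mem_supp.1 hb σ hσ))
  exact ⟨y', chains_mono (Y := Y ∩ A) (Y' := Y ∩ A')
    (fun σ hσ => ⟨hσ.1, (h σ hσ.1).1 hσ.2⟩) m hy', h3⟩

section
variable {F : Type} {R : Type} [Field F] [Fintype F] [CommRing R] [Algebra F R] [Finite R]
  {t : R} {n : ℕ}

/-- the functional on the window of the cut `c` -/
noncomputable def winFun (Λ : Matrix (Fin n) (Fin n) R →ₗ[F] F) (l : GG t n) (c : Fin n) {N : ℕ}
    (e : Fin N → Fin n) (μ : ℕ) (i : Fin n) : (Fin N → F) →ₗ[F] F where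
  toFun y := ∑ x, y x * val Λ l (e x) i (t ^ (μ + ex (e x) c - 1))
  map_add' y y' := by simp [add_mul, sum_add_distrib]
  map_smul' a y := by simp [mul_sum, mul_assoc]

/-- the number of window positions not above `i` -/
def winRho (c : Fin n) {N : ℕ} (e : Fin N → Fin n) (μ : ℕ) (i : Fin n) : ℕ :=
  (univ.filter (fun x => pos c (e x) + n * μ < i.val + n + 1)).card

theorem winRho_le_iff {c : Fin n} {N : ℕ} {e : Fin N → Fin n}
    (he : StrictMono (fun i => pos c (e i))) (μ : ℕ) (i : Fin n) (x : Fin N) :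
    winRho c e μ i ≤ x.val ↔ i.val + n < pos c (e x) + n * μ := by
  have := lt_card_filter_iff (f := fun x => pos c (e x) + n * μ)
    (fun a b hab => Nat.add_lt_add_right (he hab) _) (i.val + n + 1) x
  unfold winRho
  omega

theorem val_embed {Λ : Matrix (Fin n) (Fin n) R →ₗ[F] F} {S : Finset (Fin n)} {l : GG t n}
    {c : Fin n} {N : ℕ} {e : Fin N → Fin n} (he : StrictMono (fun i => pos c (e i)))
    (hS : ∀ a, a ∈ S ↔ ∃ i, e i = a) {k : GG t n} (hk : k ∈ Lv t S) {u : UU F N}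
    (hu : ∀ i j, mat k (e i) (e j) = umat u i j • t ^ ex (e i) (e j)) {μ : ℕ} {i : Fin n}
    {x : Fin N} (hx : i.val + n < pos c (e x) + n * μ) :
    val Λ (l * k) (e x) i (t ^ (μ + ex (e x) c - 1)) = winFun Λ l c e μ i (fun y => umat u y x) := by
  have hinj : Function.Injective e := fun a b h => he.injective (by simp only [h])
  rw [val_mul]
  symm
  refine Fintype.sum_of_injective e hinj _ _ (fun a ha => ?_) (fun y => ?_)
  · have h1 : a ∉ S := fun h => ha ((hS a).1 h)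
    have h2 : a ≠ e x := fun h => ha ⟨x, h.symm⟩
    rw [hk a (e x) (Or.inl h1), Matrix.one_apply_ne h2, zero_mul, map_zero]
  · beta_reduce
    rw [hu, smul_mul_assoc, map_smul, smul_eq_mul]
    by_cases hy : y < x
    · rw [umat_tri u y x (not_lt.2 hy.le), Matrix.one_apply_ne hy.ne, zero_mul, zero_mul]
    · have h1 : pos c (e x) ≤ pos c (e y) := he.monotone (not_lt.1 hy)
      have h2 : ex (e y) (e x) + ex (e x) c = ex (e y) c := by
        refine ex_add_ex (c := c) ?_ h1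
        have := (pos_bounds c (e x)).1
        simpa [pos] using this
      have h3 : 1 ≤ μ + ex (e x) c := by
        by_contra h
        have h4 : μ = 0 := by omega
        have h5 : ex (e x) c = 0 := by omega
        rw [pos_eq, h4, h5] at hx
        have := (e x).2
        omega
      rw [← pow_add]
      congr 3
      omega

/-- a nonzero position below the top of the window lies in the window -/
theorem window_witness {Λ : Matrix (Fin n) (Fin n) R →ₗ[F] F} {S : Finset (Fin n)} {l : GG t n}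
    (hl : l ∈ Lv t S) {c : Fin n} {N : ℕ} {e : Fin N → Fin n}
    (hS : ∀ a, a ∈ S ↔ ∃ i, e i = a) {k : GG t n} (hk : k ∈ Kc F t c) (hk' : k ∈ Lv t S)
    {i : Fin n} {P M : ℕ} (hP : P ≤ c.val + n)
    (hM : M + n ≤ P + n * lev Λ S i (vtx (Kc F t) l c)) (h : NZ Λ S i (l * k) M) :
    ∃ x : Fin N, i.val + n < pos c (e x) + n * lev Λ S i (vtx (Kc F t) l c) ∧ pos c (e x) < P ∧
      val Λ (l * k) (e x) i (t ^ (lev Λ S i (vtx (Kc F t) l c) + ex (e x) c - 1)) ≠ 0 := by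
  obtain ⟨κ, a, h1, h2, h3, h4⟩ := h
  obtain ⟨x, rfl⟩ := (hS a).1 h1
  set μ := lev Λ S i (vtx (Kc F t) l c) with hμ
  have h5 : μ ≤ κ + 1 - ex (e x) c := by
    refine lev_le hl (NZ.of_mul hk hk' ⟨κ, e x, h1, h2, ?_, h4⟩)
    have := (e x).2
    unfold ex
    simp only [Fin.lt_def]
    split_ifs
    · simp only [Nat.add_sub_cancel]; omega
    · simp only [Nat.sub_zero, mul_add, mul_one]; omega
  have hx := (e x).2
  have hc := c.2
  have h6 : κ + 1 = μ + ex (e x) c := by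
    have h7 := mul_tri n κ μ
    have h8 := mul_tri n (κ + 1) μ
    unfold ex at *
    simp only [Fin.lt_def, mul_add, mul_one] at *
    split_ifs at * <;> omega
  have h7 : n * κ + n = n * μ + n * ex (e x) c := by
    rw [← mul_add, ← h6]; ring
  refine ⟨x, ?_, ?_, ?_⟩
  · rw [pos_eq]; omega
  · rw [pos_eq]; omega
  · rw [← h6]; exact h4

/-- the height of a neighbour of a vertex -/
theorem Dh_nbr_iff (hN : Nice F t) {Λ : Matrix (Fin n) (Fin n) R →ₗ[F] F} {S : Finset (Fin n)}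
    {l : GG t n} (hl : l ∈ Lv t S) {c : Fin n} {N : ℕ} {e : Fin N → Fin n}
    (he : StrictMono (fun i => pos c (e i)))
    (hS : ∀ a, a ∈ S ↔ ∃ i, e i = a) {k : GG t n} (hk : k ∈ Kc F t c) (hk' : k ∈ Lv t S)
    {u : UU F N} (hu : ∀ i j, mat k (e i) (e j) = umat u i j • t ^ ex (e i) (e j))
    {i : Fin n} (hi : Active t Λ S i) {c' : Fin n} (hc' : c' ≠ c) :
    Dh Λ S i (vtx (Kc F t) (l * k) c') ≤ max (i.val + n) (Dh Λ S i (vtx (Kc F t) l c) - 1) ↔
      (pos c c' + n * lev Λ S i (vtx (Kc F t) l c) ≤ i.val + n ∨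
        ∃ x : Fin N, winRho c e (lev Λ S i (vtx (Kc F t) l c)) i ≤ x.val ∧ pos c (e x) < pos c c' ∧
          winFun Λ l c e (lev Λ S i (vtx (Kc F t) l c)) i (fun y => umat u y x) ≠ 0) := by
  have hlk : l * k ∈ Lv t S := mul_mem hl hk'
  set μ := lev Λ S i (vtx (Kc F t) l c) with hμ
  have hD : Dh Λ S i (vtx (Kc F t) l c) = c.val + n * μ := rfl
  have hb := pos_bounds c c'
  have hne : pos c c' ≠ c.val := fun h => hc' (pos_injective c (by rw [h]; simp [pos]))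
  have hP := pos_eq c c'
  have hnz : NZ Λ S i (l * k) (c.val + n * μ) := (NZ_mul_iff hk hk').2 (NZ_lev hN hi hl c)
  rw [hD]
  constructor
  · intro h
    by_cases h1 : pos c c' + n * μ ≤ i.val + n
    · exact Or.inl h1
    right
    have h2 := NZ_Dh hN hi hlk c'
    set μ' := lev Λ S i (vtx (Kc F t) (l * k) c') with hμ'
    have hD' : Dh Λ S i (vtx (Kc F t) (l * k) c') = c'.val + n * μ' := rfl
    rw [hD'] at h h2
    have h3 := mul_tri n μ' (μ + ex c' c)
    rw [mul_add] at h3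
    obtain ⟨x, h4, h5, h6⟩ := window_witness hl hS hk hk' (P := pos c c') hb.2.le
      (by rw [← hμ]; omega) h2
    refine ⟨x, (winRho_le_iff he _ _ _).2 h4, h5, ?_⟩
    rwa [← val_embed he hS hk' hu h4]
  · rintro (h | ⟨x, h1, h2, h3⟩)
    · refine le_trans (Dh_le hlk (μ := μ + ex c' c) (hnz.mono ?_)) ?_
      · rw [mul_add]; omega
      · rw [mul_add]; omega
    · have h4 := (winRho_le_iff he _ _ _).1 h1
      rw [← val_embed he hS hk' hu h4] at h3
      have h5 := pos_eq c (e x)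
      have hx := (e x).2
      have hc'' := c'.2
      have h6 : 1 ≤ μ + ex (e x) c := by
        by_contra h
        have h7 : μ = 0 := by omega
        have h8 : ex (e x) c = 0 := by omega
        rw [h5, h7, h8] at h4
        omega
      have h7 : 1 ≤ μ + ex c' c := by
        by_contra h
        have h7 : μ = 0 := by omega
        have h8 : ex c' c = 0 := by omega
        rw [h7] at h4
        rw [h8] at hP
        omega
      have h8 : n * (μ + ex (e x) c - 1) + n = n * μ + n * ex (e x) c := by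
        rw [← mul_add, ← Nat.mul_succ]; congr 1; omega
      have h9 : n * (μ + ex c' c - 1) + n = n * μ + n * ex c' c := by
        rw [← mul_add, ← Nat.mul_succ]; congr 1; omega
      refine le_trans (Dh_le hlk (μ := μ + ex c' c - 1)
        ⟨_, e x, (hS _).2 ⟨x, rfl⟩, ?_, ?_, h3⟩) ?_ <;> omega

/-- the descending link, translated to the base vertex -/
def DL0 (Λ : Matrix (Fin n) (Fin n) R →ₗ[F] F) (S : Finset (Fin n)) (l : GG t n) (c : Fin n)
    (s : Finset (Fin n)) : Set (Finset (Vtx (Fin n) (GG t n))) :=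
  Full (CC (Kc F t) (Kc F t c ⊓ Lv t S) {c}ᶜ)
    (fun w => ∀ i ∈ s, Dh Λ S i (l • w) ≤ max (i.val + n) (Dh Λ S i (vtx (Kc F t) l c) - 1))

theorem dl0_acyc_twin [NeZero n] (hn : 3 ≤ n) (hN : Nice F t)
    {Λ : Matrix (Fin n) (Fin n) R →ₗ[F] F} {S : Finset (Fin n)} {l : GG t n} (hl : l ∈ Lv t S)
    {c : Fin n} (hc : c - 1 ∉ S) {s : Finset (Fin n)} (hs : ∀ i ∈ s, Active t Λ S i) (m : ℕ) :
    Acyc (DL0 Λ S l c s) m := by
  have hv := fin_val_sub_one (by omega) c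
  have hc2 := c.2
  refine acyc_of_apex (vtx (Kc F t) 1 (c - 1)) ?_ m
  rintro σ ⟨⟨k, hk, T, hT, rfl⟩, h⟩
  have hk1 : k ∈ Kc F t (c - 1) := by
    refine Kc_inf_le (fun a ha b hb hab => ?_) hk.1 hk.2
    have h1 : a.val ≠ (c - 1).val := fun h => hc (Fin.ext h ▸ ha)
    have h2 : b.val ≠ (c - 1).val := fun h => hc (Fin.ext h ▸ hb)
    have := a.2
    have := b.2
    unfold pos at *
    simp only [Fin.lt_def] at *
    split_ifs at * <;> omega
  have h1 : vtx (Kc F t) 1 (c - 1) = vtx (Kc F t) k (c - 1) :=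
    (vtx_eq_iff _).2 ⟨rfl, by simpa using hk1⟩
  refine ⟨⟨k, hk, insert (c - 1) T, ?_, by rw [face_insert, h1]⟩, fun w hw => ?_⟩
  · rw [coe_insert, Set.insert_subset_iff]
    refine ⟨fun h => ?_, hT⟩
    have := congrArg Fin.val (Set.mem_singleton_iff.1 h)
    split_ifs at hv <;> omega
  · rcases mem_insert.1 hw with rfl | hw
    · intro i hi
      rw [smul_vtx, mul_one]
      obtain ⟨κ, a, h2, h3, h4, h5⟩ := NZ_lev hN (hs i hi) hl c
      set μ := lev Λ S i (vtx (Kc F t) l c) with hμ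
      have hD : Dh Λ S i (vtx (Kc F t) l c) = c.val + n * μ := rfl
      have h6 : a.val ≠ (c - 1).val := fun h => hc (Fin.ext h ▸ h2)
      have ha := a.2
      rw [hD]
      by_cases h7 : c.val = 0
      · have h8 := mul_tri n κ (μ - 1)
        have h9 := mul_tri n κ μ
        have h10 : n * (μ - 1) + n = n * μ := by
          rw [← Nat.mul_succ]; congr 1; omega
        refine le_trans (Dh_le hl (μ := μ - 1) ⟨κ, a, h2, h3, ?_, h5⟩) ?_ <;>
          rw [if_pos h7] at hv <;> omega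
      · have h9 := mul_tri n κ μ
        refine le_trans (Dh_le hl (μ := μ) ⟨κ, a, h2, h3, ?_, h5⟩) ?_ <;>
          rw [if_neg h7] at hv <;> omega
    · exact h w hw

/-- the statement about the unitriangular model that is used -/
def UTHyp (F : Type) [Field F] [Fintype F] (n : ℕ) : Prop :=
  ∀ (N m : ℕ) (s : Finset (Fin n)) (ρ : Fin n → ℕ) (μ : Fin n → ((Fin N → F) →ₗ[F] F)),
    N ≤ n → m + 2 ≤ N →
    (∀ i ∈ s, ρ i < N → ∃ a : Fin N, ρ i ≤ a.val ∧ μ i (Pi.single a 1) ≠ 0) →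
    ∃ ρc, HasCone (Full (CC (KU F N) ⊤ (Set.Ioo 0 N)) (UCond s ρ μ)) m ρc

theorem dl0_acyc_main [NeZero n] (hn : 3 ≤ n) (hN : Nice F t) (hU : UTHyp F n)
    {Λ : Matrix (Fin n) (Fin n) R →ₗ[F] F} {S : Finset (Fin n)} {l : GG t n} (hl : l ∈ Lv t S)
    {c : Fin n} (hc : c - 1 ∈ S) {s : Finset (Fin n)} (hs : ∀ i ∈ s, Active t Λ S i)
    {j : Fin n} (hj : j ∈ s) (hj' : j.val + n < Dh Λ S j (vtx (Kc F t) l c)) {m : ℕ}
    (hm : m + 2 ≤ S.card) : Acyc (DL0 Λ S l c s) m := by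
  classical
  obtain ⟨N, e, he, hS, hNn, hm⟩ : ∃ (N : ℕ) (e : Fin N → Fin n),
      StrictMono (fun i => pos c (e i)) ∧ (∀ a, a ∈ S ↔ ∃ i, e i = a) ∧ N ≤ n ∧ m + 2 ≤ N := by
    obtain ⟨e, he, hS⟩ := exists_enum c S
    exact ⟨S.card, e, he, hS, by simpa using card_le_univ S, hm⟩
  obtain ⟨ι, hι1, hι2, hι3⟩ := exists_embed hN c S e he hS
  let μ : Fin n → ℕ := fun i => lev Λ S i (vtx (Kc F t) l c)
  let ρ : Fin n → ℕ := fun i => winRho c e (μ i) i
  let φ : Fin n → ((Fin N → F) →ₗ[F] F) := fun i => winFun Λ l c e (μ i) i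
  let rk : Fin n → ℕ := fun c' => (univ.filter (fun i => pos c (e i) < pos c c')).card
  let τ : ℕ → Fin n := fun j => if h : j - 1 < N then e ⟨j - 1, h⟩ + 1 else c
  have hrk : ∀ c' (x : Fin N), x.val < rk c' ↔ pos c (e x) < pos c c' :=
    fun c' x => lt_card_filter_iff he _ x
  have hιm : ∀ u, ι u ∈ Kc F t c ⊓ Lv t S := fun u => hι1 ▸ ⟨u, rfl⟩
  have hc2 := c.2
  have hv := fin_val_sub_one (by omega) c
  obtain ⟨xl, hxl⟩ := (hS _).1 hc
  have hposl : pos c (e xl) = c.val + n - 1 := by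
    rw [hxl]
    unfold pos
    simp only [Fin.lt_def]
    split_ifs at * <;> omega
  have hrkN : ∀ c', rk c' < N := by
    intro c'
    have h1 : ¬ xl.val < rk c' := by
      rw [hrk, hposl]
      have := (pos_bounds c c').2
      omega
    have := xl.2
    omega
  have hτ : ∀ j (h0 : 0 < j) (h1 : j < N), pos c (τ j) = pos c (e ⟨j - 1, by omega⟩) + 1 := by
    intro j h0 h1
    have h2 : τ j = e ⟨j - 1, by omega⟩ + 1 := dif_pos (by omega)
    have h3 : pos c (e ⟨j - 1, by omega⟩) < pos c (e ⟨j, h1⟩) := he (by simp [Fin.lt_def]; omega)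
    have h4 := (pos_bounds c (e ⟨j, h1⟩)).2
    have h5 := fin_val_add_one (by omega) (e ⟨j - 1, by omega⟩)
    have h6 := (e ⟨j - 1, by omega⟩).2
    rw [h2]
    unfold pos at *
    simp only [Fin.lt_def] at *
    split_ifs at * <;> omega
  have hrkτ : ∀ j, 0 < j → j < N → rk (τ j) = j := by
    intro j h0 h1
    have h2 : j - 1 < rk (τ j) := (hrk (τ j) ⟨j - 1, by omega⟩).2 (by rw [hτ j h0 h1]; omega)
    have h3 : ¬ j < rk (τ j) := by
      rw [hrk (τ j) ⟨j, h1⟩, hτ j h0 h1]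
      have h3 : pos c (e ⟨j - 1, by omega⟩) < pos c (e ⟨j, h1⟩) := he (by simp [Fin.lt_def]; omega)
      omega
    omega
  have hτc : ∀ j, 0 < j → j < N → τ j ≠ c := by
    intro j h0 h1 h
    have h2 := hτ j h0 h1
    have h3 := (pos_bounds c (e ⟨j - 1, by omega⟩)).1
    rw [h] at h2
    simp only [pos, lt_irrefl, if_false, add_zero] at h2
    unfold pos at h3
    omega
  -- the condition on vertices
  let a0 : Vtx (Fin n) (GG t n) → Prop := fun w =>
    ∀ i ∈ s, Dh Λ S i (l • w) ≤ max (i.val + n) (Dh Λ S i (vtx (Kc F t) l c) - 1)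
  have hA : ∀ u c', c' ≠ c → a0 (vtx (Kc F t) (ι u) c') → UCond' s ρ φ u (rk c') := by
    intro u c' hc' h i hi hρ
    have h1 := h i hi
    rw [smul_vtx, Dh_nbr_iff hN hl he hS (hιm u).1 (hιm u).2 (hι2 u) (hs i hi) hc'] at h1
    rcases h1 with h1 | ⟨x, h1, h2, h3⟩
    · exfalso
      have h2 := (hrk c' ⟨ρ i, hρ.trans (hrkN c')⟩).1 hρ
      have h3 := (winRho_le_iff he (μ i) i ⟨ρ i, hρ.trans (hrkN c')⟩).1 le_rfl
      simp only [μ] at h3
      omega
    · exact ⟨x, h1, (hrk c' x).2 h2, h3⟩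
  have hB : ∀ u j', 0 < j' → j' < N → UCond' s ρ φ u j' → a0 (vtx (Kc F t) (ι u) (τ j')) := by
    intro u j' h0 h1 h i hi
    rw [smul_vtx, Dh_nbr_iff hN hl he hS (hιm u).1 (hιm u).2 (hι2 u) (hs i hi) (hτc j' h0 h1)]
    by_cases hρ : ρ i < j'
    · obtain ⟨x, h2, h3, h4⟩ := h i hi hρ
      exact Or.inr ⟨x, h2, (hrk _ x).1 (by rwa [hrkτ j' h0 h1]), h4⟩
    · left
      have h2 : ¬ (winRho c e (μ i) i ≤ j' - 1) := by simp only [ρ] at hρ; omega
      rw [winRho_le_iff he (μ i) i ⟨j' - 1, by omega⟩] at h2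
      have h3 : pos c (e ⟨j' - 1, by omega⟩) + n * μ i ≠ i.val + n := by
        intro h3
        rw [pos_eq, add_assoc, ← mul_add] at h3
        have h4 := (lex_eq (κ := _) (μ := 1) (e ⟨j' - 1, by omega⟩).2 i.2 (by rw [h3]; ring)).1
        exact (hs i hi).1 (Fin.ext h4 ▸ (hS _).2 ⟨_, rfl⟩)
      rw [hτ j' h0 h1]
      simp only [μ] at h2 h3
      omega
  have hrk0 : ∀ u c', c' ≠ c → a0 (vtx (Kc F t) (ι u) c') → 0 < rk c' := by
    intro u c' hc' h
    have h1 := h j hj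
    rw [smul_vtx, Dh_nbr_iff hN hl he hS (hιm u).1 (hιm u).2 (hι2 u) (hs j hj) hc'] at h1
    rcases h1 with h1 | ⟨x, _, h2, _⟩
    · exfalso
      have h2 := (pos_bounds c c').1
      unfold Dh at hj'
      simp only [vtx_ty] at hj'
      omega
    · have := (hrk c' x).2 h2
      omega
  -- the model
  obtain ⟨ρc, hcone⟩ := hU N m s ρ φ hNn hm (by
    intro i hi _
    obtain ⟨x, h1, _, h3⟩ := window_witness (Λ := Λ) (i := i) hl hS (one_mem (Kc F t c))
      (one_mem (Lv t S)) (P := c.val + n) (M := c.val + n * μ i) le_rfl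
      (by simp only [μ]; omega) (by rw [mul_one]; exact NZ_lev hN (hs i hi) hl c)
    refine ⟨x, (winRho_le_iff he _ _ _).2 h1, ?_⟩
    rw [mul_one] at h3
    have : φ i (Pi.single x 1) = val Λ l (e x) i (t ^ (μ i + ex (e x) c - 1)) := by
      show ∑ y : Fin N, (Pi.single x (1 : F) : Fin N → F) y *
        val Λ l (e y) i (t ^ (μ i + ex (e y) c - 1)) = _
      rw [Finset.sum_eq_single x]
      · simp
      · intro y _ hy; simp [hy]
      · simp
    rw [this]; exact h3)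
  have hmap := hasCone_CC_map (Kc F t) (KU F N) ι τ (Set.Ioo 0 N)
    (fun a ha b hb hab => by rw [← hrkτ a ha.1 ha.2, ← hrkτ b hb.1 hb.2, hab])
    (fun j' hj' u => by
      have := hι3 (τ j') u
      rwa [show (univ.filter (fun i => pos c (e i) < pos c (τ j'))).card = j' from
        hrkτ j' hj'.1 hj'.2] at this)
    ⊤ (UCond s ρ φ) a0
    (fun u _ j' hj' => by
      rw [ucond_vtx]
      refine ⟨fun h => ?_, hB u j' hj'.1 hj'.2⟩
      have := hA u (τ j') (hτc j' hj'.1 hj'.2) h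
      rwa [hrkτ j' hj'.1 hj'.2] at this)
    hcone
  rw [← MonoidHom.range_eq_map, hι1] at hmap
  -- domination
  let ρv : Vtx (Fin n) (GG t n) → Vtx (Fin n) (GG t n) := fun w =>
    if h : ∃ u, w = vtx (Kc F t) (ι u) w.ty then vtx (Kc F t) (ι h.choose) (τ (rk w.ty)) else w
  have hρv : ∀ u c', 0 < rk c' →
      ρv (vtx (Kc F t) (ι u) c') = vtx (Kc F t) (ι u) (τ (rk c')) := by
    intro u c' h0
    have h : ∃ u', vtx (Kc F t) (ι u) c' = vtx (Kc F t) (ι u') (vtx (Kc F t) (ι u) c').ty := ⟨u, rfl⟩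
    have h1 : ρv (vtx (Kc F t) (ι u) c') = vtx (Kc F t) (ι h.choose) (τ (rk c')) := dif_pos h
    have h2 := ((vtx_eq_iff _).1 h.choose_spec).2
    rw [← map_inv, ← map_mul, hι3] at h2
    rw [h1, eq_comm, vtx_eq_iff, ← map_inv, ← map_mul, hι3]
    refine ⟨rfl, ?_⟩
    rwa [show (univ.filter (fun i => pos c (e i) < pos c (τ (rk c')))).card = rk c' from
        hrkτ _ h0 (hrkN c')]
  refine acyc_of_dom (isLowerSet_full (isLowerSet_CC _ _ _) _)
    (fun w => w.ty ∉ τ '' Set.Ioo 0 N) ρv ?_ ?_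
  · rintro σ ⟨⟨k, hk, T, hT, rfl⟩, h⟩ w hw _
    obtain ⟨u, rfl⟩ : k ∈ ι.range := hι1 ▸ hk
    obtain ⟨hw1, hw2⟩ := mem_face.1 hw
    have hwc : w.ty ≠ c := fun h' => hT hw1 h'
    have hw3 : a0 (vtx (Kc F t) (ι u) w.ty) := hw2 ▸ h w hw
    have h0 := hrk0 u _ hwc hw3
    rw [hw2, hρv u _ h0]
    refine ⟨not_not.2 ⟨rk w.ty, ⟨h0, hrkN _⟩, rfl⟩,
      ⟨ι u, hk, insert (τ (rk w.ty)) T, ?_, by rw [face_insert]⟩, fun w' hw' => ?_⟩
    · rw [coe_insert, Set.insert_subset_iff]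
      exact ⟨hτc _ h0 (hrkN _), hT⟩
    · rcases mem_insert.1 hw' with rfl | hw'
      · exact hB u _ h0 (hrkN _) (hA u _ hwc hw3)
      · exact h w' hw'
  · have : Full (DL0 Λ S l c s) (fun w => ¬ w.ty ∉ τ '' Set.Ioo 0 N)
        = Full (CC (Kc F t) (Kc F t c ⊓ Lv t S) (τ '' Set.Ioo 0 N)) a0 := by
      ext σ
      constructor
      · rintro ⟨⟨⟨k, hk, T, _, rfl⟩, h1⟩, h2⟩
        exact ⟨⟨k, hk, T, fun c' hc' => not_not.1 (h2 _ (vtx_mem_face.2 hc')), rfl⟩, h1⟩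
      · rintro ⟨⟨k, hk, T, hT, rfl⟩, h1⟩
        refine ⟨⟨⟨k, hk, T, fun c' hc' => ?_, rfl⟩, h1⟩, fun w hw => not_not.2 (hT (mem_face.1 hw).1)⟩
        obtain ⟨j', hj', rfl⟩ := hT hc'
        exact hτc j' hj'.1 hj'.2
    rw [DL0] at this
    rw [this]
    exact hmap.acyc le_rfl

theorem morse_step [NeZero n] (hn : 3 ≤ n) (hN : Nice F t) (hU : UTHyp F n)
    {Λ : Matrix (Fin n) (Fin n) R →ₗ[F] F} {S : Finset (Fin n)} {Fs : Finset (Fin n)}
    (hFs : ∀ i ∈ Fs, Active t Λ S i) {j : Fin n} (hj : Active t Λ S j) {m : ℕ}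
    (hm : m + 1 ≤ S.card) :
    RelAcyc (Full (CC (Kc F t) (Lv t S) Set.univ) (fun v => ∀ i ∈ Fs, Dh Λ S i v ≤ i.val + n))
      {σ | ∀ v ∈ σ, Dh Λ S j v ≤ j.val + n} m := by
  refine relAcyc_of_morse (isLowerSet_full (isLowerSet_CC _ _ _) _) (Dh Λ S j) _ m
    (fun σ hσ v hv w hw h => eq_of_ty_eq hσ.1 hv hw (Dh_inj h)) ?_
  rintro v ⟨⟨l, hl, T, -, hT⟩, hv⟩ hD hm1
  have hv1 : v = vtx (Kc F t) l v.ty := (mem_face.1 (hT ▸ mem_singleton_self v)).2
  have hv2 := hv v (mem_singleton_self v)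
  set c := v.ty with hc
  have hs : ∀ i ∈ insert j Fs, Active t Λ S i := by
    intro i hi
    rcases mem_insert.1 hi with rfl | hi
    · exact hj
    · exact hFs i hi
  have h0 : Acyc (DL0 Λ S l c (insert j Fs)) (m - 1) := by
    by_cases h1 : c - 1 ∈ S
    · exact dl0_acyc_main hn hN hU hl h1 hs (mem_insert_self _ _) (hv1 ▸ hD) (by omega)
    · exact dl0_acyc_twin hn hN hl h1 hs _
  refine acyc_transport (fun w => l⁻¹ • w) (fun w => l • w) ?_ ?_ h0
  · rintro σ ⟨⟨⟨g, hg, T', -, h1⟩, h2⟩, h3⟩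
    have hvσ : v ∉ σ := fun h => lt_irrefl _ (h3 v h)
    have h4 := mem_face.1 (h1 ▸ mem_insert_self v σ)
    have h5 : l⁻¹ * g ∈ Kc F t c := ((vtx_eq_iff _).1 (hv1.symm.trans h4.2)).2
    have h6 : σ = face (Kc F t) g (T'.erase c) := by
      rw [face_erase, ← h1, ← h4.2, erase_insert hvσ]
    refine ⟨⟨⟨l⁻¹ * g, Subgroup.mem_inf.2 ⟨h5, mul_mem (inv_mem hl) hg⟩, T'.erase c, fun x hx => ?_, ?_⟩,
      fun w hw i hi => ?_⟩, fun w _ => by simp⟩
    · exact (mem_erase.1 hx).1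
    · rw [h6]; exact tr_face _ _ _ _
    · obtain ⟨w', hw', rfl⟩ := mem_image.1 hw
      rw [smul_inv_smul, ← hv1]
      rcases mem_insert.1 hi with rfl | hi
      · have := h3 w' hw'
        omega
      · exact (h2 w' (mem_insert_of_mem hw') i hi).trans (le_max_left _ _)
  · rintro σ ⟨⟨k, hk, T', hT', rfl⟩, h1⟩
    refine ⟨?_, (MulAction.injective l).injOn⟩
    have h2 : image (fun w => l • w) (face (Kc F t) k T') = face (Kc F t) (l * k) T' :=
      tr_face _ _ _ _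
    have h3 : v = vtx (Kc F t) (l * k) c := by
      rw [hv1, vtx_eq_iff]; exact ⟨rfl, by simpa using hk.1⟩
    have h4 : ∀ w ∈ image (fun w => l • w) (face (Kc F t) k T'), ∀ i ∈ insert j Fs,
        Dh Λ S i w ≤ max (i.val + n) (Dh Λ S i v - 1) := by
      intro w hw i hi
      obtain ⟨w', hw', rfl⟩ := mem_image.1 hw
      rw [hv1]
      exact h1 w' hw' i hi
    refine ⟨⟨⟨l * k, mul_mem hl hk.2, insert c T', Set.subset_univ _, ?_⟩, fun w hw i hi => ?_⟩,
      fun w hw => ?_⟩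
    · rw [face_insert, h2, ← h3]
    · rcases mem_insert.1 hw with rfl | hw
      · exact hv2 i hi
      · have h5 := h4 w hw i (mem_insert_of_mem hi)
        have h6 := hv2 i hi
        omega
    · have h5 := h4 w hw j (mem_insert_self _ _)
      omega

end

theorem morse_rel (n : ℕ) (hn : 3 ≤ n) : ∃ q0 : ℕ,
    ∀ (F R : Type) [Field F] [Fintype F] [CommRing R] [Algebra F R] [Finite R] (t : R),
      Nice F t → q0 ≤ Fintype.card F → ∀ (S B : Finset (Fin n)) (m : ℕ), Disjoint S B →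
      m + 1 ≤ S.card → ∀ lam : Ncol F t S B →ₗ[F] F, lam ≠ 0 →
      RelAcyc (CC (Kc F t) (Lv t S) Set.univ)
        {σ | ∃ A : Ncol F t S B, tr (eN t A.1) σ = σ ∧ lam A ≠ 0} m := by
  classical
  have : NeZero n := ⟨by omega⟩
  choose ρc q0 hq using fun m => ut_cone_cond n m n
  refine ⟨(range (n + 1)).sup q0, fun F R _ _ _ _ _ t hN hF S B m hd hm lam hlam => ?_⟩
  have hU : UTHyp F n := fun N m s ρ μ h1 h2 h3 =>
    ⟨ρc m, hq m F N (Fin n) s ρ μ ((le_sup (f := q0) (mem_range.2 (by omega))).trans hF) h1 h2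
      (by simpa using card_le_univ s) h3⟩
  obtain ⟨Λ, hΛ⟩ := LinearMap.exists_extend lam
  have hΛ' : ∀ A : Ncol F t S B, Λ A.1 = lam A := fun A => by rw [← hΛ]; rfl
  obtain ⟨A₀, hA₀⟩ : ∃ A, lam A ≠ 0 := by
    by_contra h
    push Not at h
    exact hlam (LinearMap.ext h)
  obtain ⟨b₀, hb₀⟩ := exists_active (Λ := Λ) hd A₀.2 (by rwa [hΛ'])
  have h1 := relAcyc_union (isLowerSet_CC (Kc F t) (Lv t S) Set.univ)
    (fun i v => Dh Λ S i v ≤ i.val + n) (B.filter (Active t Λ S)) ⟨b₀, mem_filter.2 hb₀⟩ m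
    (fun Fs hFs j hj m' hm' => morse_step hn hN hU (fun i hi => (mem_filter.1 (hFs hi)).2)
      (mem_filter.1 hj).2 (by omega))
  refine relAcyc_congr (isLowerSet_CC _ _ _) (fun σ hσ => ?_) h1
  have h2 := stab_iff hN (Λ := Λ) hd hσ
  constructor
  · rintro ⟨i, hi, h3⟩
    obtain ⟨A, hA, h4, h5⟩ := h2.2 ⟨i, (mem_filter.1 hi).1, (mem_filter.1 hi).2, h3⟩
    exact ⟨⟨A, hA⟩, h4, by rw [← hΛ']; exact h5⟩
  · rintro ⟨A, h3, h4⟩
    obtain ⟨i, hi1, hi2, h5⟩ := h2.1 ⟨A.1, A.2, h3, by rwa [hΛ']⟩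
    exact ⟨i, mem_filter.2 ⟨hi1, hi2⟩, h5⟩

end Vale.Agent.P067
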