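import Vale.Agent.P067.Group

/-!
The lower unitriangular group over a finite field and its block subgroups.
-/

set_option linter.unusedSectionVars false

namespace Vale.Agent.P067

open Finset

section
variable (F : Type) [Field F] [Finite F] (N : ℕ)

def UT : Subgroup (Matrix.SpecialLinearGroup (Fin N) F) :=
  finSubgroup
    { carrier := {u | ∀ a b, ¬ b < a → u.1 a b = (1 : Matrix (Fin N) (Fin N) F) a b}
      one_mem' := fun _ _ _ => rfl
      mul_mem' := by
        intro g h hg hh a b hab
        show (g.1 * h.1) a b = _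
        rw [Matrix.mul_apply, Finset.sum_eq_single a]
        · rw [hg a a (lt_irrefl _), hh a b hab]; simp
        · intro d _ hd
          by_cases h2 : d < a
          · have h3 : d < b := lt_of_lt_of_le h2 (not_lt.1 hab)
            rw [hh d b (not_lt.2 h3.le), Matrix.one_apply_ne h3.ne, mul_zero]
          · rw [hg a d h2, Matrix.one_apply_ne hd.symm, zero_mul]
        · simp }

/-- the lower unitriangular group -/
def UU : Type := ↥(UT F N)

instance : Group (UU F N) := inferInstanceAs (Group ↥(UT F N))
instance : Finite (UU F N) := inferInstanceAs (Finite ↥(UT F N))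

variable {F N}

def umat (u : UU F N) : Matrix (Fin N) (Fin N) F := u.1.1

@[simp] theorem umat_mul (g h : UU F N) : umat (g * h) = umat g * umat h := rfl
@[simp] theorem umat_one : umat (1 : UU F N) = 1 := rfl
theorem umat_injective : Function.Injective (umat : UU F N → _) :=
  fun _ _ h => Subtype.ext (Subtype.ext h)
theorem umat_tri (u : UU F N) (a b : Fin N) (h : ¬ b < a) :
    umat u a b = (1 : Matrix (Fin N) (Fin N) F) a b := u.2 a b h
@[simp] theorem umat_inv_mul (g : UU F N) : umat g⁻¹ * umat g = 1 := by rw [← umat_mul]; simp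
@[simp] theorem umat_mul_inv (g : UU F N) : umat g * umat g⁻¹ = 1 := by rw [← umat_mul]; simp

theorem det_of_unitri {M : Matrix (Fin N) (Fin N) F}
    (h : ∀ a b, ¬ b < a → M a b = (1 : Matrix (Fin N) (Fin N) F) a b) : M.det = 1 := by
  rw [Matrix.det_of_isLowerTriangular M]
  · exact Finset.prod_eq_one fun a _ => by rw [h a a (lt_irrefl _)]; simp
  · intro a b hab
    have hab' : a < b := hab
    rw [h a b (not_lt.2 hab'.le), Matrix.one_apply_ne hab'.ne]

/-- the unitriangular group element with a given matrix -/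
def mkU (M : Matrix (Fin N) (Fin N) F)
    (h : ∀ a b, ¬ b < a → M a b = (1 : Matrix (Fin N) (Fin N) F) a b) : UU F N :=
  (⟨(⟨M, det_of_unitri h⟩ : Matrix.SpecialLinearGroup (Fin N) F), h⟩ : ↥(UT F N))

@[simp] theorem umat_mkU (M : Matrix (Fin N) (Fin N) F)
    (h : ∀ a b, ¬ b < a → M a b = (1 : Matrix (Fin N) (Fin N) F) a b) : umat (mkU M h) = M := rfl

variable (F N)

/-- block diagonal subgroup: the stabiliser of the span of the first `j` basis vectors -/
def KU (j : ℕ) : Subgroup (UU F N) :=
  finSubgroup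
    { carrier := {u | ∀ a b : Fin N, b.val < j → j ≤ a.val → umat u a b = 0}
      one_mem' := fun a b h1 h2 => Matrix.one_apply_ne (fun h => by subst h; omega)
      mul_mem' := by
        intro g h hg hh a b h1 h2
        rw [umat_mul, Matrix.mul_apply]
        refine Finset.sum_eq_zero fun d _ => ?_
        by_cases h3 : d.val < j
        · rw [hg a d h3 h2, zero_mul]
        · rw [hh d b h1 (not_lt.1 h3), mul_zero] }

theorem mem_KU {j : ℕ} {u : UU F N} : u ∈ KU F N j ↔
    ∀ a b : Fin N, b.val < j → j ≤ a.val → umat u a b = 0 := Iff.rfl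

variable {F N}

/-- the conditions on a chamber `u` and a type `j` -/
def UCond' {ι : Type} (s : Finset ι) (ρ : ι → ℕ) (μ : ι → ((Fin N → F) →ₗ[F] F))
    (u : UU F N) (j : ℕ) : Prop :=
  ∀ i ∈ s, ρ i < j → ∃ a : Fin N, ρ i ≤ a.val ∧ a.val < j ∧ μ i (fun x => umat u x a) ≠ 0

/-- the conditions on a vertex -/
def UCond {ι : Type} (s : Finset ι) (ρ : ι → ℕ) (μ : ι → ((Fin N → F) →ₗ[F] F))
    (v : Vtx ℕ (UU F N)) : Prop :=
  ∃ u : UU F N, v = vtx (KU F N) u v.ty ∧ UCond' s ρ μ u v.ty

end

end Vale.Agent.P067
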