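import Vale.Agent.P067.UTDefs
import Vale.Agent.P067.Geom

set_option linter.unusedSectionVars false

namespace Vale.Agent.P067

open Finset Module

section
variable (F : Type) [Field F] [Finite F] (N : ℕ)

def EE (j : ℕ) : Submodule F (Fin N → F) where
  carrier := {x | ∀ i : Fin N, i.val < j → x i = 0}
  zero_mem' := fun _ _ => rfl
  add_mem' := fun hx hy i hi => by simp [hx i hi, hy i hi]
  smul_mem' := fun a x hx i hi => by simp [hx i hi]

def Std (j : ℕ) : Submodule F (Fin N → F) where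
  carrier := {x | ∀ i : Fin N, j ≤ i.val → x i = 0}
  zero_mem' := fun _ _ => rfl
  add_mem' := fun hx hy i hi => by simp [hx i hi, hy i hi]
  smul_mem' := fun a x hx i hi => by simp [hx i hi]

theorem EE_anti : Antitone (EE F N) := fun _ _ h _ hx i hi => hx i (hi.trans_le h)

theorem Std_mono : Monotone (Std F N) := fun _ _ h _ hx i hi => hx i (h.trans hi)

theorem finrank_EE {j : ℕ} (h : j ≤ N) : finrank F (EE F N j) + j = N := by
  have h1 : EE F N j = LinearMap.ker (LinearMap.funLeft F F (Fin.castLE h)) := by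
    ext x
    simp only [LinearMap.mem_ker, funext_iff, LinearMap.funLeft_apply, Pi.zero_apply]
    exact ⟨fun hx i => hx _ i.2, fun hx i hi => hx ⟨i.val, hi⟩⟩
  have h2 := LinearMap.finrank_range_add_finrank_ker (LinearMap.funLeft F F (Fin.castLE h))
  rw [LinearMap.range_eq_top.2 (LinearMap.funLeft_surjective_of_injective F F _
    (Fin.castLE_injective h)), finrank_top, ← h1] at h2
  simp only [finrank_fintype_fun_eq_card, Fintype.card_fin] at h2
  omega

theorem disjoint_Std_EE (j : ℕ) : Disjoint (Std F N j) (EE F N j) := by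
  rw [Submodule.disjoint_def]
  intro x h1 h2
  funext i
  rcases lt_or_ge i.val j with h | h
  · exact h2 i h
  · exact h1 i h

theorem finrank_Std {j : ℕ} (h : j ≤ N) : finrank F (Std F N j) = j := by
  have h1 : IsCompl (Std F N j) (EE F N j) := by
    refine ⟨disjoint_Std_EE F N j, codisjoint_iff.2 (eq_top_iff.2 fun x _ => ?_)⟩
    refine Submodule.mem_sup.2 ⟨fun i => if i.val < j then x i else 0, fun i hi => ?_,
      fun i => if i.val < j then 0 else x i, fun i hi => ?_, ?_⟩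
    · exact if_neg (not_lt.2 hi)
    · exact if_pos hi
    · funext i; by_cases hi : i.val < j <;> simp [hi]
  have h2 := Submodule.finrank_add_eq_of_isCompl h1
  have h3 := finrank_EE F N h
  simp only [finrank_fintype_fun_eq_card, Fintype.card_fin] at h2
  omega

variable {F N}

/-- the linear map of a unitriangular matrix -/
def uL (u : UU F N) : (Fin N → F) →ₗ[F] (Fin N → F) := (umat u).mulVecLin

theorem uL_apply (u : UU F N) (x : Fin N → F) (a : Fin N) : uL u x a = ∑ b, umat u a b * x b := rfl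

theorem uL_mul (u u' : UU F N) (x : Fin N → F) : uL (u * u') x = uL u (uL u' x) := by
  simp [uL]

@[simp] theorem uL_one (x : Fin N → F) : uL (1 : UU F N) x = x := by simp [uL]

theorem uL_inv (u : UU F N) (x : Fin N → F) : uL u⁻¹ (uL u x) = x := by
  rw [← uL_mul]; simp

theorem uL_injective (u : UU F N) : Function.Injective (uL u) :=
  Function.LeftInverse.injective (uL_inv u)

theorem uL_single (u : UU F N) (a : Fin N) : uL u (Pi.single a 1) = fun x => umat u x a := by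
  funext x
  rw [uL_apply, Finset.sum_eq_single a]
  · simp
  · intro b _ hb; simp [hb]
  · simp

theorem uL_eq_sum (u : UU F N) (y : Fin N → F) :
    uL u y = ∑ a, y a • (fun x => umat u x a) := by
  funext x
  rw [uL_apply, Finset.sum_apply]
  exact Finset.sum_congr rfl fun a _ => by simp [mul_comm]

theorem uL_mem_EE (u : UU F N) {r : ℕ} {x : Fin N → F} (hx : x ∈ EE F N r) : uL u x ∈ EE F N r := by
  intro i hi
  rw [uL_apply]
  refine Finset.sum_eq_zero fun b _ => ?_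
  by_cases hb : b.val < r
  · rw [hx b hb, mul_zero]
  · have h1 : i < b := by rw [Fin.lt_def]; omega
    rw [umat_tri u i b (not_lt.2 h1.le), Matrix.one_apply_ne h1.ne, zero_mul]

/-- the subspace attached to a chamber and a type -/
def Wu (u : UU F N) (j : ℕ) : Submodule F (Fin N → F) := (Std F N j).map (uL u)

theorem finrank_Wu (u : UU F N) {j : ℕ} (h : j ≤ N) : finrank F (Wu u j) = j := by
  rw [Wu, ← (Submodule.equivMapOfInjective _ (uL_injective u) _).finrank_eq, finrank_Std F N h]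

theorem Wu_mono (u : UU F N) : Monotone (Wu u) := fun _ _ h => Submodule.map_mono (Std_mono F N h)

theorem disjoint_Wu (u : UU F N) (j : ℕ) : Disjoint (Wu u j) (EE F N j) := by
  rw [Submodule.disjoint_def]
  rintro _ ⟨y, hy, rfl⟩ h
  have h1 := uL_mem_EE u⁻¹ h
  rw [uL_inv] at h1
  rw [Submodule.disjoint_def.1 (disjoint_Std_EE F N j) y hy h1, map_zero]

theorem Wu_mul (u u' : UU F N) (j : ℕ) : Wu (u * u') j = (Wu u' j).map (uL u) := by
  rw [Wu, Wu, ← Submodule.map_comp]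
  congr 1
  exact LinearMap.ext (uL_mul u u')

theorem Wu_one (j : ℕ) : Wu (1 : UU F N) j = Std F N j := by
  rw [Wu, show uL (1 : UU F N) = LinearMap.id from LinearMap.ext uL_one, Submodule.map_id]

theorem single_mem_Std {a : Fin N} {j : ℕ} (h : a.val < j) :
    (Pi.single a 1 : Fin N → F) ∈ Std F N j :=
  fun i hi => Pi.single_eq_of_ne (fun h' => by subst h'; omega) _

theorem single_mem_EE {a : Fin N} {j : ℕ} (h : j ≤ a.val) :
    (Pi.single a 1 : Fin N → F) ∈ EE F N j :=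
  fun i hi => Pi.single_eq_of_ne (fun h' => by subst h'; omega) _

theorem Wu_le_Std {k : UU F N} {j : ℕ} (hk : k ∈ KU F N j) : Wu k j ≤ Std F N j := by
  rintro _ ⟨y, hy, rfl⟩ i hi
  rw [uL_apply]
  refine Finset.sum_eq_zero fun b _ => ?_
  by_cases hb : b.val < j
  · rw [hk i b hb hi, zero_mul]
  · rw [hy b (not_lt.1 hb), mul_zero]

theorem Wu_eq_Std_iff {k : UU F N} {j : ℕ} : Wu k j = Std F N j ↔ k ∈ KU F N j := by
  constructor
  · intro h a b hb ha
    have : uL k (Pi.single b 1) ∈ Std F N j := h ▸ ⟨_, single_mem_Std hb, rfl⟩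
    rw [uL_single] at this
    exact this a ha
  · intro h
    refine le_antisymm (Wu_le_Std h) ?_
    rw [← Wu_one, ← mul_inv_cancel k, Wu_mul]
    exact Submodule.map_mono (Wu_le_Std (inv_mem h))

theorem Wu_eq_iff {u u' : UU F N} {j : ℕ} : Wu u j = Wu u' j ↔ u⁻¹ * u' ∈ KU F N j := by
  rw [← Wu_eq_Std_iff]
  constructor
  · intro h
    rw [Wu_mul, ← h, ← Wu_mul, inv_mul_cancel, Wu_one]
  · intro h
    have : u' = u * (u⁻¹ * u') := by simp
    rw [this, Wu_mul, h]; rfl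

theorem not_le_ker_iff (u : UU F N) (j r : ℕ) (μ : (Fin N → F) →ₗ[F] F) :
    ¬ (Wu u j ⊓ EE F N r ≤ LinearMap.ker μ) ↔
      ∃ a : Fin N, r ≤ a.val ∧ a.val < j ∧ μ (fun x => umat u x a) ≠ 0 := by
  constructor
  · intro h
    by_contra h1
    push Not at h1
    apply h
    rintro _ ⟨⟨y, hy, rfl⟩, h2⟩
    have h3 := uL_mem_EE u⁻¹ h2
    rw [uL_inv] at h3
    rw [LinearMap.mem_ker, uL_eq_sum, map_sum]
    refine Finset.sum_eq_zero fun a _ => ?_
    rw [map_smul]
    by_cases h4 : a.val < r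
    · rw [h3 a h4, zero_smul]
    · by_cases h5 : a.val < j
      · rw [h1 a (not_lt.1 h4) h5, smul_zero]
      · rw [hy a (not_lt.1 h5), zero_smul]
  · rintro ⟨a, h1, h2, h3⟩ h
    apply h3
    rw [← uL_single]
    exact h ⟨⟨_, single_mem_Std h2, rfl⟩, uL_mem_EE u (single_mem_EE h1)⟩

theorem finrank_le_N (W : Submodule F (Fin N → F)) : finrank F W ≤ N := by
  simpa using Submodule.finrank_le W

theorem hEE : ∀ j ≤ finrank F (Fin N → F), finrank F (EE F N j) + j = finrank F (Fin N → F) := by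
  intro j hj
  simp only [finrank_fintype_fun_eq_card, Fintype.card_fin] at hj ⊢
  exact finrank_EE F N hj

/-- a chain of opposite subspaces comes from a chamber -/
theorem exists_chamber {σ : Finset (Submodule F (Fin N → F))}
    (h1 : IsChain (· ≤ ·) (↑σ : Set (Submodule F (Fin N → F))))
    (h2 : ∀ W ∈ σ, Disjoint W (EE F N (finrank F W))) :
    ∃ u : UU F N, ∀ W ∈ σ, W = Wu u (finrank F W) := by
  have key : ∀ b : Fin N, ∃ x : Fin N → F, (∀ a, ¬ b < a → x a = (1 : Matrix (Fin N) (Fin N) F) a b) ∧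
      ∀ W ∈ σ, b.val < finrank F W → x ∈ W := by
    intro b
    rcases (σ.filter (fun W : Submodule F (Fin N → F) => b.val < finrank F W)).eq_empty_or_nonempty with h | h
    · refine ⟨fun a => (1 : Matrix (Fin N) (Fin N) F) a b, fun _ _ => rfl, fun W hW h3 => ?_⟩
      exact absurd h3 (filter_eq_empty_iff.1 h hW)
    · obtain ⟨W₀, h3, h4⟩ := exists_min_image _ (fun W : Submodule F (Fin N → F) => finrank F W) h
      obtain ⟨h5, h6⟩ := mem_filter.1 h3
      have h7 : (fun a => (1 : Matrix (Fin N) (Fin N) F) a b) ∈ W₀ ⊔ EE F N (finrank F W₀) := by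
        rw [sup_eq_top_of_disjoint hEE (h2 W₀ h5)]; trivial
      obtain ⟨x, hx, y, hy, h8⟩ := Submodule.mem_sup.1 h7
      refine ⟨x, fun a ha => ?_, fun W hW h9 => ?_⟩
      · have h9 := congrFun h8 a
        rw [Fin.lt_def] at ha
        rwa [Pi.add_apply, hy a (by omega), add_zero] at h9
      · rcases h1.total (Finset.mem_coe.2 h5) (Finset.mem_coe.2 hW) with h10 | h10
        · exact h10 hx
        · rw [Submodule.eq_of_le_of_finrank_le h10 (h4 W (mem_filter.2 ⟨hW, h9⟩))]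
          exact hx
  choose x hx1 hx2 using key
  refine ⟨mkU (Matrix.of fun a b => x b a) (fun a b h => hx1 b a h), fun W hW => ?_⟩
  symm
  refine Submodule.eq_of_le_of_finrank_eq ?_ (finrank_Wu _ (finrank_le_N W))
  rintro _ ⟨y, hy, rfl⟩
  rw [uL_eq_sum]
  refine Submodule.sum_mem _ fun a _ => ?_
  by_cases ha : a.val < finrank F W
  · exact Submodule.smul_mem _ _ (hx2 a W hW ha)
  · rw [hy a (not_lt.1 ha), zero_smul]; exact Submodule.zero_mem _

theorem isChain_image_Wu (u : UU F N) (T : Finset ℕ) :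
    IsChain (· ≤ ·) (↑(T.image (Wu u)) : Set (Submodule F (Fin N → F))) := by
  intro W hW W' hW' _
  obtain ⟨j, _, rfl⟩ := mem_image.1 (Finset.mem_coe.1 hW)
  obtain ⟨j', _, rfl⟩ := mem_image.1 (Finset.mem_coe.1 hW')
  exact (le_total j j').imp (fun h => Wu_mono u h) (fun h => Wu_mono u h)

/-- transport from the subspace model to the coset model -/
theorem hasCone_of_model (Q : Subgroup (UU F N)) (T₀ : Set ℕ) (hT₀ : ∀ j ∈ T₀, j ≤ N)
    (a : Vtx ℕ (UU F N) → Prop) (Y' : Set (Finset (Submodule F (Fin N → F))))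
    (h1 : ∀ u ∈ Q, ∀ T : Finset ℕ, (↑T : Set ℕ) ⊆ T₀ → (∀ j ∈ T, a (vtx (KU F N) u j)) →
      T.image (Wu u) ∈ Y')
    (h2 : ∀ σ' ∈ Y', ∃ u ∈ Q, ∀ W ∈ σ', W = Wu u (finrank F W) ∧ finrank F W ∈ T₀ ∧
      a (vtx (KU F N) u (finrank F W)))
    {m ρ : ℕ} (h : HasCone Y' m ρ) : HasCone (Full (CC (KU F N) Q T₀) a) m ρ := by
  classical
  let φ : Vtx ℕ (UU F N) → Submodule F (Fin N → F) := fun v =>
    if h : ∃ u, v = vtx (KU F N) u v.ty then Wu h.choose v.ty else ⊥
  let ψ : Submodule F (Fin N → F) → Vtx ℕ (UU F N) := fun W =>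
    if h : ∃ u, W = Wu u (finrank F W) then vtx (KU F N) h.choose (finrank F W)
    else vtx (KU F N) 1 0
  have hφ : ∀ u j, φ (vtx (KU F N) u j) = Wu u j := by
    intro u j
    have h : ∃ u', vtx (KU F N) u j = vtx (KU F N) u' (vtx (KU F N) u j).ty := ⟨u, rfl⟩
    have h3 : φ (vtx (KU F N) u j) = Wu h.choose j := dif_pos h
    rw [h3, eq_comm, Wu_eq_iff]
    exact ((vtx_eq_iff _).1 h.choose_spec).2
  have hψ : ∀ (u : UU F N) (W : Submodule F (Fin N → F)), W = Wu u (finrank F W) → ψ W = vtx (KU F N) u (finrank F W) := by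
    intro u W hW
    have h : ∃ u, W = Wu u (finrank F W) := ⟨u, hW⟩
    have h3 : ψ W = vtx (KU F N) h.choose (finrank F W) := dif_pos h
    rw [h3, vtx_eq_iff, ← Wu_eq_iff]
    exact ⟨rfl, h.choose_spec.symm.trans hW⟩
  refine hasCone_transport φ ψ ?_ ?_ h
  · rintro σ ⟨⟨u, hu, T, hT, rfl⟩, ha⟩
    refine ⟨?_, fun v hv => ?_⟩
    · rw [face, image_image, show φ ∘ vtx (KU F N) u = Wu u from funext (hφ u)]
      exact h1 u hu T hT fun j hj => ha _ (vtx_mem_face.2 hj)
    · obtain ⟨hv1, hv2⟩ := mem_face.1 hv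
      have h3 := finrank_Wu u (hT₀ _ (hT hv1))
      rw [hv2, hφ, hψ u _ (by rw [h3]), h3]
  · intro σ' hσ'
    obtain ⟨u, hu, h3⟩ := h2 σ' hσ'
    have h4 : σ'.image ψ = face (KU F N) u (σ'.image (fun W : Submodule F (Fin N → F) => finrank F W)) := by
      rw [face, image_image]
      exact image_congr fun W hW => hψ u W (h3 W hW).1
    refine ⟨⟨⟨u, hu, _, fun j hj => ?_, h4⟩, fun v hv => ?_⟩, fun W hW W' hW' h5 => ?_⟩
    · obtain ⟨W, hW, rfl⟩ := mem_image.1 (Finset.mem_coe.1 hj)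
      exact (h3 W hW).2.1
    · obtain ⟨W, hW, rfl⟩ := mem_image.1 hv
      rw [hψ u W (h3 W hW).1]
      exact (h3 W hW).2.2
    · rw [hψ u W (h3 W hW).1, hψ u W' (h3 W' hW').1] at h5
      rw [(h3 W hW).1, (h3 W' hW').1, ((vtx_eq_iff _).1 h5).1]

theorem goodSub_Wu_iff {ι : Type} (s : Finset ι) (ρ : ι → ℕ)
    (μ : ι → ((Fin N → F) →ₗ[F] F)) (u : UU F N) {j : ℕ} (hj : j ≤ N) :
    GoodSub (EE F N) s ρ (fun i => LinearMap.ker (μ i)) (Wu u j) ↔ UCond' s ρ μ u j := by
  unfold GoodSub UCond'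
  rw [finrank_Wu u hj]
  simp only [not_le_ker_iff]
  exact and_iff_right (disjoint_Wu u j)

end

theorem ucond_vtx {F : Type} [Field F] [Finite F] {N : ℕ} {ι : Type} (s : Finset ι) (ρ : ι → ℕ)
    (μ : ι → ((Fin N → F) →ₗ[F] F)) (u : UU F N) (j : ℕ) :
    UCond s ρ μ (vtx (KU F N) u j) ↔ UCond' s ρ μ u j := by
  constructor
  · rintro ⟨u', h1, h2⟩ i hi h3
    have h4 := h2 i hi h3
    rw [← not_le_ker_iff] at h4 ⊢
    rwa [Wu_eq_iff.2 ((vtx_eq_iff _).1 h1).2]
  · intro h; exact ⟨u, rfl, h⟩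

/-- descending links -/
theorem ut_cone_cond (N0 m k : ℕ) : ∃ ρc q0 : ℕ,
    ∀ (F : Type) [Field F] [Fintype F] (N : ℕ) (ι : Type) (s : Finset ι) (ρ : ι → ℕ)
      (μ : ι → ((Fin N → F) →ₗ[F] F)),
      q0 ≤ Fintype.card F → N ≤ N0 → m + 2 ≤ N → s.card ≤ k →
      (∀ i ∈ s, ρ i < N → ∃ a : Fin N, ρ i ≤ a.val ∧ μ i (Pi.single a 1) ≠ 0) →
      HasCone (Full (CC (KU F N) ⊤ (Set.Ioo 0 N)) (UCond s ρ μ)) m ρc := by
  obtain ⟨ρc, q0, h⟩ := geom_cone N0 m k
  refine ⟨ρc, q0, fun F _ _ N ι s ρ μ h1 h2 h3 h4 h5 => ?_⟩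
  have hN : finrank F (⊤ : Submodule F (Fin N → F)) = N := by simp
  have h6 := h F (Fin N → F) (EE F N) ι s ρ (fun i => LinearMap.ker (μ i)) ⊥ ⊤ h1 (EE_anti F N)
    hEE h4 ⟨disjoint_bot_left, fun i _ h => by simp at h⟩ ⟨?_, ?_⟩ bot_le (by simpa using h3)
    (by simpa using h2)
  · refine hasCone_of_model ⊤ _ (fun j hj => hj.2.le) _ _ ?_ ?_ h6
    · intro u _ T hT ha
      refine ⟨isChain_image_Wu u T, fun W hW => ?_⟩
      obtain ⟨j, hj, rfl⟩ := mem_image.1 hW
      have h7 := hT hj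
      have h8 := finrank_Wu u h7.2.le
      refine ⟨bot_lt_iff_ne_bot.2 fun h => ?_, lt_top_iff_ne_top.2 fun h => ?_,
        (goodSub_Wu_iff s ρ μ u h7.2.le).2 ((ucond_vtx s ρ μ u j).1 (ha j hj))⟩
      · rw [h, finrank_bot] at h8
        exact h7.1.ne h8
      · rw [h, hN] at h8
        exact h7.2.ne' h8
    · intro σ' hσ'
      obtain ⟨u, hu⟩ := exists_chamber hσ'.1 (fun W hW => (hσ'.2 W hW).2.2.1)
      refine ⟨u, trivial, fun W hW => ⟨hu W hW, ?_, ?_⟩⟩
      · have h7 := Submodule.finrank_lt_finrank_of_lt (hσ'.2 W hW).1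
        have h8 := Submodule.finrank_lt_finrank_of_lt (hσ'.2 W hW).2.1
        rw [finrank_bot] at h7
        rw [hN] at h8
        exact ⟨h7, h8⟩
      · rw [ucond_vtx, ← goodSub_Wu_iff s ρ μ u (finrank_le_N W), ← hu W hW]
        exact (hσ'.2 W hW).2.2
  · rw [hN, Submodule.disjoint_def]
    intro x _ hx
    funext i
    exact hx i i.2
  · intro i hi h7 h8
    rw [hN] at h7
    obtain ⟨a, h9, h10⟩ := h5 i hi h7
    exact h10 (h8 ⟨trivial, single_mem_EE h9⟩)

theorem exists_gap {N L r : ℕ} (h : (r + 2) * L ≤ N) (hL : 0 < L) (Rr : Finset ℕ)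
    (hR : Rr.card ≤ r) : ∃ α β : ℕ, α + L ≤ β ∧ β ≤ N ∧ (α = 0 ∨ α ∈ Rr) ∧ (β = N ∨ β ∈ Rr) ∧
      ∀ x ∈ Rr, x ≤ α ∨ β ≤ x := by
  obtain ⟨i, hi1, hi2⟩ : ∃ i ∈ range (r + 2), i ∉ (insert 0 Rr).image (fun x => x / L) := by
    by_contra h1
    push Not at h1
    have h2 := card_le_card (show range (r + 2) ⊆ _ from h1)
    have h3 := (card_image_le (s := insert 0 Rr) (f := fun x => x / L)).trans (card_insert_le _ _)
    rw [card_range] at h2
    omega
  have hi3 : i * L + L ≤ N := by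
    have := Nat.mul_le_mul_right L (show i + 1 ≤ r + 2 from mem_range.1 hi1)
    rw [Nat.succ_mul] at this
    omega
  have hx : ∀ x ∈ insert 0 Rr, x < i * L ∨ i * L + L ≤ x := by
    intro x hx
    by_contra h1
    push Not at h1
    exact hi2 (mem_image.2 ⟨x, hx, Nat.div_eq_of_lt_le h1.1 (by rw [Nat.succ_mul]; exact h1.2)⟩)
  obtain ⟨α, hα1, hα2⟩ := exists_max_image ((insert 0 Rr).filter (fun x => x < i * L)) id
    ⟨0, mem_filter.2 ⟨mem_insert_self _ _, (hx 0 (mem_insert_self _ _)).resolve_right (by omega)⟩⟩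
  obtain ⟨β, hβ1, hβ2⟩ := exists_min_image ((insert N Rr).filter (fun x => i * L + L ≤ x)) id
    ⟨N, mem_filter.2 ⟨mem_insert_self _ _, hi3⟩⟩
  obtain ⟨hα3, hα4⟩ := mem_filter.1 hα1
  obtain ⟨hβ3, hβ4⟩ := mem_filter.1 hβ1
  refine ⟨α, β, by omega, hβ2 N (mem_filter.2 ⟨mem_insert_self _ _, hi3⟩), mem_insert.1 hα3,
    mem_insert.1 hβ3, fun x hx' => ?_⟩
  rcases hx x (mem_insert_of_mem hx') with h1 | h1
  · exact Or.inl (hα2 x (mem_filter.2 ⟨mem_insert_of_mem hx', h1⟩))
  · exact Or.inr (hβ2 x (mem_filter.2 ⟨mem_insert_of_mem hx', h1⟩))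

theorem le_of_comparable {F V : Type} [Field F] [AddCommGroup V] [Module F V]
    [FiniteDimensional F V] {W W' : Submodule F V} (h : W ≤ W' ∨ W' ≤ W)
    (h2 : finrank F W ≤ finrank F W') : W ≤ W' :=
  h.elim id fun h1 => (Submodule.eq_of_le_of_finrank_le h1 h2).ge

/-- links of flags -/
theorem ut_cone_link (N m r : ℕ) (h : (r + 2) * (m + 2) ≤ N) : ∃ ρc q0 : ℕ,
    ∀ (F : Type) [Field F] [Fintype F] (Rr : Finset ℕ), q0 ≤ Fintype.card F → Rr.card ≤ r →
      HasCone (CC (KU F N) (KT (KU F N) Rr) (Set.Ioo 0 N \ ↑Rr)) m ρc := by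
  classical
  obtain ⟨ρc, q0, h1⟩ := geom_cone N m 0
  refine ⟨ρc, q0, fun F _ _ Rr hq hR => ?_⟩
  obtain ⟨α, β, g1, g2, g3, g4, g5⟩ := exists_gap h (by omega) Rr hR
  have hα := finrank_Std F N (show α ≤ N by omega)
  have hβ := finrank_Std F N g2
  have hgood : ∀ W : Submodule F (Fin N → F), GoodSub (EE F N) (∅ : Finset Unit) (fun _ => 0)
      (fun _ => ⊥) W ↔ Disjoint W (EE F N (finrank F W)) := fun W => by simp [GoodSub]
  have h2 := h1 F (Fin N → F) (EE F N) Unit ∅ (fun _ => 0) (fun _ => ⊥) (Std F N α) (Std F N β) hq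
    (EE_anti F N) hEE le_rfl ((hgood _).2 (by rw [hα]; exact disjoint_Std_EE F N α))
    ((hgood _).2 (by rw [hβ]; exact disjoint_Std_EE F N β)) (Std_mono F N (by omega))
    (by omega) (by omega)
  let Y' : Set (Finset (Submodule F (Fin N → F))) := {σ |
    IsChain (· ≤ ·) (↑σ : Set (Submodule F (Fin N → F))) ∧ ∀ W ∈ σ,
      Disjoint W (EE F N (finrank F W)) ∧ finrank F W ∈ Set.Ioo 0 N \ ↑Rr ∧
        ∀ x ∈ Rr, W ≤ Std F N x ∨ Std F N x ≤ W}
  have hcmp : ∀ σ ∈ Y', ∀ W ∈ σ, (W ≤ Std F N α ∨ Std F N α ≤ W) ∧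
      (W ≤ Std F N β ∨ Std F N β ≤ W) := by
    intro σ hσ W hW
    constructor
    · rcases g3 with h3 | h3
      · right
        rw [Submodule.finrank_eq_zero.1 (hα.trans h3)]
        exact bot_le
      · exact (hσ.2 W hW).2.2 α h3
    · rcases g4 with h3 | h3
      · left
        rw [Submodule.eq_top_of_finrank_eq (S := Std F N β) (by rw [hβ, h3]; simp)]
        exact le_top
      · exact (hσ.2 W hW).2.2 β h3
  have hrk : ∀ σ ∈ FlagCx (EE F N) (∅ : Finset Unit) (fun _ => 0) (fun _ => ⊥) (Std F N α)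
      (Std F N β), ∀ W ∈ σ, α < finrank F W ∧ finrank F W < β := by
    intro σ hσ W hW
    have h3 := Submodule.finrank_lt_finrank_of_lt (hσ.2 W hW).1
    have h4 := Submodule.finrank_lt_finrank_of_lt (hσ.2 W hW).2.1
    omega
  have h3 : HasCone Y' m ρc := by
    refine hasCone_join (fun W : Submodule F (Fin N → F) => ¬ (α < finrank F W ∧ finrank F W < β)) ?_ ?_ ?_ h2
    · intro σ hσ W hW
      exact not_not.2 (hrk σ hσ W hW)
    · intro σ hσ
      refine ⟨hσ.1.mono (Finset.coe_subset.2 (filter_subset _ _)), fun W hW => ?_⟩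
      obtain ⟨h4, h5⟩ := mem_filter.1 hW
      rw [not_not] at h5
      obtain ⟨h6, h7⟩ := hcmp σ hσ W h4
      refine ⟨lt_of_le_of_ne (le_of_comparable h6.symm (by omega)) fun h => ?_,
        lt_of_le_of_ne (le_of_comparable h7 (by omega)) fun h => ?_, (hgood W).2 (hσ.2 W h4).1⟩
      · rw [← h] at h5; omega
      · rw [h] at h5; omega
    · intro σ hσ σ₁ hσ₁
      have h4 : ∀ W ∈ σ₁, ∀ W' ∈ σ, ¬ (α < finrank F W' ∧ finrank F W' < β) →
          W ≤ W' ∨ W' ≤ W := by
        intro W hW W' hW' h5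
        obtain ⟨h6, h7⟩ := hcmp σ hσ W' hW'
        by_cases h8 : finrank F W' ≤ α
        · exact Or.inr ((le_of_comparable h6 (by omega)).trans (hσ₁.2 W hW).1.le)
        · exact Or.inl ((hσ₁.2 W hW).2.1.le.trans (le_of_comparable h7.symm (by omega)))
      refine ⟨fun W hW W' hW' hne => ?_, fun W hW => ?_⟩
      · rcases mem_union.1 (Finset.mem_coe.1 hW) with h5 | h5 <;>
          rcases mem_union.1 (Finset.mem_coe.1 hW') with h6 | h6
        · exact hσ₁.1 h5 h6 hne
        · exact h4 W h5 W' (mem_filter.1 h6).1 (mem_filter.1 h6).2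
        · exact (h4 W' h6 W (mem_filter.1 h5).1 (mem_filter.1 h5).2).symm
        · exact hσ.1 (mem_filter.1 h5).1 (mem_filter.1 h6).1 hne
      · rcases mem_union.1 hW with h5 | h5
        · obtain ⟨h6, h7⟩ := hrk σ₁ hσ₁ W h5
          refine ⟨(hgood W).1 (hσ₁.2 W h5).2.2, ⟨⟨by omega, by omega⟩, fun h8 => ?_⟩,
            fun x hx => ?_⟩
          · have := g5 _ h8; omega
          · rcases g5 x hx with h8 | h8
            · exact Or.inr ((Std_mono F N h8).trans (hσ₁.2 W h5).1.le)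
            · exact Or.inl ((hσ₁.2 W h5).2.1.le.trans (Std_mono F N h8))
        · exact hσ.2 W (mem_filter.1 h5).1
  have h4 := hasCone_of_model (KT (KU F N) Rr) (Set.Ioo 0 N \ ↑Rr) (fun j hj => hj.1.2.le)
    (fun _ => True) Y' ?_ ?_ h3
  · convert h4 using 1
    ext σ; simp [Full]
  · intro u hu T hT _
    refine ⟨isChain_image_Wu u T, fun W hW => ?_⟩
    obtain ⟨j, hj, rfl⟩ := mem_image.1 hW
    rw [finrank_Wu u (hT hj).1.2.le]
    refine ⟨disjoint_Wu u j, hT hj, fun x hx => ?_⟩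
    rw [← Wu_eq_Std_iff.2 (mem_KT.1 hu x hx)]
    exact (le_total j x).imp (fun h => Wu_mono u h) (fun h => Wu_mono u h)
  · intro σ hσ
    obtain ⟨u, hu⟩ := exists_chamber (σ := σ ∪ (Rr.filter (· ≤ N)).image (Std F N)) (by
      intro W hW W' hW' hne
      rcases mem_union.1 (Finset.mem_coe.1 hW) with h5 | h5 <;>
        rcases mem_union.1 (Finset.mem_coe.1 hW') with h6 | h6
      · exact hσ.1 h5 h6 hne
      · obtain ⟨x, hx, rfl⟩ := mem_image.1 h6
        exact (hσ.2 W h5).2.2 x (mem_filter.1 hx).1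
      · obtain ⟨x, hx, rfl⟩ := mem_image.1 h5
        exact ((hσ.2 W' h6).2.2 x (mem_filter.1 hx).1).symm
      · obtain ⟨x, hx, rfl⟩ := mem_image.1 h5
        obtain ⟨x', hx', rfl⟩ := mem_image.1 h6
        exact (le_total x x').imp (fun h => Std_mono F N h) (fun h => Std_mono F N h)) (by
      intro W hW
      rcases mem_union.1 hW with h5 | h5
      · exact (hσ.2 W h5).1
      · obtain ⟨x, hx, rfl⟩ := mem_image.1 h5
        rw [finrank_Std F N (mem_filter.1 hx).2]
        exact disjoint_Std_EE F N x)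
    refine ⟨u, mem_KT.2 fun x hx => ?_, fun W hW => ⟨hu W (mem_union_left _ hW), (hσ.2 W hW).2.1,
      trivial⟩⟩
    by_cases hxN : x ≤ N
    · have h5 := hu _ (mem_union_right _ (mem_image_of_mem _ (mem_filter.2 ⟨hx, hxN⟩)))
      rw [finrank_Std F N hxN] at h5
      exact Wu_eq_Std_iff.1 h5.symm
    · intro a b _ ha
      have := a.2
      omega

end Vale.Agent.P067
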