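import Vale.Agent.P067.MorseL
import Vale.Agent.P067.GroupGen
import Vale.Agent.P067.AbsUnip
import Vale.Agent.P067.AbsCone
import Vale.Agent.P067.AbsGen

set_option linter.unusedSectionVars false

namespace Vale.Agent.P067

open Finset

section
variable {F : Type} {R : Type} [Field F] [Fintype F] [CommRing R] [Algebra F R] [Finite R]
  {t : R} {n : ℕ}

/-- the conclusion of `morse_rel` -/
def MorseHyp (F : Type) {R : Type} [Field F] [CommRing R] [Algebra F R] [Finite R] (t : R)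
    (n : ℕ) : Prop :=
  ∀ (S B : Finset (Fin n)) (m : ℕ), Disjoint S B →
    m + 1 ≤ S.card → ∀ lam : Ncol F t S B →ₗ[F] F, lam ≠ 0 →
    RelAcyc (CC (Kc F t) (Lv t S) Set.univ)
      {σ | ∃ A : Ncol F t S B, tr (eN t A.1) σ = σ ∧ lam A ≠ 0} m

theorem unip_col (hN : Nice F t) (hM : MorseHyp F t n) {S B : Finset (Fin n)} (hB : B ⊆ S) {m : ℕ}
    (hm : m + 1 ≤ (S \ B).card) :
    (∀ z ∈ chains (CC (Kc F t) (Lv t S ⊓ KT (Prow t) B) Set.univ) m, bd z = 0 →
      ∀ A ∈ Ncol F t (S \ B) B,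
      act (eN t A) z + z ∈ bdries (CC (Kc F t) (Lv t S ⊓ KT (Prow t) B) Set.univ) m) ∧
    (∀ z ∈ chains (CC (Kc F t) (Lv t S ⊓ KT (Prow t) B) Set.univ) m, bd z = 0 →
      ∃ z' ∈ chains (CC (Kc F t) (Lv t (S \ B)) Set.univ) m, bd z' = 0 ∧
        z + z' ∈ bdries (CC (Kc F t) (Lv t S ⊓ KT (Prow t) B) Set.univ) m) := by
  have hd : Disjoint (S \ B) B := sdiff_disjoint
  have hfin : Finite (Ncol F t (S \ B) B) := inferInstance
  obtain ⟨h1, h2⟩ := unip_trivial (F := F) (N := Ncol F t (S \ B) B) hN.odd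
    (fun A => eN t A.1) (fun A A' => eN_add F t hd A.2 A'.2) (Kc F t)
    (Lv t S ⊓ KT (Prow t) B) (Lv t (S \ B)) (Lv_sdiff_le S B) (fun A => eN_mem hB A.2)
    (fun q hq => by
      obtain ⟨A, hA, l, hl, h⟩ := col_decomp (F := F) hB q hq
      exact ⟨⟨A, hA⟩, l, hl, h⟩)
    (fun c A l hl l' hl' h => col_strict hd c A.2 hl hl' h)
    (fun c A a l hl h => col_smul hd c A.2 a hl h) (hM (S \ B) B m hd hm)
  exact ⟨fun z hz hb A hA => h1 z hz hb ⟨A, hA⟩, h2⟩

theorem col_trivial (hN : Nice F t) (hM : MorseHyp F t n) {S : Finset (Fin n)} {b : Fin n}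
    (hb : b ∈ S) {m : ℕ} (hm : m + 2 ≤ S.card) {A : Matrix (Fin n) (Fin n) R}
    (hA : A ∈ Ncol F t (S.erase b) {b}) :
    ∀ z ∈ chains (CC (Kc F t) (Lv t (S.erase b)) Set.univ) m, bd z = 0 →
      act (eN t A) z + z ∈ bdries (CC (Kc F t) (Lv t S) Set.univ) m := by
  intro z hz hbd
  rw [← sdiff_singleton_eq_erase] at hA hz
  have hm' : m + 1 ≤ (S \ {b}).card := by
    rw [sdiff_singleton_eq_erase, card_erase_of_mem hb]; omega
  have := (unip_col hN hM (singleton_subset_iff.2 hb) hm').1 z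
    (chains_mono (CC_mono _ (Lv_sdiff_le S {b}) subset_rfl) m hz) hbd A hA
  exact bdries_mono (CC_mono _ inf_le_left subset_rfl) m this

theorem row_trivial [NeZero n] (hN : Nice F t) (hM : MorseHyp F t n) {S : Finset (Fin n)}
    {b : Fin n} (hb : b ∈ S) {m : ℕ} (hm : m + 2 ≤ S.card) {A : Matrix (Fin n) (Fin n) R}
    (hA : A ∈ Ncol F t {b} (S.erase b)) :
    ∀ z ∈ chains (CC (Kc F t) (Lv t (S.erase b)) Set.univ) m, bd z = 0 →
      act (eN t A) z + z ∈ bdries (CC (Kc F t) (Lv t S) Set.univ) m := by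
  obtain ⟨θ, h1, h2, h3⟩ := exists_theta (F := F) (t := t) (n := n)
  obtain ⟨A', hA', hθ⟩ := h3 (S.erase b) {b} (by simp) A hA
  refine act_transport (Kc F t) θ (Equiv.neg (Fin n)) h1 (Lv t S) (Lv t (S.erase b))
    (Lv t (S.image Fin.rev)) (Lv t ((S.erase b).image Fin.rev)) (h2 S) (h2 _) _ ?_
  rw [hθ]
  rw [image_erase Fin.rev_injective] at hA' ⊢
  rw [image_singleton] at hA'
  refine col_trivial hN hM (mem_image_of_mem _ hb) ?_ hA'
  rwa [card_image_of_injective _ Fin.rev_injective]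

theorem vanish_aux [NeZero n] (hN : Nice F t) (hM : MorseHyp F t n) (m : ℕ) :
    ∀ S : Finset (Fin n), 2 * m + 2 ≤ S.card → Acyc (CC (Kc F t) (Lv t S) Set.univ) m := by
  induction m using Nat.strong_induction_on with
  | _ m ih =>
  intro S hS
  obtain ⟨b₀, hb₀⟩ : S.Nonempty := card_pos.1 (by omega)
  refine acyc_of_generation (Kc F t) (Prow t) (Lv t S) (S.erase b₀) m
    (by rw [card_erase_of_mem hb₀]; omega) (fun T h hh => row_join hN S hb₀ T h hh) ?_ ?_
  · intro B hB h2 hm z hz hbd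
    have hBS : B ⊆ S := hB.trans (erase_subset _ _)
    have hc : (S \ B).card = S.card - B.card := card_sdiff_of_subset hBS
    obtain ⟨z', hz', hbd', hh⟩ := (unip_col hN hM hBS (m := m + 1 - B.card) (by omega)).2 z hz hbd
    refine bdries_of_add hh (bdries_mono (CC_mono _ (Lv_sdiff_le S B) subset_rfl) _ ?_)
    exact ih (m + 1 - B.card) (by omega) (S \ B) (by omega) z' hz' hbd'
  · intro b hb z hz hbd
    have hbS : b ∈ S := mem_of_mem_erase hb
    have hc : (S \ {b}).card = S.card - 1 := by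
      rw [sdiff_singleton_eq_erase, card_erase_of_mem hbS]
    obtain ⟨z', hz', hbd', hh⟩ :=
      (unip_col hN hM (singleton_subset_iff.2 hbS) (m := m) (by omega)).2 z hz hbd
    refine bdries_of_add (bdries_mono (CC_mono _ inf_le_left subset_rfl) _ hh) ?_
    rw [sdiff_singleton_eq_erase] at hz'
    refine bound_of_normal (Kc F t) (Lv t S) (Lv t (S.erase b)) (Lv_mono t (erase_subset _ _))
      (odd_card_subgroup hN) (colrow F t S b) (colrow_subset S hbS) (Lv_le_closure hN S hbS)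
      (b + 1) (fun Γ h1 h2 h3 T hT => cone_hyp hN S hbS Γ h1 h2 h3 T hT) ?_ z' hz' hbd'
    rintro γ ⟨A, hA | hA, rfl⟩
    · exact col_trivial hN hM hbS (by omega) hA
    · exact row_trivial hN hM hbS (by omega) hA

end

/-- vanishing of the mod 2 homology in low degrees -/
theorem vanish (n : ℕ) (hn : 3 ≤ n) : ∃ q0 : ℕ,
    ∀ (F R : Type) [Field F] [Fintype F] [CommRing R] [Algebra F R] [Finite R] (t : R),
      Nice F t → q0 ≤ Fintype.card F → ∀ m, 2 * m + 2 ≤ n →
      Acyc (CC (Kc F t) (⊤ : Subgroup (GG t n)) Set.univ) m := by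
  obtain ⟨q0, h⟩ := morse_rel n hn
  refine ⟨q0, fun F R _ _ _ _ _ t hN hq m hm => ?_⟩
  have : NeZero n := ⟨by omega⟩
  rw [← Lv_univ]
  exact vanish_aux hN (h F R t hN hq) m univ (by simpa using hm)

end Vale.Agent.P067
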